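import Vale.Agent.P371G.Defs
import Vale.Agent.P371.Brouwer

/-!
# P371G, modules BROUWER and VI
-/

namespace P371G

open Matrix Set Filter Topology Metric

/-- **Module BROUWER.** -/
theorem brouwer_ball : BrouwerStatement := fun _ g hg hm =>
  P371.brouwer g zero_le_one hg hm

section VI
variable {E : Type*} [NormedAddCommGroup E] [InnerProductSpace ℝ E] [FiniteDimensional ℝ E]



/-- The Hartman-Stampacchia variational inequality in Euclidean spaces. -/
theorem vi_aux {S : Set E} (hS : IsCompact S) (hconv : Convex ℝ S) (hne : S.Nonempty)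
    (G : E → E) (hG : ContinuousOn G S) : ∃ a ∈ S, ∀ b ∈ S, 0 ≤ (inner ℝ (G a) (b - a)) := by
  -- the projection
  have hproj : ∀ x : E, ∃ y ∈ S, ∀ w ∈ S, (inner ℝ (x - y) (w - y)) ≤ 0 := fun x => by
    obtain ⟨y, hy, hy2⟩ := exists_norm_eq_iInf_of_complete_convex hne hS.isComplete hconv x
    exact ⟨y, hy, (norm_eq_iInf_iff_real_inner_le_zero hconv hy).mp hy2⟩
  choose P hP1 hP2 using hproj
  have hlip : ∀ x y, ‖P x - P y‖ ≤ ‖x - y‖ := fun x y => by
    have h1 := hP2 x (P y) (hP1 y)
    have h2 := hP2 y (P x) (hP1 x)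
    have h3 : (inner ℝ (P x - P y) (P x - P y)) ≤ (inner ℝ (x - y) (P x - P y)) := by
      have e : (inner ℝ (x - y) (P x - P y)) - (inner ℝ (P x - P y) (P x - P y)) =
          -(inner ℝ (x - P x) (P y - P x)) - (inner ℝ (y - P y) (P x - P y)) := by
        simp only [inner_sub_left, inner_sub_right]
        ring
      linarith
    have h4 := real_inner_le_norm (x - y) (P x - P y)
    rw [real_inner_self_eq_norm_sq] at h3
    rcases (norm_nonneg (P x - P y)).eq_or_lt with h5 | h5
    · rw [← h5]
      exact norm_nonneg _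
    · nlinarith
  have hPc : Continuous P := by
    have : LipschitzWith 1 P := LipschitzWith.of_dist_le_mul fun x y => by
      rw [dist_eq_norm, dist_eq_norm, NNReal.coe_one, one_mul]
      exact hlip x y
    exact this.continuous
  have hPid : ∀ x ∈ S, P x = x := fun x hx => by
    have h1 := hP2 x x hx
    rw [real_inner_self_eq_norm_sq] at h1
    have h2 : ‖x - P x‖ = 0 := by
      have := norm_nonneg (x - P x)
      nlinarith
    exact (sub_eq_zero.mp (norm_eq_zero.mp h2)).symm
  obtain ⟨R, hR⟩ := hS.isBounded.subset_closedBall 0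
  have hfc : Continuous fun x => P (P x - G (P x)) :=
    hPc.comp (hPc.sub (hG.comp_continuous hPc hP1))
  have hR0 : 0 ≤ R := by
    obtain ⟨s, hs⟩ := hne
    have := hR hs
    rw [mem_closedBall_zero_iff] at this
    exact (norm_nonneg s).trans this
  obtain ⟨x, -, hx⟩ := P371.brouwer (fun x => P (P x - G (P x))) hR0 hfc.continuousOn
    (fun x _ => hR (hP1 _))
  have hxS : x ∈ S := by rw [← hx]; exact hP1 _
  rw [hPid x hxS] at hx
  refine ⟨x, hxS, fun b hb => ?_⟩
  have h1 := hP2 (x - G x) b hb
  rw [hx] at h1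
  have e : x - G x - x = -G x := by abel
  rw [e, inner_neg_left] at h1
  linarith

end VI

section Transfer
variable {n : ℕ}

/-- coordinates -/
noncomputable def psi (A : CMat n) : EuclideanSpace ℝ (Fin n × Fin n × Bool) :=
  WithLp.toLp 2 fun k => if k.2.2 then (A k.1 k.2.1).re else (A k.1 k.2.1).im

/-- the matrix with given coordinates -/
noncomputable def phi (x : EuclideanSpace ℝ (Fin n × Fin n × Bool)) : CMat n :=
  Matrix.of fun i j => ⟨x (i, j, true), x (i, j, false)⟩

theorem phi_psi (A : CMat n) : phi (psi A) = A := by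
  ext i j
  simp [phi, psi]

theorem continuous_psi : Continuous (psi (n := n)) := by
  refine (PiLp.continuous_toLp 2 _).comp (continuous_pi fun k => ?_)
  by_cases h : k.2.2 = true
  · simp only [h, if_true]
    exact Complex.continuous_re.comp ((continuous_apply k.2.1).comp (continuous_apply k.1))
  · simp only [h]
    exact Complex.continuous_im.comp ((continuous_apply k.2.1).comp (continuous_apply k.1))

theorem continuous_phi : Continuous (phi (n := n)) := by
  refine continuous_pi fun i => continuous_pi fun j => ?_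
  have h1 : Continuous fun x : EuclideanSpace ℝ (Fin n × Fin n × Bool) =>
      (((x (i, j, true) : ℝ) : ℂ) + ((x (i, j, false) : ℝ) : ℂ) * Complex.I) := by
    fun_prop
  convert h1 using 2 with x
  simp only [phi, Matrix.of_apply]
  apply Complex.ext <;> simp

theorem psi_add_smul (a b : ℝ) (A B : CMat n) : psi (a • A + b • B) = a • psi A + b • psi B := by
  ext k
  by_cases h : k.2.2 = true <;> simp [psi, h]

theorem psi_sub (A B : CMat n) : psi (A - B) = psi A - psi B := by
  have := psi_add_smul (1 : ℝ) (-1 : ℝ) A B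
  simpa [sub_eq_add_neg] using this

theorem inner_psi {A B : CMat n} (hB : B.IsHermitian) :
    @inner ℝ _ _ (psi A) (psi B) = rtr (A * B) := by
  rw [PiLp.inner_apply, Fintype.sum_prod_type, rtr, Matrix.trace, Complex.re_sum]
  refine Finset.sum_congr rfl fun i _ => ?_
  rw [Fintype.sum_prod_type, Matrix.diag_apply, Matrix.mul_apply, Complex.re_sum]
  refine Finset.sum_congr rfl fun j _ => ?_
  rw [Fintype.sum_bool]
  have hji : B j i = star (B i j) := (hB.apply j i).symm
  rw [hji, Complex.mul_re]
  simp [psi]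
  ring

end Transfer

/-- **Module VI.** -/
theorem vi : VIStatement := by
  intro n S F hherm hcomp hconv hne hF hFh
  have hmem : ∀ x ∈ psi '' S, phi x ∈ S := by
    rintro _ ⟨A, hA, rfl⟩
    rw [phi_psi]
    exact hA
  obtain ⟨_, ⟨A, hA, rfl⟩, hv⟩ := vi_aux (S := psi '' S) (hcomp.image continuous_psi)
    (by
      rintro _ ⟨A, hA, rfl⟩ _ ⟨B, hB, rfl⟩ a b ha hb hab
      exact ⟨a • A + b • B, hconv hA hB ha hb hab, psi_add_smul a b A B⟩)
    (hne.image _) (fun x => psi (F (phi x)))
    (continuous_psi.comp_continuousOn (hF.comp continuous_phi.continuousOn hmem))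
  refine ⟨A, hA, fun B hB => ?_⟩
  have h1 := hv (psi B) ⟨B, hB, rfl⟩
  rw [phi_psi, ← psi_sub, inner_psi ((hherm B hB).sub (hherm A hA))] at h1
  exact h1

end P371G
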