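import Vale.Agent.P371G.CertB

/-!
# P371G, module CP2, part C: cells, Fubini, the certificate
-/

namespace P371G

open Matrix MeasureTheory Set Filter Topology
open scoped ComplexOrder

namespace CP2

variable {n : ℕ}

theorem contOn_iff {X : Type} [TopologicalSpace X] (f : X → CMat n) (s : Set X) :
    ContinuousOn f s ↔ ∀ i j, ContinuousOn (fun x => f x i j) s := by
  constructor
  · intro h i j
    exact (continuous_id.matrix_elem i j).comp_continuousOn h
  · intro h
    exact continuousOn_pi.2 fun i => continuousOn_pi.2 fun j => h i j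

theorem contOn_mul {X : Type} [TopologicalSpace X] {f g : X → CMat n} {s : Set X}
    (hf : ContinuousOn f s) (hg : ContinuousOn g s) : ContinuousOn (fun x => f x * g x) s :=
  (continuous_fst.matrix_mul continuous_snd).comp_continuousOn (hf.prodMk hg)

theorem rtr_smul (c : ℝ) (A : CMat n) : rtr ((c : ℂ) • A) = c * rtr A := by
  unfold rtr
  rw [Matrix.trace_smul, smul_eq_mul, Complex.re_ofReal_mul]

theorem rtr_neg (A : CMat n) : rtr (-A) = -rtr A := by
  unfold rtr
  rw [Matrix.trace_neg, Complex.neg_re]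

theorem continuous_rtr : Continuous fun A : CMat n => rtr A := by
  unfold rtr
  exact Complex.continuous_re.comp (Continuous.matrix_trace continuous_id)

theorem posDef1 (k : Fin n → ℝ) (hk : ∀ i, 0 ≤ k i) (e : ℝ) (he : 0 < e) (f : CMat n)
    (h1 : (Kd k - f).PosSemidef) (h2 : (Kd k + f).PosSemidef) :
    (Ke k e + f).PosDef ∧ (Ke k e - f).PosDef := by
  have h3 : (Ke k e - Kd k).PosDef := by
    have h4 : Ke k e - Kd k = Kd fun i => √(k i ^ 2 + e) - k i := by
      rw [Ke_eq, sub_eq_add_neg, neg_Kd, Kd_add]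
      rfl
    rw [h4]
    apply Kd_posDef
    intro i
    have := sqrt_gt (k i) e he
    rw [abs_of_nonneg (hk i)] at this
    linarith
  constructor
  · have h5 := h3.add_posSemidef h2
    have h6 : Ke k e - Kd k + (Kd k + f) = Ke k e + f := by abel
    rwa [h6] at h5
  · have h5 := h3.add_posSemidef h1
    have h6 : Ke k e - Kd k + (Kd k - f) = Ke k e - f := by abel
    rwa [h6] at h5

/-- the integrand -/
noncomputable def Psi (k : Fin n → ℝ) (q : ℝ) (W f : CMat n) (e : ℝ) : ℝ :=
  e ^ q * rtr (((e⁻¹ : ℂ) • (1 : CMat n) - Fe k f e) * (W - (Kd k * Kd k - f * f)))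

/-- a cell of a Riccati path -/
structure Cell (k : Fin n → ℝ) (W : CMat n) (f : ℝ → CMat n) (a b : ℝ) : Prop where
  hab : a ≤ b
  bd : ∀ x ∈ Icc a b, (f x).IsHermitian ∧ (Kd k - f x).PosSemidef ∧ (Kd k + f x).PosSemidef
  der : ∀ x ∈ Icc a b, ∀ α β, HasDerivWithinAt (fun y => f y α β)
    ((Kd k * Kd k - f x * f x - W) α β) (Icc a b) x

theorem Cell.cont {k : Fin n → ℝ} {W : CMat n} {f : ℝ → CMat n} {a b : ℝ}
    (h : Cell k W f a b) : ContinuousOn f (Icc a b) := by
  rw [contOn_iff]
  intro α β x hx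
  exact (h.der x hx α β).continuousWithinAt

theorem Cell.cont' {k : Fin n → ℝ} {W : CMat n} {f : ℝ → CMat n} {a b : ℝ}
    (h : Cell k W f a b) : ContinuousOn (fun x => Kd k * Kd k - f x * f x - W) (Icc a b) := by
  have h1 : ContinuousOn (fun x => f x * f x) (Icc a b) := contOn_mul h.cont h.cont
  exact (continuousOn_const.sub h1).sub continuousOn_const

theorem Cell.contFe (hD : FactDStatement) {k : Fin n → ℝ} (hk : ∀ i, 0 ≤ k i) {W : CMat n}
    {f : ℝ → CMat n} {a b : ℝ} (h : Cell k W f a b) :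
    ContinuousOn (fun z : ℝ × ℝ => Fe k (f z.1) z.2) (Icc a b ×ˢ Ioi (0 : ℝ)) := by
  have h1 : ContinuousOn (fun z : ℝ × ℝ => f z.1) (Icc a b ×ˢ Ioi (0 : ℝ)) :=
    h.cont.comp continuousOn_fst fun z hz => hz.1
  have h2 : ContinuousOn (fun z : ℝ × ℝ => Ke k z.2) (Icc a b ×ˢ Ioi (0 : ℝ)) := by
    apply Continuous.continuousOn
    unfold Ke
    refine Continuous.matrix_diagonal ?_
    rw [continuous_pi_iff]
    intro i
    refine Complex.continuous_ofReal.comp (Real.continuous_sqrt.comp ?_)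
    fun_prop
  have h3 : ContinuousOn (fun z : ℝ × ℝ => (Ke k z.2 + f z.1, Ke k z.2 - f z.1))
      (Icc a b ×ˢ Ioi (0 : ℝ)) := (h2.add h1).prodMk (h2.sub h1)
  have h4 := (hD n).comp h3 (by
    rintro ⟨x, e⟩ ⟨hx, he⟩
    exact posDef1 k hk e he (f x) (h.bd x hx).2.1 (h.bd x hx).2.2)
  exact h4

theorem Cell.contPsi (hD : FactDStatement) {k : Fin n → ℝ} (hk : ∀ i, 0 ≤ k i) {W : CMat n}
    {f : ℝ → CMat n} {a b : ℝ} (h : Cell k W f a b) (q : ℝ) :
    ContinuousOn (fun z : ℝ × ℝ => Psi k q W (f z.1) z.2) (Icc a b ×ˢ Ioi (0 : ℝ)) := by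
  have h0 := h.contFe hD hk
  have h1 : ContinuousOn (fun z : ℝ × ℝ => f z.1) (Icc a b ×ˢ Ioi (0 : ℝ)) :=
    h.cont.comp continuousOn_fst fun z hz => hz.1
  unfold Psi
  refine ContinuousOn.mul ?_ ?_
  · refine ContinuousOn.rpow_const continuousOn_snd ?_
    rintro ⟨x, e⟩ ⟨_, he⟩
    left
    have he' : (0 : ℝ) < e := he
    exact he'.ne'
  · refine continuous_rtr.comp_continuousOn ?_
    refine contOn_mul ?_ ?_
    · refine ContinuousOn.sub ?_ h0
      have h5 : ContinuousOn (fun z : ℝ × ℝ => ((z.2 : ℂ))⁻¹) (Icc a b ×ˢ Ioi (0 : ℝ)) := by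
        refine ContinuousOn.inv₀ ?_ ?_
        · exact (Complex.continuous_ofReal.comp continuous_snd).continuousOn
        · rintro ⟨x, e⟩ ⟨_, he⟩
          have he' : (0 : ℝ) < e := he
          exact_mod_cast he'.ne'
      have h6 : ContinuousOn (fun z : ℝ × ℝ => ((z.2 : ℂ))⁻¹ • (1 : CMat n))
          (Icc a b ×ˢ Ioi (0 : ℝ)) := by
        rw [contOn_iff]
        intro i j
        exact h5.mul continuousOn_const
      exact h6
    · refine ContinuousOn.sub continuousOn_const (ContinuousOn.sub continuousOn_const ?_)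
      exact contOn_mul h1 h1

/-- identity on one cell -/
theorem Cell.identity (hCP : PathPhiStatement) (hD : FactDStatement) {k : Fin n → ℝ}
    (hk : ∀ i, 0 ≤ k i) {W : CMat n} {f : ℝ → CMat n} {a b : ℝ} (h : Cell k W f a b) (q e : ℝ)
    (he : 0 < e) :
    ∫ x in a..b, Psi k q W (f x) e =
      e ^ q * (-(e⁻¹ * (rtr (f b) - rtr (f a))) + (Phi (Ke k e) (f b) - Phi (Ke k e) (f a))) := by
  have h1 := hCP n (Ke k e) f (fun x => Kd k * Kd k - f x * f x - W) a b h.hab
    (fun x hx => posDef1 k hk e he (f x) (h.bd x hx).2.1 (h.bd x hx).2.2) h.der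
    (by
      exact (contOn_iff _ _).1 h.cont')
  have hc1 : ContinuousOn (fun x => rtr (Kd k * Kd k - f x * f x - W)) (Icc a b) :=
    continuous_rtr.comp_continuousOn h.cont'
  have hc2 : ContinuousOn (fun x => rtr (Fe k (f x) e * (Kd k * Kd k - f x * f x - W)))
      (Icc a b) := by
    refine continuous_rtr.comp_continuousOn (contOn_mul ?_ h.cont')
    have h2 := (h.contFe hD hk).comp (f := fun x : ℝ => (x, e)) (s := Icc a b) (by fun_prop)
      (fun x hx => ⟨hx, he⟩)
    exact h2
  have h2 : ∫ x in a..b, rtr (Kd k * Kd k - f x * f x - W) = rtr (f b) - rtr (f a) := by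
    apply intervalIntegral.integral_eq_sub_of_hasDerivAt_of_le h.hab
    · exact continuous_rtr.comp_continuousOn h.cont
    · intro x hx
      have h3 : ∀ i, HasDerivAt (fun y => f y i i) ((Kd k * Kd k - f x * f x - W) i i) x :=
        fun i => (h.der x (Ioo_subset_Icc_self hx) i i).hasDerivAt (Icc_mem_nhds hx.1 hx.2)
      have h4 : HasDerivAt (fun y => ∑ i, f y i i) (∑ i, (Kd k * Kd k - f x * f x - W) i i) x :=
        HasDerivAt.fun_sum fun i _ => h3 i
      have h5 := (Complex.reCLM.hasFDerivAt.comp_hasDerivAt x h4)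
      exact h5
    · rw [intervalIntegrable_iff_integrableOn_Icc_of_le h.hab]
      exact hc1.integrableOn_Icc
  have h3 : ∀ x, Psi k q W (f x) e = e ^ q * (-(e⁻¹ * rtr (Kd k * Kd k - f x * f x - W)) +
      rtr (Fe k (f x) e * (Kd k * Kd k - f x * f x - W))) := by
    intro x
    unfold Psi
    congr 1
    have h4 : ((e⁻¹ : ℂ) • (1 : CMat n) - Fe k (f x) e) * (W - (Kd k * Kd k - f x * f x)) =
        -(((e⁻¹ : ℝ) : ℂ) • (Kd k * Kd k - f x * f x - W)) +
          Fe k (f x) e * (Kd k * Kd k - f x * f x - W) := by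
      have h5 : W - (Kd k * Kd k - f x * f x) = -(Kd k * Kd k - f x * f x - W) := by abel
      rw [h5, Matrix.mul_neg, Matrix.sub_mul, Matrix.smul_mul, Matrix.one_mul]
      push_cast
      abel
    rw [h4, KL.rtr_add, rtr_neg, rtr_smul]
  simp only [h3]
  rw [intervalIntegral.integral_const_mul, intervalIntegral.integral_add,
    intervalIntegral.integral_neg, intervalIntegral.integral_const_mul, h2]
  · congr 2
  · apply IntervalIntegrable.neg
    apply IntervalIntegrable.const_mul
    rw [intervalIntegrable_iff_integrableOn_Icc_of_le h.hab]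
    exact hc1.integrableOn_Icc
  · rw [intervalIntegrable_iff_integrableOn_Icc_of_le h.hab]
    exact hc2.integrableOn_Icc

/-- Fubini on one cell -/
theorem Cell.swap (hD : FactDStatement) {k : Fin n → ℝ} (hk : ∀ i, 0 ≤ k i) {W : CMat n}
    {f : ℝ → CMat n} {a b : ℝ} (h : Cell k W f a b) (q δ E : ℝ) (hδ : 0 < δ) (hE : δ ≤ E) :
    (∫ x in a..b, ∫ e in δ..E, Psi k q W (f x) e) =
        ∫ e in δ..E, ∫ x in a..b, Psi k q W (f x) e ∧
      IntervalIntegrable (fun x => ∫ e in δ..E, Psi k q W (f x) e) volume a b ∧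
      IntervalIntegrable (fun e => ∫ x in a..b, Psi k q W (f x) e) volume δ E := by
  have h1 : IntegrableOn (fun z : ℝ × ℝ => Psi k q W (f z.1) z.2) (Icc a b ×ˢ Icc δ E)
      (volume.prod volume) := by
    apply ContinuousOn.integrableOn_compact (isCompact_Icc.prod isCompact_Icc)
    refine (h.contPsi hD hk q).mono ?_
    rintro ⟨x, e⟩ ⟨hx, he⟩
    exact ⟨hx, lt_of_lt_of_le hδ he.1⟩
  have h2 : IntegrableOn (Function.uncurry fun x e => Psi k q W (f x) e)
      (uIoc a b ×ˢ uIoc δ E) (volume.prod volume) := by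
    rw [uIoc_of_le h.hab, uIoc_of_le hE]
    exact h1.mono_set (prod_mono Ioc_subset_Icc_self Ioc_subset_Icc_self)
  refine ⟨intervalIntegral_intervalIntegral_swap h2, ?_, ?_⟩
  · rw [intervalIntegrable_iff]
    have h3 := h2
    unfold IntegrableOn at h3
    rw [← Measure.prod_restrict] at h3
    have h4 := h3.integral_prod_left
    refine h4.congr ?_
    filter_upwards with x
    rw [intervalIntegral.integral_of_le hE, uIoc_of_le hE]
    rfl
  · rw [intervalIntegrable_iff]
    have h3 := h2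
    unfold IntegrableOn at h3
    rw [← Measure.prod_restrict] at h3
    have h4 := h3.integral_prod_right
    refine h4.congr ?_
    filter_upwards with x
    rw [intervalIntegral.integral_of_le h.hab, uIoc_of_le h.hab]
    rfl

/-- the certificate for a diagonal `K` -/
theorem certDiag (hCE : CertEStatement) (hCP : PathPhiStatement) (hD : FactDStatement) (q : ℝ)
    (hq0 : 0 < q) (hq1 : q < 1) (a h : ℝ) (J : ℕ) (hh : 0 < h) (k : Fin n → ℝ)
    (hk : ∀ i, 0 ≤ k i) (W : ℕ → CMat n) (f : ℝ → CMat n) (hW : ∀ j < J, (W j).PosSemidef)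
    (hf : IsRicc a h J (Kd k) W f) :
    Iq q * ∑ i, k i ^ (1 + 2 * q) ≤
      q ^ q / (1 + q) ^ (1 + q) * ∑ j ∈ Finset.range J, h * P371M.trPow (1 + q) (W j) := by
  obtain ⟨hbd, hfa, hfb, hder⟩ := hf
  have hq : q ∈ Ioo (0 : ℝ) 1 := ⟨hq0, hq1⟩
  -- grid points
  set xg : ℕ → ℝ := fun j => a + j * h with hxg
  have hcell : ∀ j < J, Cell k (W j) f (xg j) (xg (j + 1)) := by
    intro j hj
    have e1 : xg (j + 1) = a + (j + 1) * h := by simp only [hxg]; push_cast; ring
    have h1 : xg j ≤ xg (j + 1) := by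
      rw [e1]
      simp only [hxg]
      nlinarith
    refine ⟨h1, ?_, ?_⟩
    · intro x hx
      apply hbd
      constructor
      · have h2 : a ≤ xg j := by
          simp only [hxg]
          have : 0 ≤ (j : ℝ) * h := by positivity
          linarith
        exact h2.trans hx.1
      · refine hx.2.trans ?_
        simp only [hxg]
        have h3 : ((j + 1 : ℕ) : ℝ) ≤ J := by exact_mod_cast hj
        have h4 := mul_le_mul_of_nonneg_right h3 hh.le
        linarith
    · rw [e1]
      intro x hx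
      exact hder j hj x hx
  -- a bound for the traces
  set Λ : ℝ := ∑ j ∈ Finset.range J, rtr (W j) with hΛ
  have hrW : ∀ j < J, 0 ≤ rtr (W j) := by
    intro j hj
    unfold rtr
    exact (Complex.le_def.1 (hW j hj).trace_nonneg).1
  have hWΛ : ∀ j < J, rtr (W j) ≤ Λ := by
    intro j hj
    exact Finset.single_le_sum (f := fun j => rtr (W j))
      (fun i hi => hrW i (Finset.mem_range.1 hi)) (Finset.mem_range.2 hj)
  obtain ⟨C, hC⟩ := hCE n q hq0 hq1 k hk Λ
  -- the boundary function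
  set G : ℝ → ℝ := fun e => e ^ q * ∑ i, Gk (k i) e with hG
  have hGint : IntegrableOn G (Ioi 0) ∧
      ∫ e in Ioi (0 : ℝ), G e = Cq q * Iq q * ∑ i, k i ^ (1 + 2 * q) := by
    have h1 : G = fun e => ∑ i, e ^ q * Gk (k i) e := by
      funext e
      simp only [hG, Finset.mul_sum]
    rw [h1]
    constructor
    · exact integrable_finsetSum _ fun i _ => (scalar_fubini q hq (k i) (hk i)).1
    · rw [integral_finsetSum _ fun i _ => (scalar_fubini q hq (k i) (hk i)).1, Finset.mul_sum]
      exact Finset.sum_congr rfl fun i _ => (scalar_fubini q hq (k i) (hk i)).2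
  -- inequality for fixed `δ`, `E`
  have key : ∀ δ E : ℝ, 0 < δ → δ ≤ 1 → 1 ≤ E →
      q * ∫ e in δ..E, G e ≤ Cq q * (q / (1 + q)) ^ (1 + q) *
        (∑ j ∈ Finset.range J, h * P371M.trPow (1 + q) (W j)) +
        J * h * C * (E ^ (q - 1) + δ ^ q) := by
    intro δ E hδ hδ1 hE
    have hδE : δ ≤ E := hδ1.trans hE
    -- each cell
    have h1 : ∀ j < J, q * ∫ e in δ..E, ∫ x in (xg j)..(xg (j + 1)), Psi k q (W j) (f x) e ≤
        h * (Cq q * (q / (1 + q)) ^ (1 + q) * P371M.trPow (1 + q) (W j) +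
          C * (E ^ (q - 1) + δ ^ q)) := by
      intro j hj
      obtain ⟨h2, h3, _⟩ := (hcell j hj).swap hD hk q δ E hδ hδE
      rw [← h2, ← intervalIntegral.integral_const_mul]
      have h4 : ∫ x in (xg j)..(xg (j + 1)), q * ∫ e in δ..E, Psi k q (W j) (f x) e ≤
          ∫ _ in (xg j)..(xg (j + 1)), (Cq q * (q / (1 + q)) ^ (1 + q) *
            P371M.trPow (1 + q) (W j) + C * (E ^ (q - 1) + δ ^ q)) := by
        apply intervalIntegral.integral_mono_on (hcell j hj).hab (h3.const_mul q)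
          intervalIntegrable_const
        intro x hx
        exact hC (f x) (W j) ((hcell j hj).bd x hx).1 ((hcell j hj).bd x hx).2.1
          ((hcell j hj).bd x hx).2.2 (hW j hj) (hWΛ j hj) δ E hδ hδ1 hE
      refine h4.trans ?_
      rw [intervalIntegral.integral_const, smul_eq_mul]
      apply le_of_eq
      congr 1
      simp only [hxg]
      push_cast
      ring
    -- telescoping
    have h2 : ∀ e ∈ Ioi (0 : ℝ), ∑ j ∈ Finset.range J,
        ∫ x in (xg j)..(xg (j + 1)), Psi k q (W j) (f x) e = G e := by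
      intro e he
      have he' : (0 : ℝ) < e := he
      have h3 : ∀ j ∈ Finset.range J, ∫ x in (xg j)..(xg (j + 1)), Psi k q (W j) (f x) e =
          (e ^ q * (-(e⁻¹ * rtr (f (xg (j + 1)))) + Phi (Ke k e) (f (xg (j + 1))))) -
          (e ^ q * (-(e⁻¹ * rtr (f (xg j))) + Phi (Ke k e) (f (xg j)))) := by
        intro j hj
        rw [(hcell j (Finset.mem_range.1 hj)).identity hCP hD hk q e he']
        ring
      rw [Finset.sum_congr rfl h3, Finset.sum_range_sub
        (fun j => e ^ q * (-(e⁻¹ * rtr (f (xg j))) + Phi (Ke k e) (f (xg j))))]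
      have h4 : f (xg J) = -Kd k := hfb
      have h5 : f (xg 0) = Kd k := by
        have : xg 0 = a := by simp [hxg]
        rw [this, hfa]
      rw [h4, h5, rtr_neg]
      simp only [hG]
      rw [← boundary hCP k hk e he']
      ring
    have h3 : ∫ e in δ..E, G e = ∑ j ∈ Finset.range J,
        ∫ e in δ..E, ∫ x in (xg j)..(xg (j + 1)), Psi k q (W j) (f x) e := by
      rw [← intervalIntegral.integral_finsetSum]
      · refine intervalIntegral.integral_congr fun e he => ?_
        rw [uIcc_of_le hδE] at he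
        exact (h2 e (lt_of_lt_of_le hδ he.1)).symm
      · intro j hj
        exact ((hcell j (Finset.mem_range.1 hj)).swap hD hk q δ E hδ hδE).2.2
    rw [h3, Finset.mul_sum]
    calc ∑ j ∈ Finset.range J, q * ∫ e in δ..E, ∫ x in (xg j)..(xg (j + 1)),
          Psi k q (W j) (f x) e
        ≤ ∑ j ∈ Finset.range J, h * (Cq q * (q / (1 + q)) ^ (1 + q) *
            P371M.trPow (1 + q) (W j) + C * (E ^ (q - 1) + δ ^ q)) :=
          Finset.sum_le_sum fun j hj => h1 j (Finset.mem_range.1 hj)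
      _ = _ := by
          simp only [mul_add, Finset.sum_add_distrib, Finset.sum_const, Finset.card_range,
            nsmul_eq_mul, Finset.mul_sum]
          congr 1
          · refine Finset.sum_congr rfl fun j _ => ?_
            ring
          · ring
  -- the limit
  have hlim1 : Tendsto (fun N : ℕ => q * ∫ e in (1 / ((N : ℝ) + 1))..((N : ℝ) + 1), G e) atTop
      (𝓝 (q * (Cq q * Iq q * ∑ i, k i ^ (1 + 2 * q)))) := by
    rw [← hGint.2]
    refine Tendsto.const_mul q ?_
    have h1 : Tendsto (fun N : ℕ => ∫ e in Ioc (1 / ((N : ℝ) + 1)) ((N : ℝ) + 1), G e) atTop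
        (𝓝 (∫ e in Ioi (0 : ℝ), G e)) := by
      have h2 : AECover (volume.restrict (Ioi (0 : ℝ))) atTop
          (fun N : ℕ => Ioc (1 / ((N : ℝ) + 1)) ((N : ℝ) + 1)) :=
        (aecover_Ioi_of_Ioi tendsto_one_div_add_atTop_nhds_zero_nat).inter
          (aecover_Iic (tendsto_natCast_atTop_atTop.atTop_add tendsto_const_nhds))
      have h3 := h2.integral_tendsto_of_countably_generated hGint.1
      refine h3.congr fun N => ?_
      rw [Measure.restrict_restrict measurableSet_Ioc]
      congr 2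
      apply inter_eq_left.2
      intro x hx
      have : (0 : ℝ) < 1 / ((N : ℝ) + 1) := by positivity
      exact this.trans hx.1
    refine h1.congr fun N => ?_
    rw [intervalIntegral.integral_of_le]
    have h4 : (1 : ℝ) ≤ (N : ℝ) + 1 := by linarith [Nat.cast_nonneg (α := ℝ) N]
    exact (div_le_one (by linarith)).2 h4 |>.trans h4
  have hlim2 : Tendsto (fun N : ℕ => Cq q * (q / (1 + q)) ^ (1 + q) *
        (∑ j ∈ Finset.range J, h * P371M.trPow (1 + q) (W j)) +
        J * h * C * (((N : ℝ) + 1) ^ (q - 1) + (1 / ((N : ℝ) + 1)) ^ q)) atTop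
      (𝓝 (Cq q * (q / (1 + q)) ^ (1 + q) *
        (∑ j ∈ Finset.range J, h * P371M.trPow (1 + q) (W j)) + J * h * C * (0 + 0))) := by
    refine tendsto_const_nhds.add (Tendsto.const_mul _ (Tendsto.add ?_ ?_))
    · have h1 : Tendsto (fun x : ℝ => x ^ (-(1 - q))) atTop (𝓝 0) :=
        tendsto_rpow_neg_atTop (by linarith)
      have h2 : Tendsto (fun N : ℕ => (N : ℝ) + 1) atTop atTop :=
        tendsto_natCast_atTop_atTop.atTop_add tendsto_const_nhds
      have h3 := h1.comp h2
      have h4 : -(1 - q) = q - 1 := by ring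
      rw [h4] at h3
      exact h3
    · have h1 : Tendsto (fun N : ℕ => 1 / ((N : ℝ) + 1)) atTop (𝓝 0) :=
        tendsto_one_div_add_atTop_nhds_zero_nat
      have h2 := h1.rpow_const (p := q) (Or.inr hq0.le)
      rw [Real.zero_rpow hq0.ne'] at h2
      exact h2
  have hfin := le_of_tendsto_of_tendsto' hlim1 hlim2 fun N => by
    have h4 : (1 : ℝ) ≤ (N : ℝ) + 1 := by linarith [Nat.cast_nonneg (α := ℝ) N]
    exact key _ _ (by positivity) ((div_le_one (by linarith)).2 h4) h4
  rw [add_zero, mul_zero, add_zero] at hfin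
  have hCq : 0 < Cq q := Real.integral_rpowIntegrand₀₁_one_pos hq
  have h5 : Cq q * (q * (Iq q * ∑ i, k i ^ (1 + 2 * q))) ≤
      Cq q * ((q / (1 + q)) ^ (1 + q) *
        (∑ j ∈ Finset.range J, h * P371M.trPow (1 + q) (W j))) := by
    calc Cq q * (q * (Iq q * ∑ i, k i ^ (1 + 2 * q)))
        = q * (Cq q * Iq q * ∑ i, k i ^ (1 + 2 * q)) := by ring
      _ ≤ _ := hfin
      _ = _ := by ring
  have h6 := le_of_mul_le_mul_left h5 hCq
  have h7 : (q / (1 + q)) ^ (1 + q) = q * (q ^ q / (1 + q) ^ (1 + q)) := by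
    rw [Real.div_rpow hq0.le (by linarith), Real.rpow_add hq0, Real.rpow_one]
    ring
  rw [h7, mul_assoc] at h6
  exact le_of_mul_le_mul_left h6 hq0

/-- unitary invariance of `trPow` -/
theorem trPow_conj (p : ℝ) (hp : 1 ≤ p) (V W : CMat n) (hV : Vᴴ * V = 1) (hV' : V * Vᴴ = 1)
    (hW : W.PosSemidef) : P371M.trPow p (Vᴴ * W * V) = P371M.trPow p W := by
  apply le_antisymm
  · have h1 := contr n n p hp Vᴴ W hW (by
      rw [conjTranspose_conjTranspose, hV', sub_self]
      exact PosSemidef.zero)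
    rwa [conjTranspose_conjTranspose] at h1
  · have h1 := contr n n p hp V (Vᴴ * W * V) (hW.conjTranspose_mul_mul_same V) (by
      rw [hV, sub_self]
      exact PosSemidef.zero)
    have h2 : V * (Vᴴ * W * V) * Vᴴ = W := by
      calc V * (Vᴴ * W * V) * Vᴴ = (V * Vᴴ) * W * (V * Vᴴ) := by simp only [Matrix.mul_assoc]
        _ = W := by rw [hV', Matrix.one_mul, Matrix.mul_one]
    rwa [h2] at h1

theorem hasDeriv_conj (A B : CMat n) (f : ℝ → CMat n) (f' : CMat n) (s : Set ℝ) (x : ℝ)
    (h : ∀ α β, HasDerivWithinAt (fun y => f y α β) (f' α β) s x) (α β : Fin n) :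
    HasDerivWithinAt (fun y => (A * f y * B) α β) ((A * f' * B) α β) s x := by
  have h1 : ∀ X : CMat n, (A * X * B) α β = ∑ j, (∑ i, A α i * X i j) * B j β := by
    intro X
    rw [Matrix.mul_apply]
    refine Finset.sum_congr rfl fun j _ => ?_
    rw [Matrix.mul_apply]
  simp only [h1]
  refine HasDerivWithinAt.fun_sum fun j _ => ?_
  refine HasDerivWithinAt.mul_const ?_ _
  refine HasDerivWithinAt.fun_sum fun i _ => ?_
  exact (h i j).const_mul _

end CP2

/-- **Module CP2** -/
theorem cert (hCE : CertEStatement) (hCP : PathPhiStatement) (hD : FactDStatement) :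
    CertStatement := by
  intro n q hq0 hq1 a h J hh K W f hK hW hf
  set V := KL.U hK.1 with hVdef
  set k := hK.1.eigenvalues with hk
  have hV : Vᴴ * V = 1 := KL.UU' hK.1
  have hV' : V * Vᴴ = 1 := KL.UU hK.1
  have hK' : K = V * Kd k * Vᴴ := KL.spec hK.1
  have hk0 : ∀ i, 0 ≤ k i := KL.eig_nonneg hK
  have conj : ∀ X Y : CMat n, (Vᴴ * X * V) * (Vᴴ * Y * V) = Vᴴ * (X * Y) * V := by
    intro X Y
    calc (Vᴴ * X * V) * (Vᴴ * Y * V) = Vᴴ * X * (V * Vᴴ) * Y * V := by
          simp only [Matrix.mul_assoc]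
      _ = _ := by rw [hV', Matrix.mul_one]; simp only [Matrix.mul_assoc]
  have hKd : Vᴴ * K * V = Kd k := by
    calc Vᴴ * K * V = Vᴴ * (V * Kd k * Vᴴ) * V := by rw [← hK']
      _ = (Vᴴ * V) * Kd k * (Vᴴ * V) := by simp only [Matrix.mul_assoc]
      _ = Kd k := by rw [hV, Matrix.one_mul, Matrix.mul_one]
  have hsub : ∀ X Y : CMat n, Vᴴ * (X - Y) * V = Vᴴ * X * V - Vᴴ * Y * V := by
    intro X Y
    rw [Matrix.mul_sub, Matrix.sub_mul]
  have hadd : ∀ X Y : CMat n, Vᴴ * (X + Y) * V = Vᴴ * X * V + Vᴴ * Y * V := by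
    intro X Y
    rw [Matrix.mul_add, Matrix.add_mul]
  obtain ⟨hbd, hfa, hfb, hder⟩ := hf
  have hmain := CP2.certDiag hCE hCP hD q hq0 hq1 a h J hh k hk0 (fun j => Vᴴ * W j * V)
    (fun x => Vᴴ * f x * V) (fun j hj => (hW j hj).conjTranspose_mul_mul_same V) (by
      refine ⟨?_, ?_, ?_, ?_⟩
      · intro x hx
        obtain ⟨h1, h2, h3⟩ := hbd x hx
        refine ⟨?_, ?_, ?_⟩
        · exact isHermitian_conjTranspose_mul_mul V h1
        · rw [← hKd, ← hsub]
          exact h2.conjTranspose_mul_mul_same V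
        · rw [← hKd, ← hadd]
          exact h3.conjTranspose_mul_mul_same V
      · simp only
        rw [hfa, hKd]
      · simp only
        rw [hfb, Matrix.mul_neg, Matrix.neg_mul, hKd]
      · intro j hj x hx α β
        have h1 := CP2.hasDeriv_conj Vᴴ V f _ _ x (hder j hj x hx) α β
        have h2 : Kd k * Kd k - (Vᴴ * f x * V) * (Vᴴ * f x * V) - Vᴴ * W j * V =
            Vᴴ * (K * K - f x * f x - W j) * V := by
          rw [conj, ← hKd, conj, hsub, hsub]
        simp only
        rw [h2]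
        exact h1)
  have h1 : P371M.trPow (1 + 2 * q) K = ∑ i, k i ^ (1 + 2 * q) := KL.trPow_eq hK.1 _
  rw [h1]
  refine hmain.trans (le_of_eq ?_)
  congr 1
  refine Finset.sum_congr rfl fun j hj => ?_
  rw [CP2.trPow_conj (1 + q) (by linarith) V (W j) hV hV' (hW j (Finset.mem_range.1 hj))]

end P371G
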