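import Vale.Agent.P371G.CertE2

/-! # P371G : module CE, the main theorem -/

namespace P371G.CEx

open Matrix MeasureTheory Set Filter Topology
open scoped ComplexOrder

section final

variable {n : ℕ} {k : Fin n → ℝ} {f W : CMat n}

lemma continuous_rtr : Continuous (rtr : CMat n → ℝ) :=
  Complex.continuous_re.comp (Continuous.matrix_trace continuous_id)

lemma continuous_Ke (k : Fin n → ℝ) : Continuous fun e => Ke k e := by
  unfold Ke
  refine Continuous.matrix_diagonal ?_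
  refine continuous_pi fun i => ?_
  exact Complex.continuous_ofReal.comp (Real.continuous_sqrt.comp (continuous_const.add continuous_id))

lemma continuousOn_Fe (hD : FactDStatement) (hk : ∀ i, 0 ≤ k i)
    (h1 : (Kd k - f).PosSemidef) (h2 : (Kd k + f).PosSemidef) :
    ContinuousOn (fun e => Fe k f e) (Ioi 0) := by
  have h3 : ContinuousOn (fun e : ℝ => ((Ke k e + f, Ke k e - f) : CMat n × CMat n)) (Ioi 0) :=
    (((continuous_Ke k).add continuous_const).prodMk
      ((continuous_Ke k).sub continuous_const)).continuousOn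
  have h4 : MapsTo (fun e : ℝ => ((Ke k e + f, Ke k e - f) : CMat n × CMat n)) (Ioi 0)
      {x : CMat n × CMat n | x.1.PosDef ∧ x.2.PosDef} := by
    intro e he
    show (Ke k e + f).PosDef ∧ (Ke k e - f).PosDef
    exact ⟨P_posDef hk he h2, Q_posDef hk he h1⟩
  have h5 := ContinuousOn.comp (hD n) h3 h4
  exact h5

lemma continuousOn_XX (hD : FactDStatement) (hk : ∀ i, 0 ≤ k i)
    (h1 : (Kd k - f).PosSemidef) (h2 : (Kd k + f).PosSemidef) :
    ContinuousOn (fun e => XX k f W e) (Ioi 0) := by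
  have h3 : ContinuousOn (fun e : ℝ => (e⁻¹ : ℂ)) (Ioi 0) := by
    refine ContinuousOn.inv₀ Complex.continuous_ofReal.continuousOn fun e he => ?_
    exact_mod_cast (ne_of_gt he)
  unfold XX
  have h4 : ContinuousOn (fun e : ℝ => ((e⁻¹ : ℂ) • (1 : CMat n) - Fe k f e)) (Ioi 0) :=
    (h3.smul continuousOn_const).sub (continuousOn_Fe hD hk h1 h2)
  have h5 : Continuous fun M : CMat n => rtr (M * (W - (Kd k * Kd k - f * f))) :=
    continuous_rtr.comp (continuous_id.matrix_mul continuous_const)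
  exact h5.comp_continuousOn h4

end final

theorem certE (hA : FactAStatement) (hB : FactBStatement) (hC : FactCStatement)
    (hD : FactDStatement) : CertEStatement := by
  intro n q hq0 hq1 k hk Λ
  obtain ⟨c, hc⟩ : ∃ c : ℝ, c = 1 / (2 * √(∑ i, k i ^ 2 + 1)) := ⟨_, rfl⟩
  obtain ⟨C1, hC1⟩ : ∃ C1 : ℝ, C1 = (∑ i, k i ^ 2) ^ 2 + Λ ^ 2 := ⟨_, rfl⟩
  obtain ⟨C2, hC2⟩ : ∃ C2 : ℝ, C2 = ∑ i, k i ^ 2 + Λ + 2 * n * (1 + |Real.log c|) := ⟨_, rfl⟩
  refine ⟨C1 + |C2|, ?_⟩
  intro f W hf h1 h2 hW hΛ δ E hδ hδ1 hE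
  obtain ⟨r, hr⟩ : ∃ r : ℝ, r = q / (1 + q) := ⟨_, rfl⟩
  have hr0 : 0 ≤ r := by rw [hr]; positivity
  have hr1 : r ≤ 1 := by rw [hr, div_le_one (by positivity)]; linarith
  obtain ⟨w, hw⟩ : ∃ w : Fin n → ℝ, w = hW.1.eigenvalues := ⟨_, rfl⟩
  have hw0 : ∀ i, 0 ≤ w i := by rw [hw]; exact hW.eigenvalues_nonneg
  have htrW : rtr W = ∑ i, w i := by rw [hw]; exact rtr_eig hW.1
  obtain ⟨T0, hT0⟩ : ∃ T0 : ℝ, T0 = r * rtr W - rtr (Kd k * Kd k - f * f) := ⟨_, rfl⟩
  have hδE : δ ≤ E := le_trans hδ1 hE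
  have hsub : Icc δ E ⊆ Ioi 0 := fun x hx => lt_of_lt_of_le hδ hx.1
  have cP : ContinuousOn (fun e : ℝ => e ^ q) (Icc δ E) :=
    (Real.continuous_rpow_const hq0.le).continuousOn
  have cX : ContinuousOn (fun e => q * (e ^ q * XX k f W e)) (Icc δ E) :=
    continuousOn_const.mul (cP.mul ((continuousOn_XX hD hk h1 h2).mono hsub))
  have cT : ∀ i, ContinuousOn (fun e => e ^ q * (r * w i * (e⁻¹ - (r * w i + e)⁻¹))) (Icc δ E) := by
    intro i
    refine cP.mul (continuousOn_const.mul ((continuousOn_id.inv₀ ?_).sub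
      ((continuousOn_const.add continuousOn_id).inv₀ ?_)))
    · intro x hx; exact (hsub hx).ne'
    · intro x hx
      have hx0 : 0 < x := hsub hx
      have h9 := mul_nonneg hr0 (hw0 i)
      exact (add_pos_of_nonneg_of_pos h9 hx0).ne'
  have cS : ContinuousOn (fun e => e ^ q * ∑ i, r * w i * (e⁻¹ - (r * w i + e)⁻¹)) (Icc δ E) := by
    simp only [Finset.mul_sum]
    exact continuousOn_finsetSum _ fun i _ => cT i
  have hderiv : ∀ x : ℝ, 0 < x → HasDerivAt (gg k f w T0 r q)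
      (((mm k f x - ll w r x) + x * (rtr (Fe k f x) - ∑ i, (r * w i + x)⁻¹)) * x ^ q +
        (T0 + x * (mm k f x - ll w r x)) * (q * x ^ (q - 1))) x := fun x hx =>
    hasDerivAt_gg hC hk hw0 h1 h2 hr0 hx
  have main := intervalIntegral.integral_le_sub_of_hasDeriv_right_of_le hδE
    (g := gg k f w T0 r q)
    (φ := fun e => q * (e ^ q * XX k f W e) - e ^ q * ∑ i, r * w i * (e⁻¹ - (r * w i + e)⁻¹))
    (fun x hx => (hderiv x (hsub hx)).continuousAt.continuousWithinAt)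
    (fun x hx => (hderiv x (hsub (Ioo_subset_Icc_self hx))).hasDerivWithinAt)
    ((cX.sub cS).integrableOn_Icc)
    (fun x hx => by
      have hx0 : 0 < x := hsub (Ioo_subset_Icc_self hx)
      rw [hw]
      exact point_le hA hB hk h1 h2 hW hq0 hx0 hr hT0)
  have iX : IntervalIntegrable (fun e => q * (e ^ q * XX k f W e)) volume δ E :=
    ContinuousOn.intervalIntegrable (by rwa [uIcc_of_le hδE])
  have iS : IntervalIntegrable (fun e => e ^ q * ∑ i, r * w i * (e⁻¹ - (r * w i + e)⁻¹))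
      volume δ E := ContinuousOn.intervalIntegrable (by rwa [uIcc_of_le hδE])
  rw [intervalIntegral.integral_sub iX iS, intervalIntegral.integral_const_mul] at main
  have hS : ∫ e in δ..E, e ^ q * ∑ i, r * w i * (e⁻¹ - (r * w i + e)⁻¹) ≤
      Cq q * r ^ (1 + q) * P371M.trPow (1 + q) W := by
    simp only [Finset.mul_sum]
    rw [intervalIntegral.integral_finsetSum fun i _ =>
      ContinuousOn.intervalIntegrable (by rw [uIcc_of_le hδE]; exact cT i)]
    have e1 : Cq q * r ^ (1 + q) * P371M.trPow (1 + q) W =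
        ∑ i, Cq q * (r * w i) ^ (1 + q) := by
      rw [P371M.trPow, dif_pos hW.1, Finset.mul_sum, ← hw]
      refine Finset.sum_congr rfl fun i _ => ?_
      rw [Real.mul_rpow hr0 (hw0 i)]
      ring
    rw [e1]
    exact Finset.sum_le_sum fun i _ =>
      int_bound hq0 hq1 (mul_nonneg hr0 (hw0 i)) hδ hδE
  have hE0 : 0 < E := by linarith
  have hΛ' : ∑ i, w i ≤ Λ := by rw [← htrW]; exact hΛ
  have up := upper_bd hk hf h1 h2 hw0 hr0 hr1 hΛ' hE0
  have lo := lower_bd hk hf h1 h2 hw0 hr0 hr1 hΛ' hδ hδ1 hc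
  rw [← htrW, ← hT0, ← hC1] at up
  rw [← htrW, ← hT0, ← hC2] at lo
  have gE : gg k f w T0 r q E ≤ C1 * E ^ (q - 1) := by
    unfold gg
    calc _ ≤ C1 / E * E ^ q := mul_le_mul_of_nonneg_right up (Real.rpow_nonneg hE0.le q)
      _ = C1 * E ^ (q - 1) := by rw [Real.rpow_sub_one hE0.ne']; ring
  have gδ : -(|C2| * δ ^ q) ≤ gg k f w T0 r q δ := by
    unfold gg
    have h3 : 0 ≤ δ ^ q := Real.rpow_nonneg hδ.le q
    have h4 := mul_le_mul_of_nonneg_right lo h3
    have h5 := mul_le_mul_of_nonneg_right (le_abs_self C2) h3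
    linarith
  have hXX : ∫ e in δ..E, e ^ q * rtr (((e⁻¹ : ℂ) • (1 : CMat n) - Fe k f e) *
      (W - (Kd k * Kd k - f * f))) = ∫ e in δ..E, e ^ q * XX k f W e := rfl
  rw [hXX, ← hr]
  have p1 : 0 ≤ E ^ (q - 1) := Real.rpow_nonneg hE0.le _
  have p2 : 0 ≤ δ ^ q := Real.rpow_nonneg hδ.le _
  have p3 : 0 ≤ C1 := by rw [hC1]; positivity
  have p4 : 0 ≤ |C2| := abs_nonneg _
  have : (C1 + |C2|) * (E ^ (q - 1) + δ ^ q) =
      C1 * E ^ (q - 1) + |C2| * δ ^ q + (C1 * δ ^ q + |C2| * E ^ (q - 1)) := by ring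
  rw [this]
  have p5 : 0 ≤ C1 * δ ^ q + |C2| * E ^ (q - 1) := by positivity
  linarith


end P371G.CEx

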