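import Vale.Agent.P371G.Basic

/-!
# Module FA: facts A, C, D on `Fmat`
-/

namespace P371G.FAx

open Matrix MeasureTheory Set Filter Topology
open scoped ComplexOrder Matrix.Norms.L2Operator

variable {n : ℕ}

theorem norm_rxr_le {P : CMat n} (X : CMat n) {c s : ℝ}
    (hP : (P - (c : ℂ) • (1 : CMat n)).PosSemidef) (hc : 0 < c) (hs : 0 ≤ s) :
    ‖res P s * X * res P s‖ ≤ ((c + s)⁻¹) ^ 2 * ‖X‖ := by
  have h1 := norm_res_le hP (by linarith : 0 < c + s)
  calc ‖res P s * X * res P s‖ ≤ ‖res P s * X‖ * ‖res P s‖ := l2_opNorm_mul _ _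
    _ ≤ (‖res P s‖ * ‖X‖) * ‖res P s‖ := by gcongr; exact l2_opNorm_mul _ _
    _ ≤ ((c + s)⁻¹ * ‖X‖) * (c + s)⁻¹ := by gcongr
    _ = _ := by ring

theorem continuousOn_res {P : CMat n} (hP : P.PosDef) :
    ContinuousOn (fun s : ℝ => res P s) (Ici 0) := by
  intro s hs
  have h1 : IsUnit (P + (s : ℂ) • (1 : CMat n)) := (posDef_add_smul hP hs).isUnit
  have h2 := continuousAt_inv h1
  have h3 : ContinuousAt (fun s : ℝ => P + (s : ℂ) • (1 : CMat n)) s := by fun_prop
  exact (ContinuousAt.comp (f := fun s : ℝ => P + (s : ℂ) • (1 : CMat n)) h2 h3).continuousWithinAt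

theorem continuousOn_rxr {P : CMat n} (hP : P.PosDef) (X : CMat n) :
    ContinuousOn (fun s : ℝ => res P s * X * res P s) (Ici 0) :=
  ((continuousOn_res hP).mul continuousOn_const).mul (continuousOn_res hP)

theorem continuous_entry (i j : Fin n) : Continuous (fun A : CMat n => A i j) := by
  fun_prop

theorem integrable_entry {P : CMat n} (hP : P.PosDef) (X : CMat n) (i j : Fin n) :
    IntegrableOn (fun s : ℝ => (res P s * X * res P s) i j) (Ioi 0) := by
  obtain ⟨c, hc, hPc⟩ := exists_lower hP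
  refine Integrable.mono' ((integrable_sq hc).mul_const ‖X‖) ?_ ?_
  · have h1 : ContinuousOn (fun s : ℝ => (res P s * X * res P s) i j) (Ioi 0) :=
      (continuous_entry i j).comp_continuousOn ((continuousOn_rxr hP X).mono Ioi_subset_Ici_self)
    exact h1.aestronglyMeasurable measurableSet_Ioi
  · refine (ae_restrict_iff' measurableSet_Ioi).mpr (Eventually.of_forall fun s hs => ?_)
    exact (norm_entry_le _ i j).trans (norm_rxr_le X hPc hc (le_of_lt hs))

theorem rtr_mul_eq (A Z : CMat n) : rtr (A * Z) = (∑ i, ∑ j, A i j * Z j i).re := by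
  unfold rtr trace
  simp [Matrix.mul_apply]

theorem integrable_rtr {G : ℝ → CMat n} (hG : ∀ i j, IntegrableOn (fun s => G s i j) (Ioi 0))
    (Z : CMat n) : IntegrableOn (fun s => rtr (G s * Z)) (Ioi 0) := by
  simp only [rtr_mul_eq]
  have h1 : Integrable (fun s => ∑ i, ∑ j, G s i j * Z j i) (volume.restrict (Ioi (0 : ℝ))) := by
    apply integrable_finsetSum
    intro i _
    apply integrable_finsetSum
    intro j _
    exact (hG i j).mul_const _
  exact h1.re

theorem rtr_integral {G : ℝ → CMat n} (hG : ∀ i j, IntegrableOn (fun s => G s i j) (Ioi 0))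
    (Z : CMat n) : rtr ((Matrix.of fun i j => ∫ s in Ioi (0 : ℝ), G s i j) * Z) =
      ∫ s in Ioi (0 : ℝ), rtr (G s * Z) := by
  simp only [rtr_mul_eq]
  have h1 : Integrable (fun s => ∑ i, ∑ j, G s i j * Z j i) (volume.restrict (Ioi (0 : ℝ))) := by
    apply integrable_finsetSum
    intro i _
    apply integrable_finsetSum
    intro j _
    exact (hG i j).mul_const _
  have h2 := integral_re h1
  have h3 : ∫ s in Ioi (0 : ℝ), (∑ i, ∑ j, G s i j * Z j i) =
      ∑ i, ∑ j, (∫ s in Ioi (0 : ℝ), G s i j) * Z j i := by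
    rw [integral_finsetSum]
    · apply Finset.sum_congr rfl
      intro i _
      rw [integral_finsetSum]
      · apply Finset.sum_congr rfl
        intro j _
        exact integral_mul_const _ _
      · intro j _
        exact (hG i j).mul_const _
    · intro i _
      apply integrable_finsetSum
      intro j _
      exact (hG i j).mul_const _
  have h4 : (∑ i, ∑ j, (Matrix.of fun i j => ∫ s in Ioi (0 : ℝ), G s i j) i j * Z j i) =
      ∑ i, ∑ j, (∫ s in Ioi (0 : ℝ), G s i j) * Z j i := rfl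
  rw [h4, ← h3]
  exact h2.symm

theorem rtr_mul_comm (A B : CMat n) : rtr (A * B) = rtr (B * A) := by
  unfold rtr
  rw [trace_mul_comm]

theorem rtr_add (A B : CMat n) : rtr (A + B) = rtr A + rtr B := by
  unfold rtr
  simp

theorem rtr_sub (A B : CMat n) : rtr (A - B) = rtr A - rtr B := by
  unfold rtr
  simp

theorem rtr_smul (c : ℝ) (A : CMat n) : rtr ((c : ℂ) • A) = c * rtr A := by
  unfold rtr
  simp

theorem rtr_spec {U : CMat n} (X : CMat n) (v : Fin n → ℝ) :
    rtr (X * (U * diagonal (fun i => ((v i : ℝ) : ℂ)) * Uᴴ)) =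
      ∑ i, ((Uᴴ * X * U) i i).re * v i := by
  have h1 : trace (X * (U * diagonal (fun i => ((v i : ℝ) : ℂ)) * Uᴴ)) =
      trace ((Uᴴ * X * U) * diagonal (fun i => ((v i : ℝ) : ℂ))) := by
    calc trace (X * (U * diagonal (fun i => ((v i : ℝ) : ℂ)) * Uᴴ))
        = trace ((X * U * diagonal (fun i => ((v i : ℝ) : ℂ))) * Uᴴ) := by
          simp only [Matrix.mul_assoc]
      _ = trace (Uᴴ * (X * U * diagonal (fun i => ((v i : ℝ) : ℂ)))) := trace_mul_comm _ _
      _ = _ := by simp only [Matrix.mul_assoc]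
  unfold rtr
  rw [h1]
  unfold trace
  simp only [diag_apply, mul_diagonal, Complex.re_sum, Complex.re_mul_ofReal]

/-- integral of `tr X (P+s)⁻²` -/
theorem integral_res_sq {P : CMat n} (hP : P.PosDef) (X : CMat n) :
    IntegrableOn (fun s => rtr (X * (res P s * res P s))) (Ioi 0) ∧
    ∫ s in Ioi (0 : ℝ), rtr (X * (res P s * res P s)) = rtr (X * P⁻¹) := by
  obtain ⟨U, hU1, hU2, hU3⟩ := exists_spec hP.1
  set d := hP.1.eigenvalues with hd
  have hdpos : ∀ i, 0 < d i := hP.eigenvalues_pos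
  have hres : ∀ s : ℝ, 0 ≤ s → res P s = U * diagonal (fun i => (((d i + s)⁻¹ : ℝ) : ℂ)) * Uᴴ := by
    intro s hs
    unfold res
    conv_lhs => rw [hU3]
    exact inv_add_spec hU1 hU2 s (fun i => by have := hdpos i; linarith)
  have hres2 : ∀ s : ℝ, 0 ≤ s → res P s * res P s =
      U * diagonal (fun i => ((((d i + s)⁻¹) ^ 2 : ℝ) : ℂ)) * Uᴴ := by
    intro s hs
    rw [hres s hs]
    calc U * diagonal (fun i => (((d i + s)⁻¹ : ℝ) : ℂ)) * Uᴴ *
          (U * diagonal (fun i => (((d i + s)⁻¹ : ℝ) : ℂ)) * Uᴴ)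
        = U * (diagonal (fun i => (((d i + s)⁻¹ : ℝ) : ℂ)) * (Uᴴ * U) *
            diagonal (fun i => (((d i + s)⁻¹ : ℝ) : ℂ))) * Uᴴ := by
          simp only [Matrix.mul_assoc]
      _ = _ := by
          rw [hU1, Matrix.mul_one, diagonal_mul_diagonal]
          congr 3
          funext i
          push_cast
          ring
  have hinv : P⁻¹ = U * diagonal (fun i => (((d i)⁻¹ : ℝ) : ℂ)) * Uᴴ := by
    have h1 := hres 0 le_rfl
    unfold res at h1
    simpa using h1
  have hf : EqOn (fun s => rtr (X * (res P s * res P s)))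
      (fun s => ∑ i, ((Uᴴ * X * U) i i).re * ((d i + s)⁻¹) ^ 2) (Ioi 0) := by
    intro s hs
    simp only
    rw [hres2 s (le_of_lt hs), rtr_spec]
  have hint : IntegrableOn (fun s => ∑ i, ((Uᴴ * X * U) i i).re * ((d i + s)⁻¹) ^ 2) (Ioi 0) := by
    apply integrable_finsetSum
    intro i _
    exact (integrable_sq (hdpos i)).const_mul _
  refine ⟨hint.congr_fun hf.symm measurableSet_Ioi, ?_⟩
  rw [setIntegral_congr_fun measurableSet_Ioi hf, integral_finsetSum]
  · rw [hinv, rtr_spec]
    apply Finset.sum_congr rfl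
    intro i _
    rw [integral_const_mul, integral_sq (hdpos i)]
  · intro i _
    exact (integrable_sq (hdpos i)).const_mul _

theorem exists_factor {A : CMat n} (hA : A.PosSemidef) : ∃ C : CMat n, A = Cᴴ * C := by
  obtain ⟨U, hU1, hU2, hU3⟩ := exists_spec hA.1
  refine ⟨diagonal (fun i => ((√(hA.1.eigenvalues i) : ℝ) : ℂ)) * Uᴴ, ?_⟩
  rw [conjTranspose_mul, conjTranspose_conjTranspose, diagonal_conjTranspose]
  conv_lhs => rw [hU3]
  calc U * diagonal (fun i => ((hA.1.eigenvalues i : ℝ) : ℂ)) * Uᴴ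
      = U * (diagonal (star fun i => ((√(hA.1.eigenvalues i) : ℝ) : ℂ)) *
          diagonal (fun i => ((√(hA.1.eigenvalues i) : ℝ) : ℂ))) * Uᴴ := by
        rw [diagonal_mul_diagonal]
        congr 3
        funext i
        simp only [Pi.star_apply, RCLike.star_def, Complex.conj_ofReal]
        rw [← Complex.ofReal_mul, Real.mul_self_sqrt (hA.eigenvalues_nonneg i)]
    _ = _ := by simp only [Matrix.mul_assoc]

/-- the trace of the product of two positive semidefinite matrices is nonnegative -/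
theorem rtr_mul_nonneg {A B : CMat n} (hA : A.PosSemidef) (hB : B.PosSemidef) :
    0 ≤ rtr (A * B) := by
  obtain ⟨C, rfl⟩ := exists_factor hA
  have h1 : rtr (Cᴴ * C * B) = rtr (C * B * Cᴴ) := by
    rw [Matrix.mul_assoc, rtr_mul_comm]
  rw [h1]
  have h2 := (hB.mul_mul_conjTranspose_same C).trace_nonneg
  exact (Complex.nonneg_iff.mp h2).1

/-- `tr R² ≤ tr S⁻¹ R S R` -/
theorem trace_sym {S R : CMat n} (hS : S.PosDef) (hR : R.IsHermitian) :
    rtr (R * R) ≤ rtr (S⁻¹ * R * S * R) := by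
  have hdet : IsUnit S.det := (Matrix.isUnit_iff_isUnit_det S).mp hS.isUnit
  have h1 : S⁻¹ * S = 1 := Matrix.nonsing_inv_mul S hdet
  have h2 : S * S⁻¹ = 1 := Matrix.mul_nonsing_inv S hdet
  have hSi : S⁻¹.PosDef := hS.inv
  set C := S * R - R * S with hC
  have hCH : Cᴴ = -C := by
    rw [hC, conjTranspose_sub, conjTranspose_mul, conjTranspose_mul, hR.eq, hS.1.eq]
    abel
  have h3 : 0 ≤ rtr (S⁻¹ * (C * S⁻¹ * Cᴴ)) :=
    rtr_mul_nonneg hSi.posSemidef (hSi.posSemidef.mul_mul_conjTranspose_same C)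
  rw [hCH] at h3
  have h4 : S⁻¹ * (C * S⁻¹ * -C) = S⁻¹ * R * S * R + R * (S⁻¹ * R * S) - R * R -
      S⁻¹ * (R * R) * S := by
    have e1 : S⁻¹ * C = R - S⁻¹ * R * S := by
      rw [hC, Matrix.mul_sub, ← Matrix.mul_assoc, h1, Matrix.one_mul, Matrix.mul_assoc]
    calc S⁻¹ * (C * S⁻¹ * -C) = -((S⁻¹ * C) * (S⁻¹ * C)) := by
          simp only [Matrix.mul_assoc, Matrix.mul_neg]
      _ = -((R - S⁻¹ * R * S) * (R - S⁻¹ * R * S)) := by rw [e1]
      _ = S⁻¹ * R * S * R + R * (S⁻¹ * R * S) - R * R -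
          (S⁻¹ * R * S) * (S⁻¹ * R * S) := by noncomm_ring
      _ = _ := by
          congr 1
          calc (S⁻¹ * R * S) * (S⁻¹ * R * S) = S⁻¹ * R * (S * S⁻¹) * R * S := by
                simp only [Matrix.mul_assoc]
            _ = _ := by rw [h2]; simp only [Matrix.mul_assoc, Matrix.one_mul]
  rw [h4, rtr_sub, rtr_sub, rtr_add] at h3
  have h5 : rtr (R * (S⁻¹ * R * S)) = rtr (S⁻¹ * R * S * R) := rtr_mul_comm _ _
  have h6 : rtr (S⁻¹ * (R * R) * S) = rtr (R * R) := by
    rw [rtr_mul_comm, ← Matrix.mul_assoc, h2, Matrix.one_mul]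
  rw [h5, h6] at h3
  linarith

theorem res_isHermitian {P : CMat n} (hP : P.IsHermitian) (s : ℝ) : (res P s).IsHermitian := by
  unfold res
  apply IsHermitian.inv
  apply hP.add
  unfold IsHermitian
  simp [conjTranspose_smul]

theorem res_mul {P : CMat n} (hP : P.PosDef) {s : ℝ} (hs : 0 ≤ s) :
    res P s * P = 1 - (s : ℂ) • res P s ∧ P * res P s = 1 - (s : ℂ) • res P s := by
  have hu := (posDef_add_smul hP hs).isUnit
  have hdet := (Matrix.isUnit_iff_isUnit_det _).mp hu
  constructor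
  · have h1 : res P s * (P + (s : ℂ) • (1 : CMat n)) = 1 := Matrix.nonsing_inv_mul _ hdet
    rw [Matrix.mul_add, Matrix.mul_smul, Matrix.mul_one] at h1
    exact eq_sub_of_add_eq h1
  · have h1 : (P + (s : ℂ) • (1 : CMat n)) * res P s = 1 := Matrix.mul_nonsing_inv _ hdet
    rw [Matrix.add_mul, Matrix.smul_mul, Matrix.one_mul] at h1
    exact eq_sub_of_add_eq h1

/-- half of fact A, integrand -/
theorem half_pointwise {P S : CMat n} (hP : P.PosDef) (hS : S.PosDef) {s : ℝ} (hs : 0 ≤ s) :
    rtr (res P s * S⁻¹ * res P s * ((1 / 2 : ℂ) • (P * (S - P) + (S - P) * P))) ≤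
      rtr (P * (res P s * res P s)) - rtr (S⁻¹ * (P * P) * (res P s * res P s)) := by
  have hdet : IsUnit S.det := (Matrix.isUnit_iff_isUnit_det S).mp hS.isUnit
  have h1 : S⁻¹ * S = 1 := Matrix.nonsing_inv_mul S hdet
  have h2 : S * S⁻¹ = 1 := Matrix.mul_nonsing_inv S hdet
  obtain ⟨hRP, hPR⟩ := res_mul hP hs
  set R := res P s with hR
  set H := S⁻¹ with hH
  have hRh : R.IsHermitian := res_isHermitian hP.1 s
  have hsym := trace_sym hS hRh
  rw [← hH] at hsym
  -- expand the left side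
  have e1 : rtr (R * H * R * ((1 / 2 : ℂ) • (P * (S - P) + (S - P) * P))) =
      1 / 2 * (rtr (R * H * R * (P * S)) + rtr (R * H * R * (S * P))) -
        rtr (R * H * R * (P * P)) := by
    have : R * H * R * ((1 / 2 : ℂ) • (P * (S - P) + (S - P) * P)) =
        ((1 / 2 : ℝ) : ℂ) • (R * H * R * (P * S) + R * H * R * (S * P)) -
          R * H * R * (P * P) := by
      push_cast
      rw [Matrix.mul_smul]
      have e : P * (S - P) + (S - P) * P = (P * S + S * P) - (2 : ℂ) • (P * P) := by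
        rw [Matrix.mul_sub, Matrix.sub_mul, two_smul]
        abel
      rw [e, Matrix.mul_sub, smul_sub, Matrix.mul_smul, smul_smul, Matrix.mul_add]
      norm_num
    rw [this, rtr_sub, rtr_smul, rtr_add]
  have e2 : rtr (R * H * R * (P * S)) = rtr R - s * rtr (H * R * S * R) := by
    calc rtr (R * H * R * (P * S)) = rtr (R * H * ((R * P) * S)) := by
          simp only [Matrix.mul_assoc]
      _ = rtr (R * H * S) - s * rtr (R * H * (R * S)) := by
          rw [hRP, Matrix.sub_mul, Matrix.one_mul, Matrix.mul_sub, rtr_sub, Matrix.smul_mul,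
            Matrix.mul_smul, rtr_smul]
      _ = _ := by
          rw [Matrix.mul_assoc, h1, Matrix.mul_one]
          congr 2
          calc rtr (R * H * (R * S)) = rtr (R * (H * (R * S))) := by rw [Matrix.mul_assoc]
            _ = rtr ((H * (R * S)) * R) := rtr_mul_comm _ _
            _ = _ := by simp only [Matrix.mul_assoc]
  have e3 : rtr (R * H * R * (S * P)) = rtr R - s * rtr (H * R * S * R) := by
    calc rtr (R * H * R * (S * P)) = rtr ((R * H * R * S) * P) := by
          simp only [Matrix.mul_assoc]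
      _ = rtr (P * (R * H * R * S)) := rtr_mul_comm _ _
      _ = rtr ((P * R) * (H * R * S)) := by simp only [Matrix.mul_assoc]
      _ = rtr (H * R * S) - s * rtr (R * (H * R * S)) := by
          rw [hPR, Matrix.sub_mul, Matrix.one_mul, rtr_sub, Matrix.smul_mul, rtr_smul]
      _ = _ := by
          congr 1
          · rw [rtr_mul_comm, ← Matrix.mul_assoc, h2, Matrix.one_mul]
          · rw [rtr_mul_comm]
  have e4 : rtr (R * H * R * (P * P)) = rtr (H * (P * P) * (R * R)) := by
    have hc : R * P = P * R := by rw [hRP, hPR]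
    have hc2 : R * (P * P) = P * P * R := by
      rw [← Matrix.mul_assoc, hc, Matrix.mul_assoc, hc, Matrix.mul_assoc]
    calc rtr (R * H * R * (P * P)) = rtr (R * (H * (R * (P * P)))) := by
          simp only [Matrix.mul_assoc]
      _ = rtr ((H * (R * (P * P))) * R) := rtr_mul_comm _ _
      _ = rtr (H * (P * P * R) * R) := by rw [hc2]
      _ = _ := by simp only [Matrix.mul_assoc]
  have e5 : rtr (P * (R * R)) = rtr R - s * rtr (R * R) := by
    rw [← Matrix.mul_assoc, hPR, Matrix.sub_mul, Matrix.one_mul, rtr_sub, Matrix.smul_mul, rtr_smul]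
  rw [e1, e2, e3, e4, e5]
  have : s * rtr (R * R) ≤ s * rtr (H * R * S * R) := mul_le_mul_of_nonneg_left hsym hs
  linarith

theorem half_integral {P S : CMat n} (hP : P.PosDef) (hS : S.PosDef) :
    ∫ s in Ioi (0 : ℝ), rtr (res P s * S⁻¹ * res P s *
      ((1 / 2 : ℂ) • (P * (S - P) + (S - P) * P))) ≤ n - rtr (S⁻¹ * P) := by
  have hdet : IsUnit P.det := (Matrix.isUnit_iff_isUnit_det P).mp hP.isUnit
  have h2 : P * P⁻¹ = 1 := Matrix.mul_nonsing_inv P hdet
  obtain ⟨i1, v1⟩ := integral_res_sq hP P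
  obtain ⟨i2, v2⟩ := integral_res_sq hP (S⁻¹ * (P * P))
  have h3 : rtr (P * P⁻¹) = n := by
    rw [h2]
    simp [rtr]
  have h4 : rtr (S⁻¹ * (P * P) * P⁻¹) = rtr (S⁻¹ * P) := by
    congr 1
    rw [Matrix.mul_assoc, Matrix.mul_assoc, h2, Matrix.mul_one]
  have h5 := integral_sub i1 i2
  rw [v1, v2, h3, h4] at h5
  rw [← h5]
  apply setIntegral_mono_on
  · exact integrable_rtr (fun i j => integrable_entry hP S⁻¹ i j) _
  · exact i1.sub i2
  · exact measurableSet_Ioi
  · intro s hs
    exact half_pointwise hP hS (le_of_lt hs)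

theorem fmat_integrable {P Q : CMat n} (hP : P.PosDef) (hQ : Q.PosDef) (i j : Fin n) :
    IntegrableOn (fun s => (res P s * (P + Q)⁻¹ * res P s + res Q s * (P + Q)⁻¹ * res Q s) i j)
      (Ioi 0) :=
  (integrable_entry hP _ i j).add (integrable_entry hQ _ i j)

theorem rtr_fmat_mul {P Q : CMat n} (hP : P.PosDef) (hQ : Q.PosDef) (Z : CMat n) :
    rtr (Fmat P Q * Z) =
      (∫ s in Ioi (0 : ℝ), rtr (res P s * (P + Q)⁻¹ * res P s * Z)) +
        ∫ s in Ioi (0 : ℝ), rtr (res Q s * (P + Q)⁻¹ * res Q s * Z) := by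
  unfold Fmat
  rw [rtr_integral (fun i j => fmat_integrable hP hQ i j)]
  rw [← integral_add]
  · congr 1
    funext s
    rw [Matrix.add_mul, rtr_add]
  · exact integrable_rtr (fun i j => integrable_entry hP _ i j) _
  · exact integrable_rtr (fun i j => integrable_entry hQ _ i j) _

theorem factA : FactAStatement := by
  intro n P Q hP hQ
  have hS : (P + Q).PosDef := hP.add hQ
  rw [rtr_fmat_mul hP hQ]
  have h1 := half_integral hP hS
  have h2 := half_integral hQ hS
  have e1 : P + Q - P = Q := by abel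
  have e2 : P + Q - Q = P := by abel
  rw [e1] at h1
  rw [e2, add_comm (Q * P)] at h2
  have hdet : IsUnit (P + Q).det := (Matrix.isUnit_iff_isUnit_det _).mp hS.isUnit
  have h3 : rtr ((P + Q)⁻¹ * P) + rtr ((P + Q)⁻¹ * Q) = n := by
    rw [← rtr_add, ← Matrix.mul_add, Matrix.nonsing_inv_mul _ hdet]
    simp [rtr]
  linarith

theorem factC : FactCStatement := by
  intro n P Q hP hQ
  have h0 : rtr (Fmat P Q) = rtr (Fmat P Q * 1) := by rw [Matrix.mul_one]
  rw [h0, rtr_fmat_mul hP hQ]
  have key : ∀ A : CMat n, A.PosDef →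
      ∫ s in Ioi (0 : ℝ), rtr (res A s * (P + Q)⁻¹ * res A s * 1) = rtr (A⁻¹ * (P + Q)⁻¹) := by
    intro A hA
    rw [rtr_mul_comm A⁻¹, ← (integral_res_sq hA (P + Q)⁻¹).2]
    congr 1
    funext s
    rw [Matrix.mul_one, rtr_mul_comm, ← Matrix.mul_assoc, rtr_mul_comm]
  rw [key P hP, key Q hQ]

theorem factD : FactDStatement := by
  intro n
  have hpi : ∀ i j : Fin n, ContinuousOn (fun x : CMat n × CMat n => Fmat x.1 x.2 i j)
      {x | x.1.PosDef ∧ x.2.PosDef} := by
    intro i j x₀ hx₀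
    obtain ⟨hP, hQ⟩ := hx₀
    obtain ⟨c₁, hc₁, h₁⟩ := exists_lower hP
    obtain ⟨c₂, hc₂, h₂⟩ := exists_lower hQ
    set c := c₁ / 2 with hcdef
    set c' := c₂ / 2 with hcdef'
    have hc : 0 < c := by positivity
    have hc' : 0 < c' := by positivity
    have h₁' : (x₀.1 - ((2 * c : ℝ) : ℂ) • (1 : CMat n)).PosSemidef := by
      have : 2 * c = c₁ := by rw [hcdef]; ring
      rw [this]
      exact h₁
    have h₂' : (x₀.2 - ((2 * c' : ℝ) : ℂ) • (1 : CMat n)).PosSemidef := by
      have : 2 * c' = c₂ := by rw [hcdef']; ring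
      rw [this]
      exact h₂
    have hev1 : ∀ᶠ x : CMat n × CMat n in 𝓝 x₀, ‖x.1 - x₀.1‖ < c := by
      have h3 : Continuous fun x : CMat n × CMat n => ‖x.1 - x₀.1‖ :=
        (continuous_fst.sub continuous_const).norm
      have h4 := h3.continuousAt (x := x₀)
      have h5 : ‖x₀.1 - x₀.1‖ < c := by simpa using hc
      exact h4.eventually (gt_mem_nhds h5)
    have hev2 : ∀ᶠ x : CMat n × CMat n in 𝓝 x₀, ‖x.2 - x₀.2‖ < c' := by
      have h3 : Continuous fun x : CMat n × CMat n => ‖x.2 - x₀.2‖ :=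
        (continuous_snd.sub continuous_const).norm
      have h4 := h3.continuousAt (x := x₀)
      have h5 : ‖x₀.2 - x₀.2‖ < c' := by simpa using hc'
      exact h4.eventually (gt_mem_nhds h5)
    have hev : ∀ᶠ x : CMat n × CMat n in 𝓝[{x | x.1.PosDef ∧ x.2.PosDef}] x₀,
        x.1.PosDef ∧ x.2.PosDef ∧ (x.1 - (c : ℂ) • (1 : CMat n)).PosSemidef ∧
          (x.2 - (c' : ℂ) • (1 : CMat n)).PosSemidef := by
      filter_upwards [self_mem_nhdsWithin, nhdsWithin_le_nhds hev1, nhdsWithin_le_nhds hev2]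
        with x hx hx1 hx2
      exact ⟨hx.1, hx.2, lower_stable hx.1.1 h₁' hx1.le, lower_stable hx.2.1 h₂' hx2.le⟩
    have hcont : ContinuousWithinAt (fun x : CMat n × CMat n => ∫ s in Ioi (0 : ℝ),
        (res x.1 s * (x.1 + x.2)⁻¹ * res x.1 s + res x.2 s * (x.1 + x.2)⁻¹ * res x.2 s) i j)
        {x | x.1.PosDef ∧ x.2.PosDef} x₀ := by
      apply continuousWithinAt_of_dominated (bound := fun s => ((c + s)⁻¹) ^ 2 * (c + c')⁻¹ +
        ((c' + s)⁻¹) ^ 2 * (c + c')⁻¹)
      · filter_upwards [hev] with x hx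
        exact (fmat_integrable hx.1 hx.2.1 i j).aestronglyMeasurable
      · filter_upwards [hev] with x hx
        obtain ⟨hx1, hx2, hx3, hx4⟩ := hx
        refine (ae_restrict_iff' measurableSet_Ioi).mpr (Eventually.of_forall fun s hs => ?_)
        have hs' : (0 : ℝ) < s := hs
        have hSle : ‖(x.1 + x.2)⁻¹‖ ≤ (c + c')⁻¹ := by
          have h3 : (x.1 + x.2 - ((c + c' : ℝ) : ℂ) • (1 : CMat n)).PosSemidef := by
            have h4 := hx3.add hx4
            have h5 : x.1 - (c : ℂ) • (1 : CMat n) + (x.2 - (c' : ℂ) • (1 : CMat n)) =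
                x.1 + x.2 - ((c + c' : ℝ) : ℂ) • (1 : CMat n) := by
              push_cast
              rw [add_smul]
              abel
            rwa [h5] at h4
          have h4 := norm_res_le (s := 0) h3 (by linarith)
          unfold res at h4
          simpa using h4
        rw [Matrix.add_apply]
        refine (norm_add_le _ _).trans ?_
        apply add_le_add
        · refine (norm_entry_le _ i j).trans ((norm_rxr_le _ hx3 hc hs'.le).trans ?_)
          gcongr
        · refine (norm_entry_le _ i j).trans ((norm_rxr_le _ hx4 hc' hs'.le).trans ?_)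
          gcongr
      · exact ((integrable_sq hc).mul_const _).add ((integrable_sq hc').mul_const _)
      · refine (ae_restrict_iff' measurableSet_Ioi).mpr (Eventually.of_forall fun s hs => ?_)
        have hs' : (0 : ℝ) < s := hs
        apply ContinuousAt.continuousWithinAt
        have hu1 := (posDef_add_smul hP hs'.le).isUnit
        have hu2 := (posDef_add_smul hQ hs'.le).isUnit
        have hu3 := (hP.add hQ).isUnit
        have k1 : ContinuousAt (fun x : CMat n × CMat n => res x.1 s) x₀ :=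
          ContinuousAt.comp (f := fun x : CMat n × CMat n => x.1 + (s : ℂ) • (1 : CMat n))
            (continuousAt_inv hu1) (by fun_prop)
        have k2 : ContinuousAt (fun x : CMat n × CMat n => res x.2 s) x₀ :=
          ContinuousAt.comp (f := fun x : CMat n × CMat n => x.2 + (s : ℂ) • (1 : CMat n))
            (continuousAt_inv hu2) (by fun_prop)
        have k3 : ContinuousAt (fun x : CMat n × CMat n => (x.1 + x.2)⁻¹) x₀ :=
          ContinuousAt.comp (f := fun x : CMat n × CMat n => x.1 + x.2)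
            (continuousAt_inv hu3) (by fun_prop)
        exact (continuous_entry i j).continuousAt.comp
          (((k1.mul k3).mul k1).add ((k2.mul k3).mul k2))
    exact hcont
  exact continuousOn_pi.mpr fun i => continuousOn_pi.mpr fun j => hpi i j

end P371G.FAx
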