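import Vale.Agent.P371G.Basic

/-!
# P371G, module FB3
-/

namespace P371G.FBx

open Matrix MeasureTheory Set Filter Topology
open scoped ComplexOrder

variable {n : ℕ}

theorem det_eq_prod {X : CMat n} (hX : X.IsHermitian) :
    det X = ((∏ i, hX.eigenvalues i : ℝ) : ℂ) := by
  rw [hX.det_eq_prod_eigenvalues]
  push_cast
  rfl

theorem trace_eq_sum {X : CMat n} (hX : X.IsHermitian) :
    trace X = ((∑ i, hX.eigenvalues i : ℝ) : ℂ) := by
  rw [hX.trace_eq_sum_eigenvalues]
  push_cast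
  rfl

theorem posSemidef_det_re {X : CMat n} (hX : X.PosSemidef) : (det X).im = 0 := by
  rw [det_eq_prod hX.1]
  exact Complex.ofReal_im _

/-- square root factor -/
theorem exists_factor {Y : CMat n} (hY : Y.PosSemidef) : ∃ B : CMat n, Y = Bᴴ * B := by
  obtain ⟨U, h1, h2, h3⟩ := exists_spec hY.1
  refine ⟨diagonal (fun i => ((√(hY.1.eigenvalues i) : ℝ) : ℂ)) * Uᴴ, ?_⟩
  rw [conjTranspose_mul, conjTranspose_conjTranspose, diagonal_conjTranspose]
  have e : U * diagonal (star fun i => ((√(hY.1.eigenvalues i) : ℝ) : ℂ)) *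
      (diagonal (fun i => ((√(hY.1.eigenvalues i) : ℝ) : ℂ)) * Uᴴ) =
      U * (diagonal (star fun i => ((√(hY.1.eigenvalues i) : ℝ) : ℂ)) *
      diagonal (fun i => ((√(hY.1.eigenvalues i) : ℝ) : ℂ))) * Uᴴ := by
    simp only [Matrix.mul_assoc]
  rw [e, diagonal_mul_diagonal]
  conv_lhs => rw [h3]
  congr 3
  funext i
  simp only [Pi.star_apply, Complex.star_def, Complex.conj_ofReal]
  rw [← Complex.ofReal_mul, Real.mul_self_sqrt (hY.eigenvalues_nonneg i)]

theorem rdet_mul {X Y : CMat n} (hX : X.PosSemidef) : rdet (X * Y) = rdet X * rdet Y := by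
  unfold rdet
  rw [det_mul, Complex.mul_re, posSemidef_det_re hX]
  ring

theorem rdet_pos {X : CMat n} (hX : X.PosDef) : 0 < rdet X := by
  have := hX.det_pos
  rw [Complex.lt_def] at this
  simpa [rdet] using this.1

/-- `n + ln det X + ln det Y ≤ tr X Y` -/
theorem logdet_le {X Y : CMat n} (hX : X.PosSemidef) (hX0 : 0 < rdet X) (hY : Y.PosDef) :
    (n : ℝ) + Real.log (rdet X) + Real.log (rdet Y) ≤ rtr (X * Y) := by
  obtain ⟨B, hB⟩ := exists_factor hY.posSemidef
  set Z : CMat n := B * X * Bᴴ with hZ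
  have hZs : Z.PosSemidef := hX.mul_mul_conjTranspose_same B
  have htr : rtr (X * Y) = rtr Z := by
    unfold rtr
    rw [hB, ← Matrix.mul_assoc, Matrix.trace_mul_comm, hZ, ← Matrix.mul_assoc]
  have hdet : rdet Z = rdet X * rdet Y := by
    rw [← rdet_mul hX]
    unfold rdet
    rw [hZ, hB]
    simp only [det_mul]
    ring_nf
  have hpos := mul_pos hX0 (rdet_pos hY)
  rw [htr, add_assoc, ← Real.log_mul hX0.ne' (rdet_pos hY).ne', ← hdet]
  rw [← hdet] at hpos
  have h1 : rdet Z = ∏ i, hZs.1.eigenvalues i := by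
    unfold rdet
    rw [det_eq_prod hZs.1]
    exact Complex.ofReal_re _
  have h2 : rtr Z = ∑ i, hZs.1.eigenvalues i := by
    unfold rtr
    rw [trace_eq_sum hZs.1]
    exact Complex.ofReal_re _
  have h3 : ∀ i, 0 < hZs.1.eigenvalues i := by
    intro i
    refine lt_of_le_of_ne (hZs.eigenvalues_nonneg i) fun h0 => ?_
    rw [h1, Finset.prod_eq_zero (Finset.mem_univ i) h0.symm] at hpos
    exact lt_irrefl _ hpos
  rw [h1, h2, Real.log_prod (fun i _ => (h3 i).ne')]
  have h4 : (n : ℝ) = ∑ _i : Fin n, (1 : ℝ) := by simp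
  rw [h4, ← Finset.sum_add_distrib]
  refine Finset.sum_le_sum fun i _ => ?_
  have := Real.log_le_sub_one_of_pos (h3 i)
  linarith

/-- trace of a product of two functions of a Hermitian matrix and two other matrices -/
theorem trace_spec (U H Y : CMat n) (a b : Fin n → ℂ) :
    trace (U * diagonal a * Uᴴ * H * (U * diagonal b * Uᴴ) * Y) =
      ∑ j, ∑ k, a j * b k * ((Uᴴ * H * U) j k * (Uᴴ * Y * U) k j) := by
  have h1 : trace (U * diagonal a * Uᴴ * H * (U * diagonal b * Uᴴ) * Y) =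
      trace (diagonal a * (Uᴴ * H * U) * (diagonal b * (Uᴴ * Y * U))) := by
    have e : U * diagonal a * Uᴴ * H * (U * diagonal b * Uᴴ) * Y =
        U * (diagonal a * (Uᴴ * H * U) * (diagonal b * (Uᴴ * Y))) := by
      simp only [Matrix.mul_assoc]
    rw [e, Matrix.trace_mul_comm]
    simp only [Matrix.mul_assoc]
  rw [h1]
  unfold trace
  refine Finset.sum_congr rfl fun j _ => ?_
  rw [diag_apply, Matrix.mul_apply]
  refine Finset.sum_congr rfl fun k _ => ?_
  rw [diagonal_mul, diagonal_mul]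
  ring

theorem kernel_int {p p' : ℝ} (hp : 0 < p) (hp' : 0 < p') :
    IntegrableOn (fun s : ℝ => ((p + s) * (p' + s))⁻¹) (Ioi 0) := by
  have hc : 0 < min p p' := lt_min hp hp'
  refine (integrable_sq hc).mono' ?_ ?_
  · refine ContinuousOn.aestronglyMeasurable ?_ measurableSet_Ioi
    intro s hs
    have hs' : (0 : ℝ) < s := hs
    have : (p + s) * (p' + s) ≠ 0 := by positivity
    have h2 : ContinuousAt (fun s : ℝ => (p + s) * (p' + s)) s := by fun_prop
    exact (h2.inv₀ this).continuousWithinAt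
  · refine (ae_restrict_iff' measurableSet_Ioi).mpr (Eventually.of_forall fun s hs => ?_)
    have hs' : (0 : ℝ) < s := hs
    rw [Real.norm_of_nonneg (by positivity), inv_pow, sq]
    refine inv_anti₀ (by positivity) ?_
    gcongr
    · exact min_le_left _ _
    · exact min_le_right _ _

/-- the operator `H ↦ ∫ (P+s)⁻¹ H (P+s)⁻¹ ds` -/
noncomputable def Dl (P H : CMat n) : CMat n :=
  Matrix.of fun i j => ∫ s in Ioi (0 : ℝ), (res P s * H * res P s) i j

/-- spectral data of a positive definite matrix -/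
structure Spec (P U : CMat n) (d : Fin n → ℝ) : Prop where
  h1 : Uᴴ * U = 1
  h2 : U * Uᴴ = 1
  h3 : P = U * diagonal (fun i => ((d i : ℝ) : ℂ)) * Uᴴ
  h4 : ∀ i, 0 < d i

theorem exists_Spec {P : CMat n} (hP : P.PosDef) : ∃ U d, Spec P U d := by
  obtain ⟨U, h1, h2, h3⟩ := exists_spec hP.1
  exact ⟨U, _, h1, h2, h3, hP.eigenvalues_pos⟩

theorem Spec.res {P U : CMat n} {d : Fin n → ℝ} (hS : Spec P U d) {s : ℝ} (hs : 0 < s) :
    res P s = U * diagonal (fun i => (((d i + s)⁻¹ : ℝ) : ℂ)) * Uᴴ := by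
  unfold P371G.res
  rw [hS.h3]
  exact inv_add_spec hS.h1 hS.h2 s fun i => add_pos (hS.h4 i) hs

theorem Spec.entry {P U : CMat n} {d : Fin n → ℝ} (hS : Spec P U d) (H : CMat n) {s : ℝ}
    (hs : 0 < s) (i j : Fin n) : (P371G.res P s * H * P371G.res P s) i j =
      ∑ k, ∑ l, ((((d k + s) * (d l + s))⁻¹ : ℝ) : ℂ) * (U i k * (Uᴴ * H * U) k l * Uᴴ l j) := by
  rw [hS.res hs]
  have e : U * diagonal (fun i => (((d i + s)⁻¹ : ℝ) : ℂ)) * Uᴴ * H *
      (U * diagonal (fun i => (((d i + s)⁻¹ : ℝ) : ℂ)) * Uᴴ) =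
      (U * diagonal (fun i => (((d i + s)⁻¹ : ℝ) : ℂ))) * ((Uᴴ * H * U) *
      (diagonal (fun i => (((d i + s)⁻¹ : ℝ) : ℂ)) * Uᴴ)) := by
    simp only [Matrix.mul_assoc]
  rw [e, Matrix.mul_apply]
  refine Finset.sum_congr rfl fun k _ => ?_
  rw [mul_diagonal, Matrix.mul_apply, Finset.mul_sum]
  refine Finset.sum_congr rfl fun l _ => ?_
  rw [diagonal_mul, mul_inv]
  push_cast
  ring

theorem Spec.entry_int {P U : CMat n} {d : Fin n → ℝ} (hS : Spec P U d) (H : CMat n)
    (i j : Fin n) : IntegrableOn (fun s => (P371G.res P s * H * P371G.res P s) i j) (Ioi 0) := by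
  have h : IntegrableOn (fun s : ℝ => ∑ k, ∑ l, ((((d k + s) * (d l + s))⁻¹ : ℝ) : ℂ) *
      (U i k * (Uᴴ * H * U) k l * Uᴴ l j)) (Ioi 0) := by
    refine integrable_finsetSum _ fun k _ => integrable_finsetSum _ fun l _ => ?_
    exact ((kernel_int (hS.h4 k) (hS.h4 l)).ofReal).mul_const _
  exact h.congr_fun (fun s hs => (hS.entry H hs i j).symm) measurableSet_Ioi

theorem Spec.trace_Dl {P U : CMat n} {d : Fin n → ℝ} (hS : Spec P U d) (H Y : CMat n) :
    trace (Dl P H * Y) = ∑ j, ∑ k, ((∫ s in Ioi (0 : ℝ), ((d j + s) * (d k + s))⁻¹ : ℝ) : ℂ) *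
      ((Uᴴ * H * U) j k * (Uᴴ * Y * U) k j) := by
  have h1 : trace (Dl P H * Y) =
      ∫ s in Ioi (0 : ℝ), trace (P371G.res P s * H * P371G.res P s * Y) := by
    have e1 : trace (Dl P H * Y) = ∑ i, ∑ j,
        (∫ s in Ioi (0 : ℝ), (P371G.res P s * H * P371G.res P s) i j) * Y j i := by
      unfold trace
      refine Finset.sum_congr rfl fun i _ => ?_
      rw [diag_apply, Matrix.mul_apply]
      rfl
    have e2 : ∀ s, trace (P371G.res P s * H * P371G.res P s * Y) = ∑ i, ∑ j,
        (P371G.res P s * H * P371G.res P s) i j * Y j i := by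
      intro s
      unfold trace
      refine Finset.sum_congr rfl fun i _ => ?_
      rw [diag_apply, Matrix.mul_apply]
    simp_rw [e2]
    rw [e1, integral_finsetSum _ (fun i _ => integrable_finsetSum _ fun j _ =>
      (hS.entry_int H i j).mul_const _)]
    refine Finset.sum_congr rfl fun i _ => ?_
    rw [integral_finsetSum _ (fun j _ => (hS.entry_int H i j).mul_const _)]
    refine Finset.sum_congr rfl fun j _ => ?_
    rw [integral_mul_const]
  rw [h1]
  have h2 : ∀ s ∈ Ioi (0 : ℝ), trace (P371G.res P s * H * P371G.res P s * Y) =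
      ∑ j, ∑ k, ((((d j + s) * (d k + s))⁻¹ : ℝ) : ℂ) *
      ((Uᴴ * H * U) j k * (Uᴴ * Y * U) k j) := by
    intro s hs
    rw [hS.res hs, trace_spec]
    refine Finset.sum_congr rfl fun j _ => Finset.sum_congr rfl fun k _ => ?_
    rw [mul_inv]
    push_cast
    ring
  rw [setIntegral_congr_fun measurableSet_Ioi h2]
  rw [integral_finsetSum _ (fun j _ => integrable_finsetSum _ fun k _ =>
    ((kernel_int (hS.h4 j) (hS.h4 k)).ofReal).mul_const _)]
  refine Finset.sum_congr rfl fun j _ => ?_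
  rw [integral_finsetSum _ (fun k _ => ((kernel_int (hS.h4 j) (hS.h4 k)).ofReal).mul_const _)]
  refine Finset.sum_congr rfl fun k _ => ?_
  rw [integral_mul_const]
  congr 1
  exact integral_ofReal

/-- phases -/
noncomputable def phs (d : ℝ) (u : ℝ) : ℝ := Real.log d / 2 * (Real.log ((1 - u) / u) / Real.pi)

/-- the diagonal entries of `p⁻¹` -/
noncomputable def aph (d : Fin n → ℝ) (u : ℝ) (j : Fin n) : ℂ :=
  ((√(d j))⁻¹ : ℂ) * Complex.exp (Complex.I * (phs (d j) u : ℝ))

/-- the inverse of `p` -/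
noncomputable def pinv (U : CMat n) (d : Fin n → ℝ) (u : ℝ) : CMat n :=
  U * diagonal (aph d u) * Uᴴ

/-- the unitary square roots of `P` -/
noncomputable def prt (U : CMat n) (d : Fin n → ℝ) (u : ℝ) : CMat n :=
  U * diagonal (fun j => ((√(d j) : ℝ) : ℂ) * Complex.exp (-(Complex.I * (phs (d j) u : ℝ)))) * Uᴴ

theorem conj_exp (x : ℝ) : star (Complex.exp (Complex.I * (x : ℂ))) =
    Complex.exp (-(Complex.I * (x : ℂ))) := by
  rw [Complex.star_def, ← Complex.exp_conj]
  simp

theorem conj_exp' (x : ℝ) : star (Complex.exp (-(Complex.I * (x : ℂ)))) =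
    Complex.exp (Complex.I * (x : ℂ)) := by
  rw [Complex.star_def, ← Complex.exp_conj]
  simp

theorem udu_mul {U : CMat n} (h1 : Uᴴ * U = 1) (a b : Fin n → ℂ) :
    U * diagonal a * Uᴴ * (U * diagonal b * Uᴴ) = U * diagonal (fun j => a j * b j) * Uᴴ := by
  calc U * diagonal a * Uᴴ * (U * diagonal b * Uᴴ)
      = U * (diagonal a * (Uᴴ * U) * diagonal b) * Uᴴ := by simp only [Matrix.mul_assoc]
    _ = _ := by rw [h1, Matrix.mul_one, diagonal_mul_diagonal]

theorem udu_star (U : CMat n) (a : Fin n → ℂ) :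
    (U * diagonal a * Uᴴ)ᴴ = U * diagonal (fun j => star (a j)) * Uᴴ := by
  rw [conjTranspose_mul, conjTranspose_mul, conjTranspose_conjTranspose, diagonal_conjTranspose,
    Matrix.mul_assoc]
  rfl

theorem Spec.prt_mul {P U : CMat n} {d : Fin n → ℝ} (hS : Spec P U d) (u : ℝ) :
    prt U d u * (prt U d u)ᴴ = P ∧ (prt U d u)ᴴ * prt U d u = P ∧ (prt U d u)⁻¹ = pinv U d u := by
  have hs : ∀ j, ((√(d j) : ℝ) : ℂ) * ((√(d j) : ℝ) : ℂ) = ((d j : ℝ) : ℂ) := fun j => by
    rw [← Complex.ofReal_mul, Real.mul_self_sqrt (hS.h4 j).le]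
  have he : ∀ x : ℝ, Complex.exp (-(Complex.I * (x : ℂ))) * Complex.exp (Complex.I * (x : ℂ)) = 1 :=
    fun x => by rw [← Complex.exp_add]; simp
  refine ⟨?_, ?_, ?_⟩
  · unfold prt
    rw [udu_star, udu_mul hS.h1]
    conv_rhs => rw [hS.h3]
    congr 3
    funext j
    rw [star_mul', conj_exp']
    simp only [Complex.star_def, Complex.conj_ofReal]
    linear_combination (Complex.exp (-(Complex.I * (phs (d j) u : ℝ))) *
      Complex.exp (Complex.I * (phs (d j) u : ℝ))) * hs j + ((d j : ℝ) : ℂ) * he (phs (d j) u)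
  · unfold prt
    rw [udu_star, udu_mul hS.h1]
    conv_rhs => rw [hS.h3]
    congr 3
    funext j
    rw [star_mul', conj_exp']
    simp only [Complex.star_def, Complex.conj_ofReal]
    linear_combination (Complex.exp (-(Complex.I * (phs (d j) u : ℝ))) *
      Complex.exp (Complex.I * (phs (d j) u : ℝ))) * hs j + ((d j : ℝ) : ℂ) * he (phs (d j) u)
  · apply Matrix.inv_eq_right_inv
    unfold prt pinv
    rw [udu_mul hS.h1]
    have : (fun j => ((√(d j) : ℝ) : ℂ) * Complex.exp (-(Complex.I * (phs (d j) u : ℝ))) *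
        aph d u j) = fun _ => 1 := by
      funext j
      have hne : ((√(d j) : ℝ) : ℂ) ≠ 0 := by
        rw [Complex.ofReal_ne_zero]
        exact (Real.sqrt_pos.mpr (hS.h4 j)).ne'
      unfold aph
      calc ((√(d j) : ℝ) : ℂ) * Complex.exp (-(Complex.I * (phs (d j) u : ℝ))) *
            (((√(d j) : ℝ) : ℂ)⁻¹ * Complex.exp (Complex.I * (phs (d j) u : ℝ)))
          = (((√(d j) : ℝ) : ℂ) * ((√(d j) : ℝ) : ℂ)⁻¹) *
            (Complex.exp (-(Complex.I * (phs (d j) u : ℝ))) *
              Complex.exp (Complex.I * (phs (d j) u : ℝ))) := by ring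
        _ = 1 := by rw [he, mul_inv_cancel₀ hne, one_mul]
    rw [this, diagonal_one, Matrix.mul_one, hS.h2]

theorem aph_mul (d : Fin n → ℝ) (u : ℝ) (j k : Fin n) :
    aph d u j * star (aph d u k) = ((√(d j) * √(d k))⁻¹ : ℂ) *
      Complex.exp (Complex.I * ((Real.log (d j) - Real.log (d k)) / 2 *
          (Real.log ((1 - u) / u) / Real.pi) : ℝ)) := by
  unfold aph
  rw [star_mul', conj_exp]
  have e : Complex.exp (Complex.I * ((Real.log (d j) - Real.log (d k)) / 2 *
          (Real.log ((1 - u) / u) / Real.pi) : ℝ)) =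
      Complex.exp (Complex.I * (phs (d j) u : ℝ)) * Complex.exp (-(Complex.I * (phs (d k) u : ℝ))) := by
    rw [← Complex.exp_add]
    congr 1
    unfold phs
    push_cast
    ring
  rw [e, mul_inv]
  simp only [Complex.star_def, map_inv₀, Complex.conj_ofReal]
  ring

theorem aph_int (d : Fin n → ℝ) (j k : Fin n) :
    IntervalIntegrable (fun u => aph d u j * star (aph d u k)) volume 0 1 := by
  simp_rw [aph_mul]
  rw [intervalIntegrable_iff_integrableOn_Ioc_of_le zero_le_one]
  refine Measure.integrableOn_of_bounded (M := ‖((√(d j) * √(d k))⁻¹ : ℂ)‖) (by simp) ?_ ?_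
  · exact Measurable.aestronglyMeasurable (by fun_prop)
  · refine Eventually.of_forall fun u => ?_
    rw [norm_mul, mul_comm Complex.I, Complex.norm_exp_ofReal_mul_I, mul_one]

theorem Spec.int_trace (hB : FactB1Statement) {P U : CMat n} {d : Fin n → ℝ} (hS : Spec P U d)
    (H Y : CMat n) :
    IntervalIntegrable (fun u => trace (pinv U d u * H * (pinv U d u)ᴴ * Y)) volume 0 1 ∧
    ∫ u in (0 : ℝ)..1, trace (pinv U d u * H * (pinv U d u)ᴴ * Y) = trace (Dl P H * Y) := by
  have h1 : ∀ u, trace (pinv U d u * H * (pinv U d u)ᴴ * Y) = ∑ j, ∑ k,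
      aph d u j * star (aph d u k) * ((Uᴴ * H * U) j k * (Uᴴ * Y * U) k j) := by
    intro u
    unfold pinv
    rw [udu_star, trace_spec]
  simp_rw [h1]
  have hint : ∀ j k, IntervalIntegrable (fun u => aph d u j * star (aph d u k) *
      ((Uᴴ * H * U) j k * (Uᴴ * Y * U) k j)) volume 0 1 := fun j k => (aph_int d j k).mul_const _
  have hint2 : ∀ j, IntervalIntegrable (fun u => ∑ k, aph d u j * star (aph d u k) *
      ((Uᴴ * H * U) j k * (Uᴴ * Y * U) k j)) volume 0 1 := fun j =>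
    ⟨integrable_finsetSum _ fun k _ => (hint j k).1, integrable_finsetSum _ fun k _ => (hint j k).2⟩
  refine ⟨⟨integrable_finsetSum _ fun j _ => (hint2 j).1,
    integrable_finsetSum _ fun j _ => (hint2 j).2⟩, ?_⟩
  rw [intervalIntegral.integral_finsetSum (fun j _ => hint2 j), hS.trace_Dl]
  refine Finset.sum_congr rfl fun j _ => ?_
  rw [intervalIntegral.integral_finsetSum (fun k _ => hint j k)]
  refine Finset.sum_congr rfl fun k _ => ?_
  rw [intervalIntegral.integral_mul_const, hB (d j) (d k) (hS.h4 j) (hS.h4 k)]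
  congr 1
  refine intervalIntegral.integral_congr fun u _ => ?_
  exact aph_mul d u j k

theorem Fmat_eq {P Q : CMat n} (hP : P.PosDef) (hQ : Q.PosDef) :
    Fmat P Q = Dl P (P + Q)⁻¹ + Dl Q (P + Q)⁻¹ := by
  obtain ⟨U, d, hS⟩ := exists_Spec hP
  obtain ⟨V, e, hT⟩ := exists_Spec hQ
  ext i j
  rw [Matrix.add_apply]
  simp only [Fmat, Dl, Matrix.of_apply, Matrix.add_apply]
  exact integral_add (hS.entry_int _ i j) (hT.entry_int _ i j)

/-- **Module FB3.** -/
theorem factB (hB1 : FactB1Statement) (hB2 : FactB2Statement) : FactBStatement := by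
  intro n P Q Y hP hQ hY
  obtain ⟨U, d, hS⟩ := exists_Spec hP
  obtain ⟨V, e, hT⟩ := exists_Spec hQ
  set H : CMat n := (P + Q)⁻¹ with hH
  have hHs : H.PosSemidef := (hP.add hQ).inv.posSemidef
  obtain ⟨i1, e1⟩ := hS.int_trace hB1 H Y
  obtain ⟨i2, e2⟩ := hT.int_trace hB1 H Y
  set c : ℝ := n + Real.log (rdet Y) - Real.log (rdet P) - Real.log (rdet Q) with hc
  have hu : ∀ u : ℝ, c ≤ (trace (pinv U d u * H * (pinv U d u)ᴴ * Y) +
      trace (pinv V e u * H * (pinv V e u)ᴴ * Y)).re := by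
    intro u
    obtain ⟨p1, p2, p3⟩ := hS.prt_mul u
    obtain ⟨q1, q2, q3⟩ := hT.prt_mul u
    have h1 := hB2 n P Q (prt U d u) (prt V e u) hP hQ p1 p2 q1 q2
    rw [p3, q3, ← hH] at h1
    set X : CMat n := pinv U d u * H * (pinv U d u)ᴴ + pinv V e u * H * (pinv V e u)ᴴ with hX
    have hXs : X.PosSemidef := (hHs.mul_mul_conjTranspose_same _).add
      (hHs.mul_mul_conjTranspose_same _)
    have hPp := rdet_pos hP
    have hQp := rdet_pos hQ
    have hXp : 0 < rdet X := by
      by_contra hcon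
      push Not at hcon
      have : rdet X * rdet P * rdet Q ≤ 0 := by
        rw [mul_assoc]
        exact mul_nonpos_of_nonpos_of_nonneg hcon (by positivity)
      linarith
    have h2 := logdet_le hXs hXp hY
    have h3 : 0 ≤ Real.log (rdet X) + Real.log (rdet P) + Real.log (rdet Q) := by
      rw [← Real.log_mul hXp.ne' hPp.ne', ← Real.log_mul (by positivity) hQp.ne']
      exact Real.log_nonneg h1
    have h4 : rtr (X * Y) = (trace (pinv U d u * H * (pinv U d u)ᴴ * Y) +
      trace (pinv V e u * H * (pinv V e u)ᴴ * Y)).re := by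
      unfold rtr
      rw [hX, Matrix.add_mul, trace_add]
    rw [← h4, hc]
    linarith
  have hF : rtr (Fmat P Q * Y) = ∫ u in (0 : ℝ)..1,
      (trace (pinv U d u * H * (pinv U d u)ᴴ * Y) +
      trace (pinv V e u * H * (pinv V e u)ᴴ * Y)).re := by
    have h1 := Complex.reCLM.intervalIntegral_comp_comm (i1.add i2)
    have h2 : rtr (Fmat P Q * Y) = (∫ u in (0 : ℝ)..1,
      (trace (pinv U d u * H * (pinv U d u)ᴴ * Y) +
      trace (pinv V e u * H * (pinv V e u)ᴴ * Y))).re := by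
      rw [intervalIntegral.integral_add i1 i2, e1, e2, ← trace_add, ← Matrix.add_mul, ← Fmat_eq hP hQ]
      rfl
    rw [h2]
    exact h1.symm
  rw [hF]
  have hmono := intervalIntegral.integral_mono_on (a := 0) (b := 1) (μ := volume)
    (f := fun _ => c) (g := fun u => (trace (pinv U d u * H * (pinv U d u)ᴴ * Y) +
      trace (pinv V e u * H * (pinv V e u)ᴴ * Y)).re) zero_le_one
    (intervalIntegrable_const) (by
      have := (i1.add i2)
      exact ⟨this.1.re, this.2.re⟩) (fun u _ => hu u)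
  simpa using hmono

end P371G.FBx
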