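import Vale.Agent.P371G.FA

/-!
# Modules FC1, FC2: functional calculus facts on `mPow`
-/

namespace P371G.FAx

open Matrix MeasureTheory Set Filter Topology
open scoped ComplexOrder Matrix.Norms.L2Operator

variable {n : ℕ}

/-- spectral form of `mPow` -/
theorem mPow_spec {A : CMat n} (hA : A.IsHermitian) :
    ∃ U : CMat n, Uᴴ * U = 1 ∧ U * Uᴴ = 1 ∧
      A = U * diagonal (fun i => ((hA.eigenvalues i : ℝ) : ℂ)) * Uᴴ ∧
      ∀ r : ℝ, mPow r A = U * diagonal (fun i => ((hA.eigenvalues i ^ r : ℝ) : ℂ)) * Uᴴ := by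
  refine ⟨hA.eigenvectorUnitary, ?_, ?_, ?_, ?_⟩
  · have := Unitary.coe_star_mul_self hA.eigenvectorUnitary
    simpa [star_eq_conjTranspose] using this
  · have := Unitary.coe_mul_star_self hA.eigenvectorUnitary
    simpa [star_eq_conjTranspose] using this
  · have h := hA.spectral_theorem
    rw [Unitary.conjStarAlgAut_apply] at h
    simpa [star_eq_conjTranspose, Function.comp_def] using h
  · intro r
    unfold mPow
    rw [dif_pos hA]

theorem mPow_eq_cfc {A : CMat n} (hA : A.IsHermitian) (r : ℝ) :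
    mPow r A = cfc (fun x : ℝ => x ^ r) A := by
  rw [hA.cfc_eq, IsHermitian.cfc, Unitary.conjStarAlgAut_apply]
  unfold mPow
  rw [dif_pos hA]
  rfl

theorem conj_mul_conj {U : CMat n} (hU : Uᴴ * U = 1) (v w : Fin n → ℂ) :
    U * diagonal v * Uᴴ * (U * diagonal w * Uᴴ) = U * diagonal (fun i => v i * w i) * Uᴴ := by
  calc U * diagonal v * Uᴴ * (U * diagonal w * Uᴴ)
      = U * (diagonal v * (Uᴴ * U) * diagonal w) * Uᴴ := by simp only [Matrix.mul_assoc]
    _ = _ := by rw [hU, Matrix.mul_one, diagonal_mul_diagonal]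

theorem conj_one {U : CMat n} (hU : U * Uᴴ = 1) :
    U * Matrix.diagonal (fun _ => (1 : ℂ)) * Uᴴ = 1 := by
  have h : (Matrix.diagonal (fun _ => (1 : ℂ)) : CMat n) = 1 := Matrix.diagonal_one
  rw [h, Matrix.mul_one, hU]

theorem posDef_conj {U : CMat n} (hU1 : Uᴴ * U = 1) {v : Fin n → ℝ}
    (hv : ∀ i, 0 < v i) : (U * diagonal (fun i => ((v i : ℝ) : ℂ)) * Uᴴ).PosDef := by
  have h1 : (diagonal (fun i => ((v i : ℝ) : ℂ)) : CMat n).PosDef := by
    rw [posDef_diagonal_iff]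
    intro i
    exact_mod_cast hv i
  have hu : IsUnit U := by
    rw [Matrix.isUnit_iff_isUnit_det]
    have h2 := congrArg det hU1
    rw [det_mul, det_one] at h2
    exact IsUnit.of_mul_eq_one _ (by rw [mul_comm]; exact h2)
  have h3 := (Matrix.IsUnit.posDef_star_right_conjugate_iff (x := diagonal (fun i => ((v i : ℝ) : ℂ))) hu).mpr h1
  simpa [star_eq_conjTranspose] using h3

theorem mPowAlg : MPowAlgStatement := by
  intro n A hA
  obtain ⟨U, hU1, hU2, hU3, hU4⟩ := mPow_spec hA.1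
  set d := hA.1.eigenvalues with hd
  have hpos : ∀ i, 0 < d i := hA.eigenvalues_pos
  refine ⟨?_, ?_, ?_, ?_, ?_⟩
  · intro r
    rw [hU4 r]
    exact posDef_conj hU1 fun i => Real.rpow_pos_of_pos (hpos i) r
  · intro r s
    rw [hU4, hU4, hU4, conj_mul_conj hU1]
    congr 3
    funext i
    rw [← Complex.ofReal_mul, ← Real.rpow_add (hpos i)]
  · rw [hU4 0]
    have h0 : (fun i => ((d i ^ (0 : ℝ) : ℝ) : ℂ)) = fun _ => (1 : ℂ) := by
      funext i
      simp
    rw [h0]
    exact conj_one hU2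
  · rw [hU4 1]
    simp only [Real.rpow_one]
    exact hU3.symm
  · intro r
    rw [hU4 r]
    conv_lhs => rw [hU3]
    conv_rhs => rw [hU3]
    rw [conj_mul_conj hU1, conj_mul_conj hU1]
    congr 3
    funext i
    ring

theorem mPowBound : MPowBoundStatement := by
  intro n A κ r hκ hr h
  have hA : A.IsHermitian := by
    have h1 := h.1
    have h2 : ((κ : ℂ) • (1 : CMat n)).IsHermitian := by
      unfold IsHermitian
      simp [conjTranspose_smul]
    have := h1.add h2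
    simpa using this
  obtain ⟨U, hU1, hU2, hU3, hU4⟩ := mPow_spec hA
  have hge : ∀ i, κ ≤ hA.eigenvalues i := fun i => eig_ge hA h i
  rw [hU4 r]
  have h1 : ((κ ^ r : ℝ) : ℂ) • (1 : CMat n) -
      U * diagonal (fun i => ((hA.eigenvalues i ^ r : ℝ) : ℂ)) * Uᴴ =
      U * diagonal (fun i => ((κ ^ r - hA.eigenvalues i ^ r : ℝ) : ℂ)) * Uᴴ := by
    have h3 : (diagonal (fun i => ((κ ^ r - hA.eigenvalues i ^ r : ℝ) : ℂ)) : CMat n) =
        ((κ ^ r : ℝ) : ℂ) • (1 : CMat n) -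
          diagonal (fun i => ((hA.eigenvalues i ^ r : ℝ) : ℂ)) := by
      ext a b
      by_cases hab : a = b
      · subst hab; simp
      · simp [hab]
    rw [h3, Matrix.mul_sub, Matrix.sub_mul, Matrix.mul_smul, Matrix.smul_mul, Matrix.mul_one, hU2]
  rw [h1]
  apply PosSemidef.mul_mul_conjTranspose_same
  rw [posSemidef_diagonal_iff]
  intro i
  have h4 : hA.eigenvalues i ^ r ≤ κ ^ r := Real.rpow_le_rpow_of_nonpos hκ (hge i) hr
  have h5 : (0 : ℝ) ≤ κ ^ r - hA.eigenvalues i ^ r := sub_nonneg.mpr h4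
  exact_mod_cast h5

theorem trPow_eq_rtr {A : CMat n} (hA : A.IsHermitian) (p : ℝ) :
    P371M.trPow p A = rtr (mPow p A) := by
  obtain ⟨U, hU1, hU2, hU3, hU4⟩ := mPow_spec hA
  rw [hU4 p]
  have h1 := rtr_spec (U := U) (1 : CMat n) (fun i => hA.eigenvalues i ^ p)
  rw [Matrix.one_mul, Matrix.mul_one, hU1] at h1
  rw [h1]
  unfold P371M.trPow
  rw [dif_pos hA]
  simp

theorem trPowSq : TrPowSqStatement := by
  intro n γ K hγ hK
  have hKK : (K * K).IsHermitian := by
    unfold IsHermitian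
    rw [conjTranspose_mul, hK.1.eq]
  have hKs : IsSelfAdjoint K := hK.1
  rw [trPow_eq_rtr hKK, trPow_eq_rtr hK.1, mPow_eq_cfc hKK, mPow_eq_cfc hK.1]
  have h1 : K * K = cfc (fun x : ℝ => x * x) K := by
    rw [cfc_mul (fun x : ℝ => x) (fun x : ℝ => x) K]
    rw [cfc_id' ℝ K]
  rw [h1, ← cfc_comp' (fun x : ℝ => x ^ γ) (fun x : ℝ => x * x) K
    ((Real.continuous_rpow_const hγ.le).continuousOn) (by fun_prop)]
  congr 1
  apply cfc_congr
  intro x hx
  have hx0 : 0 ≤ x := by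
    rw [hK.1.spectrum_real_eq_range_eigenvalues] at hx
    obtain ⟨i, rfl⟩ := hx
    exact hK.eigenvalues_nonneg i
  simp only
  rw [Real.rpow_mul hx0, Real.rpow_two, sq]

/-- norm of a positive definite matrix bounds its eigenvalues -/
theorem eig_le_norm {A : CMat n} (hA : A.IsHermitian) (i : Fin n) : hA.eigenvalues i ≤ ‖A‖ := by
  obtain ⟨U, hU1, hU2, hU3⟩ := exists_spec hA
  have h3 : diagonal (fun i => ((hA.eigenvalues i : ℝ) : ℂ)) = Uᴴ * A * (Uᴴ)ᴴ := by
    rw [conjTranspose_conjTranspose]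
    conv_rhs => rw [hU3]
    calc diagonal (fun i => ((hA.eigenvalues i : ℝ) : ℂ))
        = (Uᴴ * U) * diagonal (fun i => ((hA.eigenvalues i : ℝ) : ℂ)) * (Uᴴ * U) := by
          rw [hU1]; simp
      _ = _ := by simp only [Matrix.mul_assoc]
  have h4 : ‖(diagonal (fun i => ((hA.eigenvalues i : ℝ) : ℂ)) : CMat n)‖ ≤ ‖A‖ := by
    rw [h3]
    refine norm_conj_le (U := Uᴴ) ?_ _
    rw [conjTranspose_conjTranspose]
    exact hU2
  rw [l2_opNorm_diagonal] at h4
  have h5 := (norm_le_pi_norm (fun i => ((hA.eigenvalues i : ℝ) : ℂ)) i).trans h4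
  rw [Complex.norm_real, Real.norm_eq_abs] at h5
  exact (le_abs_self _).trans h5

theorem mPowCont : MPowContStatement := by
  intro n r A₀ hA₀
  have hA₀' : A₀.PosDef := hA₀
  obtain ⟨c₁, hc₁, h₁⟩ := exists_lower hA₀'
  set c := c₁ / 2 with hcdef
  have hc : 0 < c := by positivity
  have h₁' : (A₀ - ((2 * c : ℝ) : ℂ) • (1 : CMat n)).PosSemidef := by
    have : 2 * c = c₁ := by rw [hcdef]; ring
    rw [this]
    exact h₁
  have hev1 : ∀ᶠ A : CMat n in 𝓝 A₀, ‖A - A₀‖ < c := by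
    have h3 : Continuous fun A : CMat n => ‖A - A₀‖ := (continuous_id.sub continuous_const).norm
    have h4 := h3.continuousAt (x := A₀)
    have h5 : ‖A₀ - A₀‖ < c := by simpa using hc
    exact h4.eventually (gt_mem_nhds h5)
  have hev : ∀ᶠ A : CMat n in 𝓝[{A | A.PosDef}] A₀,
      spectrum ℝ A ⊆ Icc c (‖A₀‖ + c) := by
    filter_upwards [self_mem_nhdsWithin, nhdsWithin_le_nhds hev1] with A hA hA1
    have hA' : A.PosDef := hA
    have hlow := lower_stable hA'.1 h₁' hA1.le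
    rw [hA'.1.spectrum_real_eq_range_eigenvalues]
    rintro x ⟨i, rfl⟩
    refine ⟨eig_ge hA'.1 hlow i, (eig_le_norm hA'.1 i).trans ?_⟩
    have h6 : ‖A‖ ≤ ‖A₀‖ + ‖A - A₀‖ := by
      have h7 := norm_add_le A₀ (A - A₀)
      simpa using h7
    linarith
  have hself : ∀ᶠ A : CMat n in 𝓝[{A | A.PosDef}] A₀, IsSelfAdjoint A := by
    filter_upwards [self_mem_nhdsWithin] with A hA
    exact (show A.PosDef from hA).1
  have hcont : ContinuousOn (fun x : ℝ => x ^ r) (Icc c (‖A₀‖ + c)) := by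
    intro x hx
    have hx0 : x ≠ 0 := by
      have := hx.1
      linarith
    exact (Real.continuousAt_rpow_const x r (Or.inl hx0)).continuousWithinAt
  have hkey : ContinuousWithinAt (fun A : CMat n => cfc (fun x : ℝ => x ^ r) A)
      {A | A.PosDef} A₀ :=
    ContinuousWithinAt.cfc (s := Icc c (‖A₀‖ + c)) isCompact_Icc (fun x : ℝ => x ^ r) hA₀
      continuousWithinAt_id hev hself hcont
  refine hkey.congr ?_ ?_
  · intro A hA
    exact mPow_eq_cfc (show A.PosDef from hA).1 r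
  · exact mPow_eq_cfc hA₀'.1 r

end P371G.FAx
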