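import Vale.Agent.P371G.Basic

/-! Module FB1: the scalar mixture formula (Beta integral). -/

namespace P371G

open Matrix MeasureTheory Set Filter Topology
open scoped ComplexOrder

namespace FB1

/-- the left hand side for different arguments -/
lemma lhs_ne {p p' : ℝ} (hp : 0 < p) (hp' : 0 < p') (hne : p ≠ p') :
    ∫ s in Ioi (0 : ℝ), ((p + s) * (p' + s))⁻¹ = (Real.log p - Real.log p') / (p - p') := by
  have hd : p' - p ≠ 0 := sub_ne_zero.mpr hne.symm
  have h := integral_Ioi_of_hasDerivAt_of_nonneg'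
    (g := fun s => (p' - p)⁻¹ * (Real.log (p + s) - Real.log (p' + s)))
    (g' := fun s => ((p + s) * (p' + s))⁻¹) (a := 0) (l := 0) ?_ ?_ ?_
  · rw [h]
    simp only [add_zero, zero_sub]
    have h1 : p - p' ≠ 0 := sub_ne_zero.mpr hne
    field_simp
    ring
  · intro x hx
    have hx' : (0 : ℝ) ≤ x := hx
    have h1 : p + x ≠ 0 := by positivity
    have h2 : p' + x ≠ 0 := by positivity
    have h3 : HasDerivAt (fun s : ℝ => p + s) 1 x := (hasDerivAt_id x).const_add p
    have h4 : HasDerivAt (fun s : ℝ => p' + s) 1 x := (hasDerivAt_id x).const_add p'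
    have h5 := ((h3.log h1).sub (h4.log h2)).const_mul (p' - p)⁻¹
    have h6 : (p' - p)⁻¹ * (1 / (p + x) - 1 / (p' + x)) = ((p + x) * (p' + x))⁻¹ := by
      field_simp
      ring
    rw [h6] at h5
    exact h5
  · intro x hx
    have hx' : (0 : ℝ) < x := hx
    positivity
  · have h1 : Tendsto (fun s : ℝ => p' + s) atTop atTop :=
      tendsto_atTop_add_const_left _ _ tendsto_id
    have h2 : Tendsto (fun s : ℝ => 1 + (p - p') * (p' + s)⁻¹) atTop (𝓝 (1 + (p - p') * 0)) :=
      (h1.inv_tendsto_atTop.const_mul _).const_add _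
    rw [mul_zero, add_zero] at h2
    have h3 := (Real.continuousAt_log one_ne_zero).tendsto.comp h2
    rw [Real.log_one] at h3
    have h4 := h3.const_mul (p' - p)⁻¹
    rw [mul_zero] at h4
    refine h4.congr' ?_
    filter_upwards [eventually_gt_atTop 0] with s hs
    have h5 : 0 < p + s := by positivity
    have h6 : 0 < p' + s := by positivity
    simp only [Function.comp]
    rw [← Real.log_div h5.ne' h6.ne']
    congr 2
    field_simp
    ring

/-- the Beta integral -/
lemma beta_eq (z : ℝ) (hz : z ≠ 0) :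
    Complex.betaIntegral (1 - Complex.I * z) (1 + Complex.I * z) =
      ((Real.pi * z / Real.sinh (Real.pi * z) : ℝ) : ℂ) := by
  have hz' : Complex.I * (z : ℂ) ≠ 0 :=
    mul_ne_zero Complex.I_ne_zero (Complex.ofReal_ne_zero.mpr hz)
  have h1 := Complex.Gamma_mul_Gamma_eq_betaIntegral (s := 1 - Complex.I * z)
    (t := 1 + Complex.I * z) (by simp) (by simp)
  have h2 : (1 - Complex.I * z) + (1 + Complex.I * z) = ((1 : ℕ) : ℂ) + 1 := by
    push_cast
    ring
  rw [h2, Complex.Gamma_nat_eq_factorial, Nat.factorial_one, Nat.cast_one, one_mul,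
    add_comm 1 (Complex.I * (z : ℂ)), Complex.Gamma_add_one _ hz'] at h1
  have h3 := Complex.Gamma_mul_Gamma_one_sub (Complex.I * z)
  have h4 : Complex.Gamma (1 - Complex.I * z) * (Complex.I * z * Complex.Gamma (Complex.I * z)) =
      Complex.I * z * (Complex.Gamma (Complex.I * z) * Complex.Gamma (1 - Complex.I * z)) := by
    ring
  rw [h4, h3] at h1
  rw [add_comm 1 (Complex.I * (z : ℂ)), ← h1]
  have h5 : Complex.sin (Real.pi * (Complex.I * z)) =
      (Real.sinh (Real.pi * z) : ℂ) * Complex.I := by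
    have : (Real.pi : ℂ) * (Complex.I * z) = ((Real.pi * z : ℝ) : ℂ) * Complex.I := by
      push_cast
      ring
    rw [this, Complex.sin_mul_I, Complex.ofReal_sinh]
  rw [h5]
  have h6 : (Real.sinh (Real.pi * z) : ℂ) ≠ 0 := by
    rw [Complex.ofReal_ne_zero]
    intro h
    rw [Real.sinh_eq_zero] at h
    exact (mul_ne_zero Real.pi_ne_zero hz) h
  push_cast at h6 ⊢
  field_simp

lemma beta_zero : Complex.betaIntegral 1 1 = 1 := by
  rw [Complex.betaIntegral_eval_one_right (by simp)]
  simp

/-- the right hand side is a Beta integral -/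
lemma rhs_eq (c : ℂ) (a : ℝ) :
    ∫ u in (0 : ℝ)..1, c * Complex.exp (Complex.I * ((a * (Real.log ((1 - u) / u) / Real.pi) : ℝ) : ℂ)) =
      c * Complex.betaIntegral (1 - Complex.I * ((a / Real.pi : ℝ) : ℂ))
        (1 + Complex.I * ((a / Real.pi : ℝ) : ℂ)) := by
  rw [intervalIntegral.integral_const_mul]
  congr 1
  unfold Complex.betaIntegral
  refine intervalIntegral.integral_congr_ae ?_
  have h1 : ∀ᵐ u : ℝ ∂volume, u ≠ 1 := by
    simp [ae_iff]
  filter_upwards [h1] with u hu1 hu
  rw [uIoc_of_le zero_le_one] at hu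
  have hu0 : 0 < u := hu.1
  have hu2 : 0 < 1 - u := by
    have := lt_of_le_of_ne hu.2 hu1
    linarith
  have e1 : (1 : ℂ) - u = ((1 - u : ℝ) : ℂ) := by push_cast; ring
  rw [e1, Complex.cpow_def_of_ne_zero (Complex.ofReal_ne_zero.mpr hu0.ne'),
    Complex.cpow_def_of_ne_zero (Complex.ofReal_ne_zero.mpr hu2.ne'), ← Complex.exp_add,
    ← Complex.ofReal_log hu0.le, ← Complex.ofReal_log hu2.le, Real.log_div hu2.ne' hu0.ne']
  congr 1
  push_cast
  ring

end FB1

/-- module FB1 -/
theorem factB1 : FactB1Statement := by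
  intro p p' hp hp'
  set a : ℝ := (Real.log p - Real.log p') / 2 with ha
  have hr : ∫ u in (0 : ℝ)..1, ((√p * √p')⁻¹ : ℂ) *
        Complex.exp (Complex.I * ((Real.log p - Real.log p') / 2 *
          (Real.log ((1 - u) / u) / Real.pi) : ℝ)) =
      ((√p * √p')⁻¹ : ℂ) * Complex.betaIntegral (1 - Complex.I * ((a / Real.pi : ℝ) : ℂ))
        (1 + Complex.I * ((a / Real.pi : ℝ) : ℂ)) := FB1.rhs_eq _ a
  rw [hr]
  by_cases hne : p = p'
  · subst hne
    have ha0 : a = 0 := by rw [ha]; simp
    rw [ha0]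
    simp only [zero_div, Complex.ofReal_zero, mul_zero, sub_zero, add_zero]
    rw [FB1.beta_zero]
    have h1 : ∫ s in Ioi (0 : ℝ), ((p + s) * (p + s))⁻¹ = p⁻¹ := by
      rw [← integral_sq hp]
      refine setIntegral_congr_fun measurableSet_Ioi fun s _ => ?_
      rw [inv_pow, sq]
    rw [h1, mul_one]
    have h2 : (√p : ℂ) * √p = p := by
      rw [← Complex.ofReal_mul, Real.mul_self_sqrt hp.le]
    rw [h2]
    push_cast
    rfl
  · rw [FB1.lhs_ne hp hp' hne]
    have ha0 : a ≠ 0 := by
      rw [ha]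
      intro h
      have h1 : Real.log p = Real.log p' := by linarith
      exact hne (Real.log_injOn_pos hp hp' h1)
    rw [FB1.beta_eq (a / Real.pi) (div_ne_zero ha0 Real.pi_ne_zero)]
    have h1 : Real.pi * (a / Real.pi) = a := by field_simp
    rw [h1, ← Complex.ofReal_mul, ← Complex.ofReal_inv, ← Complex.ofReal_mul]
    congr 1
    have h2 : 2 * (√p * √p') * Real.sinh a = p - p' := by
      have e1 : Real.exp a = √p / √p' := by
        rw [ha, sub_div, Real.exp_sub]
        congr 1
        · rw [← Real.log_sqrt hp.le, Real.exp_log (Real.sqrt_pos.mpr hp)]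
        · rw [← Real.log_sqrt hp'.le, Real.exp_log (Real.sqrt_pos.mpr hp')]
      have e2 : Real.exp (-a) = √p' / √p := by
        rw [Real.exp_neg, e1, inv_div]
      rw [Real.sinh_eq, e1, e2]
      have s1 := Real.sqrt_pos.mpr hp
      have s2 := Real.sqrt_pos.mpr hp'
      field_simp
      rw [Real.sq_sqrt hp.le, Real.sq_sqrt hp'.le]
    have h3 : p - p' ≠ 0 := sub_ne_zero.mpr hne
    have s1 := Real.sqrt_pos.mpr hp
    have s2 := Real.sqrt_pos.mpr hp'
    have h4 : Real.sinh a ≠ 0 := by
      intro h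
      rw [h, mul_zero] at h2
      exact h3 h2.symm
    rw [← h2]
    have h5 : Real.log p - Real.log p' = 2 * a := by rw [ha]; ring
    rw [h5]
    field_simp

end P371G
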