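import Vale.Agent.P371G.Defs

/-!
# P371G, module FB2: the determinant inequality
-/

namespace P371G

open Matrix MeasureTheory Set Filter Topology
open scoped ComplexOrder

/-- the determinant of a Hermitian matrix is real -/
theorem fb_det_eq {n : ℕ} {A : CMat n} (hA : A.IsHermitian) : det A = (rdet A : ℂ) := by
  rw [rdet, hA.det_eq_prod_eigenvalues]
  simp [← Complex.ofReal_prod]

theorem fb_rdet_pos {n : ℕ} {A : CMat n} (hA : A.PosDef) : 0 < rdet A :=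
  (Complex.lt_def.1 hA.det_pos).1

theorem fb_rdet_eq_prod {n : ℕ} {A : CMat n} (hA : A.IsHermitian) :
    rdet A = ∏ i, hA.eigenvalues i := by
  rw [rdet, hA.det_eq_prod_eigenvalues]
  simp [← Complex.ofReal_prod]

theorem fb_rtr_eq_sum {n : ℕ} {A : CMat n} (hA : A.IsHermitian) :
    rtr A = ∑ i, hA.eigenvalues i := by
  rw [rtr, hA.trace_eq_sum_eigenvalues]
  simp [← Complex.ofReal_sum]

/-- `det X ≤ exp (tr X - n)` for positive semidefinite `X` -/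
theorem fb_rdet_le_exp {n : ℕ} {X : CMat n} (hX : X.PosSemidef) :
    rdet X ≤ Real.exp (rtr X - n) := by
  rw [fb_rdet_eq_prod hX.isHermitian, fb_rtr_eq_sum hX.isHermitian]
  have h1 : ∏ i, hX.isHermitian.eigenvalues i ≤
      ∏ i, Real.exp (hX.isHermitian.eigenvalues i - 1) := by
    apply Finset.prod_le_prod
    · intro i _
      exact hX.eigenvalues_nonneg i
    · intro i _
      have := Real.add_one_le_exp (hX.isHermitian.eigenvalues i - 1)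
      linarith
  refine h1.trans (le_of_eq ?_)
  rw [← Real.exp_sum]
  congr 1
  simp [Finset.sum_sub_distrib]

/-- `1 ≤ det A` if `A - 1` is positive semidefinite -/
theorem fb_one_le_rdet {n : ℕ} {A : CMat n} (hA : (A - 1).PosSemidef) : 1 ≤ rdet A := by
  have hH : A.IsHermitian := by
    have := hA.isHermitian.add (Matrix.isHermitian_one (n := Fin n) (α := ℂ))
    simpa using this
  rw [fb_rdet_eq_prod hH]
  have h1 : ∀ i, 1 ≤ hH.eigenvalues i := by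
    intro i
    have h2 := hA.re_dotProduct_nonneg (hH.eigenvectorBasis i : Fin n → ℂ)
    rw [Matrix.sub_mulVec, dotProduct_sub, Matrix.one_mulVec] at h2
    have h3 := hH.eigenvalues_eq i
    have h4 : (star (hH.eigenvectorBasis i : Fin n → ℂ) ⬝ᵥ
        (hH.eigenvectorBasis i : Fin n → ℂ)) = 1 := by
      have h5 : inner ℂ (hH.eigenvectorBasis i) (hH.eigenvectorBasis i) = (1 : ℂ) := by
        simp
      rw [EuclideanSpace.inner_eq_star_dotProduct] at h5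
      rw [dotProduct_comm]
      exact h5
    rw [h4] at h2
    simp only [map_sub, RCLike.one_re] at h2
    rw [h3]
    linarith
  calc (1 : ℝ) = ∏ _i : Fin n, (1 : ℝ) := by simp
    _ ≤ _ := Finset.prod_le_prod (fun _ _ => by norm_num) fun i _ => h1 i

theorem fb_exists_factor {n : ℕ} {B : CMat n} (hB : B.PosSemidef) : ∃ C : CMat n, B = Cᴴ * C := by
  open scoped MatrixOrder in
  exact CStarAlgebra.nonneg_iff_eq_star_mul_self.mp hB.nonneg

/-- monotonicity of the determinant -/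
theorem fb_rdet_mono {n : ℕ} {A B : CMat n} (hB : B.PosDef) (hAB : (A - B).PosSemidef) :
    rdet B ≤ rdet A := by
  obtain ⟨R, hR⟩ := fb_exists_factor hB.posSemidef
  have hdR : IsUnit R.det := by
    rw [isUnit_iff_ne_zero]
    intro h0
    have := hB.det_pos
    rw [hR, det_mul, h0, mul_zero] at this
    exact lt_irrefl _ this
  have hR1 : R⁻¹ * R = 1 := Matrix.nonsing_inv_mul R hdR
  have hR2 : Rᴴ * (R⁻¹)ᴴ = 1 := by rw [← conjTranspose_mul, hR1, conjTranspose_one]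
  set N : CMat n := (R⁻¹)ᴴ * A * R⁻¹ with hN
  have hN1 : (N - 1).PosSemidef := by
    have h1 : N - 1 = (R⁻¹)ᴴ * (A - B) * R⁻¹ := by
      rw [Matrix.mul_sub, Matrix.sub_mul, hN, hR]
      congr 1
      have e1 : (R⁻¹)ᴴ * Rᴴ = 1 := by
        rw [← conjTranspose_mul, Matrix.mul_nonsing_inv R hdR, conjTranspose_one]
      calc (1 : CMat n) = ((R⁻¹)ᴴ * Rᴴ) * (R * R⁻¹) := by
            rw [e1, Matrix.mul_nonsing_inv R hdR, Matrix.one_mul]
        _ = (R⁻¹)ᴴ * (Rᴴ * R) * R⁻¹ := by simp only [Matrix.mul_assoc]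
    rw [h1]
    exact hAB.conjTranspose_mul_mul_same _
  have hA : A = Rᴴ * N * R := by
    calc A = (Rᴴ * (R⁻¹)ᴴ) * A * (R⁻¹ * R) := by rw [hR1, hR2, Matrix.one_mul, Matrix.mul_one]
      _ = Rᴴ * N * R := by rw [hN]; simp only [Matrix.mul_assoc]
  have hdet : det A = det B * det N := by
    have e : det B = det Rᴴ * det R := by
      rw [hR]; exact det_mul Rᴴ R
    rw [e]
    conv_lhs => rw [hA]
    rw [det_mul (Rᴴ * N) R, det_mul Rᴴ N]
    ring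
  have hNH : N.IsHermitian := by
    have := hN1.isHermitian.add (Matrix.isHermitian_one (n := Fin n) (α := ℂ))
    simpa using this
  have h1 := fb_one_le_rdet hN1
  have h2 : rdet A = rdet B * rdet N := by
    rw [rdet, hdet, fb_det_eq hB.isHermitian, fb_det_eq hNH, ← Complex.ofReal_mul,
      Complex.ofReal_re]
  rw [h2]
  have h3 := fb_rdet_pos hB
  nlinarith

theorem fb_key_id {n : ℕ} (S H Z x : CMat n) (hSH : S * H = 1) (hHS : H * S = 1)
    (hS : Sᴴ = S) :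
    (x - Z * x * S) * H * (x - Z * x * S)ᴴ =
      x * H * xᴴ - Z * (x * xᴴ) - (x * xᴴ) * Zᴴ + Z * (x * S * xᴴ) * Zᴴ := by
  have e1 : (x - Z * x * S)ᴴ = xᴴ - S * (xᴴ * Zᴴ) := by
    rw [conjTranspose_sub, conjTranspose_mul, conjTranspose_mul, hS]
  have e2 : (x - Z * x * S) * H = x * H - Z * x := by
    rw [Matrix.sub_mul, Matrix.mul_assoc (Z * x) S H, hSH, Matrix.mul_one]
  rw [e1, e2, Matrix.sub_mul, Matrix.mul_sub, Matrix.mul_sub]
  have e3 : x * H * (S * (xᴴ * Zᴴ)) = x * xᴴ * Zᴴ := by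
    calc x * H * (S * (xᴴ * Zᴴ)) = x * (H * S) * (xᴴ * Zᴴ) := by simp only [Matrix.mul_assoc]
      _ = _ := by rw [hHS, Matrix.mul_one, Matrix.mul_assoc]
  rw [e3]
  simp only [Matrix.mul_assoc]
  abel

/-- `A - C M⁻¹ C ⪰ 0` for a sum of two congruences -/
theorem fb_schur {n : ℕ} {S a b : CMat n} (hS : S.PosDef)
    (hM2 : (a * S * aᴴ + b * S * bᴴ).PosDef) :
    ((a * S⁻¹ * aᴴ + b * S⁻¹ * bᴴ) - (a * aᴴ + b * bᴴ) * (a * S * aᴴ + b * S * bᴴ)⁻¹ *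
      (a * aᴴ + b * bᴴ)).PosSemidef := by
  set M2 : CMat n := a * S * aᴴ + b * S * bᴴ with hM2d
  set C : CMat n := a * aᴴ + b * bᴴ with hC
  have hSd : IsUnit S.det := hS.isUnit.map Matrix.detMonoidHom
  have hMd : IsUnit M2.det := hM2.isUnit.map Matrix.detMonoidHom
  have hSH : S * S⁻¹ = 1 := Matrix.mul_nonsing_inv S hSd
  have hHS : S⁻¹ * S = 1 := Matrix.nonsing_inv_mul S hSd
  have hCH : Cᴴ = C := by rw [hC]; simp
  have hMiH : (M2⁻¹)ᴴ = M2⁻¹ := by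
    rw [Matrix.conjTranspose_nonsing_inv, hM2.isHermitian.eq]
  set Z : CMat n := C * M2⁻¹ with hZ
  have hZH : Zᴴ = M2⁻¹ * C := by rw [hZ, conjTranspose_mul, hCH, hMiH]
  have h1 := fb_key_id S S⁻¹ Z a hSH hHS hS.isHermitian.eq
  have h2 := fb_key_id S S⁻¹ Z b hSH hHS hS.isHermitian.eq
  have hH : (S⁻¹).PosSemidef := hS.inv.posSemidef
  have h3 := (hH.mul_mul_conjTranspose_same (a - Z * a * S)).add
    (hH.mul_mul_conjTranspose_same (b - Z * b * S))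
  rw [h1, h2] at h3
  have h4 : a * S⁻¹ * aᴴ - Z * (a * aᴴ) - a * aᴴ * Zᴴ + Z * (a * S * aᴴ) * Zᴴ +
      (b * S⁻¹ * bᴴ - Z * (b * bᴴ) - b * bᴴ * Zᴴ + Z * (b * S * bᴴ) * Zᴴ) =
      (a * S⁻¹ * aᴴ + b * S⁻¹ * bᴴ) - Z * C - C * Zᴴ + Z * M2 * Zᴴ := by
    rw [hC, hM2d, Matrix.mul_add, Matrix.add_mul, Matrix.mul_add, Matrix.add_mul]
    abel
  rw [h4] at h3
  have h5 : Z * M2 * Zᴴ = C * Zᴴ := by
    rw [hZ, Matrix.mul_assoc C, Matrix.nonsing_inv_mul M2 hMd, Matrix.mul_one]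
  rw [h5, sub_add_cancel, hZ] at h3
  exact h3

theorem fb_isUnit_det {n : ℕ} {P p : CMat n} (hP : P.PosDef) (hp1 : p * pᴴ = P) :
    IsUnit p.det := by
  rw [isUnit_iff_ne_zero]; intro h0
  have := hP.det_pos
  rw [← hp1, det_mul, h0, zero_mul] at this
  exact lt_irrefl _ this

/-- `p⁻¹ p⁻ᴴ = P⁻¹` -/
theorem fb_inv_mul {n : ℕ} {P p : CMat n} (hd : IsUnit p.det) (hp2 : pᴴ * p = P) :
    p⁻¹ * (p⁻¹)ᴴ = P⁻¹ := by
  symm
  apply Matrix.inv_eq_left_inv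
  have hpa : p * p⁻¹ = 1 := Matrix.mul_nonsing_inv p hd
  have hap : p⁻¹ * p = 1 := Matrix.nonsing_inv_mul p hd
  have hapH : (p⁻¹)ᴴ * pᴴ = 1 := by rw [← conjTranspose_mul, hpa, conjTranspose_one]
  calc p⁻¹ * (p⁻¹)ᴴ * P = p⁻¹ * ((p⁻¹)ᴴ * pᴴ) * p := by
        rw [← hp2]; simp only [Matrix.mul_assoc]
    _ = 1 := by rw [hapH, Matrix.mul_one, hap]

theorem fb_conj_one {n : ℕ} {P p : CMat n} (hd : IsUnit p.det) (hp1 : p * pᴴ = P) :
    p⁻¹ * P * (p⁻¹)ᴴ = 1 := by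
  have hap : p⁻¹ * p = 1 := Matrix.nonsing_inv_mul p hd
  have hpaH : pᴴ * (p⁻¹)ᴴ = 1 := by rw [← conjTranspose_mul, hap, conjTranspose_one]
  calc p⁻¹ * P * (p⁻¹)ᴴ = (p⁻¹ * p) * (pᴴ * (p⁻¹)ᴴ) := by
        rw [← hp1]; simp only [Matrix.mul_assoc]
    _ = 1 := by rw [hap, hpaH, Matrix.mul_one]

theorem fb_A_eq {n : ℕ} {P Q p q : CMat n} (hd : IsUnit p.det) (hp1 : p * pᴴ = P)
    (hq1 : q * qᴴ = Q) :
    p⁻¹ * (P + Q) * (p⁻¹)ᴴ = 1 + (p⁻¹ * q) * (p⁻¹ * q)ᴴ := by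
  rw [Matrix.mul_add, Matrix.add_mul, fb_conj_one hd hp1, conjTranspose_mul, ← hq1]
  simp only [Matrix.mul_assoc]

theorem fb_Ainv {n : ℕ} (D T : CMat n) (hT : T = 1 + Dᴴ * D) (hTT : T * T⁻¹ = 1) :
    (1 + D * Dᴴ)⁻¹ = 1 - D * T⁻¹ * Dᴴ := by
  apply Matrix.inv_eq_right_inv
  have e : (1 + D * Dᴴ) * D = D * T := by
    rw [hT]; simp only [Matrix.add_mul, Matrix.mul_add, Matrix.one_mul, Matrix.mul_one,
      Matrix.mul_assoc]
  calc (1 + D * Dᴴ) * (1 - D * T⁻¹ * Dᴴ)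
      = (1 + D * Dᴴ) - ((1 + D * Dᴴ) * D) * T⁻¹ * Dᴴ := by
        rw [Matrix.mul_sub, Matrix.mul_one]; simp only [Matrix.mul_assoc]
    _ = (1 + D * Dᴴ) - D * (T * T⁻¹) * Dᴴ := by rw [e]; simp only [Matrix.mul_assoc]
    _ = 1 := by rw [hTT, Matrix.mul_one]; abel

theorem fb_Binv {n : ℕ} (D Di T : CMat n) (hT : T = 1 + Dᴴ * D) (hTT : T⁻¹ * T = 1)
    (h1 : D * Di = 1) (h2 : Dᴴ * Diᴴ = 1) :
    (1 + Di * Diᴴ)⁻¹ = 1 - T⁻¹ := by
  apply Matrix.inv_eq_left_inv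
  have e1 : T * (Di * Diᴴ) = 1 + Di * Diᴴ := by
    have e0 : Dᴴ * D * (Di * Diᴴ) = 1 := by
      calc Dᴴ * D * (Di * Diᴴ) = Dᴴ * (D * Di) * Diᴴ := by simp only [Matrix.mul_assoc]
        _ = 1 := by rw [h1, Matrix.mul_one, h2]
    rw [hT, Matrix.add_mul, Matrix.one_mul, e0, add_comm]
  have e2 : T⁻¹ * (1 + Di * Diᴴ) = Di * Diᴴ := by
    rw [← e1, ← Matrix.mul_assoc, hTT, Matrix.one_mul]
  rw [Matrix.sub_mul, Matrix.one_mul, e2]
  abel

theorem fb_trace_eq {n : ℕ} (D Di : CMat n) (h1 : D * Di = 1) (h2 : Di * D = 1) :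
    rtr ((1 + D * Dᴴ)⁻¹ + (1 + Di * Diᴴ)⁻¹) = n := by
  obtain ⟨T, hT⟩ : ∃ T : CMat n, T = 1 + Dᴴ * D := ⟨_, rfl⟩
  have hTpd : T.PosDef := by
    rw [hT]
    exact Matrix.PosDef.one.add_posSemidef (Matrix.posSemidef_conjTranspose_mul_self D)
  have hTd : IsUnit T.det := hTpd.isUnit.map Matrix.detMonoidHom
  have hTT : T * T⁻¹ = 1 := Matrix.mul_nonsing_inv T hTd
  have hTT' : T⁻¹ * T = 1 := Matrix.nonsing_inv_mul T hTd
  have h3 : Dᴴ * Diᴴ = 1 := by rw [← conjTranspose_mul, h2, conjTranspose_one]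
  rw [fb_Ainv D T hT hTT, fb_Binv D Di T hT hTT' h1 h3]
  have e1 : trace (D * T⁻¹ * Dᴴ) = trace (1 - T⁻¹) := by
    have e0 : Dᴴ * (D * T⁻¹) = (T - 1) * T⁻¹ := by
      rw [hT, add_sub_cancel_left]; simp only [Matrix.mul_assoc]
    rw [Matrix.trace_mul_comm, e0, Matrix.sub_mul, hTT, Matrix.one_mul]
  have e2 : trace ((1 - D * T⁻¹ * Dᴴ + (1 - T⁻¹) : CMat n)) = (n : ℂ) := by
    rw [Matrix.trace_add, Matrix.trace_sub, e1, Matrix.trace_sub, Matrix.trace_one]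
    simp
  rw [rtr, e2]; simp

theorem fb_rdet_le_one {n : ℕ} (D Di : CMat n) (h1 : D * Di = 1) (h2 : Di * D = 1) :
    rdet ((1 + D * Dᴴ)⁻¹ + (1 + Di * Diᴴ)⁻¹) ≤ 1 := by
  have hA : (1 + D * Dᴴ).PosDef :=
    Matrix.PosDef.one.add_posSemidef (Matrix.posSemidef_self_mul_conjTranspose D)
  have hB : (1 + Di * Diᴴ).PosDef :=
    Matrix.PosDef.one.add_posSemidef (Matrix.posSemidef_self_mul_conjTranspose Di)
  have := fb_rdet_le_exp (hA.inv.add hB.inv).posSemidef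
  rw [fb_trace_eq D Di h1 h2, sub_self, Real.exp_zero] at this
  exact this

theorem fb_rdet_mul {n : ℕ} {A B C : CMat n} (hA : A.IsHermitian) (hB : B.IsHermitian)
    (hC : C.IsHermitian) (h : det A * det B = det C) : rdet A * rdet B = rdet C := by
  rw [fb_det_eq hA, fb_det_eq hB, fb_det_eq hC] at h
  exact_mod_cast h

theorem fb_sum_le {n : ℕ} {A B : CMat n} (hA : A.PosDef) (hB : B.PosDef)
    (h : rdet (A⁻¹ + B⁻¹) ≤ 1) : rdet (A + B) ≤ rdet A * rdet B := by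
  have hAd : IsUnit A.det := hA.isUnit.map Matrix.detMonoidHom
  have hBd : IsUnit B.det := hB.isUnit.map Matrix.detMonoidHom
  have hfac : A * (A⁻¹ + B⁻¹) * B = A + B := by
    rw [Matrix.mul_add, Matrix.mul_nonsing_inv A hAd, Matrix.add_mul, Matrix.one_mul,
      Matrix.mul_assoc, Matrix.nonsing_inv_mul B hBd, Matrix.mul_one, add_comm]
  have h1 : det A * det (A⁻¹ + B⁻¹) * det B = det (A + B) := by
    rw [← det_mul, ← det_mul, hfac]
  have hi : (A⁻¹ + B⁻¹).PosDef := hA.inv.add hB.inv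
  rw [fb_det_eq (hA.add hB).isHermitian, fb_det_eq hA.isHermitian, fb_det_eq hi.isHermitian,
    fb_det_eq hB.isHermitian] at h1
  have h2 : rdet A * rdet (A⁻¹ + B⁻¹) * rdet B = rdet (A + B) := by exact_mod_cast h1
  have hpA : 0 < rdet A := fb_rdet_pos hA
  have hpB : 0 < rdet B := fb_rdet_pos hB
  rw [← h2]
  have : 0 < rdet A * rdet B := by positivity
  nlinarith

/-- `det (p⁻¹ S p⁻ᴴ) det P = det S` -/
theorem fb_det_conj {n : ℕ} {P S p : CMat n} (hP : P.PosDef) (hS : S.PosDef)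
    (hd : IsUnit p.det) (hp2 : pᴴ * p = P) (hA : (p⁻¹ * S * (p⁻¹)ᴴ).PosDef) :
    rdet (p⁻¹ * S * (p⁻¹)ᴴ) * rdet P = rdet S := by
  apply fb_rdet_mul hA.isHermitian hP.isHermitian hS.isHermitian
  have hPd : IsUnit P.det := hP.isUnit.map Matrix.detMonoidHom
  have e : det p⁻¹ * det (p⁻¹)ᴴ * det P = 1 := by
    rw [← det_mul, fb_inv_mul hd hp2, ← det_mul, Matrix.nonsing_inv_mul P hPd, det_one]
  rw [det_mul, det_mul]
  calc det p⁻¹ * det S * det (p⁻¹)ᴴ * det P = det S * (det p⁻¹ * det (p⁻¹)ᴴ * det P) := by ring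
    _ = _ := by rw [e, mul_one]

theorem fb_detC {n : ℕ} {P Q : CMat n} (hP : P.PosDef) (hQ : Q.PosDef) :
    rdet (P⁻¹ + Q⁻¹) * (rdet P * rdet Q) = rdet (P + Q) := by
  have hPd : IsUnit P.det := hP.isUnit.map Matrix.detMonoidHom
  have hQd : IsUnit Q.det := hQ.isUnit.map Matrix.detMonoidHom
  have hC : (P⁻¹ + Q⁻¹).PosDef := hP.inv.add hQ.inv
  have hfac : P * (P⁻¹ + Q⁻¹) * Q = P + Q := by
    rw [Matrix.mul_add, Matrix.mul_nonsing_inv P hPd, Matrix.add_mul, Matrix.one_mul,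
      Matrix.mul_assoc, Matrix.nonsing_inv_mul Q hQd, Matrix.mul_one, add_comm]
  have h1 : det (P⁻¹ + Q⁻¹) * (det P * det Q) = det (P + Q) := by
    rw [← hfac, det_mul, det_mul]; ring
  rw [fb_det_eq hC.isHermitian, fb_det_eq hP.isHermitian, fb_det_eq hQ.isHermitian,
    fb_det_eq (hP.add hQ).isHermitian] at h1
  exact_mod_cast h1

theorem fb_CMC_posDef {n : ℕ} {C M : CMat n} (hC : C.PosDef) (hM : M.PosDef) :
    (C * M⁻¹ * C).PosDef := by
  have h2 : C * M⁻¹ * C = Cᴴ * M⁻¹ * C := by rw [hC.isHermitian.eq]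
  rw [h2]
  exact hM.inv.conjTranspose_mul_mul_same (Matrix.mulVec_injective_of_isUnit hC.isUnit)

theorem fb_detCMC {n : ℕ} {C M : CMat n} (hC : C.PosDef) (hM : M.PosDef) :
    rdet (C * M⁻¹ * C) * rdet M = rdet C ^ 2 := by
  have h1 : det (C * M⁻¹ * C) * det M = det C ^ 2 := by
    have e1 : det M⁻¹ * det M = 1 := by
      rw [← det_mul, Matrix.nonsing_inv_mul _ (hM.isUnit.map Matrix.detMonoidHom), det_one]
    rw [det_mul, det_mul]
    calc det C * det M⁻¹ * det C * det M = det C ^ 2 * (det M⁻¹ * det M) := by ring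
      _ = _ := by rw [e1, mul_one]
  rw [fb_det_eq (fb_CMC_posDef hC hM).isHermitian, fb_det_eq hM.isHermitian,
    fb_det_eq hC.isHermitian] at h1
  exact_mod_cast h1

/-- the numerical conclusion -/
theorem fb_final {x a b c m dP dQ dS y : ℝ} (hP : 0 < dP) (hQ : 0 < dQ) (hS : 0 < dS)
    (hm : 0 < m) (hA : a * dP = dS) (hB : b * dQ = dS) (hC : c * (dP * dQ) = dS)
    (hx : x * m = c ^ 2) (hab : m ≤ a * b) (hxy : x ≤ y) : 1 ≤ y * dP * dQ := by
  have hx0 : 0 ≤ x := by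
    by_contra h
    push Not at h
    have : x * m < 0 := mul_neg_of_neg_of_pos h hm
    have h2 : 0 ≤ c ^ 2 := sq_nonneg c
    linarith
  have h1 : c ^ 2 ≤ x * (a * b) := by
    rw [← hx]; exact mul_le_mul_of_nonneg_left hab hx0
  have e1 : c ^ 2 * (dP * dQ) ^ 2 = dS ^ 2 := by rw [← hC]; ring
  have e2 : (a * b) * (dP * dQ) = dS ^ 2 := by
    calc (a * b) * (dP * dQ) = (a * dP) * (b * dQ) := by ring
      _ = _ := by rw [hA, hB]; ring
  have h2 : dS ^ 2 ≤ x * (dP * dQ) * dS ^ 2 := by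
    calc dS ^ 2 = c ^ 2 * (dP * dQ) ^ 2 := e1.symm
      _ ≤ x * (a * b) * (dP * dQ) ^ 2 := mul_le_mul_of_nonneg_right h1 (by positivity)
      _ = x * (dP * dQ) * ((a * b) * (dP * dQ)) := by ring
      _ = _ := by rw [e2]
  have h3 : 1 ≤ x * (dP * dQ) := by
    by_contra hcon
    push Not at hcon
    have := mul_lt_mul_of_pos_right hcon (by positivity : 0 < dS ^ 2)
    linarith
  calc (1 : ℝ) ≤ x * (dP * dQ) := h3
    _ ≤ y * (dP * dQ) := mul_le_mul_of_nonneg_right hxy (by positivity)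
    _ = _ := by ring

theorem fb2 : FactB2Statement := by
  intro n P Q p q hP hQ hp1 hp2 hq1 hq2
  have hS : (P + Q).PosDef := hP.add hQ
  have hdp : IsUnit p.det := fb_isUnit_det hP hp1
  have hdq : IsUnit q.det := fb_isUnit_det hQ hq1
  have hDDi : (p⁻¹ * q) * (q⁻¹ * p) = 1 := by
    calc (p⁻¹ * q) * (q⁻¹ * p) = p⁻¹ * (q * q⁻¹) * p := by simp only [Matrix.mul_assoc]
      _ = 1 := by
        rw [Matrix.mul_nonsing_inv q hdq, Matrix.mul_one, Matrix.nonsing_inv_mul p hdp]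
  have hDiD : (q⁻¹ * p) * (p⁻¹ * q) = 1 := by
    calc (q⁻¹ * p) * (p⁻¹ * q) = q⁻¹ * (p * p⁻¹) * q := by simp only [Matrix.mul_assoc]
      _ = 1 := by
        rw [Matrix.mul_nonsing_inv p hdp, Matrix.mul_one, Matrix.nonsing_inv_mul q hdq]
  have hAeq := fb_A_eq (P := P) (Q := Q) (p := p) (q := q) hdp hp1 hq1
  have hBeq := fb_A_eq (P := Q) (Q := P) (p := q) (q := p) hdq hq1 hp1
  rw [add_comm Q P] at hBeq
  have hle := fb_rdet_le_one (p⁻¹ * q) (q⁻¹ * p) hDDi hDiD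
  rw [← hAeq, ← hBeq] at hle
  have hApd : (p⁻¹ * (P + Q) * (p⁻¹)ᴴ).PosDef := by
    rw [hAeq]
    exact Matrix.PosDef.one.add_posSemidef (Matrix.posSemidef_self_mul_conjTranspose _)
  have hBpd : (q⁻¹ * (P + Q) * (q⁻¹)ᴴ).PosDef := by
    rw [hBeq]
    exact Matrix.PosDef.one.add_posSemidef (Matrix.posSemidef_self_mul_conjTranspose _)
  have hdA := fb_det_conj hP hS hdp hp2 hApd
  have hdB := fb_det_conj hQ hS hdq hq2 hBpd
  have hab := fb_sum_le hApd hBpd hle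
  have hCpd : (P⁻¹ + Q⁻¹).PosDef := hP.inv.add hQ.inv
  have hsch := fb_schur (a := p⁻¹) (b := q⁻¹) hS (hApd.add hBpd)
  rw [fb_inv_mul hdp hp2, fb_inv_mul hdq hq2] at hsch
  exact fb_final (fb_rdet_pos hP) (fb_rdet_pos hQ) (fb_rdet_pos hS)
    (fb_rdet_pos (hApd.add hBpd)) hdA hdB (fb_detC hP hQ)
    (fb_detCMC hCpd (hApd.add hBpd)) hab
    (fb_rdet_mono (fb_CMC_posDef hCpd (hApd.add hBpd)) hsch)

end P371G
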