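import Vale.Agent.P371G.ExampleG

/-!
# P371G : final wrapper (from `MainStatement`)
-/

namespace P371G

open Set MeasureTheory Filter Topology Matrix
open scoped ComplexConjugate ENNReal ComplexOrder

theorem ltConst_le (hMain : MainStatement) {γ : ℝ} (h1 : 1 / 2 < γ) (h2 : γ < 3 / 2) (m : ℕ) :
    P371M.ltConst γ m ≤ ENNReal.ofReal (Cgam γ) := by
  have hC : 0 ≤ Cgam γ := by
    have hI := (const γ h1).1
    rw [Cgam]
    have : 0 ≤ (γ - 1 / 2) ^ (γ - 1 / 2) := Real.rpow_nonneg (by linarith) _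
    have : 0 ≤ (γ + 1 / 2) ^ (γ + 1 / 2) := Real.rpow_nonneg (by linarith) _
    positivity
  refine iSup_le fun W => iSup_le fun hW => iSup_le fun hpos => ?_
  have hne : ENNReal.ofReal (∫ x, P371M.trPow (γ + 1 / 2) (W x)) ≠ 0 := by
    simpa using hpos
  rw [ENNReal.div_le_iff hne ENNReal.ofReal_ne_top, ← ENNReal.ofReal_mul hC]
  refine iSup_le fun n => iSup_le fun lam => iSup_le fun u => iSup_le fun hfam => ?_
  rw [← ENNReal.ofReal_sum_of_nonneg fun j _ => Real.rpow_nonneg (abs_nonneg _) _]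
  exact ENNReal.ofReal_le_ofReal (hMain γ h1 h2 n m W hW lam u hfam)

/-- **All sharp one-dimensional Lieb-Thirring constants for `1/2 < γ < 3/2`.** -/
theorem finalG (hMain : MainStatement) {γ : ℝ} (h1 : 1 / 2 < γ) (h2 : γ < 3 / 2) {m : ℕ}
    (hm : 1 ≤ m) :
    P371M.ltConst γ m = P371M.ltOne γ ∧ P371M.ltConst γ m = ENNReal.ofReal (Lone γ) := by
  have hE := exampleG const γ h1
  have e : Cgam γ = Lone γ := (const γ h1).2
  have h3 := ltConst_le hMain h1 h2 m
  have h4 := (P371M.ltOne_le γ).trans (ltConst_le hMain h1 h2 1)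
  have h5 : P371M.ltConst γ m = ENNReal.ofReal (Cgam γ) := le_antisymm h3 (hE.2 m hm)
  have h6 : P371M.ltOne γ = ENNReal.ofReal (Cgam γ) := le_antisymm h4 hE.1
  exact ⟨h5.trans h6.symm, by rw [h5, e]⟩

end P371G
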