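import Vale.Agent.P371G.RiccComp

/-! # P371G : comparison on the grid (module R2d) -/

namespace P371G

open Matrix Set
open scoped ComplexOrder

theorem gridComp (hFl : FlowStatement) : GridCompStatement := by
  intro n h J K₁ K₂ W₁ W₂ hh hK₁ hK₂ hW₁ hW₂ hK hB hG
  have hsq : ∀ {K : CMat n}, K.IsHermitian → (K * K).IsHermitian := by
    intro K hK
    rw [IsHermitian, conjTranspose_mul, hK.eq]
  have key : ∀ j, j ≤ J → (fseq h K₁ W₁ j).IsHermitian ∧ (fseq h K₂ W₂ j).IsHermitian ∧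
      (fseq h K₂ W₂ j - fseq h K₁ W₁ j).PosSemidef ∧
      ∀ i < j, ∀ s ∈ Icc 0 h, IsUnit (Yx (K₂ * K₂ - W₂ i) (fseq h K₂ W₂ i) s) := by
    intro j
    induction j with
    | zero =>
      intro _
      exact ⟨hK₁, hK₂, hK, fun i hi => absurd hi (by omega)⟩
    | succ j ih =>
      intro hj
      obtain ⟨h1, h2, h3, h4⟩ := ih (by omega)
      have hjJ : j < J := by omega
      have hB1 : (K₁ * K₁ - W₁ j).IsHermitian := (hsq hK₁).sub (hW₁ j hjJ)
      have hB2 : (K₂ * K₂ - W₂ j).IsHermitian := (hsq hK₂).sub (hW₂ j hjJ)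
      have hu1 := hG j hjJ
      obtain ⟨hu2, hle⟩ := riccComp hFl n h _ _ _ _ hh hB1 hB2 h1 h2 (hB j hjJ) h3 hu1
      have hmem : h ∈ Icc 0 h := ⟨hh.le, le_rfl⟩
      refine ⟨(riccLocal hFl n h _ _ hh hB1 h1 hu1).2.1 h hmem,
        (riccLocal hFl n h _ _ hh hB2 h2 hu2).2.1 h hmem, hle h hmem, fun i hi => ?_⟩
      rcases Nat.lt_succ_iff_lt_or_eq.1 hi with h5 | h5
      · exact h4 i h5
      · subst h5
        exact hu2
  exact ⟨fun j hj => (key J le_rfl).2.2.2 j hj, fun j hj => (key j hj).2.2.1⟩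

end P371G
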