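import Vale.Agent.P371G.Defs

/-!
# P371G, module KL: Klein's inequalities, compression, shift
-/

namespace P371G

open Matrix
open scoped ComplexOrder

namespace KL

/-- real diagonal matrix -/
noncomputable def dg {n : ℕ} (a : Fin n → ℝ) : CMat n := diagonal fun i => ((a i : ℝ) : ℂ)

theorem mul_star (z : ℂ) : z * star z = ((‖z‖ ^ 2 : ℝ) : ℂ) := by
  have h := Complex.mul_conj' z
  push_cast
  exact h

/-- `tr (D_a M D_b M*) = Σ |M_ij|² a_i b_j` -/
theorem tr_diag {n m : ℕ} (M : Matrix (Fin n) (Fin m) ℂ) (a : Fin n → ℝ) (b : Fin m → ℝ) :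
    rtr (dg a * (M * dg b * Mᴴ)) = ∑ i, ∑ j, ‖M i j‖ ^ 2 * (a i * b j) := by
  unfold rtr dg
  rw [Matrix.trace, Complex.re_sum]
  refine Finset.sum_congr rfl fun i _ => ?_
  rw [Matrix.diag_apply, Matrix.diagonal_mul, Matrix.mul_apply]
  rw [Finset.mul_sum, Complex.re_sum]
  refine Finset.sum_congr rfl fun j _ => ?_
  rw [Matrix.mul_diagonal, Matrix.conjTranspose_apply]
  have h : (M i j * ((b j : ℝ) : ℂ) * star (M i j)) = (((b j : ℝ) * ‖M i j‖ ^ 2 : ℝ) : ℂ) := by
    have h1 : M i j * star (M i j) = ((‖M i j‖ ^ 2 : ℝ) : ℂ) := mul_star _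
    calc (M i j * ((b j : ℝ) : ℂ) * star (M i j)) = ((b j : ℝ) : ℂ) * (M i j * star (M i j)) := by
          ring
      _ = _ := by rw [h1]; push_cast; ring
  rw [h, ← Complex.ofReal_mul, Complex.ofReal_re]
  ring

/-- diagonal entries of `M D_b M*` -/
theorem diag_entry {n m : ℕ} (M : Matrix (Fin n) (Fin m) ℂ) (b : Fin m → ℝ) (i : Fin n) :
    ((M * dg b * Mᴴ) i i).re = ∑ j, ‖M i j‖ ^ 2 * b j := by
  unfold dg
  rw [Matrix.mul_apply, Complex.re_sum]
  refine Finset.sum_congr rfl fun j _ => ?_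
  rw [Matrix.mul_diagonal, Matrix.conjTranspose_apply]
  have h : (M i j * ((b j : ℝ) : ℂ) * star (M i j)) = (((b j : ℝ) * ‖M i j‖ ^ 2 : ℝ) : ℂ) := by
    have h1 : M i j * star (M i j) = ((‖M i j‖ ^ 2 : ℝ) : ℂ) := mul_star _
    calc (M i j * ((b j : ℝ) : ℂ) * star (M i j)) = ((b j : ℝ) : ℂ) * (M i j * star (M i j)) := by
          ring
      _ = _ := by rw [h1]; push_cast; ring
  rw [h, Complex.ofReal_re]
  ring

theorem row_sum {n m : ℕ} (M : Matrix (Fin n) (Fin m) ℂ) (i : Fin n) :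
    ∑ j, ‖M i j‖ ^ 2 = ((M * Mᴴ) i i).re := by
  have h := diag_entry M (fun _ => 1) i
  have h1 : dg (fun _ : Fin m => (1 : ℝ)) = 1 := by
    unfold dg
    simp
  rw [h1, Matrix.mul_one] at h
  rw [h]
  simp

theorem col_sum {n m : ℕ} (M : Matrix (Fin n) (Fin m) ℂ) (j : Fin m) :
    ∑ i, ‖M i j‖ ^ 2 = ((Mᴴ * M) j j).re := by
  have h := row_sum Mᴴ j
  rw [conjTranspose_conjTranspose] at h
  rw [← h]
  refine Finset.sum_congr rfl fun i _ => ?_
  rw [conjTranspose_apply, norm_star]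

section spectral

variable {n : ℕ} {A : CMat n} (hA : A.IsHermitian)

/-- the matrix of eigenvectors -/
noncomputable def U : CMat n := (hA.eigenvectorUnitary : CMat n)

theorem UU : U hA * (U hA)ᴴ = 1 := Unitary.coe_mul_star_self hA.eigenvectorUnitary

theorem UU' : (U hA)ᴴ * U hA = 1 := Unitary.coe_star_mul_self hA.eigenvectorUnitary

theorem spec : A = U hA * dg hA.eigenvalues * (U hA)ᴴ := by
  conv_lhs => rw [hA.spectral_theorem, Unitary.conjStarAlgAut_apply]
  rfl

theorem mPow_eq (r : ℝ) : mPow r A = U hA * dg (fun i => hA.eigenvalues i ^ r) * (U hA)ᴴ := by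
  unfold mPow
  rw [dif_pos hA]
  rfl

theorem trPow_eq (p : ℝ) : P371M.trPow p A = ∑ i, hA.eigenvalues i ^ p := by
  unfold P371M.trPow
  rw [dif_pos hA]

end spectral

theorem rtr_conj {n : ℕ} (V a b : CMat n) (hV : Vᴴ * V = 1) :
    rtr ((V * a * Vᴴ) * (V * b * Vᴴ)) = rtr (a * b) := by
  unfold rtr
  have h : (V * a * Vᴴ) * (V * b * Vᴴ) = V * (a * b) * Vᴴ := by
    calc (V * a * Vᴴ) * (V * b * Vᴴ) = V * a * (Vᴴ * V) * b * Vᴴ := by noncomm_ring
      _ = _ := by rw [hV]; noncomm_ring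
  rw [h, Matrix.trace_mul_comm, ← Matrix.mul_assoc, hV, Matrix.one_mul]

theorem dg_mul {n : ℕ} (a b : Fin n → ℝ) : dg a * dg b = dg fun i => a i * b i := by
  unfold dg
  rw [Matrix.diagonal_mul_diagonal]
  congr 1
  funext i
  push_cast
  rfl

theorem rtr_dg {n : ℕ} (a : Fin n → ℝ) : rtr (dg a) = ∑ i, a i := by
  unfold rtr dg
  rw [Matrix.trace_diagonal, Complex.re_sum]
  simp

/-- mixed traces -/
theorem rtr_mixed {n : ℕ} (V W : CMat n) (a b : Fin n → ℝ) :
    rtr ((V * dg a * Vᴴ) * (W * dg b * Wᴴ)) =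
      ∑ i, ∑ j, ‖(Vᴴ * W) i j‖ ^ 2 * (a i * b j) := by
  rw [← tr_diag]
  unfold rtr
  have h : (V * dg a * Vᴴ) * (W * dg b * Wᴴ) = V * (dg a * ((Vᴴ * W) * dg b * (Wᴴ))) := by
    noncomm_ring
  rw [h, Matrix.trace_mul_comm]
  congr 2
  rw [conjTranspose_mul, conjTranspose_conjTranspose]
  noncomm_ring

theorem rtr_add {n : ℕ} (A B : CMat n) : rtr (A + B) = rtr A + rtr B := by
  unfold rtr
  rw [Matrix.trace_add, Complex.add_re]

theorem rtr_sub {n : ℕ} (A B : CMat n) : rtr (A - B) = rtr A - rtr B := by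
  unfold rtr
  rw [Matrix.trace_sub, Complex.sub_re]

/-- The general Klein inequality: a pointwise inequality
`g x - g a - h a * (x - a) ≥ 0` on the spectra gives the trace inequality. -/
theorem klein_gen {n : ℕ} {A X : CMat n} (hA : A.IsHermitian) (hX : X.IsHermitian) (g : ℝ → ℝ)
    (c r : ℝ) (hpt : ∀ i j, g (hA.eigenvalues i) +
      c * (hA.eigenvalues i ^ r * (hX.eigenvalues j - hA.eigenvalues i)) ≤ g (hX.eigenvalues j)) :
    ∑ i, g (hA.eigenvalues i) + c * rtr (mPow r A * (X - A)) ≤ ∑ j, g (hX.eigenvalues j) := by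
  set V := U hA with hV
  set W := U hX with hW
  set a := hA.eigenvalues with ha
  set x := hX.eigenvalues with hx
  set w : Fin n → Fin n → ℝ := fun i j => ‖(Vᴴ * W) i j‖ ^ 2 with hw
  have hw0 : ∀ i j, 0 ≤ w i j := fun i j => by positivity
  have hVW : (Vᴴ * W) * (Vᴴ * W)ᴴ = 1 := by
    rw [conjTranspose_mul, conjTranspose_conjTranspose]
    calc Vᴴ * W * (Wᴴ * V) = Vᴴ * (W * Wᴴ) * V := by noncomm_ring
      _ = 1 := by rw [UU hX, Matrix.mul_one, UU' hA]
  have hVW' : (Vᴴ * W)ᴴ * (Vᴴ * W) = 1 := by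
    rw [conjTranspose_mul, conjTranspose_conjTranspose]
    calc Wᴴ * V * (Vᴴ * W) = Wᴴ * (V * Vᴴ) * W := by noncomm_ring
      _ = 1 := by rw [UU hA, Matrix.mul_one, UU' hX]
  have hrow : ∀ i, ∑ j, w i j = 1 := by
    intro i
    rw [hw]
    simp only
    rw [row_sum, hVW]
    simp
  have hcol : ∀ j, ∑ i, w i j = 1 := by
    intro j
    rw [hw]
    simp only
    rw [col_sum, hVW']
    simp
  have h1 : rtr (mPow r A * X) = ∑ i, ∑ j, w i j * (a i ^ r * x j) := by
    conv_lhs => rw [mPow_eq hA r, spec hX]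
    exact rtr_mixed V W _ _
  have h2 : rtr (mPow r A * A) = ∑ i, a i ^ r * a i := by
    have h3 : mPow r A * A = (V * dg (fun i => a i ^ r) * Vᴴ) * (V * dg a * Vᴴ) := by
      rw [mPow_eq hA r]
      congr 1
      exact spec hA
    rw [h3, rtr_conj _ _ _ (UU' hA), dg_mul, rtr_dg]
  have h4 : ∑ i, g (a i) = ∑ i, ∑ j, w i j * g (a i) := by
    refine Finset.sum_congr rfl fun i _ => ?_
    rw [← Finset.sum_mul, hrow, one_mul]
  have h5 : ∑ i, a i ^ r * a i = ∑ i, ∑ j, w i j * (a i ^ r * a i) := by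
    refine Finset.sum_congr rfl fun i _ => ?_
    rw [← Finset.sum_mul, hrow, one_mul]
  have h6 : ∑ j, g (x j) = ∑ i, ∑ j, w i j * g (x j) := by
    rw [Finset.sum_comm]
    refine Finset.sum_congr rfl fun j _ => ?_
    rw [← Finset.sum_mul, hcol, one_mul]
  rw [Matrix.mul_sub, rtr_sub, h1, h2, h4, h5, h6, ← Finset.sum_sub_distrib, Finset.mul_sum,
    ← Finset.sum_add_distrib]
  refine Finset.sum_le_sum fun i _ => ?_
  rw [← Finset.sum_sub_distrib, Finset.mul_sum, ← Finset.sum_add_distrib]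
  refine Finset.sum_le_sum fun j _ => ?_
  have h7 := mul_le_mul_of_nonneg_left (hpt i j) (hw0 i j)
  calc w i j * g (a i) + c * (w i j * (a i ^ r * x j) - w i j * (a i ^ r * a i))
      = w i j * (g (a i) + c * (a i ^ r * (x j - a i))) := by ring
    _ ≤ _ := h7

theorem scalar_klein (p : ℝ) (hp : 1 ≤ p) (a x : ℝ) (ha : 0 ≤ a) (hx : 0 ≤ x) :
    a ^ p + p * (a ^ (p - 1) * (x - a)) ≤ x ^ p := by
  rcases ha.eq_or_lt with rfl | ha
  · rcases hp.eq_or_lt with rfl | hp
    · simp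
    · rw [Real.zero_rpow (by linarith), Real.zero_rpow (by linarith)]
      simp only [zero_mul, mul_zero, add_zero]
      exact Real.rpow_nonneg hx p
  · have h1 := one_add_mul_self_le_rpow_one_add (s := x / a - 1)
      (by have : 0 ≤ x / a := div_nonneg hx ha.le
          linarith) hp
    have h2 : 1 + (x / a - 1) = x / a := by ring
    rw [h2, Real.div_rpow hx ha.le] at h1
    have h3 : 0 < a ^ p := Real.rpow_pos_of_pos ha p
    rw [le_div_iff₀ h3] at h1
    have h4 : a ^ (p - 1) = a ^ p / a := Real.rpow_sub_one ha.ne' p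
    rw [h4]
    calc a ^ p + p * (a ^ p / a * (x - a)) = (1 + p * (x / a - 1)) * a ^ p := by
          field_simp
      _ ≤ _ := h1

theorem scalar_conc (p : ℝ) (hp0 : 0 < p) (hp : p ≤ 1) (a x : ℝ) (ha : 0 < a) (hx : 0 ≤ x) :
    x ^ p ≤ a ^ p + p * (a ^ (p - 1) * (x - a)) := by
  have h1 := rpow_one_add_le_one_add_mul_self (s := x / a - 1)
      (by have : 0 ≤ x / a := div_nonneg hx ha.le
          linarith) hp0.le hp
  have h2 : 1 + (x / a - 1) = x / a := by ring
  rw [h2, Real.div_rpow hx ha.le] at h1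
  have h3 : 0 < a ^ p := Real.rpow_pos_of_pos ha p
  rw [div_le_iff₀ h3] at h1
  have h4 : a ^ (p - 1) = a ^ p / a := Real.rpow_sub_one ha.ne' p
  rw [h4]
  calc x ^ p ≤ (1 + p * (x / a - 1)) * a ^ p := h1
    _ = _ := by field_simp

theorem eig_nonneg {n : ℕ} {A : CMat n} (hA : A.PosSemidef) (i : Fin n) :
    0 ≤ hA.1.eigenvalues i := hA.eigenvalues_nonneg i

/-- sub-probability Young step -/
theorem young_step (p : ℝ) (hp : 1 ≤ p) (w x : ℝ) (hw : 0 ≤ w) (hx : 0 ≤ x) :
    x ^ (p - 1) * w ≤ 1 / p * w ^ p + (1 - 1 / p) * x ^ p := by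
  have hp0 : 0 < p := by linarith
  have h := scalar_klein p hp x w hx hw
  -- x^p + p x^(p-1) (w - x) ≤ w^p
  have h1 : x ^ (p - 1) * x = x ^ p ∨ (x = 0) := by
    rcases hx.eq_or_lt with rfl | hx
    · exact Or.inr rfl
    · left
      rw [← Real.rpow_add_one hx.ne', sub_add_cancel]
  have h2 : x ^ (p - 1) * x = x ^ p := by
    rcases h1 with h1 | rfl
    · exact h1
    · rw [mul_zero, Real.zero_rpow hp0.ne']
  have h3 : p * (x ^ (p - 1) * w) ≤ w ^ p + (p - 1) * x ^ p := by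
    have h4 : x ^ (p - 1) * (w - x) = x ^ (p - 1) * w - x ^ p := by rw [mul_sub, h2]
    rw [h4] at h
    linarith
  have h5 : x ^ (p - 1) * w = 1 / p * (p * (x ^ (p - 1) * w)) := by
    field_simp
  rw [h5]
  calc 1 / p * (p * (x ^ (p - 1) * w)) ≤ 1 / p * (w ^ p + (p - 1) * x ^ p) := by
        apply mul_le_mul_of_nonneg_left h3
        positivity
    _ = _ := by field_simp

end KL

open KL

/-- **KL1** -/
theorem klein : KleinStatement := by
  intro n p hp A X hA hX
  rw [trPow_eq hA.1, trPow_eq hX.1]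
  exact klein_gen hA.1 hX.1 (fun t => t ^ p) p (p - 1) fun i j =>
    scalar_klein p hp _ _ (eig_nonneg hA i) (eig_nonneg hX j)

/-- **KL2** -/
theorem kleinConc : KleinConcStatement := by
  intro n γ h0 h1 A X hA hX
  rw [trPow_eq hA.1, trPow_eq hX.1]
  have h := klein_gen hA.1 hX.1 (fun t => - t ^ γ) (-γ) (γ - 1) fun i j => by
    have := scalar_conc γ h0 h1 _ _ (hA.eigenvalues_pos i) (eig_nonneg hX j)
    linarith
  rw [Finset.sum_neg_distrib, Finset.sum_neg_distrib] at h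
  linarith

/-- **KL4** -/
theorem shift : ShiftStatement := by
  intro n p _ A w hApos _ hA
  have hB : (A + (w : ℂ) • (1 : CMat n)).IsHermitian := by
    refine hA.add ?_
    have h1 : ((w : ℂ) • (1 : CMat n)) = dg fun _ => w := by
      unfold dg
      ext i j
      simp [Matrix.one_apply, Matrix.diagonal_apply]
    rw [h1]
    unfold dg
    rw [Matrix.isHermitian_diagonal_iff]
    intro i
    rw [isSelfAdjoint_iff]
    exact Complex.conj_ofReal w
  rw [trPow_eq hB]
  have hspec : A + (w : ℂ) • (1 : CMat n) = U hA * dg (fun i => hA.eigenvalues i + w) * (U hA)ᴴ := by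
    have h1 : dg (fun i => hA.eigenvalues i + w) = dg hA.eigenvalues + (w : ℂ) • (1 : CMat n) := by
      unfold dg
      ext i j
      by_cases h : i = j
      · subst h
        simp
      · simp [h]
    rw [h1, Matrix.mul_add, Matrix.add_mul, ← spec hA, Matrix.mul_smul, Matrix.mul_one,
      Matrix.smul_mul, UU hA]
  have hroots : Multiset.map (fun i => ((hB.eigenvalues i : ℝ) : ℂ)) Finset.univ.val =
      Multiset.map (fun i => (((hA.eigenvalues i + w) : ℝ) : ℂ)) Finset.univ.val := by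
    have h1 : (A + (w : ℂ) • (1 : CMat n)).charpoly.roots =
        Multiset.map (fun i => ((hB.eigenvalues i : ℝ) : ℂ)) Finset.univ.val :=
      hB.roots_charpoly_eq_eigenvalues
    rw [← h1]
    have h2 : (A + (w : ℂ) • (1 : CMat n)).charpoly =
        ∏ i, (Polynomial.X - Polynomial.C (((hA.eigenvalues i + w) : ℝ) : ℂ)) := by
      rw [hspec, Matrix.charpoly_mul_comm, ← Matrix.mul_assoc, UU' hA, Matrix.one_mul]
      unfold dg
      rw [Matrix.charpoly_diagonal]
    rw [h2, Polynomial.roots_prod]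
    · simp only [Polynomial.roots_X_sub_C]
      rw [Multiset.bind_singleton]
    · exact Finset.prod_ne_zero_iff.2 fun i _ => Polynomial.X_sub_C_ne_zero _
  have hroots' := congrArg (fun s => (s.map fun z : ℂ => z.re ^ p).sum) hroots
  simp only [Multiset.map_map, Function.comp_def, Complex.ofReal_re] at hroots'
  exact hroots'

/-- **KL3** -/
theorem contr : ContrStatement := by
  intro n m p hp T W hW hT
  have hp0 : 0 < p := by linarith
  have hX : (T * W * Tᴴ).PosSemidef := hW.mul_mul_conjTranspose_same T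
  rw [trPow_eq hX.1, trPow_eq hW.1]
  set x := hX.1.eigenvalues with hx
  set w := hW.1.eigenvalues with hw
  have hx0 : ∀ i, 0 ≤ x i := eig_nonneg hX
  have hw0 : ∀ j, 0 ≤ w j := eig_nonneg hW
  set M : Matrix (Fin n) (Fin m) ℂ := (U hX.1)ᴴ * T * U hW.1 with hM
  -- M* M ≤ 1, M M* ≤ 1
  have hT' : (1 - T * Tᴴ).PosSemidef := by
    have h1 : (1 : CMat n).PosDef := Matrix.PosDef.one
    have h2 : (1 : CMat m).PosDef := Matrix.PosDef.one
    have : Invertible (1 : CMat n) := invertibleOne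
    have : Invertible (1 : CMat m) := invertibleOne
    have h3 := (Matrix.PosDef.fromBlocks₁₁ (A := (1 : CMat n)) T (1 : CMat m) h1).2
      (by rw [inv_one, Matrix.mul_one]; exact hT)
    have h4 := (Matrix.PosDef.fromBlocks₂₂ (1 : CMat n) T (D := (1 : CMat m)) h2).1 h3
    rw [inv_one, Matrix.mul_one] at h4
    exact h4
  have hcol : ∀ j, ∑ i, ‖M i j‖ ^ 2 ≤ 1 := by
    intro j
    rw [col_sum]
    have h1 : Mᴴ * M = (U hW.1)ᴴ * (Tᴴ * T) * U hW.1 := by
      rw [hM, conjTranspose_mul, conjTranspose_mul, conjTranspose_conjTranspose]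
      calc (U hW.1)ᴴ * (Tᴴ * U hX.1) * ((U hX.1)ᴴ * T * U hW.1)
          = (U hW.1)ᴴ * (Tᴴ * (U hX.1 * (U hX.1)ᴴ) * T) * U hW.1 := by
            simp only [Matrix.mul_assoc]
        _ = _ := by rw [UU, Matrix.mul_one]
    have h2 : (1 - Mᴴ * M).PosSemidef := by
      have h3 := hT.conjTranspose_mul_mul_same (U hW.1)
      have h4 : (U hW.1)ᴴ * (1 - Tᴴ * T) * U hW.1 = 1 - Mᴴ * M := by
        rw [h1, Matrix.mul_sub, Matrix.sub_mul, Matrix.mul_one, UU' hW.1]
      rwa [h4] at h3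
    have h5 := h2.diag_nonneg (i := j)
    rw [Matrix.sub_apply, Matrix.one_apply_eq] at h5
    have h6 := (Complex.le_def.1 h5).1
    simp only [Complex.zero_re, Complex.sub_re, Complex.one_re] at h6
    linarith
  have hrow : ∀ i, ∑ j, ‖M i j‖ ^ 2 ≤ 1 := by
    intro i
    rw [row_sum]
    have h1 : M * Mᴴ = (U hX.1)ᴴ * (T * Tᴴ) * U hX.1 := by
      rw [hM, conjTranspose_mul, conjTranspose_mul, conjTranspose_conjTranspose]
      calc (U hX.1)ᴴ * T * U hW.1 * ((U hW.1)ᴴ * (Tᴴ * U hX.1))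
          = (U hX.1)ᴴ * (T * (U hW.1 * (U hW.1)ᴴ) * Tᴴ) * U hX.1 := by
            simp only [Matrix.mul_assoc]
        _ = _ := by rw [UU, Matrix.mul_one]
    have h2 : (1 - M * Mᴴ).PosSemidef := by
      have h3 := hT'.conjTranspose_mul_mul_same (U hX.1)
      have h4 : (U hX.1)ᴴ * (1 - T * Tᴴ) * U hX.1 = 1 - M * Mᴴ := by
        rw [h1, Matrix.mul_sub, Matrix.sub_mul, Matrix.mul_one, UU' hX.1]
      rwa [h4] at h3
    have h5 := h2.diag_nonneg (i := i)
    rw [Matrix.sub_apply, Matrix.one_apply_eq] at h5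
    have h6 := (Complex.le_def.1 h5).1
    simp only [Complex.zero_re, Complex.sub_re, Complex.one_re] at h6
    linarith
  -- the eigenvalues
  have hxi : ∀ i, x i = ∑ j, ‖M i j‖ ^ 2 * w j := by
    intro i
    rw [← diag_entry]
    have h1 : M * dg w * Mᴴ = dg x := by
      have h2 : T * W * Tᴴ = U hX.1 * dg x * (U hX.1)ᴴ := spec hX.1
      have h3 : W = U hW.1 * dg w * (U hW.1)ᴴ := spec hW.1
      calc M * dg w * Mᴴ = (U hX.1)ᴴ * (T * (U hW.1 * dg w * (U hW.1)ᴴ) * Tᴴ) * U hX.1 := by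
            rw [hM, conjTranspose_mul, conjTranspose_mul, conjTranspose_conjTranspose]
            simp only [Matrix.mul_assoc]
        _ = (U hX.1)ᴴ * (T * W * Tᴴ) * U hX.1 := by
            congr 2
            congr 2
            exact h3.symm
        _ = (U hX.1)ᴴ * (U hX.1 * dg x * (U hX.1)ᴴ) * U hX.1 := by
            congr 2
        _ = ((U hX.1)ᴴ * U hX.1) * dg x * ((U hX.1)ᴴ * U hX.1) := by
            simp only [Matrix.mul_assoc]
        _ = dg x := by rw [UU' hX.1, Matrix.one_mul, Matrix.mul_one]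
    rw [h1]
    unfold dg
    rw [Matrix.diagonal_apply_eq, Complex.ofReal_re]
  have hxp : ∀ i, x i ^ p = ∑ j, ‖M i j‖ ^ 2 * (x i ^ (p - 1) * w j) := by
    intro i
    have h1 : x i ^ p = x i ^ (p - 1) * x i := by
      rcases (hx0 i).eq_or_lt with h | h
      · rw [← h, mul_zero, Real.zero_rpow hp0.ne']
      · rw [← Real.rpow_add_one h.ne', sub_add_cancel]
    rw [h1]
    conv_lhs => rw [hxi i, Finset.mul_sum]
    refine Finset.sum_congr rfl fun j _ => ?_
    rw [← hxi i]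
    ring
  have hpi : 0 ≤ 1 - 1 / p := by
    rw [sub_nonneg, div_le_one hp0]
    exact hp
  have key : ∑ i, x i ^ p ≤ 1 / p * ∑ j, w j ^ p + (1 - 1 / p) * ∑ i, x i ^ p := by
    calc ∑ i, x i ^ p = ∑ i, ∑ j, ‖M i j‖ ^ 2 * (x i ^ (p - 1) * w j) :=
          Finset.sum_congr rfl fun i _ => hxp i
      _ ≤ ∑ i, ∑ j, ‖M i j‖ ^ 2 * (1 / p * w j ^ p + (1 - 1 / p) * x i ^ p) := by
          refine Finset.sum_le_sum fun i _ => Finset.sum_le_sum fun j _ => ?_
          exact mul_le_mul_of_nonneg_left (young_step p hp _ _ (hw0 j) (hx0 i)) (by positivity)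
      _ = ∑ j, (∑ i, ‖M i j‖ ^ 2) * (1 / p * w j ^ p) +
          ∑ i, (∑ j, ‖M i j‖ ^ 2) * ((1 - 1 / p) * x i ^ p) := by
          simp only [mul_add, Finset.sum_add_distrib, Finset.sum_mul]
          rw [Finset.sum_comm (f := fun i j => ‖M i j‖ ^ 2 * (1 / p * w j ^ p))]
      _ ≤ ∑ j, 1 * (1 / p * w j ^ p) + ∑ i, 1 * ((1 - 1 / p) * x i ^ p) := by
          refine add_le_add (Finset.sum_le_sum fun j _ => ?_) (Finset.sum_le_sum fun i _ => ?_)
          · exact mul_le_mul_of_nonneg_right (hcol j)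
              (mul_nonneg (by positivity) (Real.rpow_nonneg (hw0 j) p))
          · exact mul_le_mul_of_nonneg_right (hrow i)
              (mul_nonneg hpi (Real.rpow_nonneg (hx0 i) p))
      _ = _ := by simp only [one_mul, Finset.mul_sum]
  have h1 : 1 / p * ∑ i, x i ^ p ≤ 1 / p * ∑ j, w j ^ p := by linarith
  exact le_of_mul_le_mul_left h1 (by positivity)

end P371G
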