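import Vale.Agent.P371G.LiftB

/-!
# P371G, module LIFT
-/

namespace P371G.LFx

open Matrix Set Filter Topology MeasureTheory
open scoped ComplexOrder MatrixOrder Matrix.Norms.L2Operator

variable {n : ℕ}

lemma ric_at_zero (hFlow : FlowStatement) (B f0 : CMat n) : ric B f0 0 = f0 := by
  obtain ⟨-, -, h0, -⟩ := hFlow n
  rw [ric, (h0 B f0).1, (h0 B f0).2, inv_one, Matrix.mul_one]

lemma fseq_herm (hLoc : RiccLocalStatement) {h : ℝ} (hh : 0 < h) {J : ℕ} {K : CMat n}
    {W : ℕ → CMat n} (hK : K.IsHermitian) (hW : ∀ j < J, (W j).IsHermitian)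
    (hG : Good h J K W) : ∀ j ≤ J, (fseq h K W j).IsHermitian := by
  intro j
  induction j with
  | zero => intro _; exact hK
  | succ j ih =>
    intro hj
    have h1 := ih (by omega)
    have hB : (K * K - W j).IsHermitian := by
      refine Matrix.IsHermitian.sub ?_ (hW j (by omega))
      rw [Matrix.IsHermitian, conjTranspose_mul, hK.eq]
    exact (hLoc n h (K * K - W j) (fseq h K W j) hh hB h1 (hG j (by omega))).2.1 h
      ⟨hh.le, le_rfl⟩

lemma Fv_herm (hFlow : FlowStatement) (hBound : RiccBoundStatement)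
    (hGrid : GridCompStatement) (hClosed : ClosedStatement) {h : ℝ} {J : ℕ} (hJ : 1 ≤ J)
    {W : CMat n → ℕ → CMat n} {w Λ : ℝ} (H : Fam h J W w Λ) {K : CMat n} (hK : K.PosSemidef) :
    (Fv h J W K).IsHermitian := by
  have h1 := (end_le hFlow hBound hGrid hClosed hJ H hK).1
  have h2 := (Kt_inK hFlow hGrid hClosed H hK).1.1
  have h3 := (h2.sub h1).add hK.1
  convert h3 using 1
  rw [Fv]
  abel

/-- the quadratic form of a matrix path -/
lemma hasDeriv_quad {f : ℝ → CMat n} {f' : CMat n} {s : Set ℝ} {x : ℝ}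
    (hf : ∀ i j, HasDerivWithinAt (fun t => f t i j) (f' i j) s x) (v : Fin n → ℂ) :
    HasDerivWithinAt (fun t => (star v ⬝ᵥ (f t *ᵥ v)).re) (star v ⬝ᵥ (f' *ᵥ v)).re s x := by
  have h1 : HasDerivWithinAt (fun t => star v ⬝ᵥ (f t *ᵥ v)) (star v ⬝ᵥ (f' *ᵥ v)) s x := by
    simp only [dotProduct, mulVec]
    refine HasDerivWithinAt.fun_sum fun i _ => ?_
    refine HasDerivWithinAt.const_mul _ ?_
    refine HasDerivWithinAt.fun_sum fun j _ => ?_
    exact (hf i j).mul_const _
  exact (Complex.reCLM.hasFDerivAt.comp_hasDerivWithinAt x h1)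

theorem exists_full (hFlow : FlowStatement) (hLoc : RiccLocalStatement)
    (hBound : RiccBoundStatement) (hGrid : GridCompStatement) (hClosed : ClosedStatement)
    (hOpen : OpenStatement) (hTr : TraceBoundStatement) (hVI : VIStatement)
    (hn : 0 < n) {h : ℝ} {J : ℕ} (hJ : 1 ≤ J) {W : CMat n → ℕ → CMat n} {w Λ : ℝ}
    (H : Fam h J W w Λ) :
    ∃ K : CMat n, K.PosDef ∧ InK h J K (W K) ∧ fseq h K (W K) J = -K := by
  have hh := H.hh
  set R : ℝ := n * (h * (J * Λ) + 3 * √Λ) / 2 + 1 with hR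
  have hR0 : 0 ≤ R := by
    have := H.hΛ
    positivity
  obtain ⟨K, hKS, hvi⟩ := hVI n (SR n R) (Fv h J W) (fun A hA => hA.1.1) SR_compact SR_convex
    (SR_nonempty hR0) (Fv_continuousOn hFlow hGrid hClosed hOpen H (fun A hA => hA.1))
    (fun A hA => Fv_herm hFlow hBound hGrid hClosed hJ H hA.1)
  have hK : K.PosSemidef := hKS.1
  set F := Fv h J W K with hF
  have hFh : F.IsHermitian := Fv_herm hFlow hBound hGrid hClosed hJ H hK
  have h1 : rtr (F * K) ≤ 0 := by
    have := hvi 0 ⟨Matrix.PosSemidef.zero, by rw [rtr_zero]; exact hR0⟩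
    rw [zero_sub, Matrix.mul_neg, rtr_neg] at this
    linarith
  have h2 : rtr K ≤ R - 1 := by
    have := trace_bound hFlow hBound hGrid hClosed hTr hJ H hK hn h1
    rw [hR]; linarith
  have hpair : ∀ B : CMat n, B.PosSemidef → rtr B ≤ 1 → 0 ≤ rtr (F * B) := by
    intro B hB hB1
    have := hvi (K + B) ⟨hK.add hB, by rw [rtr_add]; linarith⟩
    rwa [add_sub_cancel_left] at this
  have hFp : F.PosSemidef := psd_of_pairing hFh hpair
  have h3 : rtr (F * K) = 0 := by
    have hK0 := rtr_nonneg hK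
    set s : ℝ := (rtr K + 1)⁻¹ with hs
    have hs0 : 0 < s := by positivity
    have := hpair ((s : ℂ) • K) (psd_smul hK hs0.le) (by
      rw [rtr_smul, hs, inv_mul_le_iff₀ (by positivity)]
      linarith)
    rw [Matrix.mul_smul, rtr_smul] at this
    exact le_antisymm h1 ((mul_nonneg_iff_of_pos_left hs0).1 this)
  -- the threshold vanishes
  have hmem := th_mem hFlow hGrid hClosed H hK
  have hth : th h J W K = 0 := by
    by_contra hne
    set t := th h J W K with ht
    have ht0 : 0 < t := lt_of_le_of_ne hmem.1 (Ne.symm hne)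
    set tl : ℕ → ℝ := fun l => t - t / (l + 1) with htl
    have htl1 : Tendsto tl atTop (𝓝 t) := by
      have h4 : Tendsto (fun l : ℕ => t / ((l : ℝ) + 1)) atTop (𝓝 0) :=
        tendsto_const_nhds.div_atTop (tendsto_atTop_add_const_right _ _ tendsto_natCast_atTop_atTop)
      simpa using (tendsto_const_nhds (x := t)).sub h4
    have htl0 : ∀ l, 0 ≤ tl l := fun l => by
      have : t / ((l : ℝ) + 1) ≤ t := div_le_self ht0.le (by
        have : (0 : ℝ) ≤ l := Nat.cast_nonneg l
        linarith)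
      simp only [htl]; linarith
    have htl2 : ∀ l, tl l < t := fun l => by
      have : 0 < t / ((l : ℝ) + 1) := by positivity
      simp only [htl]; linarith
    have hKt : Tendsto (fun l => K + ((tl l : ℝ) : ℂ) • (1 : CMat n)) atTop
        (𝓝 (Kt h J W K)) := by
      refine tendsto_const_nhds.add (Tendsto.smul_const ?_ _)
      exact (Complex.continuous_ofReal.tendsto _).comp htl1
    have h5 := hOpen n h J (fun l => K + ((tl l : ℝ) : ℂ) • (1 : CMat n)) (fun _ => W K)
      (Kt h J W K) (W K) hh hmem.2.2.1 hKt (fun _ _ => tendsto_const_nhds)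
    set Dl : ℕ → CMat n := fun l => fseq h (K + ((tl l : ℝ) : ℂ) • (1 : CMat n)) (W K) J +
      (K + ((tl l : ℝ) : ℂ) • (1 : CMat n)) with hDl
    set D := fseq h (Kt h J W K) (W K) J + Kt h J W K with hD
    have hDlt : Tendsto Dl atTop (𝓝 D) := h5.2.add hKt
    have hFD : D = F + ((t : ℝ) : ℂ) • (1 : CMat n) := (Fv_add h J W K).symm
    have h6 := (Metric.tendsto_nhds.1 hDlt) t ht0
    obtain ⟨l, hl1, hl2⟩ := (h5.1.and h6).exists
    have hKl : (K + ((tl l : ℝ) : ℂ) • (1 : CMat n)).PosSemidef :=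
      hK.add (psd_smul_one (htl0 l))
    have hDlh : (Dl l).IsHermitian :=
      (fseq_herm hLoc hh hKl.1 (fun j hj => (H.psd hK hj).1) hl1 J le_rfl).add hKl.1
    have hDh : D.IsHermitian := by rw [hFD]; exact isHermitian_add_smul_one hFh t
    have h7 : (Dl l).PosSemidef := by
      have h8 : ‖Dl l - D‖ ≤ t := by rw [← dist_eq_norm]; exact hl2.le
      have h9 := hFp.add (psd_of_norm_le (hDlh.sub hDh) h8)
      convert h9 using 1
      rw [hFD]
      abel
    have h8 : tl l ∈ thSet h J W K := ⟨htl0 l, hKl, hl1, h7⟩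
    exact absurd (th_le h8) (not_le.2 (htl2 l))
  have hKt : Kt h J W K = K := by rw [Kt, hth]; simp
  have hin : InK h J K (W K) := by
    have := Kt_inK hFlow hGrid hClosed H hK
    rwa [hKt] at this
  have hFe : F = fseq h K (W K) J + K := by rw [hF, Fv, hKt]
  -- positivity of `K`
  have hKp : K.PosDef := by
    refine Matrix.PosDef.of_dotProduct_mulVec_pos hK.1 fun v hv => ?_
    refine lt_of_le_of_ne (hK.dotProduct_mulVec_nonneg v) fun h0 => hv ?_
    by_contra hv0
    have hJ0 : 0 < J := hJ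
    have hb := hBound n h J K (W K) hh (fun j hj => H.psd hK hj) hin 0 hJ0
    have hre0 : (star v ⬝ᵥ (K *ᵥ v)).re = 0 := by rw [← h0]; simp
    have hKKh : (K * K - W K 0).IsHermitian := by
      refine Matrix.IsHermitian.sub ?_ (H.psd hK hJ0).1
      rw [Matrix.IsHermitian, conjTranspose_mul, hK.1.eq]
    have hloc := hLoc n h (K * K - W K 0) (fseq h K (W K) 0) hh hKKh hK.1 (hin.2.1 0 hJ0)
    set φ : ℝ → ℝ := fun s =>
      (star v ⬝ᵥ (ric (K * K - W K 0) (fseq h K (W K) 0) s *ᵥ v)).re with hφ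
    have hφ0 : ∀ s ∈ Icc 0 h, φ s = 0 := by
      intro s hs
      obtain ⟨-, h4, h5⟩ := hb s hs
      have h6 := h4.re_dotProduct_nonneg v
      have h7 := h5.re_dotProduct_nonneg v
      simp only [sub_mulVec, add_mulVec, dotProduct_sub, dotProduct_add, map_sub, map_add] at h6 h7
      have h8 : RCLike.re (star v ⬝ᵥ (K *ᵥ v)) = (star v ⬝ᵥ (K *ᵥ v)).re := rfl
      rw [h8, hre0] at h6 h7
      have h9 : RCLike.re (star v ⬝ᵥ (ric (K * K - W K 0) (fseq h K (W K) 0) s *ᵥ v)) = φ s := rfl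
      rw [h9] at h6 h7
      linarith
    have h0mem : (0 : ℝ) ∈ Icc 0 h := ⟨le_rfl, hh.le⟩
    have hd := hasDeriv_quad (hloc.2.2 0 h0mem) v
    rw [hloc.1] at hd
    have hd2 : HasDerivWithinAt φ 0 (Icc 0 h) 0 :=
      (hasDerivWithinAt_const (0 : ℝ) (Icc 0 h) (0 : ℝ)).congr (fun s hs => hφ0 s hs)
        (hφ0 0 h0mem)
    have hud : UniqueDiffWithinAt ℝ (Icc 0 h) 0 := uniqueDiffOn_Icc hh 0 h0mem
    have h10 := hud.eq_deriv _ hd hd2
    have h11 : (K * K - W K 0 - fseq h K (W K) 0 * fseq h K (W K) 0) = -(W K 0) := by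
      change K * K - W K 0 - K * K = _
      abel
    rw [h11, neg_mulVec, dotProduct_neg, Complex.neg_re, neg_eq_zero] at h10
    have h12 := (H.low K hK 0 hJ0).re_dotProduct_nonneg v
    rw [sub_mulVec, dotProduct_sub, map_sub] at h12
    have h13 : RCLike.re (star v ⬝ᵥ (W K 0 *ᵥ v)) = (star v ⬝ᵥ (W K 0 *ᵥ v)).re := rfl
    rw [h13, h10, smul_mulVec, one_mulVec, dotProduct_smul] at h12
    have h14 : 0 < (star v ⬝ᵥ v).re := by
      have := dotProduct_star_self_pos_iff (v := v)
      have h15 : 0 < star v ⬝ᵥ v := this.2 hv0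
      exact (Complex.lt_def.1 h15).1
    have h16 : RCLike.re ((w : ℂ) • (star v ⬝ᵥ v)) = w * (star v ⬝ᵥ v).re := by
      simp
    rw [h16] at h12
    have := mul_pos H.hw h14
    linarith
  refine ⟨K, hKp, hin, ?_⟩
  have h4 : F = 0 := eq_zero_of_pairing hFp hKp h3
  rw [hFe] at h4
  exact eq_neg_of_add_eq_zero_left h4

/-- gluing -/
noncomputable def glue (a h : ℝ) (K : CMat n) (W : ℕ → CMat n) (x : ℝ) : CMat n :=
  ric (K * K - W ⌊(x - a) / h⌋₊) (fseq h K W ⌊(x - a) / h⌋₊) (x - (a + ⌊(x - a) / h⌋₊ * h))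

lemma glue_eq (hFlow : FlowStatement) {a h : ℝ} (hh : 0 < h) (K : CMat n) (W : ℕ → CMat n)
    (j : ℕ) {x : ℝ} (hx : x ∈ Icc (a + j * h) (a + (j + 1) * h)) :
    glue a h K W x = ric (K * K - W j) (fseq h K W j) (x - (a + j * h)) := by
  rcases hx.2.eq_or_lt with hx2 | hx2
  · have h1 : ⌊(x - a) / h⌋₊ = j + 1 := by
      have : (x - a) / h = ((j + 1 : ℕ) : ℝ) := by
        rw [hx2]; push_cast; field_simp; ring
      rw [this, Nat.floor_natCast]
    rw [glue, h1]
    have h2 : x - (a + ((j + 1 : ℕ) : ℝ) * h) = 0 := by rw [hx2]; push_cast; ring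
    have h3 : x - (a + j * h) = h := by rw [hx2]; ring
    rw [h2, h3, ric_at_zero hFlow]
    rfl
  · have h1 : ⌊(x - a) / h⌋₊ = j := by
      rw [Nat.floor_eq_iff (div_nonneg (by
        have : (0 : ℝ) ≤ j * h := by positivity
        linarith [hx.1]) hh.le), le_div_iff₀ hh, div_lt_iff₀ hh]
      constructor <;> linarith [hx.1]
    rw [glue, h1]

theorem lift (hFlow : FlowStatement) (hLoc : RiccLocalStatement)
    (hBound : RiccBoundStatement) (hGrid : GridCompStatement) (hClosed : ClosedStatement)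
    (hOpen : OpenStatement) (hTr : TraceBoundStatement) (hVI : VIStatement) : LiftStatement := by
  intro n a h J hh hJ W w Λ hw hWb hWc
  rcases Nat.eq_zero_or_pos n with hn | hn
  · subst hn
    have hA : ∀ A : CMat 0, A.PosSemidef := fun A => by
      rw [Subsingleton.elim A 0]; exact Matrix.PosSemidef.zero
    refine ⟨0, fun _ => 0, hA _, fun x _ => ⟨(hA _).1, hA _, hA _⟩, rfl, by simp, ?_⟩
    intro j _ x _ α
    exact α.elim0
  have hΛ : 0 ≤ Λ := by
    have h1 := (hWb 0 Matrix.PosSemidef.zero 0 (by omega))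
    have h2 := rtr_nonneg (h1.1.add h1.2)
    have e : W 0 0 - (w : ℂ) • (1 : CMat n) + ((Λ : ℂ) • (1 : CMat n) - W 0 0) =
        ((Λ - w : ℝ) : ℂ) • (1 : CMat n) := by
      push_cast
      rw [sub_smul]
      abel
    rw [e, rtr_smul, rtr_one] at h2
    have hn' : (0 : ℝ) < n := by exact_mod_cast hn
    have := (mul_nonneg_iff_of_pos_right hn').1 h2
    linarith
  have H : Fam h J W w Λ := ⟨hh, hw, hΛ, fun K hK j hj => (hWb K hK j hj).1,
    fun K hK j hj => (hWb K hK j hj).2, hWc⟩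
  obtain ⟨K, hKp, hin, hend⟩ := exists_full hFlow hLoc hBound hGrid hClosed hOpen hTr hVI hn hJ H
  have hWh : ∀ j < J, (W K j).PosSemidef := fun j hj => H.psd hKp.posSemidef hj
  have hfh := fseq_herm hLoc hh hKp.1 (fun j hj => (hWh j hj).1) hin.2.1
  have hb := hBound n h J K (W K) hh hWh hin
  refine ⟨K, glue a h K (W K), hKp.posSemidef, ?_, ?_, ?_, ?_⟩
  · intro x hx
    obtain ⟨j, hj, hxj⟩ : ∃ j < J, x ∈ Icc (a + j * h) (a + (j + 1) * h) := by
      rcases hx.2.eq_or_lt with hx2 | hx2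
      · refine ⟨J - 1, by omega, ?_⟩
        have : ((J - 1 : ℕ) : ℝ) = (J : ℝ) - 1 := by
          rw [Nat.cast_sub hJ]; simp
        rw [this, hx2]
        constructor <;> nlinarith
      · have h0 : 0 ≤ (x - a) / h := div_nonneg (by linarith [hx.1]) hh.le
        refine ⟨⌊(x - a) / h⌋₊, ?_, ?_, ?_⟩
        · rw [Nat.floor_lt h0, div_lt_iff₀ hh]
          linarith
        · have := Nat.floor_le h0
          rw [le_div_iff₀ hh] at this
          linarith
        · have := (Nat.lt_floor_add_one ((x - a) / h)).le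
          rw [div_le_iff₀ hh] at this
          linarith
    rw [glue_eq hFlow hh K (W K) j hxj]
    exact hb j hj (x - (a + j * h)) ⟨by linarith [hxj.1], by linarith [hxj.2]⟩
  · have := glue_eq hFlow hh K (W K) 0 (x := a) (a := a) (by
      constructor
      · simp
      · simp [hh.le])
    rw [this]
    simp only [Nat.cast_zero, zero_mul, add_zero, sub_self]
    exact ric_at_zero hFlow _ _
  · rw [← hend]
    have h1 : ⌊(a + J * h - a) / h⌋₊ = J := by
      have : (a + J * h - a) / h = (J : ℝ) := by field_simp; ring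
      rw [this, Nat.floor_natCast]
    rw [glue, h1, sub_self, ric_at_zero hFlow]
  · intro j hj x hx α β
    have hB : (K * K - W K j).IsHermitian := by
      refine Matrix.IsHermitian.sub ?_ (hWh j hj).1
      rw [Matrix.IsHermitian, conjTranspose_mul, hKp.1.eq]
    have hloc := hLoc n h (K * K - W K j) (fseq h K (W K) j) hh hB (hfh j hj.le)
      (hin.2.1 j hj)
    have hs : x - (a + j * h) ∈ Icc 0 h := ⟨by linarith [hx.1], by linarith [hx.2]⟩
    have h1 := hloc.2.2 _ hs α β
    have hmap : MapsTo (fun y => y - (a + j * h)) (Icc (a + j * h) (a + (j + 1) * h))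
        (Icc 0 h) := fun y hy => ⟨by linarith [hy.1], by linarith [hy.2]⟩
    have h2 := HasDerivWithinAt.scomp x h1
      ((hasDerivWithinAt_id x (Icc (a + j * h) (a + (j + 1) * h))).sub_const (a + j * h)) hmap
    rw [one_smul] at h2
    have hx' := glue_eq hFlow hh K (W K) j hx
    rw [hx', sub_right_comm]
    refine h2.congr (fun y hy => ?_) ?_
    · rw [glue_eq hFlow hh K (W K) j hy]; rfl
    · rw [hx']; rfl

end P371G.LFx
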