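import Vale.Agent.P371G.Defs

/-! Entrywise calculus of matrix functions (helper file of the Riccati modules). -/

namespace P371G

open Matrix MeasureTheory Set Filter Topology
open scoped ComplexOrder

section MatCalc

attribute [local instance] Matrix.linftyOpNormedRing Matrix.linftyOpNormedAlgebra

variable {n : ℕ}

lemma hasDerivWithinAt_of_entries {F : ℝ → CMat n} {F' : CMat n} {S : Set ℝ} {s : ℝ}
    (h : ∀ i j, HasDerivWithinAt (fun t => F t i j) (F' i j) S s) :
    HasDerivWithinAt F F' S s :=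
  hasDerivWithinAt_pi.2 fun i => hasDerivWithinAt_pi.2 fun j => h i j

lemma entries_of_hasDerivWithinAt {F : ℝ → CMat n} {F' : CMat n} {S : Set ℝ} {s : ℝ}
    (h : HasDerivWithinAt F F' S s) (i j : Fin n) :
    HasDerivWithinAt (fun t => F t i j) (F' i j) S s :=
  hasDerivWithinAt_pi.1 (hasDerivWithinAt_pi.1 h i) j

lemma hasDerivWithinAt_mul_entries {F G : ℝ → CMat n} {F' G' : CMat n} {S : Set ℝ} {s : ℝ}
    (hF : ∀ i j, HasDerivWithinAt (fun t => F t i j) (F' i j) S s)
    (hG : ∀ i j, HasDerivWithinAt (fun t => G t i j) (G' i j) S s) (i j : Fin n) :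
    HasDerivWithinAt (fun t => (F t * G t) i j) ((F' * G s + F s * G') i j) S s :=
  entries_of_hasDerivWithinAt
    ((hasDerivWithinAt_of_entries hF).mul (hasDerivWithinAt_of_entries hG)) i j

lemma hasDerivWithinAt_inv_entries {F : ℝ → CMat n} {F' : CMat n} {S : Set ℝ} {s : ℝ}
    (hF : ∀ i j, HasDerivWithinAt (fun t => F t i j) (F' i j) S s) (hu : IsUnit (F s))
    (i j : Fin n) :
    HasDerivWithinAt (fun t => ((F t)⁻¹) i j) ((-((F s)⁻¹ * F' * (F s)⁻¹)) i j) S s := by
  obtain ⟨u, hu⟩ := hu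
  have h1 := hasFDerivAt_ringInverse (𝕜 := ℝ) u
  rw [hu] at h1
  have h2 := h1.comp_hasDerivWithinAt s (hasDerivWithinAt_of_entries hF)
  have h3 := entries_of_hasDerivWithinAt h2 i j
  have e : ((u⁻¹ : (CMat n)ˣ) : CMat n) = (F s)⁻¹ := by
    rw [Matrix.coe_units_inv, hu]
  simp only [Function.comp] at h3
  rw [e] at h3
  simpa [Matrix.nonsing_inv_eq_ringInverse] using h3

end MatCalc

end P371G
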