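import Vale.Agent.P371G.Basic
import Vale.Agent.P371G.MatCalc

/-! # P371G, module CP1: derivative of the potential `Phi` along a path -/

namespace P371G

open Matrix MeasureTheory Set Filter Topology
open scoped ComplexOrder Matrix.Norms.L2Operator

namespace CP1

variable {n : ℕ}

lemma rtr_hasDeriv (A : CMat n) {M : ℝ → CMat n} {M' : CMat n} {S : Set ℝ} {x : ℝ}
    (h : ∀ i j, HasDerivWithinAt (fun t => M t i j) (M' i j) S x) :
    HasDerivWithinAt (fun t => rtr (A * M t)) (rtr (A * M')) S x := by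
  have h1 : HasDerivWithinAt (fun t => trace (A * M t)) (trace (A * M')) S x := by
    simp only [trace, diag_apply, mul_apply]
    apply HasDerivWithinAt.fun_sum
    intro i _
    apply HasDerivWithinAt.fun_sum
    intro j _
    exact (h j i).const_mul _
  have h2 := Complex.reCLM.hasFDerivAt.comp_hasDerivWithinAt x h1
  exact h2

lemma res_hasDeriv {P : ℝ → CMat n} {P' : CMat n} {S : Set ℝ} {x s : ℝ}
    (hP : ∀ i j, HasDerivWithinAt (fun t => P t i j) (P' i j) S x)
    (hu : IsUnit (P x + (s : ℂ) • (1 : CMat n))) (i j : Fin n) :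
    HasDerivWithinAt (fun t => res (P t) s i j) ((-(res (P x) s * P' * res (P x) s)) i j) S x := by
  have h := hasDerivWithinAt_inv_entries (F := fun t => P t + (s : ℂ) • (1 : CMat n)) (F' := P')
    (S := S) (s := x) ?_ hu i j
  · exact h
  · intro i j
    simpa using (hP i j).add_const (((s : ℂ) • (1 : CMat n)) i j)

lemma isUnit_add {P : CMat n} (hP : P.PosDef) {s : ℝ} (hs : 0 ≤ s) :
    IsUnit (P + (s : ℂ) • (1 : CMat n)) :=
  (posDef_add_smul hP hs).isUnit

lemma posDef_isHerm {P : CMat n} {c : ℝ} (h : (P - (c : ℂ) • (1 : CMat n)).PosSemidef) :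
    P.IsHermitian := by
  have h1 := h.1
  have h2 : ((c : ℂ) • (1 : CMat n)).IsHermitian := by
    unfold IsHermitian
    simp [conjTranspose_smul]
  have := h1.add h2
  simpa using this

/-- uniform lower bound on a compact interval -/
lemma exists_lower_unif {P : ℝ → CMat n} {a b : ℝ}
    (hP : ∀ x ∈ Icc a b, (P x).PosDef) (hc : ContinuousOn P (Icc a b)) :
    ∃ c : ℝ, 0 < c ∧ ∀ x ∈ Icc a b, (P x - (c : ℂ) • (1 : CMat n)).PosSemidef := by
  have hmono : ∀ {c c' : ℝ} {A : CMat n}, c' ≤ c → (A - (c : ℂ) • (1 : CMat n)).PosSemidef →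
      (A - (c' : ℂ) • (1 : CMat n)).PosSemidef := by
    intro c c' A hcc h
    have h1 : (((c - c' : ℝ) : ℂ) • (1 : CMat n)).PosSemidef := by
      apply PosSemidef.smul PosSemidef.one
      exact_mod_cast sub_nonneg.mpr hcc
    have h2 := h.add h1
    have h3 : A - (c : ℂ) • (1 : CMat n) + ((c - c' : ℝ) : ℂ) • (1 : CMat n) =
        A - (c' : ℂ) • (1 : CMat n) := by
      push_cast
      rw [sub_smul]
      abel
    rwa [h3] at h2
  refine IsCompact.induction_on (p := fun s => ∃ c : ℝ, 0 < c ∧ ∀ x ∈ s,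
    (P x - (c : ℂ) • (1 : CMat n)).PosSemidef) (isCompact_Icc (a := a) (b := b)) ?_ ?_ ?_ ?_
  · exact ⟨1, one_pos, fun x hx => hx.elim⟩
  · rintro s t hst ⟨c, hc, h⟩
    exact ⟨c, hc, fun x hx => h x (hst hx)⟩
  · rintro s t ⟨c, hc, h⟩ ⟨c', hc', h'⟩
    refine ⟨min c c', lt_min hc hc', ?_⟩
    rintro x (hx | hx)
    · exact hmono (min_le_left _ _) (h x hx)
    · exact hmono (min_le_right _ _) (h' x hx)
  · intro x hx
    obtain ⟨c, hc0, h⟩ := exists_lower (hP x hx)
    have h1 : ∀ᶠ y in 𝓝[Icc a b] x, ‖P y - P x‖ < c / 2 := by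
      have h2 := (hc x hx)
      have h3 : Tendsto (fun y => ‖P y - P x‖) (𝓝[Icc a b] x) (𝓝 0) := by
        have h4 : Tendsto (fun y => P y - P x) (𝓝[Icc a b] x) (𝓝 (P x - P x)) :=
          h2.sub tendsto_const_nhds
        rw [sub_self] at h4
        simpa using h4.norm
      exact h3.eventually (gt_mem_nhds (by linarith))
    refine ⟨{y | ‖P y - P x‖ < c / 2} ∩ Icc a b,
      Filter.inter_mem h1 self_mem_nhdsWithin, c / 2, by linarith, ?_⟩
    rintro y ⟨hy, hy'⟩
    apply lower_stable (P₀ := P x) (hP y hy').1 _ hy.le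
    have : 2 * (c / 2) = c := by ring
    rw [this]
    exact h

/-- trace cyclicity used in the derivative -/
lemma rtr_cycl (A R X : CMat n) : rtr (A * (R * X * R)) = rtr (R * A * R * X) := by
  unfold rtr
  congr 1
  calc trace (A * (R * X * R)) = trace ((A * (R * X)) * R) := by rw [Matrix.mul_assoc A]
    _ = trace (R * (A * (R * X))) := trace_mul_comm _ _
    _ = _ := by simp only [Matrix.mul_assoc]

lemma rtr_add (A B : CMat n) : rtr (A + B) = rtr A + rtr B := by
  simp [rtr, trace_add]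

lemma rtr_neg (A : CMat n) : rtr (-A) = - rtr A := by
  simp [rtr, trace_neg]

/-- the resolvent identity -/
lemma res_sub {P Q : CMat n} {s : ℝ} (hP : IsUnit (P + (s : ℂ) • (1 : CMat n)))
    (hQ : IsUnit (Q + (s : ℂ) • (1 : CMat n))) :
    res Q s - res P s = res Q s * (P - Q) * res P s := by
  have hP' := (Matrix.isUnit_iff_isUnit_det _).mp hP
  have hQ' := (Matrix.isUnit_iff_isUnit_det _).mp hQ
  unfold res
  have h1 : P - Q = (P + (s : ℂ) • (1 : CMat n)) - (Q + (s : ℂ) • (1 : CMat n)) := by abel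
  rw [h1, Matrix.mul_sub, Matrix.sub_mul, Matrix.nonsing_inv_mul _ hQ', Matrix.mul_assoc,
    Matrix.mul_nonsing_inv _ hP', Matrix.mul_one, Matrix.one_mul]

end CP1

open CP1 in
theorem pathPhi : PathPhiStatement := by
  intro n K0 f f' a b hab hpd hder hcf'
  set P : ℝ → CMat n := fun x => K0 + f x with hPdef
  set Q : ℝ → CMat n := fun x => K0 - f x with hQdef
  set Si : CMat n := (K0 + K0)⁻¹ with hSi
  -- derivatives
  have hPd : ∀ x ∈ Icc a b, ∀ i j,
      HasDerivWithinAt (fun t => P t i j) (f' x i j) (Icc a b) x := by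
    intro x hx i j
    simpa [P] using (hder x hx i j).const_add (K0 i j)
  have hQd : ∀ x ∈ Icc a b, ∀ i j,
      HasDerivWithinAt (fun t => Q t i j) ((-f' x) i j) (Icc a b) x := by
    intro x hx i j
    simpa [Q] using (hder x hx i j).const_sub (K0 i j)
  have hPc : ContinuousOn P (Icc a b) := by
    intro x hx
    exact continuousWithinAt_pi.2 fun i => continuousWithinAt_pi.2 fun j =>
      (hPd x hx i j).continuousWithinAt
  have hQc : ContinuousOn Q (Icc a b) := by
    intro x hx
    exact continuousWithinAt_pi.2 fun i => continuousWithinAt_pi.2 fun j =>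
      (hQd x hx i j).continuousWithinAt
  have hf'c : ContinuousOn f' (Icc a b) := by
    intro x hx
    exact continuousWithinAt_pi.2 fun i => continuousWithinAt_pi.2 fun j => hcf' i j x hx
  obtain ⟨c1, hc1, hlow1⟩ := exists_lower_unif (fun x hx => (hpd x hx).1) hPc
  obtain ⟨c2, hc2, hlow2⟩ := exists_lower_unif (fun x hx => (hpd x hx).2) hQc
  obtain ⟨M, hM⟩ := (isCompact_Icc (a := a) (b := b)).exists_bound_of_continuousOn hf'c
  obtain ⟨N, hN⟩ := (isCompact_Icc (a := a) (b := b)).exists_bound_of_continuousOn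
    (hPc.sub hQc)
  have huP : ∀ x ∈ Icc a b, ∀ s : ℝ, 0 ≤ s → IsUnit (P x + (s : ℂ) • (1 : CMat n)) :=
    fun x hx s hs => isUnit_add (hpd x hx).1 hs
  have huQ : ∀ x ∈ Icc a b, ∀ s : ℝ, 0 ≤ s → IsUnit (Q x + (s : ℂ) • (1 : CMat n)) :=
    fun x hx s hs => isUnit_add (hpd x hx).2 hs
  set c := min c1 c2 with hc
  have hcpos : 0 < c := lt_min hc1 hc2
  have hnP : ∀ x ∈ Icc a b, ∀ s : ℝ, 0 < s → ‖res (P x) s‖ ≤ (c + s)⁻¹ := by
    intro x hx s hs
    refine (norm_res_le (hlow1 x hx) (by linarith)).trans ?_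
    exact inv_anti₀ (by positivity) (by have := min_le_left c1 c2; linarith)
  have hnQ : ∀ x ∈ Icc a b, ∀ s : ℝ, 0 < s → ‖res (Q x) s‖ ≤ (c + s)⁻¹ := by
    intro x hx s hs
    refine (norm_res_le (hlow2 x hx) (by linarith)).trans ?_
    exact inv_anti₀ (by positivity) (by have := min_le_right c1 c2; linarith)
  -- the two functions
  set g : ℝ → ℝ → ℝ := fun x s => rtr (Si * (res (Q x) s - res (P x) s)) with hg
  set G : ℝ → ℝ → ℝ := fun x s =>
    rtr ((res (P x) s * Si * res (P x) s + res (Q x) s * Si * res (Q x) s) * f' x) with hG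
  have hgG : ∀ x ∈ Icc a b, ∀ s : ℝ, 0 ≤ s →
      HasDerivWithinAt (fun t => g t s) (G x s) (Icc a b) x := by
    intro x hx s hs
    have h1 := rtr_hasDeriv Si (M := fun t => res (Q t) s - res (P t) s)
      (M' := -(res (Q x) s * (-f' x) * res (Q x) s) - -(res (P x) s * f' x * res (P x) s))
      (S := Icc a b) (x := x) ?_
    · have h2 : rtr (Si * (-(res (Q x) s * (-f' x) * res (Q x) s) -
          -(res (P x) s * f' x * res (P x) s))) = G x s := by
        have h3 : (-(res (Q x) s * (-f' x) * res (Q x) s) -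
          -(res (P x) s * f' x * res (P x) s)) = (res (Q x) s * f' x * res (Q x) s) +
            (res (P x) s * f' x * res (P x) s) := by
          rw [Matrix.mul_neg, Matrix.neg_mul, neg_neg, sub_neg_eq_add]
        rw [h3, Matrix.mul_add, rtr_add, rtr_cycl, rtr_cycl, ← rtr_add, ← Matrix.add_mul]
        simp only [hG]
        rw [add_comm]
      rw [h2] at h1
      exact h1
    · intro i j
      exact (res_hasDeriv (hQd x hx) (huQ x hx s hs) i j).sub
        (res_hasDeriv (hPd x hx) (huP x hx s hs) i j)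
  -- joint continuity
  have hresP : ContinuousOn (fun z : ℝ × ℝ => res (P z.1) z.2) (Icc a b ×ˢ Ioi 0) := by
    intro z hz
    have h1 : ContinuousWithinAt (fun z : ℝ × ℝ => P z.1 + (z.2 : ℂ) • (1 : CMat n))
        (Icc a b ×ˢ Ioi 0) z := by
      apply ContinuousWithinAt.add
      · exact (hPc z.1 hz.1).comp continuous_fst.continuousWithinAt (fun y hy => hy.1)
      · exact ((Complex.continuous_ofReal.comp continuous_snd).smul
          continuous_const).continuousWithinAt
    exact ContinuousAt.comp_continuousWithinAt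
      (f := fun z : ℝ × ℝ => P z.1 + (z.2 : ℂ) • (1 : CMat n))
      (continuousAt_inv (huP z.1 hz.1 z.2 (le_of_lt hz.2))) h1
  have hresQ : ContinuousOn (fun z : ℝ × ℝ => res (Q z.1) z.2) (Icc a b ×ˢ Ioi 0) := by
    intro z hz
    have h1 : ContinuousWithinAt (fun z : ℝ × ℝ => Q z.1 + (z.2 : ℂ) • (1 : CMat n))
        (Icc a b ×ˢ Ioi 0) z := by
      apply ContinuousWithinAt.add
      · exact (hQc z.1 hz.1).comp continuous_fst.continuousWithinAt (fun y hy => hy.1)
      · exact ((Complex.continuous_ofReal.comp continuous_snd).smul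
          continuous_const).continuousWithinAt
    exact ContinuousAt.comp_continuousWithinAt
      (f := fun z : ℝ × ℝ => Q z.1 + (z.2 : ℂ) • (1 : CMat n))
      (continuousAt_inv (huQ z.1 hz.1 z.2 (le_of_lt hz.2))) h1
  set Ms : ℝ → ℝ → CMat n := fun x s =>
    res (P x) s * Si * res (P x) s + res (Q x) s * Si * res (Q x) s with hMs
  have hMsc : ContinuousOn (fun z : ℝ × ℝ => Ms z.1 z.2) (Icc a b ×ˢ Ioi 0) :=
    ((hresP.mul continuousOn_const).mul hresP).add ((hresQ.mul continuousOn_const).mul hresQ)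
  have hMsb : ∀ x ∈ Icc a b, ∀ s : ℝ, 0 < s → ‖Ms x s‖ ≤ 2 * ‖Si‖ * ((c + s)⁻¹) ^ 2 := by
    intro x hx s hs
    have h1 := hnP x hx s hs
    have h2 := hnQ x hx s hs
    have h0 : 0 < (c + s)⁻¹ := by positivity
    have h3 : ‖res (P x) s * Si * res (P x) s‖ ≤ (c + s)⁻¹ * ‖Si‖ * (c + s)⁻¹ := by
      refine (norm_mul_le _ _).trans ?_
      refine mul_le_mul ((norm_mul_le _ _).trans ?_) h1 (norm_nonneg _) (by positivity)
      exact mul_le_mul_of_nonneg_right h1 (norm_nonneg _)
    have h4 : ‖res (Q x) s * Si * res (Q x) s‖ ≤ (c + s)⁻¹ * ‖Si‖ * (c + s)⁻¹ := by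
      refine (norm_mul_le _ _).trans ?_
      refine mul_le_mul ((norm_mul_le _ _).trans ?_) h2 (norm_nonneg _) (by positivity)
      exact mul_le_mul_of_nonneg_right h2 (norm_nonneg _)
    refine (norm_add_le _ _).trans ?_
    nlinarith [h3, h4]
  have hGc : ContinuousOn (fun z : ℝ × ℝ => G z.1 z.2) (Icc a b ×ˢ Ioi 0) := by
    have h1 : ContinuousOn (fun z : ℝ × ℝ => Ms z.1 z.2 * f' z.1) (Icc a b ×ˢ Ioi 0) :=
      hMsc.mul (hf'c.comp continuousOn_fst (fun y hy => hy.1))
    have h2 : Continuous (fun A : CMat n => rtr A) := by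
      unfold rtr
      exact Complex.continuous_re.comp (continuous_id.matrix_trace)
    exact h2.comp_continuousOn h1
  have hM0 : 0 ≤ M := (norm_nonneg _).trans (hM a ⟨le_refl _, hab⟩)
  have hGb : ∀ x ∈ Icc a b, ∀ s : ℝ, 0 < s →
      |G x s| ≤ n * (2 * ‖Si‖ * M) * ((c + s)⁻¹) ^ 2 := by
    intro x hx s hs
    refine (abs_rtr_le _).trans ?_
    have h1 : ‖Ms x s * f' x‖ ≤ (2 * ‖Si‖ * ((c + s)⁻¹) ^ 2) * M :=
      (norm_mul_le _ _).trans (mul_le_mul (hMsb x hx s hs) (hM x hx) (norm_nonneg _)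
        (by positivity))
    calc (n : ℝ) * ‖Ms x s * f' x‖ ≤ n * ((2 * ‖Si‖ * ((c + s)⁻¹) ^ 2) * M) := by gcongr
      _ = _ := by ring
  -- integrability in `s` of the entries
  have hMsi : ∀ x ∈ Icc a b, ∀ i j, IntegrableOn (fun s => Ms x s i j) (Ioi 0) := by
    intro x hx i j
    have h1 : ContinuousOn (fun s => Ms x s i j) (Ioi 0) := by
      have h2 : ContinuousOn (fun s => Ms x s) (Ioi 0) :=
        hMsc.comp (f := fun s : ℝ => (x, s)) (by fun_prop) (fun s hs => ⟨hx, hs⟩)
      exact ((continuous_apply j).comp (continuous_apply i)).comp_continuousOn h2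
    refine Integrable.mono' ((integrable_sq hcpos).const_mul (2 * ‖Si‖))
      (h1.aestronglyMeasurable measurableSet_Ioi) ?_
    filter_upwards [ae_restrict_mem measurableSet_Ioi] with s hs
    exact (norm_entry_le _ i j).trans (hMsb x hx s hs)
  have hGi : ∀ x ∈ Icc a b, rtr (Fmat (K0 + f x) (K0 - f x) * f' x) =
      ∫ s in Ioi (0 : ℝ), G x s := by
    intro x hx
    have hsum : K0 + f x + (K0 - f x) = K0 + K0 := by abel
    have h1 : ∀ i j, Fmat (K0 + f x) (K0 - f x) i j = ∫ s in Ioi (0 : ℝ), Ms x s i j := by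
      intro i j
      unfold Fmat
      rw [hsum]
      rfl
    have h2 : ∀ s, G x s = Complex.reCLM (∑ i, ∑ j, Ms x s i j * f' x j i) := by
      intro s
      simp only [hG, rtr, trace, diag_apply, mul_apply]
      rfl
    have hint : ∀ i j, IntegrableOn (fun s => Ms x s i j * f' x j i) (Ioi 0) :=
      fun i j => (hMsi x hx i j).mul_const _
    simp only [h2]
    rw [Complex.reCLM.integral_comp_comm
      (integrable_finsetSum _ fun i _ => integrable_finsetSum _ fun j _ => hint i j)]
    rw [integral_finsetSum _ (fun i _ => integrable_finsetSum _ fun j _ => hint i j)]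
    have h3 : ∀ i, ∫ s in Ioi (0 : ℝ), ∑ j, Ms x s i j * f' x j i =
        ∑ j, (∫ s in Ioi (0 : ℝ), Ms x s i j) * f' x j i := by
      intro i
      rw [integral_finsetSum _ (fun j _ => hint i j)]
      refine Finset.sum_congr rfl fun j _ => ?_
      rw [integral_mul_const]
    simp only [h3]
    simp only [rtr, trace, diag_apply, mul_apply, h1]
    rfl
  -- integrability of `g x`
  have hgi : ∀ x ∈ Icc a b, IntegrableOn (fun s => g x s) (Ioi 0) := by
    intro x hx
    have h1 : ContinuousOn (fun s => g x s) (Ioi 0) := by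
      have h2 : ContinuousOn (fun s => res (P x) s) (Ioi 0) :=
        hresP.comp (f := fun s : ℝ => (x, s)) (by fun_prop) (fun s hs => ⟨hx, hs⟩)
      have h3 : ContinuousOn (fun s => res (Q x) s) (Ioi 0) :=
        hresQ.comp (f := fun s : ℝ => (x, s)) (by fun_prop) (fun s hs => ⟨hx, hs⟩)
      have h4 : Continuous (fun A : CMat n => rtr A) := by
        unfold rtr
        exact Complex.continuous_re.comp (continuous_id.matrix_trace)
      exact h4.comp_continuousOn (continuousOn_const.mul (h3.sub h2))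
    refine Integrable.mono' ((integrable_sq hcpos).const_mul (n * (‖Si‖ * N)))
      (h1.aestronglyMeasurable measurableSet_Ioi) ?_
    filter_upwards [ae_restrict_mem measurableSet_Ioi] with s hs
    have hs' : (0 : ℝ) < s := hs
    rw [Real.norm_eq_abs]
    refine (abs_rtr_le _).trans ?_
    have h5 : res (Q x) s - res (P x) s = res (Q x) s * (P x - Q x) * res (P x) s :=
      res_sub (huP x hx s hs'.le) (huQ x hx s hs'.le)
    have h0 : 0 < (c + s)⁻¹ := by positivity
    have hN0 : 0 ≤ N := (norm_nonneg _).trans (hN x hx)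
    have h6 : ‖res (Q x) s * (P x - Q x) * res (P x) s‖ ≤ (c + s)⁻¹ * N * (c + s)⁻¹ := by
      refine (norm_mul_le _ _).trans ?_
      refine mul_le_mul ((norm_mul_le _ _).trans ?_) (hnP x hx s hs') (norm_nonneg _)
        (by positivity)
      exact mul_le_mul (hnQ x hx s hs') (hN x hx) (norm_nonneg _) h0.le
    rw [h5]
    calc (n : ℝ) * ‖Si * (res (Q x) s * (P x - Q x) * res (P x) s)‖
        ≤ n * (‖Si‖ * ((c + s)⁻¹ * N * (c + s)⁻¹)) := by
          gcongr
          exact (norm_mul_le _ _).trans (mul_le_mul_of_nonneg_left h6 (norm_nonneg _))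
      _ = _ := by ring
  -- the fundamental theorem
  have hftc : ∀ s : ℝ, 0 < s → ∫ x in a..b, G x s = g b s - g a s := by
    intro s hs
    have hcG : ContinuousOn (fun x => G x s) (Icc a b) :=
      hGc.comp (f := fun x : ℝ => (x, s)) (by fun_prop) (fun x hx => ⟨hx, hs⟩)
    apply intervalIntegral.integral_eq_sub_of_hasDeriv_right_of_le hab
    · intro x hx
      exact (hgG x hx s hs.le).continuousWithinAt
    · intro x hx
      have h1 := (hgG x (Ioo_subset_Icc_self hx) s hs.le).hasDerivAt (Icc_mem_nhds hx.1 hx.2)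
      exact h1.hasDerivWithinAt
    · apply ContinuousOn.intervalIntegrable
      rw [uIcc_of_le hab]
      exact hcG
  -- Fubini
  have hprod : Integrable (Function.uncurry G)
      ((volume.restrict (Ioc a b)).prod (volume.restrict (Ioi (0 : ℝ)))) := by
    have h1 : Integrable (fun z : ℝ × ℝ => (1 : ℝ) * (n * (2 * ‖Si‖ * M) * ((c + z.2)⁻¹) ^ 2))
        ((volume.restrict (Ioc a b)).prod (volume.restrict (Ioi (0 : ℝ)))) := by
      apply Integrable.mul_prod (f := fun _ : ℝ => (1 : ℝ))
        (g := fun s : ℝ => n * (2 * ‖Si‖ * M) * ((c + s)⁻¹) ^ 2)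
      · exact integrable_const _
      · exact (integrable_sq hcpos).const_mul _
    refine Integrable.mono' h1 ?_ ?_
    · rw [Measure.prod_restrict]
      apply ContinuousOn.aestronglyMeasurable _ (measurableSet_Ioc.prod measurableSet_Ioi)
      exact hGc.mono (prod_mono Ioc_subset_Icc_self (le_refl _))
    · rw [Measure.prod_restrict]
      filter_upwards [ae_restrict_mem (measurableSet_Ioc.prod measurableSet_Ioi)] with z hz
      rw [Real.norm_eq_abs, one_mul]
      exact hGb z.1 (Ioc_subset_Icc_self hz.1) z.2 hz.2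
  calc ∫ x in a..b, rtr (Fmat (K0 + f x) (K0 - f x) * f' x)
      = ∫ x in a..b, ∫ s in Ioi (0 : ℝ), G x s := by
        apply intervalIntegral.integral_congr
        intro x hx
        rw [uIcc_of_le hab] at hx
        exact hGi x hx
    _ = ∫ x in Ioc a b, ∫ s in Ioi (0 : ℝ), G x s := by
        rw [intervalIntegral.integral_of_le hab]
    _ = ∫ s in Ioi (0 : ℝ), ∫ x in Ioc a b, G x s := integral_integral_swap hprod
    _ = ∫ s in Ioi (0 : ℝ), (g b s - g a s) := by
        apply setIntegral_congr_fun measurableSet_Ioi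
        intro s hs
        simp only
        rw [← hftc s hs, intervalIntegral.integral_of_le hab]
    _ = Phi K0 (f b) - Phi K0 (f a) := by
        rw [integral_sub (hgi b ⟨hab, le_refl _⟩) (hgi a ⟨le_refl _, hab⟩)]
        rfl

end P371G
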