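import Vale.Agent.P371G.Defs

/-!
# P371G, module POL: the regularised polar part
-/

namespace P371G

open Matrix MeasureTheory Set Filter Topology
open scoped ComplexOrder

theorem pol_posDef {n m : ℕ} {ε : ℝ} (hε : 0 < ε) (U : Matrix (Fin n) (Fin m) ℂ) :
    (Uᴴ * U + (ε : ℂ) • (1 : CMat m)).PosDef := by
  have h1 : (Uᴴ * U).PosSemidef := Matrix.posSemidef_conjTranspose_mul_self U
  have h2 : ((ε : ℂ) • (1 : CMat m)).PosDef :=
    Matrix.PosDef.one.smul (by exact_mod_cast hε)
  exact h2.posSemidef_add h1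

theorem pol_rtr_add {n : ℕ} (A B : CMat n) : rtr (A + B) = rtr A + rtr B := by
  simp [rtr, Matrix.trace_add]

theorem pol_rtr_sub {n : ℕ} (A B : CMat n) : rtr (A - B) = rtr A - rtr B := by
  simp [rtr, Matrix.trace_sub]

theorem pol_rtr_smul {n : ℕ} (c : ℝ) (A : CMat n) : rtr ((c : ℂ) • A) = c * rtr A := by
  simp [rtr, Matrix.trace_smul]

/-- the trace of a product of two positive semidefinite matrices is nonnegative -/
theorem pol_rtr_mul_nonneg {n : ℕ} {A B : CMat n} (hA : A.PosSemidef) (hB : B.PosSemidef) :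
    0 ≤ rtr (A * B) := by
  obtain ⟨C, hC⟩ : ∃ C : CMat n, B = Cᴴ * C := by
    open scoped MatrixOrder in
    exact CStarAlgebra.nonneg_iff_eq_star_mul_self.mp hB.nonneg
  subst hC
  have h : trace (A * (Cᴴ * C)) = trace (C * A * Cᴴ) := by
    rw [← Matrix.mul_assoc, Matrix.trace_mul_comm, ← Matrix.mul_assoc]
  rw [rtr, h]
  exact (Complex.le_def.1 (hA.mul_mul_conjTranspose_same C).trace_nonneg).1

theorem polar (hAlg : MPowAlgStatement) (hCont : MPowContStatement) : PolarStatement := by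
  intro n m ε hε
  refine ⟨?_, ?_⟩
  · have h1 : Continuous fun U : Matrix (Fin n) (Fin m) ℂ => Uᴴ * U + (ε : ℂ) • (1 : CMat m) := by
      fun_prop
    have h2 : Continuous fun U : Matrix (Fin n) (Fin m) ℂ =>
        mPow (-1 / 2) (Uᴴ * U + (ε : ℂ) • (1 : CMat m)) := by
      rw [← continuousOn_univ]
      exact (hCont m (-1 / 2)).comp h1.continuousOn fun U _ => pol_posDef hε U
    exact continuous_id.matrix_mul h2
  · intro U
    set M : CMat m := Uᴴ * U + (ε : ℂ) • (1 : CMat m) with hM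
    have hMp : M.PosDef := pol_posDef hε U
    obtain ⟨hpd, hmul, h0, h1, hcomm⟩ := hAlg m M hMp
    set A : CMat m := mPow (-1 / 2) M with hA
    have hAH : Aᴴ = A := (hpd (-1 / 2)).isHermitian
    have hUU : Uᴴ * U = M - (ε : ℂ) • (1 : CMat m) := by rw [hM]; abel
    have hT : Tpol ε U = U * A := rfl
    have hAA : A * A = mPow (-1) M := by rw [hA, hmul]; norm_num
    have hMA : M * A = mPow (1 / 2) M := by
      have : mPow 1 M * mPow (-1 / 2) M = mPow (1 / 2) M := by rw [hmul]; norm_num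
      rw [h1] at this
      exact this
    have hAM : A * M = mPow (1 / 2) M := by rw [← hcomm, hMA]
    have hAMA : A * M * A = 1 := by
      rw [hAM, hA, hmul]
      norm_num
      exact h0
    have hTT : (Tpol ε U)ᴴ * Tpol ε U = 1 - (ε : ℂ) • mPow (-1) M := by
      rw [hT, conjTranspose_mul, hAH]
      calc A * Uᴴ * (U * A) = A * (Uᴴ * U) * A := by simp only [Matrix.mul_assoc]
        _ = A * M * A - (ε : ℂ) • (A * A) := by
          rw [hUU, Matrix.mul_sub, Matrix.sub_mul]; simp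
        _ = _ := by rw [hAMA, hAA]
    refine ⟨?_, ?_⟩
    · rw [hTT]
      have : (1 : CMat m) - (1 - (ε : ℂ) • mPow (-1) M) = (ε : ℂ) • mPow (-1) M := by abel
      rw [this]
      exact (hpd (-1)).posSemidef.smul (by exact_mod_cast hε.le)
    · intro W hW
      set N : CMat m := mPow (1 / 2) M - (ε : ℂ) • A with hN
      have hTU : (Tpol ε U)ᴴ * U = N := by
        rw [hT, conjTranspose_mul, hAH, Matrix.mul_assoc, hUU, Matrix.mul_sub, hAM]
        simp [hN]
      have hUT : Uᴴ * Tpol ε U = N := by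
        rw [hT, ← Matrix.mul_assoc, hUU, Matrix.sub_mul, hMA]
        simp [hN]
      have hNN : N * N = M - (2 * ε : ℂ) • (1 : CMat m) + ((ε ^ 2 : ℝ) : ℂ) • mPow (-1) M := by
        have e1 : mPow (1 / 2) M * mPow (1 / 2) M = M := by
          rw [hmul]; norm_num; exact h1
        have e2 : mPow (1 / 2) M * A = 1 := by rw [hA, hmul]; norm_num; exact h0
        have e3 : A * mPow (1 / 2) M = 1 := by rw [hA, hmul]; norm_num; exact h0
        rw [hN, Matrix.mul_sub, Matrix.sub_mul, Matrix.sub_mul, e1]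
        simp only [Matrix.smul_mul, Matrix.mul_smul, e2, e3, hAA, smul_smul]
        rw [show (2 * ε : ℂ) • (1 : CMat m) = (ε : ℂ) • (1 : CMat m) + (ε : ℂ) • (1 : CMat m) by
          rw [← add_smul]; ring_nf]
        rw [show (((ε ^ 2 : ℝ) : ℂ)) = (ε : ℂ) * ε by push_cast; ring]
        abel
      have hkey : rtr (Tpol ε U * W * (Tpol ε U)ᴴ * (U * Uᴴ)) = rtr (W * (N * N)) := by
        have e : trace (Tpol ε U * W * (Tpol ε U)ᴴ * (U * Uᴴ)) = trace (W * (N * N)) := by
          calc trace (Tpol ε U * W * (Tpol ε U)ᴴ * (U * Uᴴ))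
              = trace (Tpol ε U * (W * ((Tpol ε U)ᴴ * U) * Uᴴ)) := by
                simp only [Matrix.mul_assoc]
            _ = trace (W * ((Tpol ε U)ᴴ * U) * Uᴴ * Tpol ε U) := Matrix.trace_mul_comm _ _
            _ = trace (W * ((Tpol ε U)ᴴ * U) * (Uᴴ * Tpol ε U)) := by
                simp only [Matrix.mul_assoc]
            _ = _ := by rw [hTU, hUT, Matrix.mul_assoc]
        rw [rtr, e]; rfl
      rw [hkey, hNN, hUU]
      have hnn : 0 ≤ rtr (W * mPow (-1) M) := pol_rtr_mul_nonneg hW (hpd (-1)).posSemidef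
      have e1 : rtr (W * (M - (2 * ε : ℂ) • (1 : CMat m) + ((ε ^ 2 : ℝ) : ℂ) • mPow (-1) M)) =
          rtr (W * M) - 2 * ε * rtr W + ε ^ 2 * rtr (W * mPow (-1) M) := by
        rw [Matrix.mul_add, Matrix.mul_sub, pol_rtr_add, pol_rtr_sub, Matrix.mul_smul, Matrix.mul_smul,
          pol_rtr_smul, show (2 * ε : ℂ) = ((2 * ε : ℝ) : ℂ) by push_cast; ring, pol_rtr_smul,
          Matrix.mul_one]
      have e2 : rtr (W * (M - (ε : ℂ) • (1 : CMat m))) = rtr (W * M) - ε * rtr W := by
        rw [Matrix.mul_sub, pol_rtr_sub, Matrix.mul_smul, pol_rtr_smul, Matrix.mul_one]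
      rw [e1, e2]
      have : 0 ≤ ε ^ 2 * rtr (W * mPow (-1) M) := by positivity
      linarith

end P371G
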