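import Vale.Agent.P371G.Flow

/-! Module R2c: bounds `-K ≤ f ≤ K` and the trace estimate for Riccati paths. -/

namespace P371G

open Matrix MeasureTheory Set Filter Topology
open scoped ComplexOrder

namespace RB

variable {n : ℕ}

/-- entrywise product rule -/
lemma deriv_mul {A B : ℝ → CMat n} {A' B' : CMat n} {S : Set ℝ} {x : ℝ}
    (hA : ∀ i j, HasDerivWithinAt (fun t => A t i j) (A' i j) S x)
    (hB : ∀ i j, HasDerivWithinAt (fun t => B t i j) (B' i j) S x) (i j : Fin n) :
    HasDerivWithinAt (fun t => (A t * B t) i j) ((A' * B x + A x * B') i j) S x := by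
  simp only [Matrix.mul_apply, Matrix.add_apply]
  rw [← Finset.sum_add_distrib]
  exact HasDerivWithinAt.fun_sum fun k _ => (hA i k).mul (hB k j)

/-- the real quadratic form -/
lemma deriv_quad {M : ℝ → CMat n} {P : CMat n} {S : Set ℝ} {s : ℝ} (x : Fin n → ℂ)
    (hd : ∀ i j, HasDerivWithinAt (fun t => M t i j) (P i j) S s) :
    HasDerivWithinAt (fun t => (star x ⬝ᵥ (M t *ᵥ x)).re) (star x ⬝ᵥ (P *ᵥ x)).re S s := by
  have h1 : HasDerivWithinAt (fun t => star x ⬝ᵥ (M t *ᵥ x)) (star x ⬝ᵥ (P *ᵥ x)) S s := by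
    simp only [dotProduct, mulVec]
    refine HasDerivWithinAt.fun_sum fun i _ => ?_
    refine HasDerivWithinAt.const_mul _ ?_
    refine HasDerivWithinAt.fun_sum fun j _ => ?_
    exact (hd i j).mul_const _
  exact (Complex.reCLM.hasFDerivAt.comp_hasDerivWithinAt s h1)

/-- a path of matrices with positive semidefinite derivative is monotone -/
lemma psd_mono {M P : ℝ → CMat n} {a b : ℝ} (hab : a ≤ b)
    (hd : ∀ s ∈ Icc a b, ∀ i j, HasDerivWithinAt (fun t => M t i j) (P s i j) (Icc a b) s)
    (hP : ∀ s ∈ Icc a b, (P s).PosSemidef) (ha : (M a).IsHermitian) (hb : (M b).IsHermitian) :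
    (M b - M a).PosSemidef := by
  refine PosSemidef.of_dotProduct_mulVec_nonneg (hb.sub ha) fun x => ?_
  have h1 : MonotoneOn (fun t => (star x ⬝ᵥ (M t *ᵥ x)).re) (Icc a b) := by
    refine monotoneOn_of_hasDerivWithinAt_nonneg (convex_Icc a b)
      (f' := fun s => (star x ⬝ᵥ (P s *ᵥ x)).re)
      (fun s hs => (deriv_quad x (hd s hs)).continuousWithinAt) ?_ ?_
    · intro s hs
      have hs' := interior_subset hs
      exact (deriv_quad x (hd s hs')).mono interior_subset
    · intro s hs
      exact (Complex.le_def.mp ((hP s (interior_subset hs)).dotProduct_mulVec_nonneg x)).1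
  have h2 := h1 (left_mem_Icc.mpr hab) (right_mem_Icc.mpr hab) hab
  have h3 : star x ⬝ᵥ ((M b - M a) *ᵥ x) = star x ⬝ᵥ (M b *ᵥ x) - star x ⬝ᵥ (M a *ᵥ x) := by
    rw [sub_mulVec, dotProduct_sub]
  rw [h3, Complex.le_def]
  constructor
  · simp only [Complex.zero_re, Complex.sub_re]
    exact sub_nonneg.mpr h2
  · have h4 := hb.im_star_dotProduct_mulVec_self x
    have h5 := ha.im_star_dotProduct_mulVec_self x
    simp only [Complex.zero_im, Complex.sub_im]
    have h4' : (star x ⬝ᵥ (M b *ᵥ x)).im = 0 := h4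
    have h5' : (star x ⬝ᵥ (M a *ᵥ x)).im = 0 := h5
    rw [h4', h5', sub_zero]

/-- `exp (s K)` -/
noncomputable def Ex (K : CMat n) (s : ℝ) : CMat n := NormedSpace.exp ((s : ℂ) • K)

lemma Ex_deriv (K : CMat n) (s : ℝ) (S : Set ℝ) (i j : Fin n) :
    HasDerivWithinAt (fun t => Ex K t i j) ((K * Ex K s) i j) S s :=
  (flow_hasDerivAt_entry K s i j).hasDerivWithinAt

lemma Ex_comm (K : CMat n) (s : ℝ) : K * Ex K s = Ex K s * K := by
  unfold Ex
  have h : Commute K ((s : ℂ) • K) := (Commute.refl K).smul_right _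
  exact (h.exp_right).eq

lemma Ex_herm {K : CMat n} (hK : K.IsHermitian) (s : ℝ) : (Ex K s)ᴴ = Ex K s := by
  unfold Ex
  have h : ((s : ℂ) • K).IsHermitian := by
    unfold IsHermitian
    rw [conjTranspose_smul, hK.eq]
    simp
  exact h.exp.eq

lemma Ex_zero (K : CMat n) : Ex K 0 = 1 := by
  unfold Ex
  rw [Complex.ofReal_zero, zero_smul]
  exact NormedSpace.exp_zero

lemma Ex_neg_mul (K : CMat n) (s : ℝ) : Ex K (-s) * Ex K s = 1 := by
  unfold Ex
  rw [← Matrix.exp_add_of_commute]
  · rw [← add_smul]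
    simp
  · exact ((Commute.refl K).smul_right _).smul_left _

lemma Ex_mul_neg (K : CMat n) (s : ℝ) : Ex K s * Ex K (-s) = 1 := by
  have := Ex_neg_mul K (-s)
  rwa [neg_neg] at this

attribute [local irreducible] Ex

/-- conjugated path -/
lemma conj_deriv {K : CMat n} {g G : ℝ → CMat n} {S : Set ℝ} {s : ℝ}
    (hd : ∀ i j, HasDerivWithinAt (fun t => g t i j) (G s i j) S s) (i j : Fin n) :
    HasDerivWithinAt (fun t => (Ex K t * (g t * Ex K t)) i j)
      ((Ex K s * (G s + K * g s + g s * K) * Ex K s) i j) S s := by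
  have h1 : ∀ i j, HasDerivWithinAt (fun t => (g t * Ex K t) i j)
      ((G s * Ex K s + g s * (K * Ex K s)) i j) S s :=
    deriv_mul (A := g) (B := fun t => Ex K t) (A' := G s) (B' := K * Ex K s) hd
      (fun i j => Ex_deriv K s S i j)
  have h2 := deriv_mul (A := fun t => Ex K t) (B := fun t => g t * Ex K t) (A' := K * Ex K s)
    (B' := G s * Ex K s + g s * (K * Ex K s)) (fun i j => Ex_deriv K s S i j) h1 i j
  have h3 : K * Ex K s * (g s * Ex K s) + Ex K s * (G s * Ex K s + g s * (K * Ex K s)) =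
      Ex K s * (G s + K * g s + g s * K) * Ex K s := by
    have h4 : K * Ex K s * (g s * Ex K s) = Ex K s * (K * (g s * Ex K s)) := by
      rw [Ex_comm, Matrix.mul_assoc]
    rw [h4]
    simp only [Matrix.mul_add, Matrix.add_mul, Matrix.mul_assoc]
    abel
  rw [← h3]
  exact h2

/-- forward propagation of positivity: `g' = R - K g - g K` with `R ≥ 0` -/
lemma forward {K : CMat n} (hK : K.IsHermitian) {g G : ℝ → CMat n} {a b : ℝ} (hab : a ≤ b)
    (hg : ∀ s ∈ Icc a b, (g s).IsHermitian)
    (hd : ∀ s ∈ Icc a b, ∀ i j, HasDerivWithinAt (fun t => g t i j) (G s i j) (Icc a b) s)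
    (hG : ∀ s ∈ Icc a b, (G s + K * g s + g s * K).PosSemidef) (h0 : (g a).PosSemidef) :
    (g b).PosSemidef := by
  have key : (Ex K b * (g b * Ex K b) - Ex K a * (g a * Ex K a)).PosSemidef := by
    refine psd_mono (M := fun t => Ex K t * (g t * Ex K t))
      (P := fun s => Ex K s * (G s + K * g s + g s * K) * Ex K s) hab
      (fun s hs i j => conj_deriv (hd s hs) i j) ?_ ?_ ?_
    · intro s hs
      have h1 := (hG s hs).conjTranspose_mul_mul_same (Ex K s)
      rwa [Ex_herm hK] at h1
    · have h1 := isHermitian_conjTranspose_mul_mul (Ex K a) (hg a (left_mem_Icc.mpr hab))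
      rwa [Ex_herm hK, Matrix.mul_assoc] at h1
    · have h1 := isHermitian_conjTranspose_mul_mul (Ex K b) (hg b (right_mem_Icc.mpr hab))
      rwa [Ex_herm hK, Matrix.mul_assoc] at h1
  have h1 := h0.conjTranspose_mul_mul_same (Ex K a)
  rw [Ex_herm hK, Matrix.mul_assoc] at h1
  have h2 := key.add h1
  rw [sub_add_cancel] at h2
  have h3 := h2.conjTranspose_mul_mul_same (Ex K (-b))
  rw [Ex_herm hK] at h3
  have h4 : Ex K (-b) * (Ex K b * (g b * Ex K b)) * Ex K (-b) = g b := by
    calc Ex K (-b) * (Ex K b * (g b * Ex K b)) * Ex K (-b)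
        = (Ex K (-b) * Ex K b) * g b * (Ex K b * Ex K (-b)) := by
          simp only [Matrix.mul_assoc]
      _ = g b := by rw [Ex_neg_mul, Ex_mul_neg]; simp
  rwa [h4] at h3

/-- `A*A` is positive semidefinite for Hermitian `A` -/
lemma sq_psd {A : CMat n} (hA : A.IsHermitian) : (A * A).PosSemidef := by
  have := posSemidef_conjTranspose_mul_self A
  rwa [hA.eq] at this

lemma mono_Icc {a b c d : ℝ} (h1 : a ≤ c) (h2 : d ≤ b) : Icc c d ⊆ Icc a b :=
  Icc_subset_Icc h1 h2

/-- upper bound on one cell -/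
lemma cell_upper {K W : CMat n} {f : ℝ → CMat n} {h : ℝ} (hK : K.IsHermitian)
    (hW : W.PosSemidef) (hf : ∀ s ∈ Icc 0 h, (f s).IsHermitian)
    (hd : ∀ s ∈ Icc 0 h, ∀ i j, HasDerivWithinAt (fun t => f t i j)
      ((K * K - W - f s * f s) i j) (Icc 0 h) s)
    (h0 : (K - f 0).PosSemidef) : ∀ s ∈ Icc 0 h, (K - f s).PosSemidef := by
  intro s hs
  refine forward (K := K) hK (g := fun t => K - f t)
    (G := fun t => -(K * K - W - f t * f t)) (a := 0) (b := s) hs.1 ?_ ?_ ?_ h0
  · intro t ht
    exact hK.sub (hf t ⟨ht.1, ht.2.trans hs.2⟩)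
  · intro t ht i j
    have h1 := ((hd t ⟨ht.1, ht.2.trans hs.2⟩ i j).mono (mono_Icc le_rfl hs.2))
    have h2 := h1.const_sub (K i j)
    exact h2
  · intro t ht
    have hft := hf t ⟨ht.1, ht.2.trans hs.2⟩
    have h1 := hW.add (sq_psd (hK.sub hft))
    have h2 : -(K * K - W - f t * f t) + K * (K - f t) + (K - f t) * K =
        W + (K - f t) * (K - f t) := by
      noncomm_ring
    rw [h2]
    exact h1

/-- lower bound on one cell -/
lemma cell_lower {K W : CMat n} {f : ℝ → CMat n} {h : ℝ} (hK : K.IsHermitian)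
    (hW : W.PosSemidef) (hf : ∀ s ∈ Icc 0 h, (f s).IsHermitian)
    (hd : ∀ s ∈ Icc 0 h, ∀ i j, HasDerivWithinAt (fun t => f t i j)
      ((K * K - W - f s * f s) i j) (Icc 0 h) s)
    (h0 : (K + f h).PosSemidef) : ∀ s ∈ Icc 0 h, (K + f s).PosSemidef := by
  intro s hs
  -- time reversal `t ↦ h - t`
  have key := forward (K := K) hK (g := fun t => K + f (h - t))
    (G := fun t => -(K * K - W - f (h - t) * f (h - t))) (a := 0) (b := h - s)
    (by linarith [hs.2]) ?_ ?_ ?_ ?_
  · simpa using key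
  · intro t ht
    exact hK.add (hf (h - t) ⟨by linarith [ht.2, hs.1], by linarith [ht.1]⟩)
  · intro t ht i j
    have hmem : h - t ∈ Icc 0 h := ⟨by linarith [ht.2, hs.1], by linarith [ht.1]⟩
    have h1 := hd (h - t) hmem i j
    have h2 : HasDerivWithinAt (fun u : ℝ => h - u) (-1) (Icc 0 (h - s)) t := by
      simpa using ((hasDerivAt_id t).const_sub h).hasDerivWithinAt
    have h3 : HasDerivWithinAt (fun u => f (h - u) i j)
        ((-1 : ℝ) • (K * K - W - f (h - t) * f (h - t)) i j) (Icc 0 (h - s)) t := by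
      refine HasDerivWithinAt.scomp t h1 h2 ?_
      intro u hu
      exact ⟨by linarith [hu.2, hs.1], by linarith [hu.1]⟩
    have h4 := h3.const_add (K i j)
    simpa using h4
  · intro t ht
    have hft := hf (h - t) ⟨by linarith [ht.2, hs.1], by linarith [ht.1]⟩
    have h1 := hW.add (sq_psd (hK.add hft))
    have h2 : -(K * K - W - f (h - t) * f (h - t)) + K * (K + f (h - t)) + (K + f (h - t)) * K =
        W + (K + f (h - t)) * (K + f (h - t)) := by
      noncomm_ring
    rw [h2]
    exact h1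
  · simpa using h0

lemma good_herm (hL : RiccLocalStatement) {h : ℝ} {J : ℕ} {K : CMat n} {W : ℕ → CMat n}
    (hh : 0 < h) (hK : K.IsHermitian) (hW : ∀ j < J, (W j).IsHermitian) (hG : Good h J K W) :
    ∀ j ≤ J, (fseq h K W j).IsHermitian := by
  intro j
  induction j with
  | zero => intro _; exact hK
  | succ j ih =>
    intro hj
    have hj' : j < J := hj
    have hB : (K * K - W j).IsHermitian := by
      have h1 : (K * K).IsHermitian := by
        unfold IsHermitian
        rw [conjTranspose_mul, hK.eq]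
      exact h1.sub (hW j hj')
    exact (hL n h (K * K - W j) (fseq h K W j) hh hB (ih hj'.le) (hG j hj')).2.1 h
      ⟨hh.le, le_rfl⟩

lemma cell_data (hL : RiccLocalStatement) {h : ℝ} {J : ℕ} {K : CMat n} {W : ℕ → CMat n}
    (hh : 0 < h) (hK : K.IsHermitian) (hW : ∀ j < J, (W j).IsHermitian) (hG : Good h J K W)
    (j : ℕ) (hj : j < J) :
    ric (K * K - W j) (fseq h K W j) 0 = fseq h K W j ∧
    (∀ s ∈ Icc 0 h, (ric (K * K - W j) (fseq h K W j) s).IsHermitian) ∧
    ∀ s ∈ Icc 0 h, ∀ a b, HasDerivWithinAt (fun t => ric (K * K - W j) (fseq h K W j) t a b)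
      ((K * K - W j - ric (K * K - W j) (fseq h K W j) s * ric (K * K - W j) (fseq h K W j) s) a b)
      (Icc 0 h) s := by
  have hB : (K * K - W j).IsHermitian := by
    have h1 : (K * K).IsHermitian := by
      unfold IsHermitian
      rw [conjTranspose_mul, hK.eq]
    exact h1.sub (hW j hj)
  exact hL n h (K * K - W j) (fseq h K W j) hh hB (good_herm hL hh hK hW hG j hj.le) (hG j hj)

lemma upper (hL : RiccLocalStatement) {h : ℝ} {J : ℕ} {K : CMat n} {W : ℕ → CMat n}
    (hh : 0 < h) (hK : K.IsHermitian) (hW : ∀ j < J, (W j).PosSemidef) (hG : Good h J K W) :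
    ∀ j ≤ J, (K - fseq h K W j).PosSemidef := by
  intro j
  induction j with
  | zero =>
    intro _
    have : K - fseq h K W 0 = 0 := by simp [fseq]
    rw [this]
    exact PosSemidef.zero
  | succ j ih =>
    intro hj
    have hj' : j < J := hj
    obtain ⟨h1, h2, h3⟩ := cell_data hL hh hK (fun j hj => (hW j hj).1) hG j hj'
    have h4 := ih hj'.le
    rw [← h1] at h4
    exact cell_upper hK (hW j hj') h2 h3 h4 h ⟨hh.le, le_rfl⟩

lemma lower (hL : RiccLocalStatement) {h : ℝ} {J : ℕ} {K : CMat n} {W : ℕ → CMat n}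
    (hh : 0 < h) (hK : K.IsHermitian) (hW : ∀ j < J, (W j).PosSemidef) (hG : Good h J K W)
    (hE : (fseq h K W J + K).PosSemidef) :
    ∀ i j, i + j = J → (K + fseq h K W j).PosSemidef := by
  intro i
  induction i with
  | zero =>
    intro j hj
    have : j = J := by omega
    subst this
    rwa [add_comm]
  | succ i ih =>
    intro j hj
    have hj' : j < J := by omega
    have h5 := ih (j + 1) (by omega)
    obtain ⟨h1, h2, h3⟩ := cell_data hL hh hK (fun j hj => (hW j hj).1) hG j hj'
    have h6 := cell_lower hK (hW j hj') h2 h3 h5 0 ⟨le_rfl, hh.le⟩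
    rwa [h1] at h6

/-- trace of a product of two positive semidefinite matrices -/
lemma rtr_mul_nonneg {A B : CMat n} (hA : A.PosSemidef) (hB : B.PosSemidef) :
    0 ≤ rtr (A * B) := by
  have h0 : ∃ C : CMat n, A = Cᴴ * C := by
    open scoped MatrixOrder Matrix.Norms.L2Operator in
    exact CStarAlgebra.nonneg_iff_eq_star_mul_self.mp hA.nonneg
  obtain ⟨C, rfl⟩ := h0
  have h1 := (hB.mul_mul_conjTranspose_same C).trace_nonneg
  have h2 : trace (Cᴴ * C * B) = trace (C * B * Cᴴ) := by
    rw [Matrix.mul_assoc, Matrix.trace_mul_comm]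
  unfold rtr
  rw [h2]
  exact (Complex.le_def.mp h1).1

lemma rtr_deriv {K : CMat n} {f : ℝ → CMat n} {G : CMat n} {S : Set ℝ} {s : ℝ}
    (hd : ∀ i j, HasDerivWithinAt (fun t => f t i j) (G i j) S s) :
    HasDerivWithinAt (fun t => rtr (f t * K)) (rtr (G * K)) S s := by
  have h1 : HasDerivWithinAt (fun t => trace (f t * K)) (trace (G * K)) S s := by
    simp only [trace, diag_apply, Matrix.mul_apply]
    refine HasDerivWithinAt.fun_sum fun i _ => ?_
    refine HasDerivWithinAt.fun_sum fun j _ => ?_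
    exact (hd i j).mul_const _
  exact (Complex.reCLM.hasFDerivAt.comp_hasDerivWithinAt s h1)

lemma rtr_add (A B : CMat n) : rtr (A + B) = rtr A + rtr B := by simp [rtr]

lemma rtr_sub (A B : CMat n) : rtr (A - B) = rtr A - rtr B := by simp [rtr]

lemma rtr_comm (A B : CMat n) : rtr (A * B) = rtr (B * A) := by
  unfold rtr
  rw [Matrix.trace_mul_comm]

lemma rtr_cubic {K f : CMat n} (h1 : (K - f).PosSemidef) (h2 : (K + f).PosSemidef) :
    0 ≤ rtr ((K * K - f * f) * K) := by
  have e : (2 : ℝ) * rtr ((K * K - f * f) * K) =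
      rtr ((K - f) * (K - f) * (K + f)) + rtr ((K + f) * (K + f) * (K - f)) := by
    have e1 : rtr (f * K * K) = rtr (K * K * f) := by rw [Matrix.mul_assoc, rtr_comm]
    have e2 : rtr (K * f * K) = rtr (K * K * f) := by rw [rtr_comm, ← Matrix.mul_assoc]
    have e3 : rtr (f * K * f) = rtr (f * f * K) := by rw [rtr_comm, ← Matrix.mul_assoc]
    have e4 : rtr (K * f * f) = rtr (f * f * K) := by rw [Matrix.mul_assoc, rtr_comm]
    simp only [Matrix.sub_mul, Matrix.mul_sub, Matrix.add_mul, Matrix.mul_add, rtr_add, rtr_sub]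
    linarith
  have h3 := rtr_mul_nonneg (sq_psd h1.1) h2
  have h4 := rtr_mul_nonneg (sq_psd h2.1) h1
  linarith

end RB

/-- module R2c -/
theorem riccBound (hL : RiccLocalStatement) : RiccBoundStatement := by
  intro n h J K W hh hW hIn j hj s hs
  obtain ⟨hK, hG, hE⟩ := hIn
  obtain ⟨h1, h2, h3⟩ := RB.cell_data hL hh hK.1 (fun j hj => (hW j hj).1) hG j hj
  refine ⟨h2 s hs, ?_, ?_⟩
  · have h4 := RB.upper hL hh hK.1 hW hG j hj.le
    rw [← h1] at h4
    exact RB.cell_upper hK.1 (hW j hj) h2 h3 h4 s hs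
  · have h5 := RB.lower hL hh hK.1 hW hG hE (J - (j + 1)) (j + 1) (by omega)
    exact RB.cell_lower hK.1 (hW j hj) h2 h3 h5 s hs

/-- module R2g -/
theorem traceBound (hL : RiccLocalStatement) : TraceBoundStatement := by
  intro n h J K W hh hW hIn
  have hB := riccBound hL n h J K W hh hW hIn
  obtain ⟨hK, hG, hE⟩ := hIn
  have key : ∀ j ≤ J, rtr (K * K) - h * ∑ i ∈ Finset.range j, rtr (K * W i) ≤
      rtr (fseq h K W j * K) := by
    intro j
    induction j with
    | zero => intro _; simp [fseq]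
    | succ j ih =>
      intro hj
      have hj' : j < J := hj
      have h0 := ih hj'.le
      obtain ⟨h1, h2, h3⟩ := RB.cell_data hL hh hK.1 (fun j hj => (hW j hj).1) hG j hj'
      rw [Finset.sum_range_succ, mul_add]
      set f := ric (K * K - W j) (fseq h K W j) with hf
      have h4 : fseq h K W (j + 1) = f h := rfl
      have h5 : MonotoneOn (fun t => rtr (f t * K) + t * rtr (K * W j)) (Icc 0 h) := by
        have hd : ∀ s ∈ Icc 0 h, HasDerivWithinAt (fun t => rtr (f t * K) + t * rtr (K * W j))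
            (rtr ((K * K - W j - f s * f s) * K) + 1 * rtr (K * W j)) (Icc 0 h) s := by
          intro s hs
          exact (RB.rtr_deriv (h3 s hs)).add ((hasDerivWithinAt_id s _).mul_const _)
        refine monotoneOn_of_hasDerivWithinAt_nonneg (convex_Icc 0 h)
          (f' := fun s => rtr ((K * K - W j - f s * f s) * K) + 1 * rtr (K * W j))
          (fun s hs => (hd s hs).continuousWithinAt) ?_ ?_
        · intro s hs
          exact (hd s (interior_subset hs)).mono interior_subset
        · intro s hs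
          have hs' := interior_subset hs
          obtain ⟨h6, h7, h8⟩ := hB j hj' s hs'
          have h9 := RB.rtr_cubic h7 h8
          have h10 : rtr ((K * K - W j - f s * f s) * K) + 1 * rtr (K * W j) =
              rtr ((K * K - f s * f s) * K) := by
            rw [RB.rtr_comm K (W j)]
            simp only [Matrix.sub_mul, RB.rtr_sub]
            ring
          rw [h10]
          exact h9
      have h6 := h5 (left_mem_Icc.mpr hh.le) (right_mem_Icc.mpr hh.le) hh.le
      simp only [zero_mul, add_zero] at h6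
      rw [h1] at h6
      rw [h4]
      linarith
  have h1 := key J le_rfl
  rw [Matrix.add_mul, RB.rtr_add]
  linarith

end P371G
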