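import Vale.Agent.P371G.Defs
import Vale.Agent.P371G.MatCalc

/-! Module R2a: local Riccati theory. -/

namespace P371G

open Matrix MeasureTheory Set Filter Topology
open scoped ComplexOrder

variable {n : ℕ}

lemma ricc_conjT_entries {F : ℝ → CMat n} {F' : CMat n} {S : Set ℝ} {s : ℝ}
    (hF : ∀ i j, HasDerivWithinAt (fun t => F t i j) (F' i j) S s) (i j : Fin n) :
    HasDerivWithinAt (fun t => ((F t)ᴴ) i j) ((F'ᴴ) i j) S s := by
  have := (hF j i).star
  simpa [Matrix.conjTranspose_apply] using this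

/-- the Wronskian identity -/
lemma ricc_wronskian (hFl : FlowStatement) (B f0 : CMat n) (hB : B.IsHermitian)
    (hf : f0.IsHermitian) (s : ℝ) :
    (Yx B f0 s)ᴴ * Yx' B f0 s = (Yx' B f0 s)ᴴ * Yx B f0 s := by
  obtain ⟨-, -, h0, hd⟩ := hFl n
  have hY : ∀ s i j, HasDerivWithinAt (fun t => Yx B f0 t i j) (Yx' B f0 s i j) univ s :=
    fun s i j => (hd B f0 s i j).1.hasDerivWithinAt
  have hY' : ∀ s i j, HasDerivWithinAt (fun t => Yx' B f0 t i j) ((B * Yx B f0 s) i j) univ s :=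
    fun s i j => (hd B f0 s i j).2.hasDerivWithinAt
  have hW : ∀ s i j, HasDerivAt
      (fun t => ((Yx B f0 t)ᴴ * Yx' B f0 t) i j - ((Yx' B f0 t)ᴴ * Yx B f0 t) i j) 0 s := by
    intro s i j
    have h1 := hasDerivWithinAt_mul_entries (fun i j => ricc_conjT_entries (hY s) i j) (hY' s) i j
    have h2 := hasDerivWithinAt_mul_entries (fun i j => ricc_conjT_entries (hY' s) i j) (hY s) i j
    have h3 := h1.sub h2
    have e : ((Yx' B f0 s)ᴴ * Yx' B f0 s + (Yx B f0 s)ᴴ * (B * Yx B f0 s)) i j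
        - ((B * Yx B f0 s)ᴴ * Yx B f0 s + (Yx' B f0 s)ᴴ * Yx' B f0 s) i j = 0 := by
      rw [Matrix.conjTranspose_mul, hB.eq]
      simp only [Matrix.add_apply, Matrix.mul_assoc]
      ring
    rw [e] at h3
    exact hasDerivWithinAt_univ.mp h3
  have hconst : ∀ i j, ((Yx B f0 s)ᴴ * Yx' B f0 s) i j - ((Yx' B f0 s)ᴴ * Yx B f0 s) i j
      = ((Yx B f0 0)ᴴ * Yx' B f0 0) i j - ((Yx' B f0 0)ᴴ * Yx B f0 0) i j := by
    intro i j
    exact is_const_of_deriv_eq_zero (fun s => (hW s i j).differentiableAt)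
      (fun s => (hW s i j).deriv) s 0
  ext i j
  have h1 := hconst i j
  rw [(h0 B f0).1, (h0 B f0).2, hf.eq] at h1
  simp only [conjTranspose_one, Matrix.one_mul, Matrix.mul_one, sub_self] at h1
  exact sub_eq_zero.mp h1

theorem riccLocal (hFl : FlowStatement) : RiccLocalStatement := by
  intro n h B f0 hh hB hf hu
  obtain ⟨-, -, h0, hd⟩ := hFl n
  refine ⟨?_, ?_, ?_⟩
  · rw [ric, (h0 B f0).1, (h0 B f0).2]; simp
  · intro s hs
    have hW := ricc_wronskian hFl B f0 hB hf s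
    have hus := hu s hs
    have hdet : IsUnit (Yx B f0 s).det := (Matrix.isUnit_iff_isUnit_det _).mp hus
    rw [Matrix.IsHermitian, ric, Matrix.conjTranspose_mul, Matrix.conjTranspose_nonsing_inv]
    have hdet' : IsUnit ((Yx B f0 s)ᴴ).det := by
      rw [Matrix.det_conjTranspose]; exact hdet.star
    calc ((Yx B f0 s)ᴴ)⁻¹ * (Yx' B f0 s)ᴴ
        = ((Yx B f0 s)ᴴ)⁻¹ * ((Yx' B f0 s)ᴴ * Yx B f0 s) * (Yx B f0 s)⁻¹ := by
          rw [Matrix.mul_assoc, Matrix.mul_assoc, Matrix.mul_nonsing_inv _ hdet, Matrix.mul_one]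
      _ = ((Yx B f0 s)ᴴ)⁻¹ * ((Yx B f0 s)ᴴ * Yx' B f0 s) * (Yx B f0 s)⁻¹ := by rw [hW]
      _ = Yx' B f0 s * (Yx B f0 s)⁻¹ := by
          rw [← Matrix.mul_assoc, Matrix.nonsing_inv_mul _ hdet', Matrix.one_mul]
  · intro s hs i j
    have hY : ∀ i j, HasDerivWithinAt (fun t => Yx B f0 t i j) (Yx' B f0 s i j) (Icc 0 h) s :=
      fun i j => (hd B f0 s i j).1.hasDerivWithinAt
    have hY' : ∀ i j, HasDerivWithinAt (fun t => Yx' B f0 t i j) ((B * Yx B f0 s) i j)
      (Icc 0 h) s := fun i j => (hd B f0 s i j).2.hasDerivWithinAt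
    have hus := hu s hs
    have hdet : IsUnit (Yx B f0 s).det := (Matrix.isUnit_iff_isUnit_det _).mp hus
    have h1 := hasDerivWithinAt_mul_entries hY' (hasDerivWithinAt_inv_entries hY hus) i j
    have e : B * Yx B f0 s * (Yx B f0 s)⁻¹
        + Yx' B f0 s * (-((Yx B f0 s)⁻¹ * Yx' B f0 s * (Yx B f0 s)⁻¹))
        = B - ric B f0 s * ric B f0 s := by
      rw [Matrix.mul_assoc, Matrix.mul_nonsing_inv _ hdet, Matrix.mul_one, ric]
      simp only [Matrix.mul_neg, Matrix.mul_assoc]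
      rw [sub_eq_add_neg]
    rw [e] at h1
    exact h1

end P371G
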