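import Vale.Agent.P371G.Defs
import Vale.Agent.P371G.MatCalc
import Vale.Agent.P371G.RiccLocal

/-! Modules R2e, R2f: closedness and openness. -/

namespace P371G

open Matrix MeasureTheory Set Filter Topology
open scoped ComplexOrder

variable {n : ℕ}

lemma isUnit_iff_det_ne (A : CMat n) : IsUnit A ↔ A.det ≠ 0 := by
  rw [Matrix.isUnit_iff_isUnit_det, isUnit_iff_ne_zero]

lemma ric_eq (B f0 : CMat n) (s : ℝ) :
    ric B f0 s = (Yx B f0 s).det⁻¹ • (Yx' B f0 s * (Yx B f0 s).adjugate) := by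
  rw [ric, Matrix.inv_def, Ring.inverse_eq_inv', Matrix.mul_smul]

lemma ric_continuousAt (hFl : FlowStatement) (B f0 : CMat n) (s : ℝ) (hu : IsUnit (Yx B f0 s)) :
    ContinuousAt (fun x : CMat n × CMat n => ric x.1 x.2 s) (B, f0) := by
  obtain ⟨hY, hY', -, -⟩ := hFl n
  have e : (fun x : CMat n × CMat n => ric x.1 x.2 s) = fun x : CMat n × CMat n =>
      (Yx x.1 x.2 s).det⁻¹ • (Yx' x.1 x.2 s * (Yx x.1 x.2 s).adjugate) := by
    funext x; exact ric_eq _ _ _
  rw [e]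
  have hc : Continuous fun x : CMat n × CMat n => Yx x.1 x.2 s :=
    hY.comp (continuous_fst.prodMk (continuous_snd.prodMk continuous_const))
  have hc' : Continuous fun x : CMat n × CMat n => Yx' x.1 x.2 s :=
    hY'.comp (continuous_fst.prodMk (continuous_snd.prodMk continuous_const))
  have h1 : ContinuousAt (fun x : CMat n × CMat n => ((Yx x.1 x.2 s).det)⁻¹) (B, f0) :=
    (hc.matrix_det.continuousAt).inv₀ ((isUnit_iff_det_ne _).mp hu)
  have h2 : ContinuousAt (fun x : CMat n × CMat n => Yx' x.1 x.2 s * (Yx x.1 x.2 s).adjugate)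
      (B, f0) := (hc'.matrix_mul hc.matrix_adjugate).continuousAt
  exact h1.smul h2

lemma fseq_succ (h : ℝ) (K : CMat n) (W : ℕ → CMat n) (j : ℕ) :
    fseq h K W (j + 1) = ric (K * K - W j) (fseq h K W j) h := rfl

lemma fseq_step (hFl : FlowStatement) {h : ℝ} {j : ℕ} {K : ℕ → CMat n} {W : ℕ → ℕ → CMat n}
    {K₀ : CMat n} {W₀ : ℕ → CMat n}
    (hu : IsUnit (Yx (K₀ * K₀ - W₀ j) (fseq h K₀ W₀ j) h))
    (h3 : Tendsto (fun l => (K l * K l - W l j, fseq h (K l) (W l) j)) atTop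
      (𝓝 (K₀ * K₀ - W₀ j, fseq h K₀ W₀ j))) :
    Tendsto (fun l => fseq h (K l) (W l) (j + 1)) atTop (𝓝 (fseq h K₀ W₀ (j + 1))) := by
  simp only [fseq_succ]
  have h4 := (ric_continuousAt hFl (K₀ * K₀ - W₀ j) (fseq h K₀ W₀ j) h hu).tendsto
  have h5 := h4.comp h3
  simpa only [Function.comp_def] using h5

lemma tube (hFl : FlowStatement) (h : ℝ) (B f0 : CMat n)
    (hu : ∀ s ∈ Icc 0 h, IsUnit (Yx B f0 s)) :
    ∀ᶠ x : CMat n × CMat n in 𝓝 (B, f0), ∀ s ∈ Icc 0 h, IsUnit (Yx x.1 x.2 s) := by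
  obtain ⟨hY, -, -, -⟩ := hFl n
  apply isCompact_Icc.eventually_forall_of_forall_eventually
  intro s hs
  have hc : Continuous fun z : (CMat n × CMat n) × ℝ => (Yx z.1.1 z.1.2 z.2).det :=
    (hY.comp ((continuous_fst.comp continuous_fst).prodMk
      ((continuous_snd.comp continuous_fst).prodMk continuous_snd))).matrix_det
  have h1 : ∀ᶠ z : (CMat n × CMat n) × ℝ in 𝓝 ((B, f0), s), (Yx z.1.1 z.1.2 z.2).det ≠ 0 :=
    hc.continuousAt.eventually_ne ((isUnit_iff_det_ne _).mp (hu s hs))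
  filter_upwards [h1] with z hz
  exact (isUnit_iff_det_ne _).mpr hz

lemma tendsto_B {K : ℕ → CMat n} {W : ℕ → ℕ → CMat n} {K₀ : CMat n} {W₀ : ℕ → CMat n} {j : ℕ}
    (hK : Tendsto K atTop (𝓝 K₀)) (hW : Tendsto (fun l => W l j) atTop (𝓝 (W₀ j))) :
    Tendsto (fun l => K l * K l - W l j) atTop (𝓝 (K₀ * K₀ - W₀ j)) := by
  refine Tendsto.sub ?_ hW
  have : Continuous fun A : CMat n => A * A := continuous_id.matrix_mul continuous_id
  exact (this.tendsto K₀).comp hK

theorem openS (hFl : FlowStatement) : OpenStatement := by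
  intro n h J K W K₀ W₀ hh hG hK hW
  have hseq : ∀ j ≤ J, Tendsto (fun l => fseq h (K l) (W l) j) atTop (𝓝 (fseq h K₀ W₀ j)) := by
    intro j
    induction j with
    | zero => intro _; exact hK
    | succ j ih =>
      intro hj
      have h1 := ih (by omega)
      have h2 := tendsto_B hK (hW j (by omega))
      have h3 : Tendsto (fun l => (K l * K l - W l j, fseq h (K l) (W l) j)) atTop
          (𝓝 (K₀ * K₀ - W₀ j, fseq h K₀ W₀ j)) := h2.prodMk_nhds h1
      exact fseq_step hFl (hG j (by omega) h ⟨hh.le, le_rfl⟩) h3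
  refine ⟨?_, hseq J le_rfl⟩
  have h4 : ∀ᶠ l in atTop, ∀ j ∈ Finset.range J, ∀ s ∈ Icc 0 h,
      IsUnit (Yx (K l * K l - W l j) (fseq h (K l) (W l) j) s) := by
    rw [Filter.eventually_all_finset]
    intro j hj
    rw [Finset.mem_range] at hj
    have h3 : Tendsto (fun l => (K l * K l - W l j, fseq h (K l) (W l) j)) atTop
        (𝓝 (K₀ * K₀ - W₀ j, fseq h K₀ W₀ j)) :=
      (tendsto_B hK (hW j hj)).prodMk_nhds (hseq j hj.le)
    exact h3.eventually (tube hFl h _ _ (hG j hj))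
  filter_upwards [h4] with l hl j hj
  exact hl j (Finset.mem_range.mpr hj)

/-! ### closedness -/

lemma psd_of_tendsto {A : ℕ → CMat n} {A₀ : CMat n} (hA : ∀ l, (A l).PosSemidef)
    (h : Tendsto A atTop (𝓝 A₀)) : A₀.PosSemidef := by
  rw [Matrix.posSemidef_iff_dotProduct_mulVec]
  constructor
  · have h1 : Tendsto (fun l => (A l)ᴴ) atTop (𝓝 A₀ᴴ) :=
      ((continuous_id.matrix_conjTranspose).tendsto A₀).comp h
    have h2 : (fun l => (A l)ᴴ) = A := by funext l; exact (hA l).1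
    rw [h2] at h1
    exact tendsto_nhds_unique h1 h
  · intro x
    have hc : Continuous fun M : CMat n => star x ⬝ᵥ (M *ᵥ x) :=
      continuous_const.dotProduct (continuous_id.matrix_mulVec continuous_const)
    have h1 : Tendsto (fun l => star x ⬝ᵥ (A l *ᵥ x)) atTop (𝓝 (star x ⬝ᵥ (A₀ *ᵥ x))) :=
      (hc.tendsto A₀).comp h
    rw [Complex.le_def]
    have h2 : ∀ l, 0 ≤ (star x ⬝ᵥ (A l *ᵥ x)).re ∧ 0 = (star x ⬝ᵥ (A l *ᵥ x)).im := by
      intro l
      have := (hA l).dotProduct_mulVec_nonneg x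
      rw [Complex.le_def] at this
      exact this
    constructor
    · exact ge_of_tendsto' ((Complex.continuous_re.tendsto _).comp h1) fun l => (h2 l).1
    · have h3 := (Complex.continuous_im.tendsto _).comp h1
      have h4 : (Complex.im ∘ fun l => star x ⬝ᵥ (A l *ᵥ x)) = fun _ => 0 := by
        funext l; exact (h2 l).2.symm
      rw [h4] at h3
      exact tendsto_nhds_unique tendsto_const_nhds h3

/-- squared length -/
noncomputable def nsq (v : Fin n → ℂ) : ℝ := (star v ⬝ᵥ v).re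

lemma nsq_eq (v : Fin n → ℂ) : nsq v = ∑ i, ‖v i‖ ^ 2 := by
  rw [nsq, dotProduct, Complex.re_sum]
  refine Finset.sum_congr rfl fun i _ => ?_
  rw [Pi.star_apply, Complex.star_def, ← Complex.normSq_eq_conj_mul_self, Complex.ofReal_re,
    Complex.normSq_eq_norm_sq]

lemma nsq_pos {v : Fin n → ℂ} (hv : v ≠ 0) : 0 < nsq v := by
  rw [nsq_eq]
  obtain ⟨i, hi⟩ := Function.ne_iff.mp hv
  exact Finset.sum_pos' (fun i _ => by positivity) ⟨i, Finset.mem_univ i, by
    have : 0 < ‖v i‖ := norm_pos_iff.mpr hi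
    positivity⟩

lemma quad_le (A : CMat n) (v : Fin n → ℂ) :
    (star v ⬝ᵥ (A *ᵥ v)).re ≤ (∑ i, ∑ j, ‖A i j‖) * nsq v := by
  have h1 : star v ⬝ᵥ (A *ᵥ v) = ∑ i, ∑ j, star (v i) * (A i j * v j) := by
    simp only [dotProduct, mulVec, Pi.star_apply, Finset.mul_sum]
  refine le_trans (Complex.re_le_norm _) ?_
  rw [h1]
  refine le_trans (norm_sum_le _ _) ?_
  rw [Finset.sum_mul]
  refine Finset.sum_le_sum fun i _ => ?_
  refine le_trans (norm_sum_le _ _) ?_
  rw [Finset.sum_mul]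
  refine Finset.sum_le_sum fun j _ => ?_
  rw [norm_mul, norm_mul, norm_star]
  have h2 : ‖v i‖ ^ 2 ≤ nsq v := by
    rw [nsq_eq]; exact Finset.single_le_sum (f := fun i => ‖v i‖ ^ 2)
      (fun i _ => by positivity) (Finset.mem_univ i)
  have h3 : ‖v j‖ ^ 2 ≤ nsq v := by
    rw [nsq_eq]; exact Finset.single_le_sum (f := fun i => ‖v i‖ ^ 2)
      (fun i _ => by positivity) (Finset.mem_univ j)
  have h4 : ‖v i‖ * ‖v j‖ ≤ nsq v := by nlinarith [sq_nonneg (‖v i‖ - ‖v j‖)]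
  calc ‖v i‖ * (‖A i j‖ * ‖v j‖) = ‖A i j‖ * (‖v i‖ * ‖v j‖) := by ring
    _ ≤ ‖A i j‖ * nsq v := mul_le_mul_of_nonneg_left h4 (norm_nonneg _)

/-- derivative of the squared length along the flow -/
lemma nsq_hasDerivAt (hFl : FlowStatement) (B f0 : CMat n) (v : Fin n → ℂ) (s : ℝ) :
    HasDerivAt (fun t => nsq (Yx B f0 t *ᵥ v))
      (2 * (star (Yx B f0 s *ᵥ v) ⬝ᵥ (Yx' B f0 s *ᵥ v)).re) s := by
  obtain ⟨-, -, -, hd⟩ := hFl n
  have hz : ∀ i, HasDerivAt (fun t => (Yx B f0 t *ᵥ v) i) ((Yx' B f0 s *ᵥ v) i) s := by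
    intro i
    simp only [mulVec, dotProduct]
    exact HasDerivAt.fun_sum fun k _ => ((hd B f0 s i k).1).mul_const _
  have h1 : HasDerivAt (fun t => star (Yx B f0 t *ᵥ v) ⬝ᵥ (Yx B f0 t *ᵥ v))
      (∑ i, (star ((Yx' B f0 s *ᵥ v) i) * (Yx B f0 s *ᵥ v) i
        + star ((Yx B f0 s *ᵥ v) i) * (Yx' B f0 s *ᵥ v) i)) s := by
    simp only [dotProduct, Pi.star_apply]
    exact HasDerivAt.fun_sum fun i _ => (hz i).star.mul (hz i)
  have h2 := (Complex.reCLM.hasFDerivAt.comp_hasDerivAt s h1)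
  have e : (2 * (star (Yx B f0 s *ᵥ v) ⬝ᵥ (Yx' B f0 s *ᵥ v)).re)
      = Complex.reCLM (∑ i, (star ((Yx' B f0 s *ᵥ v) i) * (Yx B f0 s *ᵥ v) i
        + star ((Yx B f0 s *ᵥ v) i) * (Yx' B f0 s *ᵥ v) i)) := by
    rw [Complex.reCLM_apply, Complex.re_sum, dotProduct, Complex.re_sum, Finset.mul_sum]
    refine Finset.sum_congr rfl fun i _ => ?_
    simp only [Pi.star_apply, Complex.star_def, Complex.add_re, Complex.mul_re, Complex.conj_re,
      Complex.conj_im]
    ring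
  rw [e]
  exact h2

/-- lower bound for the solution of the linear system -/
lemma nsq_lower (hFl : FlowStatement) (h M : ℝ) (B f0 K : CMat n)
    (hu : ∀ s ∈ Icc 0 h, IsUnit (Yx B f0 s)) (hK : ∀ s ∈ Icc 0 h, (K + ric B f0 s).PosSemidef)
    (hM : ∀ v, (star v ⬝ᵥ (K *ᵥ v)).re ≤ M * nsq v) (v : Fin n → ℂ) :
    ∀ s ∈ Icc 0 h, nsq v ≤ Real.exp (2 * M * s) * nsq (Yx B f0 s *ᵥ v) := by
  have h0 := (hFl n).2.2.1 B f0
  have hD : ∀ s, HasDerivAt (fun t => Real.exp (2 * M * t) * nsq (Yx B f0 t *ᵥ v))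
      (Real.exp (2 * M * s) * (2 * M) * nsq (Yx B f0 s *ᵥ v) + Real.exp (2 * M * s) *
        (2 * (star (Yx B f0 s *ᵥ v) ⬝ᵥ (Yx' B f0 s *ᵥ v)).re)) s := by
    intro s
    have h1 : HasDerivAt (fun t : ℝ => Real.exp (2 * M * t)) (Real.exp (2 * M * s) * (2 * M)) s := by
      have h2 : HasDerivAt (fun t : ℝ => 2 * M * t) (2 * M) s := by
        simpa using (hasDerivAt_id s).const_mul (2 * M)
      exact h2.exp
    exact h1.mul (nsq_hasDerivAt hFl B f0 v s)
  have hmono : MonotoneOn (fun t => Real.exp (2 * M * t) * nsq (Yx B f0 t *ᵥ v)) (Icc 0 h) := by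
    apply monotoneOn_of_deriv_nonneg (convex_Icc 0 h)
    · exact fun t _ => (hD t).continuousAt.continuousWithinAt
    · exact fun t _ => (hD t).differentiableAt.differentiableWithinAt
    · intro s hs
      rw [interior_Icc] at hs
      have hs' : s ∈ Icc 0 h := ⟨hs.1.le, hs.2.le⟩
      rw [(hD s).deriv]
      have hdet : IsUnit (Yx B f0 s).det := (Matrix.isUnit_iff_isUnit_det _).mp (hu s hs')
      have e : Yx' B f0 s *ᵥ v = ric B f0 s *ᵥ (Yx B f0 s *ᵥ v) := by
        rw [Matrix.mulVec_mulVec, ric, Matrix.mul_assoc, Matrix.nonsing_inv_mul _ hdet,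
          Matrix.mul_one]
      have h1 := (hK s hs').dotProduct_mulVec_nonneg (Yx B f0 s *ᵥ v)
      rw [Matrix.add_mulVec, dotProduct_add, ← e] at h1
      have h2 := (Complex.le_def.mp h1).1
      rw [Complex.zero_re, Complex.add_re] at h2
      have h3 := hM (Yx B f0 s *ᵥ v)
      have h4 : 0 < Real.exp (2 * M * s) := Real.exp_pos _
      have h5 : 0 ≤ M * nsq (Yx B f0 s *ᵥ v)
          + (star (Yx B f0 s *ᵥ v) ⬝ᵥ (Yx' B f0 s *ᵥ v)).re := by linarith
      nlinarith [mul_nonneg h4.le h5]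
  intro s hs
  have h1 := hmono (left_mem_Icc.mpr (hs.1.trans hs.2)) hs hs.1
  simp only [mul_zero, Real.exp_zero, one_mul] at h1
  rw [h0.1, Matrix.one_mulVec] at h1
  exact h1

theorem closedS (hFl : FlowStatement) (hBd : RiccBoundStatement) : ClosedStatement := by
  intro n h J K W K₀ W₀ hh hWp hIn hK hW
  have hK₀ : K₀.PosSemidef := psd_of_tendsto (fun l => (hIn l).1) hK
  -- uniform bound
  have hsum : Tendsto (fun l => ∑ i, ∑ j, ‖K l i j‖) atTop (𝓝 (∑ i, ∑ j, ‖K₀ i j‖)) := by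
    have hc : Continuous fun A : CMat n => ∑ i, ∑ j, ‖A i j‖ :=
      continuous_finsetSum _ fun i _ => continuous_finsetSum _ fun j _ =>
        (continuous_apply_apply i j).norm
    exact (hc.tendsto K₀).comp hK
  obtain ⟨M, hM⟩ := hsum.bddAbove_range
  have hM' : ∀ l v, (star v ⬝ᵥ (K l *ᵥ v)).re ≤ M * nsq v := by
    intro l v
    refine le_trans (quad_le _ _) ?_
    have h1 : 0 ≤ nsq v := by rw [nsq_eq]; positivity
    exact mul_le_mul_of_nonneg_right (hM ⟨l, rfl⟩) h1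
  have key : ∀ j ≤ J, (∀ i < j, ∀ s ∈ Icc 0 h,
      IsUnit (Yx (K₀ * K₀ - W₀ i) (fseq h K₀ W₀ i) s)) ∧
      Tendsto (fun l => fseq h (K l) (W l) j) atTop (𝓝 (fseq h K₀ W₀ j)) := by
    intro j
    induction j with
    | zero => intro _; exact ⟨fun i hi => absurd hi (by omega), hK⟩
    | succ j ih =>
      intro hj
      obtain ⟨ih1, ih2⟩ := ih (by omega)
      have hjJ : j < J := by omega
      have h3 : Tendsto (fun l => (K l * K l - W l j, fseq h (K l) (W l) j)) atTop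
          (𝓝 (K₀ * K₀ - W₀ j, fseq h K₀ W₀ j)) := (tendsto_B hK (hW j hjJ)).prodMk_nhds ih2
      have hlow : ∀ s ∈ Icc 0 h, ∀ v, nsq v ≤ Real.exp (2 * M * s)
          * nsq (Yx (K₀ * K₀ - W₀ j) (fseq h K₀ W₀ j) s *ᵥ v) := by
        intro s hs v
        have hc : Continuous fun x : CMat n × CMat n => Real.exp (2 * M * s)
            * nsq (Yx x.1 x.2 s *ᵥ v) := by
          have hY : Continuous fun x : CMat n × CMat n => Yx x.1 x.2 s :=
            (hFl n).1.comp (continuous_fst.prodMk (continuous_snd.prodMk continuous_const))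
          have h5 : Continuous fun x : CMat n × CMat n => Yx x.1 x.2 s *ᵥ v :=
            hY.matrix_mulVec continuous_const
          exact continuous_const.mul (Complex.continuous_re.comp (h5.star.dotProduct h5))
        have h4 := (hc.tendsto (K₀ * K₀ - W₀ j, fseq h K₀ W₀ j)).comp h3
        refine ge_of_tendsto' h4 fun l => ?_
        exact nsq_lower hFl h M _ _ (K l) ((hIn l).2.1 j hjJ)
          (fun s hs => (hBd n h J (K l) (W l) hh (hWp l) (hIn l) j hjJ s hs).2.2) (hM' l) v s hs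
      have hunit : ∀ s ∈ Icc 0 h, IsUnit (Yx (K₀ * K₀ - W₀ j) (fseq h K₀ W₀ j) s) := by
        intro s hs
        rw [isUnit_iff_det_ne]
        intro hdet
        obtain ⟨v, hv, hv2⟩ := Matrix.exists_mulVec_eq_zero_iff.mpr hdet
        have h5 := hlow s hs v
        rw [hv2] at h5
        have h6 := nsq_pos hv
        have h7 : nsq (0 : Fin n → ℂ) = 0 := by simp [nsq]
        rw [h7, mul_zero] at h5
        linarith
      refine ⟨?_, ?_⟩
      · intro i hi
        rcases Nat.lt_succ_iff_lt_or_eq.mp hi with h5 | h5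
        · exact ih1 i h5
        · subst h5; exact hunit
      · exact fseq_step hFl (hunit h ⟨hh.le, le_rfl⟩) h3
  refine ⟨hK₀, (key J le_rfl).1, ?_⟩
  exact psd_of_tendsto (fun l => (hIn l).2.2) ((key J le_rfl).2.add hK)

end P371G
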