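import Vale.Agent.P371G.Asm5
import Vale.Agent.P371G.Final
import Vale.Agent.P371G.FA
import Vale.Agent.P371G.FB3
import Vale.Agent.P371G.Fb1
import Vale.Agent.P371G.Fb2
import Vale.Agent.P371G.FC
import Vale.Agent.P371G.Klein
import Vale.Agent.P371G.Polar
import Vale.Agent.P371G.Cert
import Vale.Agent.P371G.CertE3
import Vale.Agent.P371G.PathPhi
import Vale.Agent.P371G.Lift
import Vale.Agent.P371G.RiccTop
import Vale.Agent.P371G.RiccBound
import Vale.Agent.P371G.GridComp
import Vale.Agent.P371G.Brouwer
import Vale.Agent.P371G.Test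

/-!
# P371, general exponent: everything together
-/

namespace P371G

theorem allCertE : CertEStatement :=
  CEx.certE FAx.factA (FBx.factB factB1 fb2) FAx.factC FAx.factD

theorem allCert : CertStatement := cert allCertE pathPhi FAx.factD

theorem allLift : LiftStatement :=
  LFx.lift flow (riccLocal flow) (riccBound (riccLocal flow)) (gridComp flow)
    (closedS flow (riccBound (riccLocal flow))) (openS flow) (traceBound (riccLocal flow)) vi

theorem allMain : MainStatement :=
  Asm.main klein kleinConc contr shift FAx.mPowAlg FAx.mPowBound FAx.mPowCont FAx.trPowSq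
    (polar FAx.mPowAlg FAx.mPowCont) allCert allLift test const

/-- all sharp one-dimensional Lieb-Thirring constants for `1/2 < γ < 3/2` -/
theorem full {γ : ℝ} (h1 : 1 / 2 < γ) (h2 : γ < 3 / 2) {m : ℕ} (hm : 1 ≤ m) :
    P371M.ltConst γ m = P371M.ltOne γ ∧ P371M.ltConst γ m = ENNReal.ofReal (Lone γ) :=
  finalG allMain h1 h2 hm

end P371G
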