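import Vale.Agent.P371G.Defs
import Vale.Agent.P371.MatYoung
import Vale.Agent.P371.MatMoments

/-!
# P371, general exponent: linear algebra lemmas for the assembly
-/

namespace P371G.Asm

open Matrix MeasureTheory Set Filter Topology
open scoped ComplexOrder ComplexConjugate

variable {n m : ℕ}

lemma rtr_add (A B : CMat n) : rtr (A + B) = rtr A + rtr B := by
  simp [rtr, trace_add]

lemma rtr_sub (A B : CMat n) : rtr (A - B) = rtr A - rtr B := by
  simp [rtr, trace_sub]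

lemma rtr_neg (A : CMat n) : rtr (-A) = -rtr A := by
  simp [rtr, trace_neg]

lemma rtr_smul (c : ℝ) (A : CMat n) : rtr ((c : ℂ) • A) = c * rtr A := by
  simp [rtr, trace_smul]

lemma rtr_zero : rtr (0 : CMat n) = 0 := by simp [rtr]

lemma rtr_one : rtr (1 : CMat n) = n := by simp [rtr]

lemma rtr_mul_comm (A : Matrix (Fin n) (Fin m) ℂ) (B : Matrix (Fin m) (Fin n) ℂ) :
    rtr (A * B) = rtr (B * A) := by
  rw [rtr, rtr, trace_mul_comm]

lemma rtr_eq_sum (A : CMat n) : rtr A = ∑ i, (A i i).re := by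
  rw [rtr, trace, Complex.re_sum]; rfl

lemma diag_re_nonneg {A : CMat n} (hA : A.PosSemidef) (i : Fin n) : 0 ≤ (A i i).re := by
  have := hA.diag_nonneg (i := i)
  exact (Complex.nonneg_iff.1 this).1

lemma rtr_nonneg {A : CMat n} (hA : A.PosSemidef) : 0 ≤ rtr A := by
  rw [rtr_eq_sum]
  exact Finset.sum_nonneg fun i _ => diag_re_nonneg hA i

open scoped MatrixOrder Matrix.Norms.L2Operator in
lemma exists_factor {A : CMat n} (hA : A.PosSemidef) : ∃ B : CMat n, A = Bᴴ * B := by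
  classical
  exact CStarAlgebra.nonneg_iff_eq_star_mul_self.mp hA.nonneg

/-- `tr (A B) ≥ 0` for PSD matrices -/
lemma rtr_mul_nonneg {A B : CMat n} (hA : A.PosSemidef) (hB : B.PosSemidef) :
    0 ≤ rtr (A * B) := by
  obtain ⟨C, rfl⟩ := exists_factor hA
  rw [Matrix.mul_assoc, rtr_mul_comm]
  exact rtr_nonneg (hB.mul_mul_conjTranspose_same C)

lemma rtr_mul_le_of_le {A B D : CMat n} (hD : D.PosSemidef) (h : (B - A).PosSemidef) :
    rtr (D * A) ≤ rtr (D * B) := by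
  have := rtr_mul_nonneg hD h
  rw [Matrix.mul_sub, rtr_sub] at this
  linarith

/-- entries of a PSD matrix are bounded by the trace -/
lemma norm_entry_le {A : CMat n} (hA : A.PosSemidef) (i j : Fin n) : ‖A i j‖ ≤ rtr A := by
  obtain ⟨C, rfl⟩ := exists_factor hA
  have h1 : (Cᴴ * C) i j = ∑ k, conj (C k i) * C k j := by
    rw [Matrix.mul_apply]; rfl
  have h2 : ∀ l, ((Cᴴ * C) l l).re = ∑ k, ‖C k l‖ ^ 2 := by
    intro l
    rw [Matrix.mul_apply, Complex.re_sum]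
    refine Finset.sum_congr rfl fun k _ => ?_
    rw [conjTranspose_apply]
    change (conj (C k l) * C k l).re = _
    rw [Complex.conj_mul']
    norm_cast
  have h3 : ‖(Cᴴ * C) i j‖ ≤ ∑ k, (‖C k i‖ ^ 2 + ‖C k j‖ ^ 2) / 2 := by
    rw [h1]
    refine (norm_sum_le _ _).trans (Finset.sum_le_sum fun k _ => ?_)
    rw [norm_mul, RCLike.norm_conj]
    nlinarith [sq_nonneg (‖C k i‖ - ‖C k j‖)]
  refine h3.trans ?_
  rw [rtr_eq_sum]
  have h4 : ∑ k, (‖C k i‖ ^ 2 + ‖C k j‖ ^ 2) / 2 =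
      (((Cᴴ * C) i i).re + ((Cᴴ * C) j j).re) / 2 := by
    rw [h2, h2, ← Finset.sum_add_distrib, Finset.sum_div]
  rw [h4]
  have hnn : ∀ l, 0 ≤ ((Cᴴ * C) l l).re := fun l => diag_re_nonneg hA l
  have h5 : ((Cᴴ * C) i i).re ≤ ∑ l, ((Cᴴ * C) l l).re :=
    Finset.single_le_sum (f := fun l => ((Cᴴ * C) l l).re) (fun l _ => hnn l) (Finset.mem_univ i)
  have h6 : ((Cᴴ * C) j j).re ≤ ∑ l, ((Cᴴ * C) l l).re :=
    Finset.single_le_sum (f := fun l => ((Cᴴ * C) l l).re) (fun l _ => hnn l) (Finset.mem_univ j)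
  linarith

/-- entrywise `ℓ¹` norm -/
noncomputable def N1 {n m : ℕ} (A : Matrix (Fin n) (Fin m) ℂ) : ℝ := ∑ i, ∑ j, ‖A i j‖

lemma N1_nonneg (A : Matrix (Fin n) (Fin m) ℂ) : 0 ≤ N1 A :=
  Finset.sum_nonneg fun _ _ => Finset.sum_nonneg fun _ _ => norm_nonneg _

lemma N1_add_le (A B : Matrix (Fin n) (Fin m) ℂ) : N1 (A + B) ≤ N1 A + N1 B := by
  rw [N1, N1, N1, ← Finset.sum_add_distrib]
  refine Finset.sum_le_sum fun i _ => ?_
  rw [← Finset.sum_add_distrib]
  exact Finset.sum_le_sum fun j _ => norm_add_le _ _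

lemma N1_conjTranspose (A : Matrix (Fin n) (Fin m) ℂ) : N1 Aᴴ = N1 A := by
  rw [N1, N1, Finset.sum_comm]
  simp [conjTranspose_apply]

lemma norm_le_N1 (A : Matrix (Fin n) (Fin m) ℂ) (i : Fin n) (j : Fin m) : ‖A i j‖ ≤ N1 A := by
  refine le_trans ?_ (Finset.single_le_sum (f := fun i => ∑ j, ‖A i j‖)
    (fun i _ => Finset.sum_nonneg fun _ _ => norm_nonneg _) (Finset.mem_univ i))
  exact Finset.single_le_sum (f := fun j => ‖A i j‖) (fun j _ => norm_nonneg _)
    (Finset.mem_univ j)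

lemma N1_mul_le {l : ℕ} (A : Matrix (Fin n) (Fin m) ℂ) (B : Matrix (Fin m) (Fin l) ℂ) :
    N1 (A * B) ≤ N1 A * N1 B := by
  have h1 : ∀ i j, ‖(A * B) i j‖ ≤ ∑ k, ‖A i k‖ * ‖B k j‖ := by
    intro i j
    rw [Matrix.mul_apply]
    refine (norm_sum_le _ _).trans (le_of_eq (Finset.sum_congr rfl fun k _ => norm_mul _ _))
  calc N1 (A * B) ≤ ∑ i, ∑ j, ∑ k, ‖A i k‖ * ‖B k j‖ :=
        Finset.sum_le_sum fun i _ => Finset.sum_le_sum fun j _ => h1 i j
    _ = ∑ i, ∑ k, ‖A i k‖ * ∑ j, ‖B k j‖ := by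
        refine Finset.sum_congr rfl fun i _ => ?_
        rw [Finset.sum_comm]
        refine Finset.sum_congr rfl fun k _ => ?_
        rw [Finset.mul_sum]
    _ ≤ ∑ i, ∑ k, ‖A i k‖ * N1 B := by
        refine Finset.sum_le_sum fun i _ => Finset.sum_le_sum fun k _ => ?_
        refine mul_le_mul_of_nonneg_left ?_ (norm_nonneg _)
        exact Finset.single_le_sum (f := fun k => ∑ j, ‖B k j‖)
          (fun i _ => Finset.sum_nonneg fun _ _ => norm_nonneg _) (Finset.mem_univ k)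
    _ = N1 A * N1 B := by
        rw [show N1 A = ∑ i, ∑ k, ‖A i k‖ from rfl, Finset.sum_mul]
        exact Finset.sum_congr rfl fun i _ => (Finset.sum_mul _ _ _).symm

lemma abs_rtr_mul_le {A B : CMat n} (hA : A.PosSemidef) : |rtr (A * B)| ≤ rtr A * N1 B := by
  have h1 : |rtr (A * B)| ≤ ‖trace (A * B)‖ := Complex.abs_re_le_norm _
  refine h1.trans ?_
  rw [trace]
  refine (norm_sum_le _ _).trans ?_
  calc ∑ i, ‖(A * B).diag i‖ ≤ ∑ i, ∑ j, rtr A * ‖B j i‖ := by
        refine Finset.sum_le_sum fun i _ => ?_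
        rw [diag_apply, Matrix.mul_apply]
        refine (norm_sum_le _ _).trans (Finset.sum_le_sum fun j _ => ?_)
        rw [norm_mul]
        exact mul_le_mul_of_nonneg_right (norm_entry_le hA i j) (norm_nonneg _)
    _ = rtr A * N1 B := by
        rw [Finset.sum_comm, N1, Finset.mul_sum]
        exact Finset.sum_congr rfl fun i _ => (Finset.mul_sum _ _ _).symm

/-- `A ≤ tr(A) 1` for PSD `A` -/
lemma rtr_smul_one_sub {A : CMat n} (hA : A.PosSemidef) :
    (((rtr A : ℝ) : ℂ) • (1 : CMat n) - A).PosSemidef := by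
  obtain ⟨P, hP1, hP2, hAP⟩ := P371M.spectral hA.1
  set a := hA.1.eigenvalues with ha
  have ha0 : ∀ k, 0 ≤ a k := fun k => hA.eigenvalues_nonneg k
  have htr : rtr A = ∑ i, a i := by
    conv_lhs => rw [hAP]
    rw [rtr, trace_mul_comm, ← Matrix.mul_assoc, hP2, Matrix.one_mul, trace_diagonal]
    simp
  have h1 : ((rtr A : ℝ) : ℂ) • (1 : CMat n) - A =
      P * diagonal (fun i => ((rtr A - a i : ℝ) : ℂ)) * Pᴴ := by
    have h2 : diagonal (fun i => ((rtr A - a i : ℝ) : ℂ)) =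
        ((rtr A : ℝ) : ℂ) • (1 : CMat n) - diagonal (fun i => (a i : ℂ)) := by
      rw [smul_one_eq_diagonal, diagonal_sub]
      congr 1
      funext i
      push_cast
      rfl
    rw [h2, Matrix.mul_sub, Matrix.sub_mul, ← hAP]
    congr 1
    rw [Matrix.mul_smul, Matrix.smul_mul, Matrix.mul_one, hP1]
  rw [h1]
  refine PosSemidef.mul_mul_conjTranspose_same ?_ P
  refine PosSemidef.diagonal fun i => ?_
  simp only [Pi.zero_apply]
  rw [Complex.zero_le_real]
  have : a i ≤ ∑ i, a i := Finset.single_le_sum (fun i _ => ha0 i) (Finset.mem_univ i)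
  rw [htr]; linarith

lemma posSemidef_smul_one {c : ℝ} (hc : 0 ≤ c) : ((c : ℂ) • (1 : CMat n)).PosSemidef :=
  PosSemidef.one.smul (by exact_mod_cast hc)

/-- trace of a contraction-compressed PSD matrix -/
lemma rtr_contr_le {T : Matrix (Fin n) (Fin m) ℂ} {W : CMat m} (hW : W.PosSemidef)
    (hT : (1 - Tᴴ * T).PosSemidef) : rtr (T * W * Tᴴ) ≤ rtr W := by
  have h1 : rtr (T * W * Tᴴ) = rtr (W * (Tᴴ * T)) := by
    rw [Matrix.mul_assoc, rtr_mul_comm, Matrix.mul_assoc]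
  have h2 := rtr_mul_nonneg hW hT
  rw [Matrix.mul_sub, Matrix.mul_one, rtr_sub] at h2
  rw [h1]; linarith

end P371G.Asm
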