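import Vale.Agent.P371G.Asm1
import Vale.Agent.P371.Dual

/-!
# P371, general exponent: averages of potentials, bounds of `H¹` functions
-/

namespace P371G.Asm

open Matrix MeasureTheory Set Filter Topology
open scoped ComplexOrder ComplexConjugate

variable {n m : ℕ}

lemma trPow_eq {p : ℝ} {A : CMat m} (hA : A.IsHermitian) :
    P371M.trPow p A = ∑ i, hA.eigenvalues i ^ p := by
  rw [P371M.trPow, dif_pos hA]

lemma trPow_nonneg {p : ℝ} {A : CMat m} (hA : A.PosSemidef) : 0 ≤ P371M.trPow p A := by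
  rw [trPow_eq hA.1]
  exact Finset.sum_nonneg fun i _ => Real.rpow_nonneg (hA.eigenvalues_nonneg i) _

lemma rtr_eq_eigenvalues {A : CMat m} (hA : A.IsHermitian) :
    rtr A = ∑ i, hA.eigenvalues i := by
  rw [rtr, hA.trace_eq_sum_eigenvalues]
  simp

lemma rtr_le_add_trPow {p : ℝ} (hp : 1 ≤ p) {A : CMat m} (hA : A.PosSemidef) :
    rtr A ≤ m + P371M.trPow p A := by
  rw [trPow_eq hA.1, rtr_eq_eigenvalues hA.1]
  have h1 : (m : ℝ) = ∑ _i : Fin m, (1 : ℝ) := by simp
  rw [h1, ← Finset.sum_add_distrib]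
  refine Finset.sum_le_sum fun i _ => ?_
  set x := hA.1.eigenvalues i with hx
  have hx0 : 0 ≤ x := hA.eigenvalues_nonneg i
  rcases le_total x 1 with h | h
  · have := Real.rpow_nonneg hx0 p
    linarith
  · have := Real.rpow_le_rpow_of_exponent_le h hp
    rw [Real.rpow_one] at this
    linarith

lemma rtr_rpow_le {p : ℝ} (hp : 0 < p) {A : CMat m} (hA : A.PosSemidef) :
    rtr A ^ p ≤ (m : ℝ) ^ p * P371M.trPow p A := by
  rcases Nat.eq_zero_or_pos m with rfl | hm
  · rw [rtr_eq_eigenvalues hA.1]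
    simp [Real.zero_rpow hp.ne', trPow_eq hA.1]
  rw [trPow_eq hA.1, rtr_eq_eigenvalues hA.1]
  set x := hA.1.eigenvalues with hx
  have hx0 : ∀ i, 0 ≤ x i := fun i => hA.eigenvalues_nonneg i
  obtain ⟨k, -, hk⟩ := Finset.exists_max_image Finset.univ x ⟨⟨0, hm⟩, Finset.mem_univ _⟩
  have h1 : ∑ i, x i ≤ m * x k := by
    calc ∑ i, x i ≤ ∑ _i : Fin m, x k := Finset.sum_le_sum fun i _ => hk i (Finset.mem_univ i)
      _ = m * x k := by simp
  calc (∑ i, x i) ^ p ≤ (m * x k) ^ p :=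
        Real.rpow_le_rpow (Finset.sum_nonneg fun i _ => hx0 i) h1 hp.le
    _ = (m : ℝ) ^ p * x k ^ p := Real.mul_rpow (Nat.cast_nonneg m) (hx0 k)
    _ ≤ _ := by
        refine mul_le_mul_of_nonneg_left ?_ (Real.rpow_nonneg (Nat.cast_nonneg m) _)
        exact Finset.single_le_sum (f := fun i => x i ^ p)
          (fun i _ => Real.rpow_nonneg (hx0 i) _) (Finset.mem_univ k)

/-- a Hermitian matrix which is nonnegative against all rank one projections is PSD -/
lemma posSemidef_of_rtr {A : CMat m} (hA : A.IsHermitian)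
    (h : ∀ v : Fin m → ℂ, 0 ≤ rtr (A * vecMulVec v (star v))) : A.PosSemidef := by
  refine .of_dotProduct_mulVec_nonneg hA fun v => ?_
  have h1 : star v ⬝ᵥ A *ᵥ v = trace (A * vecMulVec v (star v)) := by
    rw [mul_vecMulVec, trace_vecMulVec, dotProduct_comm]
  have h2 : (star v ⬝ᵥ A *ᵥ v).im = 0 := by
    have := hA.im_star_dotProduct_mulVec_self v
    simpa using this
  rw [Complex.nonneg_iff]
  refine ⟨?_, h2.symm⟩
  rw [h1]
  exact h v

lemma vecMulVec_posSemidef (v : Fin m → ℂ) : (vecMulVec v (star v)).PosSemidef :=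
  posSemidef_vecMulVec_self_star v

/-- average over an interval -/
noncomputable def avg (W : ℝ → CMat m) (x₀ x₁ : ℝ) : CMat m :=
  Matrix.of fun a b => (((x₁ - x₀)⁻¹ : ℝ) : ℂ) * ∫ x in x₀..x₁, W x a b

/-- measurability and local integrability data of a potential -/
def LocInt (W : ℝ → CMat m) : Prop :=
  (∀ x, (W x).PosSemidef) ∧ ∀ x₀ x₁ : ℝ, ∀ a b, IntervalIntegrable (fun x => W x a b) volume x₀ x₁

lemma rtr_mul_eq (A B : CMat m) : rtr (A * B) = ∑ a, ∑ b, (A a b * B b a).re := by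
  rw [rtr_eq_sum]
  refine Finset.sum_congr rfl fun a _ => ?_
  rw [Matrix.mul_apply, Complex.re_sum]

lemma ii_sum {ι : Type*} (s : Finset ι) {f : ι → ℝ → ℝ} {a b : ℝ}
    (h : ∀ i ∈ s, IntervalIntegrable (f i) volume a b) :
    IntervalIntegrable (fun x => ∑ i ∈ s, f i x) volume a b := by
  have := IntervalIntegrable.sum s h
  refine this.congr fun x _ => ?_
  simp

lemma LocInt.rtr_mul {W : ℝ → CMat m} (hW : LocInt W) (D : CMat m) (x₀ x₁ : ℝ) :
    IntervalIntegrable (fun x => rtr (W x * D)) volume x₀ x₁ := by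
  simp_rw [rtr_mul_eq]
  refine ii_sum _ fun a _ => ii_sum _ fun b _ => ?_
  have := (hW.2 x₀ x₁ a b).mul_const (D b a)
  exact ⟨this.1.re, this.2.re⟩

lemma LocInt.integral_rtr_mul {W : ℝ → CMat m} (hW : LocInt W) (D : CMat m) {x₀ x₁ : ℝ}
    (h : x₀ < x₁) :
    ∫ x in x₀..x₁, rtr (W x * D) = (x₁ - x₀) * rtr (avg W x₀ x₁ * D) := by
  have h0 : x₁ - x₀ ≠ 0 := by linarith
  simp_rw [rtr_mul_eq]
  rw [intervalIntegral.integral_finsetSum]
  · rw [Finset.mul_sum]
    refine Finset.sum_congr rfl fun a _ => ?_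
    rw [intervalIntegral.integral_finsetSum]
    · rw [Finset.mul_sum]
      refine Finset.sum_congr rfl fun b _ => ?_
      have h1 := (hW.2 x₀ x₁ a b).mul_const (D b a)
      have h2 : ∫ x in x₀..x₁, (W x a b * D b a).re = (∫ x in x₀..x₁, W x a b * D b a).re := by
        rw [intervalIntegral.integral_of_le h.le, intervalIntegral.integral_of_le h.le]
        exact integral_re h1.1
      rw [h2, intervalIntegral.integral_mul_const, avg, Matrix.of_apply, mul_assoc,
        Complex.re_ofReal_mul, ← mul_assoc, mul_inv_cancel₀ h0, one_mul]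
    · intro b _
      have := (hW.2 x₀ x₁ a b).mul_const (D b a)
      exact ⟨this.1.re, this.2.re⟩
  · intro a _
    refine ii_sum _ fun b _ => ?_
    have := (hW.2 x₀ x₁ a b).mul_const (D b a)
    exact ⟨this.1.re, this.2.re⟩

lemma avg_isHermitian {W : ℝ → CMat m} (hW : LocInt W) (x₀ x₁ : ℝ) :
    (avg W x₀ x₁).IsHermitian := by
  ext a b
  rw [conjTranspose_apply, avg, Matrix.of_apply, Matrix.of_apply]
  change conj _ = _
  rw [map_mul, Complex.conj_ofReal]
  congr 1
  rw [← intervalIntegral.intervalIntegral_conj]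
  refine intervalIntegral.integral_congr fun x _ => ?_
  have := (hW.1 x).1.apply a b
  exact this

lemma avg_posSemidef {W : ℝ → CMat m} (hW : LocInt W) {x₀ x₁ : ℝ} (h : x₀ < x₁) :
    (avg W x₀ x₁).PosSemidef := by
  refine posSemidef_of_rtr (avg_isHermitian hW x₀ x₁) fun v => ?_
  have h1 := hW.integral_rtr_mul (vecMulVec v (star v)) h
  have h2 : 0 ≤ ∫ x in x₀..x₁, rtr (W x * vecMulVec v (star v)) :=
    intervalIntegral.integral_nonneg h.le fun x _ =>
      rtr_mul_nonneg (hW.1 x) (vecMulVec_posSemidef v)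
  rw [h1] at h2
  exact nonneg_of_mul_nonneg_right h2 (by linarith)

lemma LocInt.integral_rtr {W : ℝ → CMat m} (hW : LocInt W) {x₀ x₁ : ℝ} (h : x₀ < x₁) :
    ∫ x in x₀..x₁, rtr (W x) = (x₁ - x₀) * rtr (avg W x₀ x₁) := by
  have := hW.integral_rtr_mul 1 h
  simpa using this

/-- Jensen's inequality for the average -/
lemma jensen_avg (hK : KleinStatement) {p : ℝ} (hp : 1 ≤ p) {W : ℝ → CMat m} (hW : LocInt W)
    {x₀ x₁ : ℝ} (h : x₀ < x₁)
    (hi : IntervalIntegrable (fun x => P371M.trPow p (W x)) volume x₀ x₁) :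
    (x₁ - x₀) * P371M.trPow p (avg W x₀ x₁) ≤ ∫ x in x₀..x₁, P371M.trPow p (W x) := by
  set A := avg W x₀ x₁ with hA
  have hAp : A.PosSemidef := avg_posSemidef hW h
  set M := mPow (p - 1) A with hM
  have h1 : ∀ x, P371M.trPow p A - p * rtr (A * M) + p * rtr (W x * M) ≤ P371M.trPow p (W x) := by
    intro x
    have := hK m p hp A (W x) hAp (hW.1 x)
    rw [← hM, Matrix.mul_sub, rtr_sub, rtr_mul_comm M (W x), rtr_mul_comm M A] at this
    linarith
  have h2 : ∫ x in x₀..x₁, (P371M.trPow p A - p * rtr (A * M) + p * rtr (W x * M)) ≤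
      ∫ x in x₀..x₁, P371M.trPow p (W x) := by
    refine intervalIntegral.integral_mono_on h.le ?_ hi fun x _ => h1 x
    exact intervalIntegrable_const.add ((hW.rtr_mul M x₀ x₁).const_mul p)
  refine le_trans (le_of_eq ?_) h2
  rw [intervalIntegral.integral_add intervalIntegrable_const ((hW.rtr_mul M x₀ x₁).const_mul p),
    intervalIntegral.integral_const, intervalIntegral.integral_const_mul,
    hW.integral_rtr_mul M h, smul_eq_mul]
  ring

/-- a potential is locally integrable -/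
lemma locInt_of_potential {γ : ℝ} (hγ : 1 / 2 ≤ γ) {W : ℝ → CMat m}
    (hW : P371M.IsPotential γ W) : LocInt W := by
  obtain ⟨h1, h2, h3⟩ := hW
  refine ⟨h2, fun x₀ x₁ a b => ?_⟩
  have h4 : IntervalIntegrable (fun x => (m : ℝ) + P371M.trPow (γ + 1 / 2) (W x)) volume x₀ x₁ :=
    intervalIntegrable_const.add h3.intervalIntegrable
  refine h4.mono_fun (h1 a b).aestronglyMeasurable (ae_of_all _ fun x => ?_)
  have h5 : (1 : ℝ) ≤ γ + 1 / 2 := by linarith
  refine (norm_entry_le (h2 x) a b).trans ((rtr_le_add_trPow h5 (h2 x)).trans ?_)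
  exact le_abs_self _

/-- `H¹` functions are bounded -/
lemma _root_.P371G.IsH1Mat.bounded {ψ ψ' : ℝ → Matrix (Fin n) (Fin m) ℂ} (h : IsH1Mat ψ ψ') :
    ∃ M : ℝ, 0 ≤ M ∧ ∀ x, N1 (ψ x) ≤ M := by
  have h1 : ∀ i j, ∃ M : ℝ, 0 ≤ M ∧ ∀ x, ‖ψ x i j‖ ≤ M := by
    intro i j
    obtain ⟨hu, hg, hp⟩ := h i j
    have hC : P371.IsPrimC (fun x => ψ x i j) (fun x => ψ' x i j) :=
      ⟨(P371.IsH1.re (h i j)).2.2, (P371.IsH1.im (h i j)).2.2⟩
    have hC2 := (hC.mul hC.conj')
    -- `|u|²` is a primitive of an integrable function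
    have hint : Integrable (fun x => ψ' x i j * conj (ψ x i j) + ψ x i j * conj (ψ' x i j))
        volume :=
      (P371.integrable_mul_conj hg hu).add (P371.integrable_mul_conj hu hg)
    set G : ℝ → ℂ := fun x => ψ' x i j * conj (ψ x i j) + ψ x i j * conj (ψ' x i j) with hG
    have hsq : Integrable (fun x => ‖ψ x i j‖ ^ 2) volume := by
      have := (P371.integrable_mul_conj hu hu).norm
      refine this.congr (ae_of_all _ fun x => ?_)
      simp only [norm_mul, RCLike.norm_conj]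
      ring
    set B := ∫ x, ‖G x‖ with hB
    have hB0 : 0 ≤ B := integral_nonneg fun x => norm_nonneg _
    obtain ⟨x₀, hx₀⟩ : ∃ x₀, ‖ψ x₀ i j‖ ^ 2 ≤ 1 := by
      by_contra hcon
      push Not at hcon
      have h2 : Integrable (fun _ : ℝ => (1 : ℝ)) volume :=
        hsq.mono' aestronglyMeasurable_const (ae_of_all _ fun x => by
          simpa using (hcon x).le)
      rw [integrable_const_iff] at h2
      rcases h2 with h2 | h2
      · exact one_ne_zero h2
      · have := h2.measure_univ_lt_top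
        simp at this
    refine ⟨1 + B, by linarith, fun x => ?_⟩
    have h3 : (ψ x i j * conj (ψ x i j)).re - (ψ x₀ i j * conj (ψ x₀ i j)).re =
      ∫ t in x₀..x, (G t).re := hC2.1.2 x₀ x
    have hre : ∀ y, (ψ y i j * conj (ψ y i j)).re = ‖ψ y i j‖ ^ 2 := by
      intro y
      rw [Complex.mul_conj']
      norm_cast
    rw [hre, hre] at h3
    have h4 : ‖ψ x i j‖ ^ 2 ≤ 1 + B := by
      have h5 : |∫ t in x₀..x, (G t).re| ≤ B := by
        rw [← Real.norm_eq_abs]
        refine (intervalIntegral.norm_integral_le_integral_norm_uIoc).trans ?_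
        refine (setIntegral_le_integral hint.re.norm (ae_of_all _ fun x => norm_nonneg _)).trans ?_
        exact integral_mono hint.re.norm hint.norm fun x => Complex.abs_re_le_norm (G x)
      have h6 := (abs_le.1 h5).2
      have h7 : ‖ψ x i j‖ ^ 2 - ‖ψ x₀ i j‖ ^ 2 = ∫ t in x₀..x, (G t).re := h3
      linarith
    have h7 : 0 ≤ ‖ψ x i j‖ := norm_nonneg _
    nlinarith [sq_nonneg (‖ψ x i j‖ - 1)]
  choose M hM0 hM using h1
  refine ⟨∑ i, ∑ j, M i j, Finset.sum_nonneg fun i _ => Finset.sum_nonneg fun j _ => hM0 i j,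
    fun x => Finset.sum_le_sum fun i _ => Finset.sum_le_sum fun j _ => hM i j x⟩

lemma _root_.P371G.IsH1Mat.continuous {ψ ψ' : ℝ → Matrix (Fin n) (Fin m) ℂ} (h : IsH1Mat ψ ψ') (i : Fin n)
    (j : Fin m) : Continuous fun x => ψ x i j := by
  obtain ⟨hu, hg, hp⟩ := h i j
  have h1 : (fun x => ψ x i j) = fun x => ψ 0 i j + ∫ t in (0 : ℝ)..x, ψ' t i j := by
    funext x
    rw [← hp]; ring
  rw [h1]
  exact continuous_const.add (intervalIntegral.continuous_primitive
    (fun a b => P371.intervalIntegrable_of_memLp hg a b) 0)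

end P371G.Asm
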