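import Vale.Agent.P371G.Asm2

/-!
# P371, general exponent: approximation of the potential by lifted step potentials
-/

namespace P371G.Asm

open Matrix MeasureTheory Set Filter Topology
open scoped ComplexOrder ComplexConjugate

variable {n m : ℕ}

lemma measurable_rtr_mul {A B : ℝ → CMat m} (hA : ∀ a b, Measurable fun x => A x a b)
    (hB : ∀ a b, Measurable fun x => B x a b) : Measurable fun x => rtr (A x * B x) := by
  simp_rw [rtr_mul_eq]
  refine Finset.measurable_sum _ fun a _ => Finset.measurable_sum _ fun b _ => ?_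
  exact Complex.measurable_re.comp ((hA a b).mul (hB b a))

lemma continuous_rtr {A : ℝ → CMat m} (hA : ∀ a b, Continuous fun x => A x a b) :
    Continuous fun x => rtr (A x) := by
  simp_rw [rtr_eq_sum]
  exact continuous_finsetSum _ fun a _ => Complex.continuous_re.comp (hA a a)

lemma continuous_mul_entry {k l r : ℕ} {A : ℝ → Matrix (Fin k) (Fin l) ℂ}
    {B : ℝ → Matrix (Fin l) (Fin r) ℂ} (hA : ∀ a b, Continuous fun x => A x a b)
    (hB : ∀ a b, Continuous fun x => B x a b) (a : Fin k) (b : Fin r) :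
    Continuous fun x => (A x * B x) a b := by
  simp_rw [Matrix.mul_apply]
  exact continuous_finsetSum _ fun c _ => (hA a c).mul (hB c b)

lemma continuous_conjT_entry {k l : ℕ} {A : ℝ → Matrix (Fin k) (Fin l) ℂ}
    (hA : ∀ a b, Continuous fun x => A x a b) (a : Fin l) (b : Fin k) :
    Continuous fun x => (A x)ᴴ a b := by
  simp_rw [conjTranspose_apply]
  exact continuous_star.comp (hA b a)

lemma rtr_weight_eq (W : CMat m) (C : CMat n) (X : Matrix (Fin n) (Fin m) ℂ) :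
    rtr (W * ((C * X)ᴴ * (C * X))) = rtr (X * W * Xᴴ * (Cᴴ * C)) := by
  rw [conjTranspose_mul]
  have h1 : W * (Xᴴ * Cᴴ * (C * X)) = (W * Xᴴ * (Cᴴ * C)) * X := by
    simp only [Matrix.mul_assoc]
  rw [h1, rtr_mul_comm]
  simp only [Matrix.mul_assoc]

lemma rtr_weight_nonneg {W : CMat m} (hW : W.PosSemidef) (X : Matrix (Fin n) (Fin m) ℂ) :
    0 ≤ rtr (W * (Xᴴ * X)) :=
  rtr_mul_nonneg hW (posSemidef_conjTranspose_mul_self X)

lemma rtr_weight_le {W : CMat m} (hW : W.PosSemidef) (C : CMat n)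
    (X : Matrix (Fin n) (Fin m) ℂ) {c₀ : ℝ} (hC : N1 C ≤ c₀) :
    rtr (W * ((C * X)ᴴ * (C * X))) ≤ c₀ ^ 2 * rtr (W * (Xᴴ * X)) := by
  rw [rtr_weight_eq]
  have h1 : (X * W * Xᴴ).PosSemidef := hW.mul_mul_conjTranspose_same X
  have h2 : rtr (W * (Xᴴ * X)) = rtr (X * W * Xᴴ) := by
    rw [← Matrix.mul_assoc, rtr_mul_comm, Matrix.mul_assoc]
  rw [h2]
  refine (le_abs_self _).trans ((abs_rtr_mul_le h1).trans ?_)
  rw [mul_comm]
  refine mul_le_mul_of_nonneg_right ?_ (rtr_nonneg h1)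
  refine (N1_mul_le _ _).trans ?_
  rw [N1_conjTranspose, sq]
  exact mul_le_mul hC hC (N1_nonneg _) ((N1_nonneg _).trans hC)

lemma N1_sub_comm (A B : Matrix (Fin n) (Fin m) ℂ) : N1 (A - B) = N1 (B - A) := by
  simp only [N1]
  refine Finset.sum_congr rfl fun i _ => Finset.sum_congr rfl fun j _ => ?_
  exact norm_sub_rev _ _

/-- variation of the quadratic expressions -/
lemma N1_quad_sub_le {C : CMat n} {X Y : Matrix (Fin n) (Fin m) ℂ} {c₀ M ω : ℝ}
    (hC : N1 C ≤ c₀) (hX : N1 X ≤ M) (hY : N1 Y ≤ M) (hXY : N1 (X - Y) ≤ ω) :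
    N1 ((C * X)ᴴ * (C * X) - (C * Y)ᴴ * (C * Y)) ≤ 2 * c₀ ^ 2 * M * ω ∧
    N1 ((C * X) * (C * X)ᴴ - (C * Y) * (C * Y)ᴴ) ≤ 2 * c₀ ^ 2 * M * ω := by
  have hc0 : 0 ≤ c₀ := (N1_nonneg _).trans hC
  have hM0 : 0 ≤ M := (N1_nonneg _).trans hX
  have hω0 : 0 ≤ ω := (N1_nonneg _).trans hXY
  have hCX : N1 (C * X) ≤ c₀ * M := (N1_mul_le _ _).trans (mul_le_mul hC hX (N1_nonneg _) hc0)
  have hCY : N1 (C * Y) ≤ c₀ * M := (N1_mul_le _ _).trans (mul_le_mul hC hY (N1_nonneg _) hc0)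
  have hCD : N1 (C * X - C * Y) ≤ c₀ * ω := by
    rw [← Matrix.mul_sub]
    exact (N1_mul_le _ _).trans (mul_le_mul hC hXY (N1_nonneg _) hc0)
  have hcM : 0 ≤ c₀ * M := mul_nonneg hc0 hM0
  have hcω : 0 ≤ c₀ * ω := mul_nonneg hc0 hω0
  constructor
  · have e : (C * X)ᴴ * (C * X) - (C * Y)ᴴ * (C * Y) =
        (C * X - C * Y)ᴴ * (C * X) + (C * Y)ᴴ * (C * X - C * Y) := by
      rw [conjTranspose_sub, Matrix.sub_mul, Matrix.mul_sub]; abel
    rw [e]
    refine (N1_add_le _ _).trans ?_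
    have h1 := (N1_mul_le (C * X - C * Y)ᴴ (C * X))
    have h2 := (N1_mul_le (C * Y)ᴴ (C * X - C * Y))
    rw [N1_conjTranspose] at h1 h2
    have h3 : N1 (C * X - C * Y) * N1 (C * X) ≤ c₀ * ω * (c₀ * M) :=
      mul_le_mul hCD hCX (N1_nonneg _) hcω
    have h4 : N1 (C * Y) * N1 (C * X - C * Y) ≤ c₀ * M * (c₀ * ω) :=
      mul_le_mul hCY hCD (N1_nonneg _) hcM
    nlinarith
  · have e : (C * X) * (C * X)ᴴ - (C * Y) * (C * Y)ᴴ =
        (C * X - C * Y) * (C * X)ᴴ + (C * Y) * (C * X - C * Y)ᴴ := by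
      rw [conjTranspose_sub, Matrix.sub_mul, Matrix.mul_sub]; abel
    rw [e]
    refine (N1_add_le _ _).trans ?_
    have h1 := (N1_mul_le (C * X - C * Y) (C * X)ᴴ)
    have h2 := (N1_mul_le (C * Y) (C * X - C * Y)ᴴ)
    rw [N1_conjTranspose] at h1 h2
    have h3 : N1 (C * X - C * Y) * N1 (C * X) ≤ c₀ * ω * (c₀ * M) :=
      mul_le_mul hCD hCX (N1_nonneg _) hcω
    have h4 : N1 (C * Y) * N1 (C * X - C * Y) ≤ c₀ * M * (c₀ * ω) :=
      mul_le_mul hCY hCD (N1_nonneg _) hcM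
    nlinarith

lemma memLp_N1 {ψ ψ' : ℝ → Matrix (Fin n) (Fin m) ℂ} (hψ : IsH1Mat ψ ψ') :
    MemLp (fun x => N1 (ψ x)) 2 volume := by
  unfold N1
  exact memLp_finsetSum _ fun i _ => memLp_finsetSum _ fun j _ => (hψ i j).1.norm

lemma measurable_W {γ : ℝ} {W : ℝ → CMat m} (hW : P371M.IsPotential γ W) (a b : Fin m) :
    Measurable fun x => W x a b := hW.1 a b

/-- integrability of the weight -/
lemma integrable_weight {γ : ℝ} (hγ : 1 / 2 ≤ γ) {W : ℝ → CMat m} (hW : P371M.IsPotential γ W)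
    {ψ ψ' : ℝ → Matrix (Fin n) (Fin m) ℂ} (hψ : IsH1Mat ψ ψ') (C : CMat n) :
    Integrable (fun x => rtr (W x * ((C * ψ x)ᴴ * (C * ψ x)))) volume := by
  obtain ⟨M, hM0, hM⟩ := hψ.bounded
  have hp : 1 ≤ γ + 1 / 2 := by linarith
  have hmeas : Measurable fun x => rtr (W x * ((C * ψ x)ᴴ * (C * ψ x))) := by
    refine measurable_rtr_mul (fun a b => hW.1 a b) fun a b => ?_
    have h1 : ∀ i j, Continuous fun x => (C * ψ x) i j :=
      continuous_mul_entry (fun i j => continuous_const) fun i j => hψ.continuous i j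
    exact (continuous_mul_entry (continuous_conjT_entry h1) h1 a b).measurable
  have hdom : Integrable (fun x => N1 C ^ 2 * (N1 (ψ x) ^ 2 + M ^ 2 * ((m : ℝ) ^ (γ + 1 / 2) *
      P371M.trPow (γ + 1 / 2) (W x)))) volume :=
    ((memLp_N1 hψ).integrable_sq.add ((hW.2.2.const_mul _).const_mul _)).const_mul _
  refine hdom.mono' hmeas.aestronglyMeasurable (ae_of_all _ fun x => ?_)
  rw [Real.norm_eq_abs, abs_of_nonneg (rtr_weight_nonneg (hW.2.1 x) _)]
  refine (rtr_weight_le (hW.2.1 x) C (ψ x) le_rfl).trans ?_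
  refine mul_le_mul_of_nonneg_left ?_ (sq_nonneg _)
  have h1 : rtr (W x * ((ψ x)ᴴ * ψ x)) ≤ rtr (W x) * N1 (ψ x) ^ 2 := by
    refine (le_abs_self _).trans ((abs_rtr_mul_le (hW.2.1 x)).trans ?_)
    refine mul_le_mul_of_nonneg_left ?_ (rtr_nonneg (hW.2.1 x))
    refine (N1_mul_le _ _).trans ?_
    rw [N1_conjTranspose, sq]
  refine h1.trans ?_
  have h2 := rtr_rpow_le (by linarith : 0 < γ + 1 / 2) (hW.2.1 x)
  have h3 : 0 ≤ rtr (W x) := rtr_nonneg (hW.2.1 x)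
  have h4 : 0 ≤ (m : ℝ) ^ (γ + 1 / 2) * P371M.trPow (γ + 1 / 2) (W x) :=
    mul_nonneg (Real.rpow_nonneg (Nat.cast_nonneg m) _) (trPow_nonneg (hW.2.1 x))
  have h5 : N1 (ψ x) ^ 2 ≤ M ^ 2 := pow_le_pow_left₀ (N1_nonneg _) (hM x) 2
  rcases le_total (rtr (W x)) 1 with h | h
  · have : rtr (W x) * N1 (ψ x) ^ 2 ≤ 1 * N1 (ψ x) ^ 2 :=
      mul_le_mul_of_nonneg_right h (sq_nonneg _)
    have h6 : 0 ≤ M ^ 2 * ((m : ℝ) ^ (γ + 1 / 2) * P371M.trPow (γ + 1 / 2) (W x)) :=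
      mul_nonneg (sq_nonneg _) h4
    linarith
  · have h6 : rtr (W x) ≤ rtr (W x) ^ (γ + 1 / 2) := by
      have := Real.rpow_le_rpow_of_exponent_le h hp
      rwa [Real.rpow_one] at this
    have h7 : rtr (W x) * N1 (ψ x) ^ 2 ≤
        ((m : ℝ) ^ (γ + 1 / 2) * P371M.trPow (γ + 1 / 2) (W x)) * M ^ 2 :=
      mul_le_mul (h6.trans h2) h5 (sq_nonneg _) h4
    nlinarith [sq_nonneg (N1 (ψ x))]

/-- uniform continuity on compact intervals -/
lemma unif_cont {ψ : ℝ → Matrix (Fin n) (Fin m) ℂ} (hψ : ∀ i j, Continuous fun x => ψ x i j)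
    (L : ℝ) {ω : ℝ} (hω : 0 < ω) : ∃ d > 0, ∀ x ∈ Icc (-L) L, ∀ y ∈ Icc (-L) L,
      |x - y| ≤ d → N1 (ψ x - ψ y) ≤ ω := by
  set F : ℝ × ℝ → ℝ := fun z => N1 (ψ z.1 - ψ z.2) with hF
  have hFc : Continuous F := by
    simp only [hF, N1]
    refine continuous_finsetSum _ fun i _ => continuous_finsetSum _ fun j _ => ?_
    exact (((hψ i j).comp continuous_fst).sub ((hψ i j).comp continuous_snd)).norm
  by_contra hcon
  push Not at hcon
  have h1 : ∀ k : ℕ, ∃ z : ℝ × ℝ, z ∈ Icc (-L) L ×ˢ Icc (-L) L ∧ |z.1 - z.2| ≤ 1 / ((k : ℝ) + 1) ∧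
      ω < F z := by
    intro k
    obtain ⟨x, hx, y, hy, h2, h3⟩ := hcon (1 / ((k : ℝ) + 1)) (by positivity)
    exact ⟨(x, y), ⟨hx, hy⟩, h2, h3⟩
  choose z hz1 hz2 hz3 using h1
  obtain ⟨w, hw, φ, hφ, hlim⟩ := (isCompact_Icc.prod isCompact_Icc).tendsto_subseq hz1
  have h4 : Tendsto (fun k => |(z (φ k)).1 - (z (φ k)).2|) atTop (𝓝 |w.1 - w.2|) :=
    (((continuous_fst.sub continuous_snd).abs).tendsto w).comp hlim
  have h5 : Tendsto (fun k => |(z (φ k)).1 - (z (φ k)).2|) atTop (𝓝 0) := by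
    refine squeeze_zero (fun k => abs_nonneg _) (fun k => hz2 (φ k)) ?_
    exact (tendsto_one_div_add_atTop_nhds_zero_nat (𝕜 := ℝ)).comp hφ.tendsto_atTop
  have h6 : |w.1 - w.2| = 0 := tendsto_nhds_unique h4 h5
  have h7 : w.1 = w.2 := by linarith [abs_eq_zero.1 h6]
  have h8 : F w = 0 := by
    simp only [hF, N1, h7, sub_self, Matrix.zero_apply, norm_zero, Finset.sum_const_zero]
  have h9 : Tendsto (fun k => F (z (φ k))) atTop (𝓝 (F w)) := (hFc.tendsto w).comp hlim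
  have h10 : ω ≤ F w := ge_of_tendsto h9 (Eventually.of_forall fun k => (hz3 (φ k)).le)
  rw [h8] at h10
  linarith

/-- the estimate on one cell -/
lemma cell_estimate (hPol : PolarStatement) {W : ℝ → CMat m} (hW : LocInt W)
    {ψ : ℝ → Matrix (Fin n) (Fin m) ℂ} (hψ : ∀ i j, Continuous fun x => ψ x i j)
    {x₀ x₁ : ℝ} (hx : x₀ < x₁) {c₀ M ω ε : ℝ} (hε : 0 < ε) {C : CMat n} (hC : N1 C ≤ c₀)
    (hM : ∀ x, N1 (ψ x) ≤ M) (hω : ∀ x ∈ Icc x₀ x₁, N1 (ψ x - ψ x₀) ≤ ω)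
    (hi : IntervalIntegrable (fun x => rtr (W x * ((C * ψ x)ᴴ * (C * ψ x)))) volume x₀ x₁) :
    ∫ x in x₀..x₁, rtr (W x * ((C * ψ x)ᴴ * (C * ψ x))) ≤
      (∫ x in x₀..x₁, rtr (Tpol ε (C * ψ x₀) * avg W x₀ x₁ * (Tpol ε (C * ψ x₀))ᴴ *
        ((C * ψ x) * (C * ψ x)ᴴ))) +
      (ε + 2 * (2 * c₀ ^ 2 * M * ω)) * ∫ x in x₀..x₁, rtr (W x) := by
  set τ := 2 * c₀ ^ 2 * M * ω with hτ
  set U := C * ψ x₀ with hU
  set T := Tpol ε U with hT
  set A := avg W x₀ x₁ with hA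
  have hAp : A.PosSemidef := avg_posSemidef hW hx
  obtain ⟨-, hpol⟩ := hPol n m ε hε
  obtain ⟨hT1, hT2⟩ := hpol U
  have hTW := hT2 A hAp
  rw [← hT] at hT1 hTW
  have hTA : (T * A * Tᴴ).PosSemidef := hAp.mul_mul_conjTranspose_same T
  have hTA' : rtr (T * A * Tᴴ) ≤ rtr A := rtr_contr_le hAp hT1
  -- left side
  have h1 : ∀ x ∈ Icc x₀ x₁, rtr (W x * ((C * ψ x)ᴴ * (C * ψ x))) ≤
      rtr (W x * (Uᴴ * U)) + τ * rtr (W x) := by
    intro x hxm
    have h2 := (N1_quad_sub_le hC (hM x) (hM x₀) (hω x hxm)).1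
    have h3 := (le_abs_self _).trans
      (abs_rtr_mul_le (B := (C * ψ x)ᴴ * (C * ψ x) - Uᴴ * U) (hW.1 x))
    rw [Matrix.mul_sub, rtr_sub] at h3
    have h4 : rtr (W x) * N1 ((C * ψ x)ᴴ * (C * ψ x) - Uᴴ * U) ≤ rtr (W x) * τ :=
      mul_le_mul_of_nonneg_left h2 (rtr_nonneg (hW.1 x))
    linarith
  have h5 : ∫ x in x₀..x₁, rtr (W x * ((C * ψ x)ᴴ * (C * ψ x))) ≤
      (x₁ - x₀) * rtr (A * (Uᴴ * U)) + τ * ((x₁ - x₀) * rtr A) := by
    have hi1 := hW.rtr_mul (Uᴴ * U) x₀ x₁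
    have hi2 : IntervalIntegrable (fun x => rtr (W x)) volume x₀ x₁ := by
      simpa using hW.rtr_mul 1 x₀ x₁
    refine (intervalIntegral.integral_mono_on hx.le hi (hi1.add (hi2.const_mul τ)) h1).trans
      (le_of_eq ?_)
    rw [intervalIntegral.integral_add hi1 (hi2.const_mul τ), hW.integral_rtr_mul _ hx,
      intervalIntegral.integral_const_mul, hW.integral_rtr hx]
  -- right side
  have h6 : ∀ x ∈ Icc x₀ x₁, rtr (A * (Uᴴ * U)) - (ε + τ) * rtr A ≤
      rtr (T * A * Tᴴ * ((C * ψ x) * (C * ψ x)ᴴ)) := by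
    intro x hxm
    have h2 := (N1_quad_sub_le hC (hM x) (hM x₀) (hω x hxm)).2
    have h3 := (neg_abs_le _).trans' (neg_le_neg
      (abs_rtr_mul_le (B := (C * ψ x) * (C * ψ x)ᴴ - U * Uᴴ) hTA))
    rw [Matrix.mul_sub, rtr_sub] at h3
    have h4 : rtr (T * A * Tᴴ) * N1 ((C * ψ x) * (C * ψ x)ᴴ - U * Uᴴ) ≤ rtr A * τ :=
      mul_le_mul hTA' h2 (N1_nonneg _) (rtr_nonneg hAp)
    linarith
  have hcont : Continuous fun x => rtr (T * A * Tᴴ * ((C * ψ x) * (C * ψ x)ᴴ)) := by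
    have h1 : ∀ i j, Continuous fun x => (C * ψ x) i j :=
      continuous_mul_entry (fun i j => continuous_const) hψ
    exact continuous_rtr fun a b => continuous_mul_entry (A := fun _ => T * A * Tᴴ)
      (fun i j => continuous_const)
      (fun i j => continuous_mul_entry h1 (continuous_conjT_entry h1) i j) a b
  have h7 : (x₁ - x₀) * (rtr (A * (Uᴴ * U)) - (ε + τ) * rtr A) ≤
      ∫ x in x₀..x₁, rtr (T * A * Tᴴ * ((C * ψ x) * (C * ψ x)ᴴ)) := by
    have := intervalIntegral.integral_mono_on (μ := volume) hx.le intervalIntegrable_const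
      (hcont.intervalIntegrable x₀ x₁) h6
    rwa [intervalIntegral.integral_const, smul_eq_mul] at this
  rw [hW.integral_rtr hx]
  nlinarith [h5, h7]

theorem approx (hK : KleinStatement) (hPol : PolarStatement) {γ : ℝ} (hγ : 1 / 2 < γ)
    {W : ℝ → CMat m} (hW : P371M.IsPotential γ W) {ψ ψ' : ℝ → Matrix (Fin n) (Fin m) ℂ}
    (hψ : IsH1Mat ψ ψ') (c₀ : ℝ) (η : ℝ) (hη : 0 < η) :
    ∃ (a h : ℝ) (J : ℕ) (V : ℕ → CMat m) (ε : ℝ), 0 < h ∧ 1 ≤ J ∧ 0 < ε ∧
      (∀ j, (V j).PosSemidef) ∧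
      ∑ j ∈ Finset.range J, h * P371M.trPow (γ + 1 / 2) (V j) ≤
        ∫ x, P371M.trPow (γ + 1 / 2) (W x) ∧
      ∀ C : CMat n, N1 C ≤ c₀ →
        (∫ x, rtr (W x * ((C * ψ x)ᴴ * (C * ψ x)))) - η ≤
        ∑ j ∈ Finset.range J, ∫ x in (a + j * h)..(a + (j + 1) * h),
          rtr (Tpol ε (C * ψ (a + j * h)) * V j * (Tpol ε (C * ψ (a + j * h)))ᴴ *
            ((C * ψ x) * (C * ψ x)ᴴ)) := by
  have hloc := locInt_of_potential hγ.le hW
  obtain ⟨M, hM0, hM⟩ := hψ.bounded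
  have hψc := hψ.continuous
  -- the weight
  have hg := integrable_weight hγ.le hW hψ (1 : CMat n)
  simp only [Matrix.one_mul] at hg
  have hlim := intervalIntegral_tendsto_integral hg tendsto_neg_atTop_atBot tendsto_id
  have hη1 : 0 < η / (2 * (c₀ ^ 2 + 1)) := by positivity
  obtain ⟨L, hL1, hL2⟩ := ((hlim.eventually (lt_mem_nhds (sub_lt_self _ hη1))).and
    (eventually_gt_atTop 0)).exists
  simp only [id] at hL1
  set R := ∫ x in (-L)..L, rtr (W x) with hR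
  have hR0 : 0 ≤ R := intervalIntegral.integral_nonneg (by linarith)
    fun x _ => rtr_nonneg (hloc.1 x)
  set ε := η / (4 * (R + 1)) with hε
  have hε0 : 0 < ε := by positivity
  set ω := η / (16 * (c₀ ^ 2 + 1) * (M + 1) * (R + 1)) with hω
  have hω0 : 0 < ω := by positivity
  obtain ⟨d, hd0, hd⟩ := unif_cont hψc L hω0
  obtain ⟨J', hJ'⟩ := exists_nat_gt (2 * L / d)
  set J : ℕ := J' + 1 with hJ
  have hJ0 : (0 : ℝ) < J := by rw [hJ]; positivity
  set h := 2 * L / J with hh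
  have hh0 : 0 < h := by positivity
  have hhd : h ≤ d := by
    rw [hh, div_le_iff₀ hJ0]
    rw [div_lt_iff₀ hd0] at hJ'
    have : (J : ℝ) = J' + 1 := by rw [hJ]; push_cast; ring
    rw [this]; nlinarith
  have hJh : J * h = 2 * L := by rw [hh]; field_simp
  set V : ℕ → CMat m := fun j => avg W (-L + j * h) (-L + (j + 1) * h) with hV
  have hcell : ∀ j : ℕ, -L + (j : ℝ) * h < -L + (j + 1) * h := fun j => by nlinarith
  refine ⟨-L, h, J, V, ε, hh0, by omega, hε0, fun j => avg_posSemidef hloc (hcell j), ?_, ?_⟩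
  · -- Jensen
    have htp := hW.2.2
    have h1 : ∀ j : ℕ, h * P371M.trPow (γ + 1 / 2) (V j) ≤
        ∫ x in (-L + (j : ℝ) * h)..(-L + ((j + 1 : ℕ) : ℝ) * h),
          P371M.trPow (γ + 1 / 2) (W x) := by
      intro j
      have := jensen_avg hK (by linarith : (1 : ℝ) ≤ γ + 1 / 2) hloc (hcell j)
        htp.intervalIntegrable
      push_cast
      refine le_trans (le_of_eq ?_) this
      rw [hV]
      ring
    refine (Finset.sum_le_sum fun j _ => h1 j).trans ?_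
    rw [intervalIntegral.sum_integral_adjacent_intervals (a := fun j : ℕ => -L + (j : ℝ) * h)
      fun k _ => htp.intervalIntegrable]
    have h2 : -L + ((0 : ℕ) : ℝ) * h ≤ -L + (J : ℝ) * h := by
      rw [hJh]; push_cast; linarith
    rw [intervalIntegral.integral_of_le h2]
    exact setIntegral_le_integral htp (ae_of_all _ fun x => trPow_nonneg (hloc.1 x))
  · intro C hC
    have hgC := integrable_weight hγ.le hW hψ C
    -- tail
    have h1 : (∫ x, rtr (W x * ((C * ψ x)ᴴ * (C * ψ x)))) - η / 2 ≤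
        ∫ x in (-L)..L, rtr (W x * ((C * ψ x)ᴴ * (C * ψ x))) := by
      have h2 : ∫ x in (-L)..L, (c₀ ^ 2 * rtr (W x * ((ψ x)ᴴ * ψ x)) -
          rtr (W x * ((C * ψ x)ᴴ * (C * ψ x)))) ≤ ∫ x, (c₀ ^ 2 * rtr (W x * ((ψ x)ᴴ * ψ x)) -
          rtr (W x * ((C * ψ x)ᴴ * (C * ψ x)))) := by
        rw [intervalIntegral.integral_of_le (by linarith : -L ≤ L)]
        refine setIntegral_le_integral ((hg.const_mul _).sub hgC) (ae_of_all _ fun x => ?_)
        have := rtr_weight_le (hloc.1 x) C (ψ x) hC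
        simp only [Pi.zero_apply]
        linarith
      rw [intervalIntegral.integral_sub (hg.const_mul _).intervalIntegrable
        hgC.intervalIntegrable, integral_sub (hg.const_mul _) hgC,
        intervalIntegral.integral_const_mul, integral_const_mul] at h2
      have h3 : c₀ ^ 2 * (η / (2 * (c₀ ^ 2 + 1))) ≤ η / 2 := by
        rw [← sub_nonneg]
        have : η / 2 - c₀ ^ 2 * (η / (2 * (c₀ ^ 2 + 1))) = η / (2 * (c₀ ^ 2 + 1)) := by
          field_simp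
          ring
        rw [this]; exact hη1.le
      nlinarith [mul_le_mul_of_nonneg_left hL1.le (sq_nonneg c₀)]
    -- cells
    have h4 : ∀ j ∈ Finset.range J,
        ∫ x in (-L + (j : ℝ) * h)..(-L + ((j + 1 : ℕ) : ℝ) * h),
          rtr (W x * ((C * ψ x)ᴴ * (C * ψ x))) ≤
        (∫ x in (-L + (j : ℝ) * h)..(-L + ((j : ℝ) + 1) * h),
          rtr (Tpol ε (C * ψ (-L + j * h)) * V j * (Tpol ε (C * ψ (-L + j * h)))ᴴ *
            ((C * ψ x) * (C * ψ x)ᴴ))) +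
        (ε + 2 * (2 * c₀ ^ 2 * M * ω)) *
          ∫ x in (-L + (j : ℝ) * h)..(-L + ((j + 1 : ℕ) : ℝ) * h), rtr (W x) := by
      intro j hj
      have hjJ : (j : ℝ) + 1 ≤ J := by
        have := Finset.mem_range.1 hj
        exact_mod_cast this
      have hj0 : (0 : ℝ) ≤ j := Nat.cast_nonneg j
      have hlo : -L ≤ -L + (j : ℝ) * h := by nlinarith
      have hhi : -L + ((j : ℝ) + 1) * h ≤ L := by nlinarith
      have := cell_estimate hPol hloc hψc (hcell j) hε0 hC hM (ω := ω) (fun x hx => ?_)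
        hgC.intervalIntegrable
      · push_cast
        exact this
      · refine hd x ⟨hlo.trans hx.1, hx.2.trans hhi⟩ _
          ⟨hlo, (hcell j).le.trans hhi⟩ ?_
        rw [abs_of_nonneg (by linarith [hx.1])]
        have := hx.2
        nlinarith
    have h5 := Finset.sum_le_sum h4
    rw [Finset.sum_add_distrib, ← Finset.mul_sum,
      intervalIntegral.sum_integral_adjacent_intervals (a := fun j : ℕ => -L + (j : ℝ) * h)
        (fun k _ => hgC.intervalIntegrable),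
      intervalIntegral.sum_integral_adjacent_intervals (a := fun j : ℕ => -L + (j : ℝ) * h)
        (fun k _ => by simpa using hloc.rtr_mul 1 _ _)] at h5
    have e1 : -L + ((0 : ℕ) : ℝ) * h = -L := by push_cast; ring
    have e2 : -L + (J : ℝ) * h = L := by rw [hJh]; ring
    rw [e1, e2, ← hR] at h5
    -- errors
    have h6 : ε * R ≤ η / 4 := by
      rw [hε, div_mul_eq_mul_div, div_le_div_iff₀ (by positivity) (by norm_num)]
      nlinarith
    have h7 : 2 * (2 * c₀ ^ 2 * M * ω) * R ≤ η / 4 := by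
      have e3 : 2 * (2 * c₀ ^ 2 * M * ω) * R =
          (η / 4) * ((c₀ ^ 2 * M * R) / ((c₀ ^ 2 + 1) * (M + 1) * (R + 1))) := by
        rw [hω]; field_simp; ring
      rw [e3]
      refine mul_le_of_le_one_right (by positivity) ?_
      rw [div_le_one (by positivity)]
      have : c₀ ^ 2 * M ≤ (c₀ ^ 2 + 1) * (M + 1) := by nlinarith [sq_nonneg c₀]
      exact mul_le_mul this (by linarith) hR0 (by positivity)
    nlinarith [h5, h1, h6, h7]

end P371G.Asm
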