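import Vale.Agent.P371G.Asm3
import Vale.Agent.P371.MatLT

/-!
# P371, general exponent: the matrix of an eigenfamily, and the key inequality
-/

namespace P371G.Asm

open Matrix MeasureTheory Set Filter Topology
open scoped ComplexOrder ComplexConjugate

variable {n m : ℕ}

/-- integral of a matrix function, entrywise -/
noncomputable def mInt (M : ℝ → CMat n) : CMat n := Matrix.of fun i j => ∫ x, M x i j

lemma integral_rtr_mul_const {M : ℝ → CMat n}
    (hM : ∀ i j, Integrable (fun x => M x i j) volume) (D : CMat n) :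
    ∫ x, rtr (M x * D) = rtr (mInt M * D) := by
  simp_rw [rtr_mul_eq]
  rw [integral_finsetSum]
  · refine Finset.sum_congr rfl fun a _ => ?_
    rw [integral_finsetSum]
    · refine Finset.sum_congr rfl fun b _ => ?_
      have h1 := (hM a b).mul_const (D b a)
      have h2 : ∫ x, (M x a b * D b a).re = (∫ x, M x a b * D b a).re := integral_re h1
      rw [h2, integral_mul_const, mInt, Matrix.of_apply]
    · intro b _
      exact ((hM a b).mul_const (D b a)).re
  · intro a _
    exact integrable_finsetSum _ fun b _ => ((hM a b).mul_const (D b a)).re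

lemma integrable_gram {χ : ℝ → Matrix (Fin n) (Fin m) ℂ}
    (hχ : ∀ i j, MemLp (fun x => χ x i j) 2 volume) (i j : Fin n) :
    Integrable (fun x => (χ x * (χ x)ᴴ) i j) volume := by
  simp_rw [Matrix.mul_apply, conjTranspose_apply]
  exact integrable_finsetSum _ fun a _ => P371.integrable_mul_conj (hχ i a) (hχ j a)

lemma integrable_psiWpsi {γ : ℝ} (hγ : 1 / 2 ≤ γ) {W : ℝ → CMat m}
    (hW : P371M.IsPotential γ W) {ψ ψ' : ℝ → Matrix (Fin n) (Fin m) ℂ} (hψ : IsH1Mat ψ ψ')
    (i j : Fin n) : Integrable (fun x => (ψ x * W x * (ψ x)ᴴ) i j) volume := by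
  have hg := integrable_weight hγ hW hψ (1 : CMat n)
  simp only [Matrix.one_mul] at hg
  have hmeas : Measurable fun x => (ψ x * W x * (ψ x)ᴴ) i j := by
    simp_rw [Matrix.mul_apply, conjTranspose_apply]
    refine Finset.measurable_sum _ fun a _ => Measurable.mul ?_ ?_
    · exact Finset.measurable_sum _ fun b _ =>
        ((hψ.continuous i b).measurable).mul (hW.1 b a)
    · exact (continuous_star.comp (hψ.continuous j a)).measurable
  refine hg.mono' hmeas.aestronglyMeasurable (ae_of_all _ fun x => ?_)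
  have h1 : (ψ x * W x * (ψ x)ᴴ).PosSemidef := (hW.2.1 x).mul_mul_conjTranspose_same (ψ x)
  refine (norm_entry_le h1 i j).trans (le_of_eq ?_)
  rw [← Matrix.mul_assoc, rtr_mul_comm (W x * (ψ x)ᴴ), Matrix.mul_assoc]

lemma isH1Mat_mul {ψ ψ' : ℝ → Matrix (Fin n) (Fin m) ℂ} (hψ : IsH1Mat ψ ψ') (C : CMat n) :
    IsH1Mat (fun x => C * ψ x) (fun x => C * ψ' x) := by
  intro i j
  refine ⟨?_, ?_, fun x y => ?_⟩
  · simp_rw [Matrix.mul_apply]
    exact memLp_finsetSum _ fun k _ => (hψ k j).1.const_mul _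
  · simp_rw [Matrix.mul_apply]
    exact memLp_finsetSum _ fun k _ => (hψ k j).2.1.const_mul _
  · simp_rw [Matrix.mul_apply]
    rw [intervalIntegral.integral_finsetSum, ← Finset.sum_sub_distrib]
    · refine Finset.sum_congr rfl fun k _ => ?_
      rw [intervalIntegral.integral_const_mul, ← (hψ k j).2.2 x y]
      ring
    · intro k _
      exact (P371.intervalIntegrable_of_memLp (hψ k j).2.1 x y).const_mul _

/-- the lifted step potential -/
noncomputable def lifted (ε w : ℝ) (U : ℕ → Matrix (Fin n) (Fin m) ℂ) (V : ℕ → CMat m) (j : ℕ) :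
    CMat n :=
  Tpol ε (U j) * V j * (Tpol ε (U j))ᴴ + (w : ℂ) • (1 : CMat n)

lemma lifted_posSemidef {ε w : ℝ} (hw : 0 ≤ w) (U : ℕ → Matrix (Fin n) (Fin m) ℂ)
    {V : ℕ → CMat m} (hV : ∀ j, (V j).PosSemidef) (j : ℕ) : (lifted ε w U V j).PosSemidef :=
  ((hV j).mul_mul_conjTranspose_same _).add (posSemidef_smul_one hw)

/-- The key inequality from the test inequality and the approximation. -/
theorem key (hTest : TestStatement) {γ : ℝ} (hγ : 1 / 2 < γ)
    {W : ℝ → CMat m} (hW : P371M.IsPotential γ W) {ψ ψ' : ℝ → Matrix (Fin n) (Fin m) ℂ}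
    (hψ : IsH1Mat ψ ψ') (hgram : mInt (fun x => ψ x * (ψ x)ᴴ) = 1)
    {c₀ η a h ε w : ℝ} {J : ℕ} {V : ℕ → CMat m} (hh : 0 < h) (hw : 0 ≤ w)
    (hV : ∀ j, (V j).PosSemidef)
    (happ : ∀ C : CMat n, N1 C ≤ c₀ →
        (∫ x, rtr (W x * ((C * ψ x)ᴴ * (C * ψ x)))) - η ≤
        ∑ j ∈ Finset.range J, ∫ x in (a + j * h)..(a + (j + 1) * h),
          rtr (Tpol ε (C * ψ (a + j * h)) * V j * (Tpol ε (C * ψ (a + j * h)))ᴴ *
            ((C * ψ x) * (C * ψ x)ᴴ)))
    {C K : CMat n} {f : ℝ → CMat n} (hC : N1 C ≤ c₀) (hCh : C.IsHermitian) (hK : K.PosSemidef)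
    (hf : IsRicc a h J K (lifted ε w (fun j => C * ψ (a + j * h)) V) f) :
    -η ≤ rtr (C * C * (K * K - (mInt (fun x => ψ x * W x * (ψ x)ᴴ) -
      mInt (fun x => ψ' x * (ψ' x)ᴴ)))) := by
  set U : ℕ → Matrix (Fin n) (Fin m) ℂ := fun j => C * ψ (a + j * h) with hU
  have hH1 := isH1Mat_mul hψ C
  have h1 := hTest n m a h J hh K (lifted ε w U V) f hK
    (fun j _ => lifted_posSemidef hw U hV j) hf _ _ hH1
  have h2 := happ C hC
  -- continuity
  have hcont : ∀ i j, Continuous fun x => (C * ψ x) i j :=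
    continuous_mul_entry (A := fun _ => C) (fun i j => continuous_const) hψ.continuous
  have hgc : ∀ i j, Continuous fun x => ((C * ψ x) * (C * ψ x)ᴴ) i j :=
    fun i j => continuous_mul_entry hcont (continuous_conjT_entry hcont) i j
  have hcD : ∀ D : CMat n, Continuous fun x => rtr (D * ((C * ψ x) * (C * ψ x)ᴴ)) := fun D =>
    continuous_rtr fun a b => continuous_mul_entry (A := fun _ => D)
      (fun i j => continuous_const) hgc a b
  have h3 : ∑ j ∈ Finset.range J, ∫ x in (a + j * h)..(a + (j + 1) * h),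
      rtr (Tpol ε (U j) * V j * (Tpol ε (U j))ᴴ * ((C * ψ x) * (C * ψ x)ᴴ)) ≤
      ∑ j ∈ Finset.range J, ∫ x in (a + j * h)..(a + (j + 1) * h),
      rtr (lifted ε w U V j * ((C * ψ x) * (C * ψ x)ᴴ)) := by
    refine Finset.sum_le_sum fun j _ => ?_
    have hle : a + (j : ℝ) * h ≤ a + (j + 1) * h := by nlinarith
    refine intervalIntegral.integral_mono_on hle ((hcD _).intervalIntegrable _ _)
      ((hcD _).intervalIntegrable _ _) fun x _ => ?_
    rw [lifted, Matrix.add_mul, rtr_add]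
    have := rtr_mul_nonneg (posSemidef_smul_one (n := n) hw)
      (posSemidef_self_mul_conjTranspose (C * ψ x))
    linarith
  -- evaluate the integrals
  have hCH : Cᴴ = C := hCh
  have e1 : ∫ x, rtr (W x * ((C * ψ x)ᴴ * (C * ψ x))) =
      rtr (mInt (fun x => ψ x * W x * (ψ x)ᴴ) * (C * C)) := by
    rw [← integral_rtr_mul_const fun i j => integrable_psiWpsi hγ.le hW hψ i j]
    refine integral_congr_ae (ae_of_all _ fun x => ?_)
    simp only []
    rw [rtr_weight_eq, hCH]
  have e2 : ∫ x, rtr ((C * ψ' x) * (C * ψ' x)ᴴ) =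
      rtr (mInt (fun x => ψ' x * (ψ' x)ᴴ) * (C * C)) := by
    rw [← integral_rtr_mul_const fun i j => integrable_gram (fun i j => (hψ i j).2.1) i j]
    refine integral_congr_ae (ae_of_all _ fun x => ?_)
    simp only []
    rw [conjTranspose_mul, hCH, Matrix.mul_assoc, rtr_mul_comm]
    simp only [Matrix.mul_assoc]
  have e3 : ∫ x, rtr (K * K * ((C * ψ x) * (C * ψ x)ᴴ)) = rtr (C * C * (K * K)) := by
    have e4 : ∀ x, rtr (K * K * ((C * ψ x) * (C * ψ x)ᴴ)) =
        rtr (ψ x * (ψ x)ᴴ * (C * (K * K) * C)) := by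
      intro x
      rw [conjTranspose_mul, hCH]
      have : K * K * (C * ψ x * ((ψ x)ᴴ * C)) = (K * K * C) * (ψ x * (ψ x)ᴴ * C) := by
        simp only [Matrix.mul_assoc]
      rw [this, rtr_mul_comm]
      simp only [Matrix.mul_assoc]
    simp_rw [e4]
    rw [integral_rtr_mul_const fun i j => integrable_gram (fun i j => (hψ i j).1) i j, hgram,
      Matrix.one_mul, rtr_mul_comm]
    simp only [Matrix.mul_assoc]
  rw [e1] at h2
  rw [e2, e3] at h1
  rw [Matrix.mul_sub, Matrix.mul_sub, rtr_sub, rtr_sub, rtr_mul_comm (C * C) (mInt _),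
    rtr_mul_comm (C * C) (mInt _)]
  linarith

/-! ### the matrix of an eigenfamily -/

/-- rows are the conjugated eigenfunctions -/
def rowM (u : Fin n → ℝ → Fin m → ℂ) (x : ℝ) : Matrix (Fin n) (Fin m) ℂ :=
  Matrix.of fun i a => conj (u i x a)

lemma isH1Mat_rowM {u g : Fin n → ℝ → Fin m → ℂ} (h : ∀ j, P371M.IsH1 (u j) (g j)) :
    IsH1Mat (rowM u) (rowM g) := by
  intro i a
  refine ⟨P371.memLp_conj (h i a).1, P371.memLp_conj (h i a).2.1, fun x y => ?_⟩
  have h1 := (h i a).2.2 x y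
  simp only [rowM, Matrix.of_apply]
  rw [intervalIntegral.intervalIntegral_conj, ← h1, map_sub]

lemma gram_rowM (u : Fin n → ℝ → Fin m → ℂ)
    (horth : ∀ i j, ∫ x, ∑ a, u i x a * conj (u j x a) = if i = j then 1 else 0) :
    mInt (fun x => rowM u x * (rowM u x)ᴴ) = 1 := by
  ext i j
  rw [mInt, Matrix.of_apply, Matrix.one_apply]
  have h1 : ∀ x, (rowM u x * (rowM u x)ᴴ) i j = ∑ a, u j x a * conj (u i x a) := by
    intro x
    rw [Matrix.mul_apply]
    refine Finset.sum_congr rfl fun a _ => ?_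
    rw [conjTranspose_apply, rowM, Matrix.of_apply, Matrix.of_apply]
    change conj (u i x a) * conj (conj (u j x a)) = _
    rw [Complex.conj_conj, mul_comm]
  simp_rw [h1]
  rw [horth j i]
  by_cases hij : i = j
  · subst hij; simp
  · rw [if_neg hij, if_neg (Ne.symm hij)]

lemma energy_rowM {W : ℝ → CMat m} (lam : Fin n → ℝ) (u g : Fin n → ℝ → Fin m → ℂ)
    (hneg : ∀ j, lam j < 0)
    (hg : ∀ j, P371M.IsH1 (u j) (g j))
    (hweak : ∀ j, ∀ v h, P371M.IsH1 v h →
      (∫ x, ∑ a, g j x a * conj (h x a)) - ∫ x, ∑ a, (W x *ᵥ u j x) a * conj (v x a) =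
      (lam j : ℂ) * ∫ x, ∑ a, u j x a * conj (v x a))
    (horth : ∀ i j, ∫ x, ∑ a, u i x a * conj (u j x a) = if i = j then 1 else 0) :
    mInt (fun x => rowM u x * W x * (rowM u x)ᴴ) - mInt (fun x => rowM g x * (rowM g x)ᴴ) =
      diagonal fun i => ((|lam i| : ℝ) : ℂ) := by
  ext i j
  have h1 : ∀ x, (rowM g x * (rowM g x)ᴴ) i j = ∑ a, g j x a * conj (g i x a) := by
    intro x
    rw [Matrix.mul_apply]
    refine Finset.sum_congr rfl fun a _ => ?_
    rw [conjTranspose_apply, rowM, Matrix.of_apply, Matrix.of_apply]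
    change conj (g i x a) * conj (conj (g j x a)) = _
    rw [Complex.conj_conj, mul_comm]
  have h2 : ∀ x, (rowM u x * W x * (rowM u x)ᴴ) i j =
      ∑ a, (W x *ᵥ u j x) a * conj (u i x a) := by
    intro x
    rw [Matrix.mul_assoc, Matrix.mul_apply]
    refine Finset.sum_congr rfl fun a _ => ?_
    rw [Matrix.mul_apply, Matrix.mulVec, dotProduct, Finset.sum_mul, Finset.mul_sum]
    refine Finset.sum_congr rfl fun b _ => ?_
    rw [conjTranspose_apply, rowM, Matrix.of_apply, Matrix.of_apply]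
    change conj (u i x a) * (W x a b * conj (conj (u j x b))) = _
    rw [Complex.conj_conj]
    ring
  have h3 := hweak j (u i) (g i) (hg i)
  rw [horth j i] at h3
  rw [Matrix.sub_apply, mInt, mInt, Matrix.of_apply, Matrix.of_apply]
  simp_rw [h1, h2]
  rw [← neg_sub, h3, Matrix.diagonal_apply]
  by_cases hij : i = j
  · subst hij
    rw [if_pos rfl, if_pos rfl, abs_of_neg (hneg i)]
    push_cast
    ring
  · rw [if_neg hij, if_neg (Ne.symm hij)]
    simp

/-! ### trace powers -/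

lemma sum_eigenvalues_diagonal (d : Fin n → ℝ)
    (h : (diagonal fun i => ((d i : ℝ) : ℂ)).IsHermitian) (φ : ℝ → ℝ) :
    ∑ i, φ (h.eigenvalues i) = ∑ i, φ (d i) := by
  have h1 := h.roots_charpoly_eq_eigenvalues
  rw [charpoly_diagonal] at h1
  have h2 : (∏ i, (Polynomial.X - Polynomial.C ((d i : ℝ) : ℂ))).roots =
      Multiset.map (fun i => ((d i : ℝ) : ℂ)) Finset.univ.val := by
    rw [Polynomial.roots_prod]
    · simp
    · refine Finset.prod_ne_zero_iff.2 fun i _ => Polynomial.X_sub_C_ne_zero _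
  rw [h2] at h1
  have h3 := congrArg (fun s => (Multiset.map (fun z : ℂ => φ z.re) s).sum) h1
  simp only [Multiset.map_map, Function.comp_def, Complex.ofReal_re] at h3
  have h4 : ∀ e : Fin n → ℝ, (Multiset.map (fun i => φ (e i)) Finset.univ.val).sum =
      ∑ i, φ (e i) := fun e => rfl
  rw [h4] at h3
  rw [h3]
  rfl

lemma trPow_diagonal (d : Fin n → ℝ) (p : ℝ) :
    P371M.trPow p (diagonal fun i => ((d i : ℝ) : ℂ)) = ∑ i, d i ^ p := by
  have h : (diagonal fun i => ((d i : ℝ) : ℂ)).IsHermitian := by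
    rw [IsHermitian, diagonal_conjTranspose]
    congr 1
    funext i
    exact Complex.conj_ofReal _
  rw [trPow_eq h]
  exact sum_eigenvalues_diagonal d h fun x => x ^ p

/-- shift bound, `p ≥ 1` -/
lemma trPow_shift_le (hShift : ShiftStatement) {p : ℝ} (hp : 1 ≤ p) {A : CMat n}
    (hA : A.PosSemidef) {Λ w : ℝ} (hΛ : rtr A ≤ Λ) (hw : 0 < w) (hw1 : w ≤ 1) :
    P371M.trPow p (A + (w : ℂ) • (1 : CMat n)) ≤
      P371M.trPow p A + n * (p * w * (Λ + 1) ^ (p - 1)) := by
  rw [hShift n p (by linarith) A w hA hw.le hA.1, trPow_eq hA.1]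
  have h1 : (n : ℝ) * (p * w * (Λ + 1) ^ (p - 1)) =
      ∑ _i : Fin n, p * w * (Λ + 1) ^ (p - 1) := by simp
  rw [h1, ← Finset.sum_add_distrib]
  refine Finset.sum_le_sum fun i _ => ?_
  set x := hA.1.eigenvalues i with hx
  have hx0 : 0 ≤ x := hA.eigenvalues_nonneg i
  have hxΛ : x ≤ Λ := by
    refine le_trans ?_ hΛ
    rw [rtr_eq_eigenvalues hA.1]
    exact Finset.single_le_sum (f := fun i => hA.1.eigenvalues i)
      (fun i _ => hA.eigenvalues_nonneg i) (Finset.mem_univ i)
  have hxw : 0 < x + w := by linarith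
  have h2 := one_add_mul_self_le_rpow_one_add (s := -(w / (x + w))) (by
    rw [neg_le_neg_iff, div_le_one hxw]; linarith) hp
  have h3 : 1 + -(w / (x + w)) = x / (x + w) := by field_simp; ring
  rw [h3, Real.div_rpow hx0 hxw.le, le_div_iff₀ (Real.rpow_pos_of_pos hxw p)] at h2
  have h4 : (x + w) ^ p = (x + w) ^ (p - 1) * (x + w) := by
    rw [← Real.rpow_add_one hxw.ne']; ring_nf
  have h5 : (1 + p * -(w / (x + w))) * (x + w) ^ p =
      (x + w) ^ p - p * w * (x + w) ^ (p - 1) := by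
    rw [h4]; field_simp
    ring
  rw [h5] at h2
  have h6 : (x + w) ^ (p - 1) ≤ (Λ + 1) ^ (p - 1) :=
    Real.rpow_le_rpow hxw.le (by linarith) (by linarith)
  have h7 : p * w * (x + w) ^ (p - 1) ≤ p * w * (Λ + 1) ^ (p - 1) :=
    mul_le_mul_of_nonneg_left h6 (by positivity)
  linarith

end P371G.Asm
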