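import Vale.Agent.P371G.Asm4

/-!
# P371, general exponent: the main inequality from the module statements
-/

namespace P371G.Asm

open Matrix MeasureTheory Set Filter Topology
open scoped ComplexOrder ComplexConjugate

variable {n m : ℕ}

lemma trPow_sq_le_lifted (hCert : CertStatement) (hConst : ConstStatement)
    (hShift : ShiftStatement) (hContr : ContrStatement) (hPol : PolarStatement)
    {γ : ℝ} (hγ1 : 1 / 2 < γ) (hγ2 : γ < 3 / 2) {a h ε w Λ : ℝ} {J : ℕ} {V : ℕ → CMat m}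
    (hh : 0 < h) (hε : 0 < ε) (hw : 0 < w) (hw1 : w ≤ 1) (hV : ∀ j, (V j).PosSemidef)
    (hΛ : ∀ j < J, rtr (V j) ≤ Λ) (U : ℕ → Matrix (Fin n) (Fin m) ℂ) {K : CMat n}
    {f : ℝ → CMat n} (hK : K.PosSemidef) (hf : IsRicc a h J K (lifted ε w U V) f) :
    P371M.trPow (2 * γ) K ≤ Cgam γ * (∑ j ∈ Finset.range J, h * P371M.trPow (γ + 1 / 2) (V j) +
      J * (h * (n * ((γ + 1 / 2) * w * (Λ + 1) ^ (γ + 1 / 2 - 1))))) := by
  have hI := (hConst γ hγ1).1
  have h1 := hCert n (γ - 1 / 2) (by linarith) (by linarith) a h J hh K (lifted ε w U V) f hK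
    (fun j _ => lifted_posSemidef hw.le U hV j) hf
  have e1 : 1 + 2 * (γ - 1 / 2) = 2 * γ := by ring
  have e2 : 1 + (γ - 1 / 2) = γ + 1 / 2 := by ring
  rw [e1, e2] at h1
  have hp : 1 ≤ γ + 1 / 2 := by linarith
  have hc0 : 0 ≤ Cgam γ := by
    rw [Cgam]
    have h3 : 0 ≤ (γ - 1 / 2) ^ (γ - 1 / 2) := Real.rpow_nonneg (by linarith) _
    have h4 : 0 ≤ (γ + 1 / 2) ^ (γ + 1 / 2) := Real.rpow_nonneg (by linarith) _
    positivity
  have h2 : ∑ j ∈ Finset.range J, h * P371M.trPow (γ + 1 / 2) (lifted ε w U V j) ≤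
      ∑ j ∈ Finset.range J, h * P371M.trPow (γ + 1 / 2) (V j) +
      J * (h * (n * ((γ + 1 / 2) * w * (Λ + 1) ^ (γ + 1 / 2 - 1)))) := by
    have e3 : (J : ℝ) * (h * (n * ((γ + 1 / 2) * w * (Λ + 1) ^ (γ + 1 / 2 - 1)))) =
        ∑ _j ∈ Finset.range J, h * (n * ((γ + 1 / 2) * w * (Λ + 1) ^ (γ + 1 / 2 - 1))) := by
      simp
    rw [e3, ← Finset.sum_add_distrib]
    refine Finset.sum_le_sum fun j hj => ?_
    rw [← mul_add]
    refine mul_le_mul_of_nonneg_left ?_ hh.le
    have hT := (((hPol n m ε hε).2) (U j)).1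
    have hTV : (Tpol ε (U j) * V j * (Tpol ε (U j))ᴴ).PosSemidef :=
      (hV j).mul_mul_conjTranspose_same _
    have h5 : rtr (Tpol ε (U j) * V j * (Tpol ε (U j))ᴴ) ≤ Λ :=
      (rtr_contr_le (hV j) hT).trans (hΛ j (Finset.mem_range.1 hj))
    have h6 := trPow_shift_le hShift hp hTV h5 hw hw1
    have h7 := hContr n m (γ + 1 / 2) hp (Tpol ε (U j)) (V j) (hV j) hT
    rw [lifted]
    linarith
  have h8 : P371M.trPow (2 * γ) K ≤
      Cgam γ * ∑ j ∈ Finset.range J, h * P371M.trPow (γ + 1 / 2) (lifted ε w U V j) := by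
    have h9 : Iq (γ - 1 / 2) * P371M.trPow (2 * γ) K ≤ Iq (γ - 1 / 2) * (Cgam γ *
        ∑ j ∈ Finset.range J, h * P371M.trPow (γ + 1 / 2) (lifted ε w U V j)) := by
      refine h1.trans (le_of_eq ?_)
      rw [Cgam, ← mul_assoc]
      congr 1
      have h10 : (γ + 1 / 2) ^ (γ + 1 / 2) ≠ 0 := (Real.rpow_pos_of_pos (by linarith) _).ne'
      have h11 : ∀ x y z : ℝ, y ≠ 0 → z ≠ 0 → x / y = z * (x / (y * z)) := by
        intro x y z hy hz
        field_simp
      exact h11 _ _ _ h10 hI.ne'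
    exact le_of_mul_le_mul_left h9 hI
  exact h8.trans (mul_le_mul_of_nonneg_left h2 hc0)

/-- choice of the shift -/
lemma exists_shift (n J : ℕ) {p h Λ η : ℝ} (hp : 1 ≤ p) (hh : 0 < h) (hΛ : 0 ≤ Λ)
    (hη : 0 < η) : ∃ w : ℝ, 0 < w ∧ w ≤ 1 ∧
      J * (h * (n * (p * w * (Λ + 1) ^ (p - 1)))) ≤ η := by
  set B := (J : ℝ) * (h * (n * (p * (Λ + 1) ^ (p - 1)))) with hB
  have hB0 : 0 ≤ B := by
    have : 0 ≤ (Λ + 1) ^ (p - 1) := Real.rpow_nonneg (by linarith) _
    positivity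
  refine ⟨min 1 (η / (B + 1)), lt_min one_pos (by positivity), min_le_left _ _, ?_⟩
  have h1 : (J : ℝ) * (h * (n * (p * min 1 (η / (B + 1)) * (Λ + 1) ^ (p - 1)))) =
      B * min 1 (η / (B + 1)) := by rw [hB]; ring
  rw [h1]
  calc B * min 1 (η / (B + 1)) ≤ B * (η / (B + 1)) :=
        mul_le_mul_of_nonneg_left (min_le_right _ _) hB0
    _ ≤ η := by
        rw [mul_div_assoc', div_le_iff₀ (by linarith)]
        nlinarith

/-- bounds of the lifted potential needed for the lifting theorem -/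
lemma lifted_bounds (hPol : PolarStatement) {ε w Λ : ℝ} (hε : 0 < ε) {V : ℕ → CMat m}
    (hV : ∀ j, (V j).PosSemidef) {J : ℕ} (hΛ : ∀ j < J, rtr (V j) ≤ Λ)
    (U : ℕ → Matrix (Fin n) (Fin m) ℂ) {j : ℕ} (hj : j < J) :
    (lifted ε w U V j - (w : ℂ) • (1 : CMat n)).PosSemidef ∧
    (((Λ + w : ℝ) : ℂ) • (1 : CMat n) - lifted ε w U V j).PosSemidef := by
  have hTV : (Tpol ε (U j) * V j * (Tpol ε (U j))ᴴ).PosSemidef :=
    (hV j).mul_mul_conjTranspose_same _
  constructor
  · rw [lifted, add_sub_cancel_right]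
    exact hTV
  · have hT := (((hPol n m ε hε).2) (U j)).1
    have h5 : rtr (Tpol ε (U j) * V j * (Tpol ε (U j))ᴴ) ≤ Λ :=
      (rtr_contr_le (hV j) hT).trans (hΛ j hj)
    have h6 := (rtr_smul_one_sub hTV).add
      (posSemidef_smul_one (n := n) (sub_nonneg.2 h5))
    convert h6 using 1
    rw [lifted]
    push_cast
    module

lemma exists_Lam {V : ℕ → CMat m} (hV : ∀ j, (V j).PosSemidef) (J : ℕ) :
    ∃ Λ : ℝ, 0 ≤ Λ ∧ ∀ j < J, rtr (V j) ≤ Λ := by
  refine ⟨∑ j ∈ Finset.range J, rtr (V j), Finset.sum_nonneg fun j _ => rtr_nonneg (hV j),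
    fun j hj => ?_⟩
  exact Finset.single_le_sum (f := fun j => rtr (V j)) (fun j _ => rtr_nonneg (hV j))
    (Finset.mem_range.2 hj)

lemma N1_le_of_bound {A : CMat n} (hA : A.PosSemidef) {κ : ℝ}
    (h : (((κ : ℝ) : ℂ) • (1 : CMat n) - A).PosSemidef) : N1 A ≤ n * n * (n * κ) := by
  have h1 : rtr A ≤ n * κ := by
    have := rtr_nonneg h
    rw [rtr_sub, rtr_smul, rtr_one] at this
    linarith
  calc N1 A ≤ ∑ _i : Fin n, ∑ _j : Fin n, n * κ :=
        Finset.sum_le_sum fun i _ => Finset.sum_le_sum fun j _ => (norm_entry_le hA i j).trans h1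
    _ = n * n * (n * κ) := by simp; ring

/-- `K² + κ` is positive definite -/
lemma sq_add_posDef {K : CMat n} (hK : K.PosSemidef) {κ : ℝ} (hκ : 0 < κ) :
    (K * K + (κ : ℂ) • (1 : CMat n)).PosDef := by
  have h1 : (K * K).PosSemidef := by
    have := posSemidef_conjTranspose_mul_self K
    rwa [hK.1.eq] at this
  have h2 : ((κ : ℂ) • (1 : CMat n)).PosDef :=
    PosDef.one.smul (by exact_mod_cast hκ)
  exact PosDef.posSemidef_add h1 h2

theorem main (hK : KleinStatement) (hKC : KleinConcStatement) (hContr : ContrStatement)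
    (hShift : ShiftStatement) (hAlg : MPowAlgStatement) (hBd : MPowBoundStatement)
    (hCont : MPowContStatement) (hSq : TrPowSqStatement) (hPol : PolarStatement)
    (hCert : CertStatement) (hLift : LiftStatement) (hTest : TestStatement)
    (hConst : ConstStatement) : MainStatement := by
  intro γ hγ1 hγ2 n m W hW lam u hfam
  obtain ⟨h1, horth⟩ := hfam
  choose hneg g hg hweak using h1
  set ψ := rowM u with hψdef
  set ψ' := rowM g with hψ'def
  have hψ : IsH1Mat ψ ψ' := isH1Mat_rowM hg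
  have hgram : mInt (fun x => ψ x * (ψ x)ᴴ) = 1 := gram_rowM u horth
  have henergy := energy_rowM lam u g hneg hg hweak horth
  rw [← hψdef, ← hψ'def] at henergy
  set E : CMat n := diagonal fun i => ((|lam i| : ℝ) : ℂ) with hE
  have hlam : ∀ i, 0 < |lam i| := fun i => abs_pos.2 (hneg i).ne
  have hEpd : E.PosDef := by
    rw [hE]
    refine PosDef.diagonal fun i => ?_
    rw [Complex.zero_lt_real]
    exact hlam i
  set I := ∫ x, P371M.trPow (γ + 1 / 2) (W x) with hI
  have htrE : P371M.trPow γ E = ∑ j, |lam j| ^ γ := trPow_diagonal _ γ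
  have hp : 1 ≤ γ + 1 / 2 := by linarith
  have hγ0 : 0 < γ := by linarith
  have hC0 : 0 ≤ Cgam γ := by
    rw [Cgam]
    have h3 : 0 ≤ (γ - 1 / 2) ^ (γ - 1 / 2) := Real.rpow_nonneg (by linarith) _
    have h4 : 0 ≤ (γ + 1 / 2) ^ (γ + 1 / 2) := Real.rpow_nonneg (by linarith) _
    have h5 := (hConst γ hγ1).1
    positivity
  rw [← htrE]
  -- it suffices to prove the inequality with an error
  suffices hsuff : ∀ η : ℝ, 0 < η →
      P371M.trPow γ E ≤ Cgam γ * I + (Cgam γ + γ + 1) * η by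
    refine le_of_forall_pos_le_add fun δ hδ => ?_
    have h2 := hsuff (δ / (Cgam γ + γ + 1)) (by positivity)
    have h3 : (Cgam γ + γ + 1) * (δ / (Cgam γ + γ + 1)) = δ := by
      field_simp
    rwa [h3] at h2
  intro η hη
  rcases le_total 1 γ with hγ | hγ
  · -- the case `γ ≥ 1`
    obtain ⟨hpd, hmul, -, -, -⟩ := hAlg n E hEpd
    set C := mPow ((γ - 1) / 2) E with hCdef
    have hCC : C * C = mPow (γ - 1) E := by
      rw [hCdef, hmul]; congr 1; ring
    have hCh : C.IsHermitian := (hpd _).1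
    obtain ⟨a, h, J, V, ε, hh, hJ, hε, hV, hJen, happ⟩ :=
      approx hK hPol hγ1 hW hψ (N1 C) η hη
    obtain ⟨Λ, hΛ0, hΛ⟩ := exists_Lam hV J
    obtain ⟨w, hw, hw1, hwη⟩ := exists_shift n J hp hh hΛ0 hη
    set U : ℕ → Matrix (Fin n) (Fin m) ℂ := fun j => C * ψ (a + j * h) with hU
    obtain ⟨K, f, hKp, hf⟩ := hLift n a h J hh hJ (fun _ => lifted ε w U V) w (Λ + w) hw
      (fun K _ j hj => lifted_bounds hPol hε hV hΛ U hj)
      (fun j hj => continuousOn_const)
    have hkey := key hTest hγ1 hW hψ hgram hh hw.le hV happ le_rfl hCh hKp hf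
    rw [henergy, hCC] at hkey
    have hKK : (K * K).PosSemidef := by
      have := posSemidef_conjTranspose_mul_self K
      rwa [hKp.1.eq] at this
    have h2 := hK n γ hγ E (K * K) hEpd.posSemidef hKK
    rw [hSq n γ K hγ0 hKp] at h2
    have h3 := trPow_sq_le_lifted hCert hConst hShift hContr hPol hγ1 hγ2 hh hε hw hw1 hV hΛ U
      hKp hf
    have h4 : Cgam γ * (∑ j ∈ Finset.range J, h * P371M.trPow (γ + 1 / 2) (V j) +
      J * (h * (n * ((γ + 1 / 2) * w * (Λ + 1) ^ (γ + 1 / 2 - 1))))) ≤ Cgam γ * (I + η) :=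
      mul_le_mul_of_nonneg_left (add_le_add hJen hwη) hC0
    have h5 : γ * -η ≤ γ * rtr (mPow (γ - 1) E * (K * K - E)) :=
      mul_le_mul_of_nonneg_left hkey hγ0.le
    linarith
  · -- the case `γ ≤ 1`
    obtain ⟨κ, hκ, hκη⟩ : ∃ κ : ℝ, 0 < κ ∧ n * κ ^ γ ≤ η := by
      refine ⟨(η / (n + 1)) ^ (1 / γ), Real.rpow_pos_of_pos (by positivity) _, ?_⟩
      rw [← Real.rpow_mul (by positivity), one_div_mul_cancel hγ0.ne', Real.rpow_one]
      rw [mul_div_assoc', div_le_iff₀ (by positivity)]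
      nlinarith
    set r := (γ - 1) / 2 with hr
    have hr0 : r ≤ 0 := by rw [hr]; linarith
    set A : CMat n → CMat n := fun K => K * K + (κ : ℂ) • (1 : CMat n) with hA
    set C : CMat n → CMat n := fun K => mPow r (A K) with hCdef
    have hApd : ∀ K : CMat n, K.PosSemidef → (A K).PosDef := fun K hK => sq_add_posDef hK hκ
    have hCpd : ∀ K : CMat n, K.PosSemidef → (C K).PosDef := fun K hK =>
      (hAlg n (A K) (hApd K hK)).1 r
    have hCC : ∀ K : CMat n, K.PosSemidef → C K * C K = mPow (γ - 1) (A K) := by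
      intro K hK
      rw [hCdef]
      simp only []
      rw [(hAlg n (A K) (hApd K hK)).2.1]
      congr 1
      rw [hr]; ring
    set c₀ : ℝ := n * n * (n * κ ^ r) with hc₀
    have hCN : ∀ K : CMat n, K.PosSemidef → N1 (C K) ≤ c₀ := by
      intro K hK
      refine N1_le_of_bound (hCpd K hK).posSemidef ?_
      refine hBd n (A K) κ r hκ hr0 ?_
      rw [hA]
      simp only [add_sub_cancel_right]
      have := posSemidef_conjTranspose_mul_self K
      rwa [hK.1.eq] at this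
    have hCcont : ContinuousOn C {K | K.PosSemidef} := by
      have h2 : Continuous A := by
        rw [hA]; fun_prop
      exact (hCont n r).comp h2.continuousOn fun K hK => hApd K hK
    obtain ⟨a, h, J, V, ε, hh, hJ, hε, hV, hJen, happ⟩ :=
      approx hK hPol hγ1 hW hψ c₀ η hη
    obtain ⟨Λ, hΛ0, hΛ⟩ := exists_Lam hV J
    obtain ⟨w, hw, hw1, hwη⟩ := exists_shift n J hp hh hΛ0 hη
    set U : CMat n → ℕ → Matrix (Fin n) (Fin m) ℂ := fun K j => C K * ψ (a + j * h) with hU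
    obtain ⟨K, f, hKp, hf⟩ := hLift n a h J hh hJ (fun K => lifted ε w (U K) V) w (Λ + w) hw
      (fun K _ j hj => lifted_bounds hPol hε hV hΛ (U K) hj)
      (fun j hj => by
        rw [continuousOn_iff_continuous_domRestrict] at hCcont ⊢
        have h2 : Continuous fun K : {K : CMat n | K.PosSemidef} => U K.1 j :=
          hCcont.matrix_mul continuous_const
        have h3 : Continuous fun K : {K : CMat n | K.PosSemidef} => Tpol ε (U K.1 j) :=
          (hPol n m ε hε).1.comp h2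
        exact ((h3.matrix_mul continuous_const).matrix_mul h3.matrix_conjTranspose).add
          continuous_const)
    have hkey := key hTest hγ1 hW hψ hgram hh hw.le hV happ (hCN K hKp) (hCpd K hKp).1 hKp hf
    rw [henergy, hCC K hKp] at hkey
    have hKK : (K * K).PosSemidef := by
      have := posSemidef_conjTranspose_mul_self K
      rwa [hKp.1.eq] at this
    have hEκ : (E + (κ : ℂ) • (1 : CMat n)).PosSemidef :=
      hEpd.posSemidef.add (posSemidef_smul_one hκ.le)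
    have h2 := hKC n γ hγ0 hγ (A K) (E + (κ : ℂ) • (1 : CMat n)) (hApd K hKp) hEκ
    have e1 : E + (κ : ℂ) • (1 : CMat n) - A K = -(K * K - E) := by
      rw [hA]; simp only []; abel
    rw [e1, Matrix.mul_neg, rtr_neg] at h2
    have h5 : γ * -η ≤ γ * rtr (mPow (γ - 1) (A K) * (K * K - E)) :=
      mul_le_mul_of_nonneg_left hkey hγ0.le
    have h6 : P371M.trPow γ (A K) ≤ P371M.trPow γ (K * K) + n * κ ^ γ := by
      rw [hA]
      simp only []
      rw [hShift n γ hγ0 (K * K) κ hKK hκ.le hKK.1, trPow_eq hKK.1]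
      have e2 : (n : ℝ) * κ ^ γ = ∑ _i : Fin n, κ ^ γ := by simp
      rw [e2, ← Finset.sum_add_distrib]
      refine Finset.sum_le_sum fun i _ => ?_
      exact Real.rpow_add_le_add_rpow (hKK.eigenvalues_nonneg i) hκ.le hγ0.le hγ
    have h7 : P371M.trPow γ E ≤ P371M.trPow γ (E + (κ : ℂ) • (1 : CMat n)) := by
      rw [hShift n γ hγ0 E κ hEpd.posSemidef hκ.le hEpd.1, trPow_eq hEpd.1]
      refine Finset.sum_le_sum fun i _ => ?_
      exact Real.rpow_le_rpow (hEpd.posSemidef.eigenvalues_nonneg i) (by linarith) hγ0.le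
    rw [hSq n γ K hγ0 hKp] at h6
    have h3 := trPow_sq_le_lifted hCert hConst hShift hContr hPol hγ1 hγ2 hh hε hw hw1 hV hΛ
      (U K) hKp hf
    have h4 : Cgam γ * (∑ j ∈ Finset.range J, h * P371M.trPow (γ + 1 / 2) (V j) +
      J * (h * (n * ((γ + 1 / 2) * w * (Λ + 1) ^ (γ + 1 / 2 - 1))))) ≤ Cgam γ * (I + η) :=
      mul_le_mul_of_nonneg_left (add_le_add hJen hwη) hC0
    linarith

end P371G.Asm
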