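import Vale.Agent.P371G.Defs

/-!
# P371G: basic facts on Hermitian matrices, resolvents and their norms (shared helper file)
-/

namespace P371G

open Matrix MeasureTheory Set Filter Topology
open scoped ComplexOrder Matrix.Norms.L2Operator

variable {n : ℕ}

/-- spectral decomposition -/
theorem exists_spec {A : CMat n} (hA : A.IsHermitian) :
    ∃ U : CMat n, Uᴴ * U = 1 ∧ U * Uᴴ = 1 ∧
      A = U * diagonal (fun i => ((hA.eigenvalues i : ℝ) : ℂ)) * Uᴴ := by
  refine ⟨hA.eigenvectorUnitary, ?_, ?_, ?_⟩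
  · have := Unitary.coe_star_mul_self hA.eigenvectorUnitary
    simpa [star_eq_conjTranspose] using this
  · have := Unitary.coe_mul_star_self hA.eigenvectorUnitary
    simpa [star_eq_conjTranspose] using this
  · have h := hA.spectral_theorem
    rw [Unitary.conjStarAlgAut_apply] at h
    simpa [star_eq_conjTranspose, Function.comp_def] using h

theorem norm_unitary_le {U : CMat n} (hU : Uᴴ * U = 1) : ‖U‖ ≤ 1 := by
  have h1 := l2_opNorm_conjTranspose_mul_self U
  rw [hU] at h1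
  have h2 : ‖(1 : CMat n)‖ ≤ 1 := by
    rw [← diagonal_one, l2_opNorm_diagonal]
    refine (pi_norm_le_iff_of_nonneg zero_le_one).mpr fun i => by simp
  by_contra h
  push Not at h
  nlinarith

theorem norm_conj_le {U : CMat n} (hU : Uᴴ * U = 1) (X : CMat n) : ‖U * X * Uᴴ‖ ≤ ‖X‖ := by
  have h1 := norm_unitary_le hU
  have h2 : ‖Uᴴ‖ ≤ 1 := by rw [l2_opNorm_conjTranspose]; exact h1
  calc ‖U * X * Uᴴ‖ ≤ ‖U * X‖ * ‖Uᴴ‖ := l2_opNorm_mul _ _
    _ ≤ (‖U‖ * ‖X‖) * ‖Uᴴ‖ := by gcongr; exact l2_opNorm_mul _ _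
    _ ≤ (1 * ‖X‖) * 1 := by gcongr
    _ = ‖X‖ := by ring

/-- eigenvalues are at least `c` if `A ≥ c` -/
theorem eig_ge {A : CMat n} (hA : A.IsHermitian) {c : ℝ}
    (h : (A - (c : ℂ) • (1 : CMat n)).PosSemidef) (i : Fin n) : c ≤ hA.eigenvalues i := by
  obtain ⟨U, hU1, hU2, hU3⟩ := exists_spec hA
  have h1 := h.conjTranspose_mul_mul_same U
  have h2 : Uᴴ * (A - (c : ℂ) • (1 : CMat n)) * U =
      diagonal (fun i => ((hA.eigenvalues i : ℝ) : ℂ) - (c : ℂ)) := by
    have h3 : Uᴴ * A * U = diagonal (fun i => ((hA.eigenvalues i : ℝ) : ℂ)) := by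
      conv_lhs => rw [hU3]
      calc Uᴴ * (U * diagonal (fun i => ((hA.eigenvalues i : ℝ) : ℂ)) * Uᴴ) * U
          = (Uᴴ * U) * diagonal (fun i => ((hA.eigenvalues i : ℝ) : ℂ)) * (Uᴴ * U) := by
            simp only [Matrix.mul_assoc]
        _ = _ := by rw [hU1]; simp
    rw [Matrix.mul_sub, Matrix.sub_mul, h3, Matrix.mul_smul, Matrix.smul_mul, Matrix.mul_one, hU1]
    ext a b
    by_cases hab : a = b
    · subst hab; simp
    · simp [hab]
  rw [h2, posSemidef_diagonal_iff] at h1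
  have h4 := h1 i
  have h5 : (0 : ℂ) ≤ ((hA.eigenvalues i - c : ℝ) : ℂ) := by push_cast; exact h4
  have h6 : 0 ≤ hA.eigenvalues i - c := by exact_mod_cast h5
  linarith

/-- `A ≥ c` if all eigenvalues are at least `c` -/
theorem posSemidef_of_eig_ge {A : CMat n} (hA : A.IsHermitian) {c : ℝ}
    (h : ∀ i, c ≤ hA.eigenvalues i) : (A - (c : ℂ) • (1 : CMat n)).PosSemidef := by
  obtain ⟨U, hU1, hU2, hU3⟩ := exists_spec hA
  have h2 : A - (c : ℂ) • (1 : CMat n) =
      U * diagonal (fun i => (((hA.eigenvalues i : ℝ) : ℂ) - (c : ℂ))) * Uᴴ := by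
    have h3 : diagonal (fun i => (((hA.eigenvalues i : ℝ) : ℂ) - (c : ℂ))) =
        diagonal (fun i => ((hA.eigenvalues i : ℝ) : ℂ)) - (c : ℂ) • (1 : CMat n) := by
      ext a b
      by_cases hab : a = b
      · subst hab; simp
      · simp [hab]
    rw [h3, Matrix.mul_sub, Matrix.sub_mul, ← hU3, Matrix.mul_smul, Matrix.smul_mul,
      Matrix.mul_one, hU2]
  rw [h2]
  apply PosSemidef.mul_mul_conjTranspose_same
  rw [posSemidef_diagonal_iff]
  intro i
  have : (0 : ℂ) ≤ ((hA.eigenvalues i - c : ℝ) : ℂ) := by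
    exact_mod_cast sub_nonneg.mpr (h i)
  simpa using this

/-- a positive definite matrix is bounded below -/
theorem exists_lower {P : CMat n} (hP : P.PosDef) :
    ∃ c : ℝ, 0 < c ∧ (P - (c : ℂ) • (1 : CMat n)).PosSemidef := by
  rcases isEmpty_or_nonempty (Fin n) with hn | hn
  · refine ⟨1, one_pos, ?_⟩
    have : P - ((1 : ℝ) : ℂ) • (1 : CMat n) = 0 := by
      ext i j
      exact hn.elim i
    rw [this]
    exact PosSemidef.zero
  · obtain ⟨i0, hi0⟩ := Finite.exists_min hP.1.eigenvalues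
    exact ⟨hP.1.eigenvalues i0, hP.eigenvalues_pos i0, posSemidef_of_eig_ge hP.1 hi0⟩

/-- resolvents in the eigenbasis -/
theorem inv_add_spec {U : CMat n} {d : Fin n → ℝ} (hU1 : Uᴴ * U = 1) (hU2 : U * Uᴴ = 1)
    (s : ℝ) (hd : ∀ i, 0 < d i + s) :
    (U * diagonal (fun i => ((d i : ℝ) : ℂ)) * Uᴴ + (s : ℂ) • (1 : CMat n))⁻¹ =
      U * diagonal (fun i => (((d i + s)⁻¹ : ℝ) : ℂ)) * Uᴴ := by
  apply Matrix.inv_eq_right_inv
  have h1 : U * diagonal (fun i => ((d i : ℝ) : ℂ)) * Uᴴ + (s : ℂ) • (1 : CMat n) =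
      U * diagonal (fun i => ((d i + s : ℝ) : ℂ)) * Uᴴ := by
    have h3 : diagonal (fun i => ((d i + s : ℝ) : ℂ)) =
        diagonal (fun i => ((d i : ℝ) : ℂ)) + (s : ℂ) • (1 : CMat n) := by
      ext a b
      by_cases hab : a = b
      · subst hab; simp
      · simp [hab]
    rw [h3, Matrix.mul_add, Matrix.add_mul, Matrix.mul_smul, Matrix.smul_mul, Matrix.mul_one, hU2]
  rw [h1]
  calc U * diagonal (fun i => ((d i + s : ℝ) : ℂ)) * Uᴴ *
        (U * diagonal (fun i => (((d i + s)⁻¹ : ℝ) : ℂ)) * Uᴴ)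
      = U * (diagonal (fun i => ((d i + s : ℝ) : ℂ)) * (Uᴴ * U) *
          diagonal (fun i => (((d i + s)⁻¹ : ℝ) : ℂ))) * Uᴴ := by
        simp only [Matrix.mul_assoc]
    _ = U * 1 * Uᴴ := by
        rw [hU1, Matrix.mul_one, diagonal_mul_diagonal]
        congr 2
        rw [← diagonal_one]
        congr 1
        funext i
        have := (hd i).ne'
        rw [← Complex.ofReal_mul, mul_inv_cancel₀ this]
        simp
    _ = 1 := by rw [Matrix.mul_one, hU2]

/-- norm of the inverse of a matrix bounded below -/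
theorem norm_res_le {P : CMat n} {c s : ℝ} (hP : (P - (c : ℂ) • (1 : CMat n)).PosSemidef)
    (hcs : 0 < c + s) : ‖res P s‖ ≤ (c + s)⁻¹ := by
  have hPh : P.IsHermitian := by
    have h1 := hP.1
    have h2 : ((c : ℂ) • (1 : CMat n)).IsHermitian := by
      unfold IsHermitian
      simp [conjTranspose_smul]
    have := h1.add h2
    simpa using this
  obtain ⟨U, hU1, hU2, hU3⟩ := exists_spec hPh
  have hd : ∀ i, c ≤ hPh.eigenvalues i := fun i => eig_ge hPh hP i
  unfold res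
  rw [hU3, inv_add_spec hU1 hU2 s (fun i => by have := hd i; linarith)]
  refine (norm_conj_le hU1 _).trans ?_
  rw [l2_opNorm_diagonal]
  refine (pi_norm_le_iff_of_nonneg (by positivity)).mpr fun i => ?_
  have h1 := hd i
  have h2 : 0 < hPh.eigenvalues i + s := by linarith
  rw [Complex.norm_real, Real.norm_of_nonneg (by positivity)]
  exact inv_anti₀ hcs (by linarith)

/-- entries are bounded by the norm -/
theorem norm_entry_le (A : CMat n) (i j : Fin n) : ‖A i j‖ ≤ ‖A‖ := by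
  have h1 := l2_opNorm_mulVec A (EuclideanSpace.single j (1 : ℂ))
  have h2 : ‖EuclideanSpace.single j (1 : ℂ)‖ = 1 := by simp
  rw [h2, mul_one] at h1
  refine le_trans ?_ h1
  have h3 := EuclideanSpace.norm_eq ((EuclideanSpace.equiv (Fin n) ℂ).symm
    (A *ᵥ (EuclideanSpace.single j (1 : ℂ))))
  rw [h3]
  apply Real.le_sqrt_of_sq_le
  have h4 : ‖A i j‖ ^ 2 = ‖((EuclideanSpace.equiv (Fin n) ℂ).symm
    (A *ᵥ (EuclideanSpace.single j (1 : ℂ)))) i‖ ^ 2 := by
    simp
  rw [h4]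
  exact Finset.single_le_sum (f := fun k => ‖((EuclideanSpace.equiv (Fin n) ℂ).symm
    (A *ᵥ (EuclideanSpace.single j (1 : ℂ)))) k‖ ^ 2) (fun k _ => by positivity) (Finset.mem_univ i)

/-- trace bound -/
theorem abs_rtr_le (A : CMat n) : |rtr A| ≤ n * ‖A‖ := by
  unfold rtr
  refine (Complex.abs_re_le_norm _).trans ?_
  unfold trace
  refine (norm_sum_le _ _).trans ?_
  refine (Finset.sum_le_sum (fun i _ => norm_entry_le A i i)).trans ?_
  simp

/-- stability of lower bounds -/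
theorem lower_stable {P₀ P : CMat n} {c : ℝ} (hP : P.IsHermitian)
    (h0 : (P₀ - ((2 * c : ℝ) : ℂ) • (1 : CMat n)).PosSemidef) (h : ‖P - P₀‖ ≤ c) :
    (P - (c : ℂ) • (1 : CMat n)).PosSemidef := by
  have hP0 : P₀.IsHermitian := by
    have h1 := h0.1
    have h2 : (((2 * c : ℝ) : ℂ) • (1 : CMat n)).IsHermitian := by
      unfold IsHermitian
      simp [conjTranspose_smul]
    have := h1.add h2
    simpa using this
  have hD : (P - P₀).IsHermitian := hP.sub hP0
  have h1 : ∀ i, -c ≤ hD.eigenvalues i := by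
    intro i
    obtain ⟨U, hU1, hU2, hU3⟩ := exists_spec hD
    have h3 : diagonal (fun i => ((hD.eigenvalues i : ℝ) : ℂ)) = Uᴴ * (P - P₀) * (Uᴴ)ᴴ := by
      rw [conjTranspose_conjTranspose]
      conv_rhs => rw [hU3]
      calc diagonal (fun i => ((hD.eigenvalues i : ℝ) : ℂ))
          = (Uᴴ * U) * diagonal (fun i => ((hD.eigenvalues i : ℝ) : ℂ)) * (Uᴴ * U) := by
            rw [hU1]; simp
        _ = _ := by simp only [Matrix.mul_assoc]
    have h4 : ‖diagonal (fun i => ((hD.eigenvalues i : ℝ) : ℂ))‖ ≤ c := by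
      rw [h3]
      refine (norm_conj_le (U := Uᴴ) ?_ _).trans h
      rw [conjTranspose_conjTranspose]
      exact hU2
    rw [l2_opNorm_diagonal] at h4
    have h5 := (norm_le_pi_norm (fun i => ((hD.eigenvalues i : ℝ) : ℂ)) i).trans h4
    rw [Complex.norm_real, Real.norm_eq_abs] at h5
    have := (abs_le.mp h5).1
    linarith
  have h2 := posSemidef_of_eig_ge hD h1
  have h3 := h0.add h2
  have h4 : P₀ - ((2 * c : ℝ) : ℂ) • (1 : CMat n) + (P - P₀ - ((-c : ℝ) : ℂ) • (1 : CMat n)) =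
      P - (c : ℂ) • (1 : CMat n) := by
    push_cast
    rw [neg_smul, two_mul, add_smul]
    abel
  rwa [h4] at h3

/-- `(c + s)⁻²` is integrable -/
theorem integrable_sq {c : ℝ} (hc : 0 < c) :
    IntegrableOn (fun s : ℝ => ((c + s)⁻¹) ^ 2) (Ioi 0) := by
  have h1 := integrableOn_add_rpow_Ioi_of_lt (a := -2) (c := 0) (m := c) (by norm_num) (by linarith)
  refine h1.congr_fun ?_ measurableSet_Ioi
  intro s hs
  have hs' : (0 : ℝ) < s := hs
  simp only
  rw [add_comm s c, Real.rpow_neg (by positivity), inv_pow]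
  norm_cast

/-- `∫ (c+s)⁻² = 1/c` -/
theorem integral_sq {c : ℝ} (hc : 0 < c) : ∫ s in Ioi (0 : ℝ), ((c + s)⁻¹) ^ 2 = c⁻¹ := by
  have h := integral_Ioi_of_hasDerivAt_of_tendsto' (f := fun s => -(c + s)⁻¹)
    (f' := fun s => ((c + s)⁻¹) ^ 2) (a := 0) (m := 0) ?_ (integrable_sq hc) ?_
  · rw [h]; simp
  · intro x hx
    have hx' : (0 : ℝ) ≤ x := hx
    have h1 : c + x ≠ 0 := by positivity
    have h2 : HasDerivAt (fun s : ℝ => c + s) 1 x := (hasDerivAt_id x).const_add c
    have h3 : HasDerivAt (fun s : ℝ => -(c + s)⁻¹) (-(-1 / (c + x) ^ 2)) x := (h2.inv h1).neg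
    have h4 : -(-1 / (c + x) ^ 2) = ((c + x)⁻¹) ^ 2 := by
      rw [inv_pow]
      ring
    rw [h4] at h3
    exact h3
  · have h1 : Tendsto (fun s : ℝ => c + s) atTop atTop := tendsto_atTop_add_const_left _ _ tendsto_id
    have h2 := h1.inv_tendsto_atTop
    simpa using h2.neg

/-- inverse of matrices is continuous on invertible ones -/
theorem continuousAt_inv {A : CMat n} (hA : IsUnit A) :
    ContinuousAt (fun B : CMat n => B⁻¹) A := by
  have h1 : (fun B : CMat n => B⁻¹) = fun B : CMat n => (B.det)⁻¹ • B.adjugate := by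
    funext B
    rw [Matrix.inv_def, Ring.inverse_eq_inv']
  rw [h1]
  have h2 : A.det ≠ 0 := ((Matrix.isUnit_iff_isUnit_det A).mp hA).ne_zero
  exact ((continuous_id.matrix_det.continuousAt).inv₀ h2).smul
    (continuous_id.matrix_adjugate.continuousAt)

theorem posDef_add_smul {P : CMat n} (hP : P.PosDef) {s : ℝ} (hs : 0 ≤ s) :
    (P + (s : ℂ) • (1 : CMat n)).PosDef := by
  apply hP.add_posSemidef
  apply PosSemidef.smul PosSemidef.one
  exact_mod_cast hs

end P371G
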