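import Vale.Agent.P371G.Basic
import Vale.Agent.P371G.Klein

/-!
# P371G, module CP2, part A: the scalar integral and the diagonal path
-/

namespace P371G

open Matrix MeasureTheory Set Filter Topology
open scoped ComplexOrder

namespace CP2

/-- the scalar function -/
noncomputable def Gk (k e : ℝ) : ℝ :=
  ∫ x in (-1 : ℝ)..1, k * (e⁻¹ - (e + k ^ 2 * (1 - x ^ 2))⁻¹)

theorem lam_nonneg (k x : ℝ) (hx : x ∈ Icc (-1 : ℝ) 1) : 0 ≤ k ^ 2 * (1 - x ^ 2) := by
  have h1 : 0 ≤ 1 - x ^ 2 := by nlinarith [hx.1, hx.2]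
  positivity

/-- Fubini for the scalar integral -/
theorem scalar_fubini (q : ℝ) (hq : q ∈ Ioo (0 : ℝ) 1) (k : ℝ) (hk : 0 ≤ k) :
    IntegrableOn (fun e => e ^ q * Gk k e) (Ioi 0) ∧
      ∫ e in Ioi (0 : ℝ), e ^ q * Gk k e = Cq q * Iq q * k ^ (1 + 2 * q) := by
  set F : ℝ → ℝ → ℝ := fun x e => k * Real.rpowIntegrand₀₁ q e (k ^ 2 * (1 - x ^ 2)) with hF
  have hsub : uIoc (-1 : ℝ) 1 ⊆ Icc (-1 : ℝ) 1 := by
    rw [uIoc_of_le (by norm_num)]
    exact Ioc_subset_Icc_self
  -- integral over `e`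
  have h1 : ∀ x ∈ Icc (-1 : ℝ) 1, IntegrableOn (fun e => F x e) (Ioi 0) := fun x hx =>
    (Real.integrableOn_rpowIntegrand₀₁_Ioi hq (lam_nonneg k x hx)).const_mul k
  have h2 : ∀ x ∈ Icc (-1 : ℝ) 1, ∫ e in Ioi (0 : ℝ), F x e =
      Cq q * (k ^ (1 + 2 * q) * (1 - x ^ 2) ^ q) := by
    intro x hx
    have h3 : 0 ≤ 1 - x ^ 2 := by nlinarith [hx.1, hx.2]
    rw [hF]
    simp only
    rw [integral_const_mul, Real.integral_rpowIntegrand₀₁_eq_rpow_mul_const hq (lam_nonneg k x hx)]
    have h4 : (k ^ 2 * (1 - x ^ 2)) ^ q = k ^ (2 * q) * (1 - x ^ 2) ^ q := by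
      rw [Real.mul_rpow (by positivity) h3, ← Real.rpow_natCast k 2, ← Real.rpow_mul hk]
      norm_num
    have h5 : k ^ (1 + 2 * q) = k * k ^ (2 * q) := by
      rcases hk.eq_or_lt with rfl | hk
      · rw [Real.zero_rpow (by linarith [hq.1]), zero_mul]
      · rw [Real.rpow_add hk, Real.rpow_one]
    rw [h4, h5]
    show k * (k ^ (2 * q) * (1 - x ^ 2) ^ q * Cq q) = _
    ring
  have h2' : ∀ x ∈ Icc (-1 : ℝ) 1, ∫ e in Ioi (0 : ℝ), ‖F x e‖ =
      Cq q * (k ^ (1 + 2 * q) * (1 - x ^ 2) ^ q) := by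
    intro x hx
    rw [← h2 x hx]
    refine setIntegral_congr_fun measurableSet_Ioi fun e he => ?_
    have he' : (0 : ℝ) < e := he
    rw [Real.norm_of_nonneg]
    exact mul_nonneg hk (Real.rpowIntegrand₀₁_nonneg hq.1 he'.le (lam_nonneg k x hx))
  have hcont : Continuous fun x : ℝ => Cq q * (k ^ (1 + 2 * q) * (1 - x ^ 2) ^ q) := by
    refine continuous_const.mul (continuous_const.mul ?_)
    exact Continuous.rpow_const (by fun_prop) fun x => Or.inr hq.1.le
  -- product integrability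
  have hint : Integrable (Function.uncurry F)
      ((volume.restrict (uIoc (-1 : ℝ) 1)).prod (volume.restrict (Ioi (0 : ℝ)))) := by
    have hmeas : AEStronglyMeasurable (Function.uncurry F)
        ((volume.restrict (uIoc (-1 : ℝ) 1)).prod (volume.restrict (Ioi (0 : ℝ)))) := by
      rw [Measure.prod_restrict]
      apply ContinuousOn.aestronglyMeasurable
      · have h3 := Real.continuousOn_rpowIntegrand₀₁_uncurry hq (Ici 0) le_rfl
        have h4 : ContinuousOn (fun z : ℝ × ℝ => (z.2, k ^ 2 * (1 - z.1 ^ 2)))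
            (uIoc (-1 : ℝ) 1 ×ˢ Ioi (0 : ℝ)) := by fun_prop
        have h5 := h3.comp h4 (by
          rintro ⟨x, e⟩ ⟨hx, he⟩
          exact ⟨he, lam_nonneg k x (hsub hx)⟩)
        exact continuousOn_const.mul h5
      · exact measurableSet_uIoc.prod measurableSet_Ioi
    rw [integrable_prod_iff hmeas]
    constructor
    · filter_upwards [ae_restrict_mem measurableSet_uIoc] with x hx
      exact h1 x (hsub hx)
    · have h3 : IntegrableOn (fun x : ℝ => Cq q * (k ^ (1 + 2 * q) * (1 - x ^ 2) ^ q))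
          (uIoc (-1 : ℝ) 1) := by
        rw [uIoc_of_le (by norm_num)]
        exact (hcont.integrableOn_Icc).mono_set Ioc_subset_Icc_self
      refine h3.congr_fun (fun x hx => ?_) measurableSet_uIoc
      exact (h2' x (hsub hx)).symm
  have hswap := intervalIntegral_integral_swap (μ := volume.restrict (Ioi (0 : ℝ))) hint
  have hG : ∀ e ∈ Ioi (0 : ℝ), ∫ x in (-1 : ℝ)..1, F x e = e ^ q * Gk k e := by
    intro e _
    unfold Gk
    rw [← intervalIntegral.integral_const_mul]
    refine intervalIntegral.integral_congr fun x _ => ?_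
    simp only [hF, Real.rpowIntegrand₀₁]
    ring
  constructor
  · have h3 := hint.integral_prod_right
    have h4 : IntegrableOn (fun e => ∫ x in (-1 : ℝ)..1, F x e) (Ioi 0) := by
      refine h3.congr ?_
      filter_upwards with e
      rw [intervalIntegral.integral_of_le (by norm_num), uIoc_of_le (by norm_num)]
      rfl
    exact h4.congr_fun hG measurableSet_Ioi
  · rw [← setIntegral_congr_fun measurableSet_Ioi hG, ← hswap]
    have h3 : ∫ x in (-1 : ℝ)..1, ∫ e in Ioi (0 : ℝ), F x e =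
        ∫ x in (-1 : ℝ)..1, Cq q * (k ^ (1 + 2 * q) * (1 - x ^ 2) ^ q) := by
      refine intervalIntegral.integral_congr fun x hx => ?_
      rw [uIcc_of_le (by norm_num)] at hx
      exact h2 x hx
    rw [h3, intervalIntegral.integral_const_mul, intervalIntegral.integral_const_mul]
    unfold Iq
    ring

end CP2

end P371G
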