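import Vale.Agent.P371G.CertA

/-!
# P371G, module CP2, part B: the diagonal path, cells, unitary conjugation
-/

namespace P371G

open Matrix MeasureTheory Set Filter Topology
open scoped ComplexOrder

namespace CP2

variable {n : ℕ}

theorem Kd_mul (a b : Fin n → ℝ) : Kd a * Kd b = Kd fun i => a i * b i := KL.dg_mul a b

theorem Kd_add (a b : Fin n → ℝ) : Kd a + Kd b = Kd fun i => a i + b i := by
  unfold Kd
  rw [diagonal_add]
  congr 1
  funext i
  push_cast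
  rfl

theorem rtr_Kd (a : Fin n → ℝ) : rtr (Kd a) = ∑ i, a i := KL.rtr_dg a

theorem Kd_inv (a : Fin n → ℝ) (ha : ∀ i, a i ≠ 0) : (Kd a)⁻¹ = Kd fun i => (a i)⁻¹ := by
  apply Matrix.inv_eq_right_inv
  rw [Kd_mul]
  unfold Kd
  rw [← diagonal_one]
  congr 1
  funext i
  show (((a i * (a i)⁻¹ : ℝ)) : ℂ) = 1
  rw [mul_inv_cancel₀ (ha i), Complex.ofReal_one]

theorem Kd_smul_one (s : ℝ) : ((s : ℂ) • (1 : CMat n)) = Kd fun _ => s := by
  unfold Kd
  ext i j
  by_cases h : i = j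
  · subst h
    simp
  · simp [h]

theorem res_Kd (p : Fin n → ℝ) (s : ℝ) (h : ∀ i, p i + s ≠ 0) :
    res (Kd p) s = Kd fun i => (p i + s)⁻¹ := by
  unfold res
  rw [Kd_smul_one, Kd_add, Kd_inv _ h]

theorem Kd_posDef (p : Fin n → ℝ) (hp : ∀ i, 0 < p i) : (Kd p).PosDef := by
  unfold Kd
  rw [Matrix.posDef_diagonal_iff]
  intro i
  exact_mod_cast hp i

theorem Fmat_Kd (p p' : Fin n → ℝ) (hp : ∀ i, 0 < p i) (hp' : ∀ i, 0 < p' i) :
    Fmat (Kd p) (Kd p') = Kd fun i => (p i * p' i)⁻¹ := by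
  unfold Fmat
  ext i j
  rw [Matrix.of_apply]
  have h1 : ∀ s ∈ Ioi (0 : ℝ), (res (Kd p) s * (Kd p + Kd p')⁻¹ * res (Kd p) s +
      res (Kd p') s * (Kd p + Kd p')⁻¹ * res (Kd p') s) =
      Kd fun i => ((p i + s)⁻¹ ^ 2 + (p' i + s)⁻¹ ^ 2) * (p i + p' i)⁻¹ := by
    intro s hs
    have hs' : (0 : ℝ) < s := hs
    rw [res_Kd p s (fun i => by have := hp i; positivity),
      res_Kd p' s (fun i => by have := hp' i; positivity), Kd_add,
      Kd_inv _ (fun i => by have := hp i; have := hp' i; positivity), Kd_mul, Kd_mul, Kd_mul,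
      Kd_mul, Kd_add]
    congr 1
    funext i
    ring
  rw [setIntegral_congr_fun measurableSet_Ioi fun s hs => congrFun (congrFun (h1 s hs) i) j]
  by_cases hij : i = j
  · subst hij
    have h2 : ∀ s : ℝ, (Kd (fun i => ((p i + s)⁻¹ ^ 2 + (p' i + s)⁻¹ ^ 2) * (p i + p' i)⁻¹)) i i =
        ((((p i + s)⁻¹ ^ 2 + (p' i + s)⁻¹ ^ 2) * (p i + p' i)⁻¹ : ℝ) : ℂ) := by
      intro s
      unfold Kd
      rw [diagonal_apply_eq]
    simp only [h2]
    have h3 : ∫ s in Ioi (0 : ℝ),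
        ((((p i + s)⁻¹ ^ 2 + (p' i + s)⁻¹ ^ 2) * (p i + p' i)⁻¹ : ℝ) : ℂ) =
        ((∫ s in Ioi (0 : ℝ), ((p i + s)⁻¹ ^ 2 + (p' i + s)⁻¹ ^ 2) * (p i + p' i)⁻¹ : ℝ) : ℂ) :=
      integral_ofReal
    rw [h3, integral_mul_const, integral_add (integrable_sq (hp i))
      (integrable_sq (hp' i)), integral_sq (hp i), integral_sq (hp' i)]
    unfold Kd
    rw [diagonal_apply_eq]
    congr 1
    have := hp i
    have := hp' i
    field_simp
    ring
  · have h2 : ∀ s : ℝ, (Kd (fun i => ((p i + s)⁻¹ ^ 2 + (p' i + s)⁻¹ ^ 2) * (p i + p' i)⁻¹)) i j =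
        0 := by
      intro s
      unfold Kd
      rw [diagonal_apply_ne _ hij]
    simp only [h2, integral_zero]
    unfold Kd
    rw [diagonal_apply_ne _ hij]

theorem Ke_eq (k : Fin n → ℝ) (e : ℝ) : Ke k e = Kd fun i => √(k i ^ 2 + e) := rfl

theorem sqrt_gt (k e : ℝ) (he : 0 < e) : |k| < √(k ^ 2 + e) := by
  rw [← Real.sqrt_sq_eq_abs]
  exact Real.sqrt_lt_sqrt (sq_nonneg k) (by linarith)

theorem smul_Kd (x : ℝ) (k : Fin n → ℝ) : (x : ℂ) • Kd k = Kd fun i => x * k i := by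
  unfold Kd
  rw [← diagonal_smul]
  congr 1
  funext i
  simp

theorem neg_Kd (k : Fin n → ℝ) : -Kd k = Kd fun i => -k i := by
  unfold Kd
  rw [diagonal_neg]
  congr 1
  funext i
  simp

/-- the potential difference for the diagonal path -/
theorem phi_diff (hCP : PathPhiStatement) (k : Fin n → ℝ) (hk : ∀ i, 0 ≤ k i) (e : ℝ)
    (he : 0 < e) :
    Phi (Ke k e) (Kd k) - Phi (Ke k e) (-Kd k) =
      ∑ i, ∫ x in (-1 : ℝ)..1, k i * (e + k i ^ 2 * (1 - x ^ 2))⁻¹ := by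
  have hκ : ∀ i, k i < √(k i ^ 2 + e) := fun i => by
    have := sqrt_gt (k i) e he
    rwa [abs_of_nonneg (hk i)] at this
  have hx : ∀ x ∈ Icc (-1 : ℝ) 1, ∀ i, |x * k i| ≤ k i := by
    intro x hx i
    rw [abs_mul, abs_of_nonneg (hk i)]
    have h1 : |x| ≤ 1 := abs_le.2 hx
    calc |x| * k i ≤ 1 * k i := mul_le_mul_of_nonneg_right h1 (hk i)
      _ = k i := one_mul _
  have hp1 : ∀ x ∈ Icc (-1 : ℝ) 1, ∀ i, 0 < √(k i ^ 2 + e) + x * k i := by
    intro x hx' i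
    have h1 := hx x hx' i
    have h2 := (abs_le.1 h1).1
    have h3 := hκ i
    linarith
  have hp2 : ∀ x ∈ Icc (-1 : ℝ) 1, ∀ i, 0 < √(k i ^ 2 + e) - x * k i := by
    intro x hx' i
    have h1 := hx x hx' i
    have h2 := (abs_le.1 h1).2
    have h3 := hκ i
    linarith
  have e1 : ∀ x : ℝ, Ke k e + (x : ℂ) • Kd k = Kd fun i => √(k i ^ 2 + e) + x * k i := by
    intro x
    rw [Ke_eq, smul_Kd, Kd_add]
  have e2 : ∀ x : ℝ, Ke k e - (x : ℂ) • Kd k = Kd fun i => √(k i ^ 2 + e) - x * k i := by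
    intro x
    rw [Ke_eq, smul_Kd, sub_eq_add_neg, neg_Kd, Kd_add]
    rfl
  have h := hCP n (Ke k e) (fun x => (x : ℂ) • Kd k) (fun _ => Kd k) (-1) 1 (by norm_num)
    (by
      intro x hx'
      rw [e1, e2]
      exact ⟨Kd_posDef _ (hp1 x hx'), Kd_posDef _ (hp2 x hx')⟩)
    (by
      intro x _ i j
      have h1 : HasDerivAt (fun y : ℝ => ((y : ℂ)) * Kd k i j) (1 * Kd k i j) x :=
        (Complex.ofRealCLM.hasDerivAt (x := x)).mul_const _
      rw [one_mul] at h1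
      exact h1.hasDerivWithinAt)
    (fun i j => continuousOn_const)
  have h1 : ((1 : ℝ) : ℂ) • Kd k = Kd k := by simp
  have h2 : ((-1 : ℝ) : ℂ) • Kd k = -Kd k := by simp
  simp only [h1, h2] at h
  rw [← h, ← intervalIntegral.integral_finsetSum]
  · refine intervalIntegral.integral_congr fun x hx' => ?_
    rw [uIcc_of_le (by norm_num)] at hx'
    rw [e1, e2, Fmat_Kd _ _ (hp1 x hx') (hp2 x hx'), Kd_mul, rtr_Kd]
    refine Finset.sum_congr rfl fun i _ => ?_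
    have h3 : (√(k i ^ 2 + e) + x * k i) * (√(k i ^ 2 + e) - x * k i) =
        e + k i ^ 2 * (1 - x ^ 2) := by
      have h4 : √(k i ^ 2 + e) * √(k i ^ 2 + e) = k i ^ 2 + e :=
        Real.mul_self_sqrt (by positivity)
      calc (√(k i ^ 2 + e) + x * k i) * (√(k i ^ 2 + e) - x * k i)
          = √(k i ^ 2 + e) * √(k i ^ 2 + e) - x ^ 2 * k i ^ 2 := by ring
        _ = _ := by rw [h4]; ring
    rw [h3]
    ring
  · intro i _
    apply ContinuousOn.intervalIntegrable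
    rw [uIcc_of_le (by norm_num)]
    refine continuousOn_const.mul (ContinuousOn.inv₀ (by fun_prop) ?_)
    intro x hx'
    have := lam_nonneg (k i) x hx'
    positivity

/-- the boundary term as a sum of the scalar functions -/
theorem boundary (hCP : PathPhiStatement) (k : Fin n → ℝ) (hk : ∀ i, 0 ≤ k i) (e : ℝ)
    (he : 0 < e) :
    2 * e⁻¹ * rtr (Kd k) - (Phi (Ke k e) (Kd k) - Phi (Ke k e) (-Kd k)) =
      ∑ i, Gk (k i) e := by
  rw [phi_diff hCP k hk e he, rtr_Kd, Finset.mul_sum, ← Finset.sum_sub_distrib]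
  refine Finset.sum_congr rfl fun i _ => ?_
  unfold Gk
  have h1 : IntervalIntegrable (fun x : ℝ => k i * (e + k i ^ 2 * (1 - x ^ 2))⁻¹) volume (-1) 1 := by
    apply ContinuousOn.intervalIntegrable
    rw [uIcc_of_le (by norm_num)]
    refine continuousOn_const.mul (ContinuousOn.inv₀ (by fun_prop) ?_)
    intro x hx'
    have := lam_nonneg (k i) x hx'
    positivity
  have h2 : (∫ x in (-1 : ℝ)..1, k i * (e⁻¹ - (e + k i ^ 2 * (1 - x ^ 2))⁻¹)) =
      (∫ _ in (-1 : ℝ)..1, k i * e⁻¹) - ∫ x in (-1 : ℝ)..1, k i * (e + k i ^ 2 * (1 - x ^ 2))⁻¹ := by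
    rw [← intervalIntegral.integral_sub intervalIntegrable_const h1]
    refine intervalIntegral.integral_congr fun x _ => ?_
    ring
  rw [h2, intervalIntegral.integral_const]
  simp only [smul_eq_mul]
  ring

end CP2

end P371G
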