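import Vale.Agent.P371G.DetTools

/-! # P371G : module CE, the truncated pointwise inequality -/

namespace P371G.CEx

open Matrix MeasureTheory Set Filter Topology
open scoped ComplexOrder

/-- eigenvalues of a matrix below `c` -/
lemma eig_le {n : ℕ} {A : CMat n} (hA : A.IsHermitian) {c : ℝ}
    (h : ((c : ℂ) • (1 : CMat n) - A).PosSemidef) (i : Fin n) : hA.eigenvalues i ≤ c := by
  obtain ⟨U, h1, h2, h3⟩ := specForm hA
  have h4 : Uᴴ * ((c : ℂ) • (1 : CMat n) - A) * U =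
      (c : ℂ) • (1 : CMat n) - diagonal (fun i => ((hA.eigenvalues i : ℝ) : ℂ)) := by
    rw [Matrix.mul_sub, Matrix.sub_mul]
    conv_lhs => rw [h3]
    rw [Matrix.mul_smul, Matrix.smul_mul, Matrix.mul_one, h2]
    congr 1
    calc Uᴴ * (U * diagonal (fun i => ((hA.eigenvalues i : ℝ) : ℂ)) * Uᴴ) * U
        = (Uᴴ * U) * diagonal (fun i => ((hA.eigenvalues i : ℝ) : ℂ)) * (Uᴴ * U) := by
          simp only [Matrix.mul_assoc]
      _ = _ := by rw [h2, Matrix.one_mul, Matrix.mul_one]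
  have h5 := (h.conjTranspose_mul_mul_same U).diag_nonneg (i := i)
  rw [h4] at h5
  simp only [Matrix.sub_apply, diagonal_apply_eq, Matrix.smul_apply, one_apply_eq, smul_eq_mul,
    mul_one] at h5
  have h6 := (Complex.le_def.1 h5).1
  simpa using h6

section basic

variable {n : ℕ} {k : Fin n → ℝ} {f : CMat n} {e : ℝ}

lemma sqrt_gt (_hk : ∀ i, 0 ≤ k i) (he : 0 < e) (i : Fin n) : k i < √(k i ^ 2 + e) := by
  apply Real.lt_sqrt_of_sq_lt
  linarith

lemma sqrt_pos' (k : Fin n → ℝ) (he : 0 < e) (i : Fin n) : 0 < √(k i ^ 2 + e) :=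
  Real.sqrt_pos.2 (by positivity)

lemma posDef_diag {d : Fin n → ℝ} (hd : ∀ i, 0 < d i) :
    (diagonal (fun i => ((d i : ℝ) : ℂ)) : CMat n).PosDef := by
  rw [posDef_diagonal_iff]
  intro i
  exact_mod_cast hd i

lemma posSemidef_diag {d : Fin n → ℝ} (hd : ∀ i, 0 ≤ d i) :
    (diagonal (fun i => ((d i : ℝ) : ℂ)) : CMat n).PosSemidef := by
  rw [posSemidef_diagonal_iff]
  intro i
  exact_mod_cast hd i

lemma Ke_sub_Kd (k : Fin n → ℝ) (e : ℝ) :
    Ke k e - Kd k = diagonal (fun i => ((√(k i ^ 2 + e) - k i : ℝ) : ℂ)) := by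
  rw [Ke, Kd, diagonal_sub]
  congr 1
  funext i
  push_cast
  rfl

lemma P_posDef (hk : ∀ i, 0 ≤ k i) (he : 0 < e) (hf : (Kd k + f).PosSemidef) :
    (Ke k e + f).PosDef := by
  have h1 : (Ke k e - Kd k).PosDef := by
    rw [Ke_sub_Kd]
    exact posDef_diag fun i => sub_pos.2 (sqrt_gt hk he i)
  have h2 : Ke k e + f = (Ke k e - Kd k) + (Kd k + f) := by abel
  rw [h2]
  exact h1.add_posSemidef hf

lemma Q_posDef (hk : ∀ i, 0 ≤ k i) (he : 0 < e) (hf : (Kd k - f).PosSemidef) :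
    (Ke k e - f).PosDef := by
  have := P_posDef (f := -f) hk he (by rwa [← sub_eq_add_neg])
  rwa [← sub_eq_add_neg] at this

lemma PQ_sum : (Ke k e + f) + (Ke k e - f) =
    diagonal (fun i => ((2 * √(k i ^ 2 + e) : ℝ) : ℂ)) := by
  have : (Ke k e + f) + (Ke k e - f) = Ke k e + Ke k e := by abel
  rw [this, Ke, diagonal_add]
  congr 1
  funext i
  push_cast
  ring

lemma PQ_inv (he : 0 < e) : ((Ke k e + f) + (Ke k e - f))⁻¹ =
    diagonal (fun i => ((1 / (2 * √(k i ^ 2 + e)) : ℝ) : ℂ)) := by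
  rw [PQ_sum]
  apply Matrix.inv_eq_right_inv
  rw [diagonal_mul_diagonal, ← diagonal_one]
  congr 1
  funext i
  rw [← Complex.ofReal_mul, mul_one_div_cancel (by have := sqrt_pos' k he i; positivity)]
  simp

lemma hasDerivAt_Ke (he : 0 < e) (i j : Fin n) :
    HasDerivAt (fun t => (Ke k t) i j)
      ((diagonal (fun i => ((1 / (2 * √(k i ^ 2 + e)) : ℝ) : ℂ)) : CMat n) i j) e := by
  by_cases hij : i = j
  · subst hij
    simp only [Ke, diagonal_apply_eq]
    have h1 : HasDerivAt (fun t : ℝ => √(k i ^ 2 + t)) (1 / (2 * √(k i ^ 2 + e))) e := by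
      have := ((hasDerivAt_id e).const_add (k i ^ 2)).sqrt (by simp; positivity)
      simpa using this
    exact h1.ofReal_comp
  · simp only [Ke, diagonal_apply_ne _ hij]
    exact hasDerivAt_const _ _

lemma hasDerivAt_P (he : 0 < e) (i j : Fin n) :
    HasDerivAt (fun t => (Ke k t + f) i j)
      ((((Ke k e + f) + (Ke k e - f))⁻¹ : CMat n) i j) e := by
  rw [PQ_inv he]
  simp only [Matrix.add_apply]
  exact (hasDerivAt_Ke he i j).add_const _

lemma hasDerivAt_Q (he : 0 < e) (i j : Fin n) :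
    HasDerivAt (fun t => (Ke k t - f) i j)
      ((((Ke k e + f) + (Ke k e - f))⁻¹ : CMat n) i j) e := by
  rw [PQ_inv he]
  simp only [Matrix.sub_apply]
  exact (hasDerivAt_Ke he i j).sub_const _

/-- `ln det P + ln det Q` -/
noncomputable def mm (k : Fin n → ℝ) (f : CMat n) (e : ℝ) : ℝ :=
  Real.log (rdet (Ke k e + f)) + Real.log (rdet (Ke k e - f))

lemma hasDerivAt_mm (hC : FactCStatement) (hk : ∀ i, 0 ≤ k i) (he : 0 < e)
    (h1 : (Kd k - f).PosSemidef) (h2 : (Kd k + f).PosSemidef) :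
    HasDerivAt (mm k f) (rtr (Fe k f e)) e := by
  have hP := P_posDef hk he h2
  have hQ := Q_posDef hk he h1
  rw [Fe, hC n _ _ hP hQ]
  exact (hasDerivAt_logdet (fun i j => hasDerivAt_P he i j) hP).add
    (hasDerivAt_logdet (fun i j => hasDerivAt_Q he i j) hQ)

lemma Ke_sq (k : Fin n → ℝ) (he : 0 ≤ e) :
    Ke k e * Ke k e = Kd k * Kd k + (e : ℂ) • (1 : CMat n) := by
  rw [Ke, Kd, diagonal_mul_diagonal, diagonal_mul_diagonal]
  ext i j
  by_cases hij : i = j
  · subst hij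
    simp only [diagonal_apply_eq, Matrix.add_apply, Matrix.smul_apply, one_apply_eq, smul_eq_mul,
      mul_one]
    rw [← Complex.ofReal_mul, Real.mul_self_sqrt (by positivity)]
    push_cast
    ring
  · simp [hij]

lemma Z_eq (k : Fin n → ℝ) (f : CMat n) (he : 0 ≤ e) :
    (1 / 2 : ℂ) • ((Ke k e + f) * (Ke k e - f) + (Ke k e - f) * (Ke k e + f)) =
      (Kd k * Kd k - f * f) + (e : ℂ) • (1 : CMat n) := by
  have : (Ke k e + f) * (Ke k e - f) + (Ke k e - f) * (Ke k e + f) =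
      (2 : ℂ) • (Ke k e * Ke k e - f * f) := by
    rw [two_smul]; noncomm_ring
  rw [this, smul_smul, Ke_sq k he]
  norm_num
  abel

end basic

section point

variable {n : ℕ} {k : Fin n → ℝ} {f W : CMat n}

/-- `ln det (r W + e)` -/
noncomputable def ll (w : Fin n → ℝ) (r e : ℝ) : ℝ := ∑ i, Real.log (r * w i + e)

lemma ll_eq (hW : W.PosSemidef) {r e : ℝ} (hr : 0 ≤ r) (he : 0 < e) :
    Real.log (rdet ((r : ℂ) • W + (e : ℂ) • (1 : CMat n))) = ll hW.1.eigenvalues r e := by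
  rw [rdet_shift hW.1, ll, Real.log_prod]
  intro i _
  have := mul_nonneg hr (hW.eigenvalues_nonneg i)
  positivity

lemma hasDerivAt_ll {w : Fin n → ℝ} (hw : ∀ i, 0 ≤ w i) {r e : ℝ} (hr : 0 ≤ r) (he : 0 < e) :
    HasDerivAt (ll w r) (∑ i, (r * w i + e)⁻¹) e := by
  unfold ll
  refine HasDerivAt.fun_sum fun i _ => ?_
  have h1 : r * w i + e ≠ 0 := by
    have := mul_nonneg hr (hw i)
    positivity
  have := ((hasDerivAt_id e).const_add (r * w i)).log h1
  simpa using this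

lemma Y_posDef (hW : W.PosSemidef) {r e : ℝ} (hr : 0 ≤ r) (he : 0 < e) :
    ((r : ℂ) • W + (e : ℂ) • (1 : CMat n)).PosDef := by
  have h1 : ((r : ℂ) • W).PosSemidef := hW.smul (by exact_mod_cast hr)
  have h2 : ((e : ℂ) • (1 : CMat n)).PosDef := PosDef.one.smul (by exact_mod_cast he)
  rw [add_comm]
  exact h2.add_posSemidef h1

/-- the two facts, in scalar form -/
lemma two_facts (hA : FactAStatement) (hB : FactBStatement) (hk : ∀ i, 0 ≤ k i)
    (h1 : (Kd k - f).PosSemidef) (h2 : (Kd k + f).PosSemidef) (hW : W.PosSemidef) {r e : ℝ}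
    (hr : 0 ≤ r) (he : 0 < e) :
    n + ll hW.1.eigenvalues r e - mm k f e ≤ r * rtr (Fe k f e * W) + e * rtr (Fe k f e) ∧
    rtr (Fe k f e * (Kd k * Kd k - f * f)) + e * rtr (Fe k f e) ≤ n := by
  have hP := P_posDef hk he h2
  have hQ := Q_posDef hk he h1
  constructor
  · have := hB n _ _ _ hP hQ (Y_posDef hW hr he)
    rw [ll_eq hW hr he, ← Fe, Matrix.mul_add, rtr_add, Matrix.mul_smul, Matrix.mul_smul, rtr_smul,
      rtr_smul, Matrix.mul_one] at this
    unfold mm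
    linarith
  · have := hA n _ _ hP hQ
    rw [Z_eq k f he.le, ← Fe, Matrix.mul_add, rtr_add, Matrix.mul_smul, rtr_smul,
      Matrix.mul_one] at this
    exact this

/-- the integrand of the claim -/
noncomputable def XX (k : Fin n → ℝ) (f W : CMat n) (e : ℝ) : ℝ :=
  rtr (((e⁻¹ : ℂ) • (1 : CMat n) - Fe k f e) * (W - (Kd k * Kd k - f * f)))

lemma XX_eq (k : Fin n → ℝ) (f W : CMat n) (e : ℝ) :
    XX k f W e = e⁻¹ * (rtr W - rtr (Kd k * Kd k - f * f)) - rtr (Fe k f e * W) +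
      rtr (Fe k f e * (Kd k * Kd k - f * f)) := by
  rw [XX]
  generalize Kd k * Kd k - f * f = v
  rw [Matrix.sub_mul, rtr_sub, Matrix.smul_mul, ← Complex.ofReal_inv, rtr_smul, Matrix.one_mul,
    Matrix.mul_sub, rtr_sub, rtr_sub]
  ring

/-- the primitive -/
noncomputable def gg (k : Fin n → ℝ) (f : CMat n) (w : Fin n → ℝ) (T0 r q e : ℝ) : ℝ :=
  (T0 + e * (mm k f e - ll w r e)) * e ^ q

lemma hasDerivAt_gg (hC : FactCStatement) (hk : ∀ i, 0 ≤ k i) {w : Fin n → ℝ}
    (hw : ∀ i, 0 ≤ w i) (h1 : (Kd k - f).PosSemidef) (h2 : (Kd k + f).PosSemidef) {T0 r q e : ℝ}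
    (hr : 0 ≤ r) (he : 0 < e) :
    HasDerivAt (gg k f w T0 r q)
      (((mm k f e - ll w r e) + e * (rtr (Fe k f e) - ∑ i, (r * w i + e)⁻¹)) * e ^ q +
        (T0 + e * (mm k f e - ll w r e)) * (q * e ^ (q - 1))) e := by
  have h3 := (hasDerivAt_mm hC hk he h1 h2).fun_sub (hasDerivAt_ll hw hr he)
  have h4 := (((hasDerivAt_id' e).fun_mul h3).const_add T0).fun_mul
    (Real.hasDerivAt_rpow_const (p := q) (Or.inl he.ne'))
  have h5 : gg k f w T0 r q = fun t => (T0 + t * (mm k f t - ll w r t)) * t ^ q := rfl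
  rw [h5]
  simpa only [one_mul] using h4

/-- the pointwise inequality between the integrand and the derivative of the primitive -/
lemma point_le (hA : FactAStatement) (hB : FactBStatement) (hk : ∀ i, 0 ≤ k i)
    (h1 : (Kd k - f).PosSemidef) (h2 : (Kd k + f).PosSemidef) (hW : W.PosSemidef) {q e : ℝ}
    (hq : 0 < q) (he : 0 < e) {r T0 : ℝ} (hr : r = q / (1 + q))
    (hT : T0 = r * rtr W - rtr (Kd k * Kd k - f * f)) :
    q * (e ^ q * XX k f W e) - e ^ q * ∑ i, r * hW.1.eigenvalues i *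
        (e⁻¹ - (r * hW.1.eigenvalues i + e)⁻¹) ≤
      ((mm k f e - ll hW.1.eigenvalues r e) + e * (rtr (Fe k f e) -
          ∑ i, (r * hW.1.eigenvalues i + e)⁻¹)) * e ^ q +
        (T0 + e * (mm k f e - ll hW.1.eigenvalues r e)) * (q * e ^ (q - 1)) := by
  have hr0 : 0 ≤ r := by rw [hr]; positivity
  have hr1 : r * (1 + q) = q := by rw [hr]; field_simp
  obtain ⟨hf1, hf2⟩ := two_facts hA hB hk h1 h2 hW hr0 he
  have hS : ∑ i, r * hW.1.eigenvalues i * (e⁻¹ - (r * hW.1.eigenvalues i + e)⁻¹) =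
      e⁻¹ * (r * rtr W) - n + e * ∑ i, (r * hW.1.eigenvalues i + e)⁻¹ := by
    rw [rtr_eig hW.1, Finset.mul_sum, Finset.mul_sum, Finset.mul_sum]
    have : (n : ℝ) = ∑ _i : Fin n, (1 : ℝ) := by simp
    rw [this, ← Finset.sum_sub_distrib, ← Finset.sum_add_distrib]
    refine Finset.sum_congr rfl fun i _ => ?_
    have h3 : r * hW.1.eigenvalues i + e ≠ 0 := by
      have := mul_nonneg hr0 (hW.eigenvalues_nonneg i)
      positivity
    field_simp
    ring
  rw [hS, XX_eq, Real.rpow_sub_one he.ne']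
  have hpos : 0 < e ^ q := Real.rpow_pos_of_pos he q
  set a := rtr W
  set b := rtr (Kd k * Kd k - f * f)
  set c := rtr (Fe k f e * W)
  set d := rtr (Fe k f e * (Kd k * Kd k - f * f))
  set g := rtr (Fe k f e)
  set l := ll hW.1.eigenvalues r e
  set m := mm k f e
  set sg := ∑ i, (r * hW.1.eigenvalues i + e)⁻¹
  have key : 0 ≤ (1 + q) * (m - l) + e * g + q * c - q * d - n := by
    have k1 : (1 + q) * (r * c) = q * c := by rw [← mul_assoc, mul_comm (1 + q) r, hr1]
    have k2 := mul_le_mul_of_nonneg_left hf1 (by positivity : (0:ℝ) ≤ 1 + q)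
    have k3 := mul_le_mul_of_nonneg_left hf2 hq.le
    have k4 : (1 + q) * (r * c + e * g) = q * c + (1 + q) * (e * g) := by rw [mul_add, k1]
    rw [k4] at k2
    linarith
  have e1 : ((m - l) + e * (g - sg)) * e ^ q + (T0 + e * (m - l)) * (q * (e ^ q / e)) -
      (q * (e ^ q * (e⁻¹ * (a - b) - c + d)) - e ^ q * (e⁻¹ * (r * a) - n + e * sg)) =
      e ^ q * ((1 + q) * (m - l) + e * g + q * c - q * d - n) := by
    have hqa : q * a = r * a + q * (r * a) := by
      have : q * a = (r * (1 + q)) * a := by rw [hr1]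
      rw [this]; ring
    have hT' : T0 = r * a - b := hT
    rw [hT']
    field_simp
    linear_combination (-1 : ℝ) * hqa
  nlinarith [mul_nonneg hpos.le key]

end point

end P371G.CEx
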