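import Vale.Agent.P371G.CertE

/-! # P371G : module CE, boundary terms and the final estimate -/

namespace P371G.CEx

open Matrix MeasureTheory Set Filter Topology
open scoped ComplexOrder

lemma int_bound {q : ℝ} (hq0 : 0 < q) (hq1 : q < 1) {x : ℝ} (hx : 0 ≤ x) {δ E : ℝ} (hδ : 0 < δ)
    (hE : δ ≤ E) : ∫ e in δ..E, e ^ q * (x * (e⁻¹ - (x + e)⁻¹)) ≤ Cq q * x ^ (1 + q) := by
  have h1 : ∀ e : ℝ, e ^ q * (x * (e⁻¹ - (x + e)⁻¹)) = x * Real.rpowIntegrand₀₁ q e x := by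
    intro e
    rw [Real.rpowIntegrand₀₁, add_comm x e]
    ring
  have hp : q ∈ Ioo (0 : ℝ) 1 := ⟨hq0, hq1⟩
  have h2 : ∫ e in Ioc δ E, Real.rpowIntegrand₀₁ q e x ≤ ∫ e in Ioi 0, Real.rpowIntegrand₀₁ q e x := by
    refine setIntegral_mono_set (Real.integrableOn_rpowIntegrand₀₁_Ioi hp hx) ?_ ?_
    · refine (ae_restrict_iff' measurableSet_Ioi).2 (Eventually.of_forall fun t ht => ?_)
      exact Real.rpowIntegrand₀₁_nonneg hq0 (le_of_lt ht) hx
    · exact LE.le.eventuallyLE (fun t ht => lt_trans hδ ht.1)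
  rw [Real.integral_rpowIntegrand₀₁_eq_rpow_mul_const hp hx] at h2
  have h3 : (∫ t in Ioi 0, Real.rpowIntegrand₀₁ q t 1) = Cq q := rfl
  rw [h3] at h2
  simp only [h1]
  rw [intervalIntegral.integral_const_mul, intervalIntegral.integral_of_le hE]
  calc x * ∫ e in Ioc δ E, Real.rpowIntegrand₀₁ q e x ≤ x * (x ^ q * Cq q) :=
        mul_le_mul_of_nonneg_left h2 hx
    _ = Cq q * x ^ (1 + q) := by
        rcases hx.eq_or_lt with h | h
        · have h5 : 1 + q ≠ 0 := by positivity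
          rw [← h, Real.zero_rpow h5]; ring
        · rw [Real.rpow_add h, Real.rpow_one]; ring

section boundary

variable {n : ℕ} {k : Fin n → ℝ} {f W : CMat n}

lemma rtr_Kd_sq (k : Fin n → ℝ) : rtr (Kd k * Kd k) = ∑ i, k i ^ 2 := by
  rw [Kd, diagonal_mul_diagonal]
  have : (fun i => ((k i : ℝ) : ℂ) * ((k i : ℝ) : ℂ)) = fun i => ((k i ^ 2 : ℝ) : ℂ) := by
    funext i; push_cast; ring
  rw [this, rtr_diagonal]

lemma rtr_sq {f : CMat n} (hf : f.IsHermitian) : rtr (f * f) = ∑ i, ∑ j, ‖f i j‖ ^ 2 := by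
  rw [rtr, trace, Complex.re_sum]
  refine Finset.sum_congr rfl fun i _ => ?_
  rw [diag_apply, mul_apply, Complex.re_sum]
  refine Finset.sum_congr rfl fun j _ => ?_
  have : f j i = star (f i j) := by rw [← hf.apply i j, star_star]
  rw [this]
  rw [← Complex.normSq_eq_norm_sq, ← Complex.ofReal_re (Complex.normSq (f i j)),
    Complex.normSq_eq_conj_mul_self, mul_comm]
  rfl

lemma rtr_sq_nonneg {f : CMat n} (hf : f.IsHermitian) : 0 ≤ rtr (f * f) := by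
  rw [rtr_sq hf]
  positivity

lemma rtr_f_sq_le (h1 : (Kd k - f).PosSemidef) (h2 : (Kd k + f).PosSemidef) :
    rtr (f * f) ≤ ∑ i, k i ^ 2 := by
  have h3 := PosSemidef_rtr_mul h1 h2
  have h4 : (Kd k - f) * (Kd k + f) = Kd k * Kd k - f * f + (Kd k * f - f * Kd k) := by
    noncomm_ring
  rw [h4, rtr_add, rtr_sub, rtr_sub, rtr_mul_comm (Kd k) f, rtr_Kd_sq] at h3
  linarith

/-- the trace of `v` -/
lemma rtr_v (k : Fin n → ℝ) (f : CMat n) :
    rtr (Kd k * Kd k - f * f) = ∑ i, k i ^ 2 - rtr (f * f) := by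
  rw [rtr_sub, rtr_Kd_sq]

/-- lower bound for `ln det P` near `0` -/
lemma logdet_P_ge (hk : ∀ i, 0 ≤ k i) (h2 : (Kd k + f).PosSemidef) {δ : ℝ} (hδ : 0 < δ)
    (hδ1 : δ ≤ 1) {c : ℝ} (hc : c = 1 / (2 * √(∑ i, k i ^ 2 + 1))) :
    n * Real.log (c * δ) ≤ Real.log (rdet (Ke k δ + f)) := by
  have hs : 0 < √(∑ i, k i ^ 2 + 1) := Real.sqrt_pos.2 (by positivity)
  have hc0 : 0 < c := by rw [hc]; positivity
  refine logdet_ge (P_posDef hk hδ h2) (by positivity) ?_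
  have h3 : Ke k δ + f - ((c * δ : ℝ) : ℂ) • (1 : CMat n) =
      diagonal (fun i => ((√(k i ^ 2 + δ) - k i - c * δ : ℝ) : ℂ)) + (Kd k + f) := by
    have : Ke k δ + f - ((c * δ : ℝ) : ℂ) • (1 : CMat n) =
      (Ke k δ - Kd k) - ((c * δ : ℝ) : ℂ) • (1 : CMat n) + (Kd k + f) := by abel
    rw [this, Ke_sub_Kd]
    congr 1
    ext i j
    by_cases hij : i = j
    · subst hij; simp
    · simp [hij]
  rw [h3]
  refine PosSemidef.add (posSemidef_diag fun i => ?_) h2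
  have h4 : k i ^ 2 ≤ ∑ i, k i ^ 2 :=
    Finset.single_le_sum (f := fun i => k i ^ 2) (fun i _ => sq_nonneg (k i)) (Finset.mem_univ i)
  have h5 : √(k i ^ 2 + δ) ≤ √(∑ i, k i ^ 2 + 1) := Real.sqrt_le_sqrt (by linarith)
  have h6 : √(k i ^ 2 + δ) * √(k i ^ 2 + δ) = k i ^ 2 + δ := Real.mul_self_sqrt (by positivity)
  have h7 := sqrt_gt hk hδ i
  have h8 : (√(k i ^ 2 + δ) - k i) * (√(k i ^ 2 + δ) + k i) = δ := by ring_nf; nlinarith
  have h9 : √(k i ^ 2 + δ) + k i ≤ 2 * √(∑ i, k i ^ 2 + 1) := by linarith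
  have h10 : c * (2 * √(∑ i, k i ^ 2 + 1)) = 1 := by rw [hc]; field_simp
  have h11 : 0 ≤ √(k i ^ 2 + δ) - k i := by linarith
  have h12 : δ ≤ (√(k i ^ 2 + δ) - k i) * (2 * √(∑ i, k i ^ 2 + 1)) := by
    nlinarith [mul_le_mul_of_nonneg_left h9 h11]
  nlinarith [mul_le_mul_of_nonneg_left h12 hc0.le]

lemma logdet_Q_ge (hk : ∀ i, 0 ≤ k i) (h1 : (Kd k - f).PosSemidef) {δ : ℝ} (hδ : 0 < δ)
    (hδ1 : δ ≤ 1) {c : ℝ} (hc : c = 1 / (2 * √(∑ i, k i ^ 2 + 1))) :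
    n * Real.log (c * δ) ≤ Real.log (rdet (Ke k δ - f)) := by
  have := logdet_P_ge (f := -f) hk (by rwa [← sub_eq_add_neg]) hδ hδ1 hc
  rwa [← sub_eq_add_neg] at this

/-- lower bound for `δ ln (c δ)` -/
lemma mul_log_ge {c δ : ℝ} (hc : 0 < c) (hδ : 0 < δ) (hδ1 : δ ≤ 1) :
    -(1 + |Real.log c|) ≤ δ * Real.log (c * δ) := by
  rw [Real.log_mul hc.ne' hδ.ne', mul_add]
  have h1 : -1 ≤ δ * Real.log δ := by
    have h2 := Real.log_le_sub_one_of_pos (inv_pos.2 hδ)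
    rw [Real.log_inv] at h2
    have h3 := mul_le_mul_of_nonneg_left h2 hδ.le
    rw [mul_sub, mul_inv_cancel₀ hδ.ne'] at h3
    linarith
  have h4 : -|Real.log c| ≤ δ * Real.log c := by
    have h5 : -|Real.log c| ≤ Real.log c := neg_abs_le _
    have h6 : 0 ≤ |Real.log c| := abs_nonneg _
    rcases le_total 0 (Real.log c) with h | h
    · have := mul_nonneg hδ.le h; linarith
    · rw [abs_of_nonpos h]; nlinarith
  linarith

lemma lower_bd (hk : ∀ i, 0 ≤ k i) (hf : f.IsHermitian) (h1 : (Kd k - f).PosSemidef)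
    (h2 : (Kd k + f).PosSemidef) {w : Fin n → ℝ} (hw : ∀ i, 0 ≤ w i) {r : ℝ} (hr : 0 ≤ r)
    (hr1 : r ≤ 1) {Λ : ℝ} (hΛ : ∑ i, w i ≤ Λ) {δ : ℝ} (hδ : 0 < δ) (hδ1 : δ ≤ 1) {c : ℝ}
    (hc : c = 1 / (2 * √(∑ i, k i ^ 2 + 1))) :
    -(∑ i, k i ^ 2 + Λ + 2 * n * (1 + |Real.log c|)) ≤
      (r * ∑ i, w i - rtr (Kd k * Kd k - f * f)) + δ * (mm k f δ - ll w r δ) := by
  have hs : 0 < √(∑ i, k i ^ 2 + 1) := Real.sqrt_pos.2 (by positivity)
  have hc0 : 0 < c := by rw [hc]; positivity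
  have a1 := logdet_P_ge hk h2 hδ hδ1 hc
  have a2 := logdet_Q_ge hk h1 hδ hδ1 hc
  have a3 := mul_log_ge hc0 hδ hδ1
  have a4 : ll w r δ ≤ r * ∑ i, w i := by
    rw [ll, Finset.mul_sum]
    refine Finset.sum_le_sum fun i _ => ?_
    have h3 : 0 < r * w i + δ := by have := mul_nonneg hr (hw i); positivity
    have := Real.log_le_sub_one_of_pos h3
    linarith
  have a5 : 0 ≤ ∑ i, w i := Finset.sum_nonneg fun i _ => hw i
  have a6 : 0 ≤ r * ∑ i, w i := mul_nonneg hr a5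
  have a7 : δ * ll w r δ ≤ Λ := by
    have b1 : δ * ll w r δ ≤ δ * (r * ∑ i, w i) := mul_le_mul_of_nonneg_left a4 hδ.le
    have b2 : δ * (r * ∑ i, w i) ≤ 1 * (r * ∑ i, w i) := mul_le_mul_of_nonneg_right hδ1 a6
    have b3 : r * ∑ i, w i ≤ 1 * ∑ i, w i := mul_le_mul_of_nonneg_right hr1 a5
    linarith
  have a8 : -(2 * n * (1 + |Real.log c|)) ≤ δ * mm k f δ := by
    have b1 : 2 * (n * Real.log (c * δ)) ≤ mm k f δ := by unfold mm; linarith
    have b2 := mul_le_mul_of_nonneg_left b1 hδ.le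
    have b3 := mul_le_mul_of_nonneg_left a3 (by positivity : (0 : ℝ) ≤ 2 * n)
    nlinarith
  have a9 := rtr_sq_nonneg hf
  rw [rtr_v, mul_sub]
  linarith

lemma ll_ge {w : Fin n → ℝ} (hw : ∀ i, 0 ≤ w i) {r E : ℝ} (hr : 0 ≤ r) (hE : 0 < E) :
    n * Real.log E + r * ∑ i, w i / E - ∑ i, (r * w i) ^ 2 / (2 * E ^ 2) ≤ ll w r E := by
  have h1 : n * Real.log E + r * ∑ i, w i / E - ∑ i, (r * w i) ^ 2 / (2 * E ^ 2) =
      ∑ i, (Real.log E + r * (w i / E) - (r * w i) ^ 2 / (2 * E ^ 2)) := by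
    rw [Finset.sum_sub_distrib, Finset.sum_add_distrib, Finset.mul_sum]
    simp
  rw [h1, ll]
  refine Finset.sum_le_sum fun i _ => ?_
  have h2 := mul_nonneg hr (hw i)
  have h3 : 0 ≤ r * w i / E := by positivity
  have h4 : r * w i + E = E * (1 + r * w i / E) := by field_simp; ring
  rw [h4, Real.log_mul hE.ne' (by positivity)]
  have h5 := Real.le_log_one_add_of_nonneg h3
  set x := r * w i / E with hx
  have h6 : x - x ^ 2 / 2 ≤ 2 * x / (x + 2) := by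
    rw [le_div_iff₀ (by positivity)]
    nlinarith [pow_nonneg h3 3]
  have h7 : r * (w i / E) = x := by rw [hx]; ring
  have h8 : (r * w i) ^ 2 / (2 * E ^ 2) = x ^ 2 / 2 := by rw [hx]; field_simp
  rw [h7, h8]
  linarith

lemma rdet_diag_mul (d : Fin n → ℝ) (A : CMat n) :
    rdet (diagonal (fun i => ((d i : ℝ) : ℂ)) * A * diagonal (fun i => ((d i : ℝ) : ℂ))) =
      (∏ i, d i) ^ 2 * rdet A := by
  rw [rdet, det_mul, det_mul, det_diagonal, ← Complex.ofReal_prod, mul_comm, ← mul_assoc,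
    ← Complex.ofReal_mul, Complex.re_ofReal_mul, sq]
  rfl

/-- `ln det (1+X) + ln det (1-X) ≤ - tr X²` -/
lemma log_one_sub_sq {X : CMat n} (hX : X.IsHermitian) (hp : (1 + X).PosDef)
    (hm : (1 - X).PosDef) :
    Real.log (rdet (1 + X)) + Real.log (rdet (1 - X)) ≤ -rtr (X * X) := by
  have e1 : rdet (1 + X) = ∏ i, (1 * hX.eigenvalues i + 1) := by
    rw [← rdet_shift hX 1 1]; congr 1; simp [add_comm]
  have e2 : rdet (1 - X) = ∏ i, ((-1) * hX.eigenvalues i + 1) := by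
    rw [← rdet_shift hX (-1) 1]; congr 1; simp [sub_eq_add_neg, add_comm]
  have p1 := (rdet_pos hp).ne'
  have p2 := (rdet_pos hm).ne'
  rw [e1, Finset.prod_ne_zero_iff] at p1
  rw [e2, Finset.prod_ne_zero_iff] at p2
  have e3 : rtr (X * X) = ∑ i, hX.eigenvalues i ^ 2 := by
    obtain ⟨U, h1, h2, h3⟩ := specForm hX
    have : X * X = U * diagonal (fun i => ((hX.eigenvalues i ^ 2 : ℝ) : ℂ)) * Uᴴ := by
      conv_lhs => rw [h3]
      calc U * diagonal (fun i => ((hX.eigenvalues i : ℝ) : ℂ)) * Uᴴ *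
            (U * diagonal (fun i => ((hX.eigenvalues i : ℝ) : ℂ)) * Uᴴ)
          = U * (diagonal (fun i => ((hX.eigenvalues i : ℝ) : ℂ)) * (Uᴴ * U) *
            diagonal (fun i => ((hX.eigenvalues i : ℝ) : ℂ))) * Uᴴ := by
            simp only [Matrix.mul_assoc]
        _ = _ := by
          rw [h2, Matrix.mul_one, diagonal_mul_diagonal]
          congr 3
          funext i
          push_cast
          ring
    rw [this, rtr_conj h2, rtr_diagonal]
  rw [e1, e2, e3, Real.log_prod (fun i hi => p1 i hi), Real.log_prod (fun i hi => p2 i hi),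
    ← Finset.sum_add_distrib, ← Finset.sum_neg_distrib]
  refine Finset.sum_le_sum fun i hi => ?_
  have q1 : -1 ≤ hX.eigenvalues i := by
    refine eig_ge hX ?_ i
    have : X - (((-1 : ℝ)) : ℂ) • (1 : CMat n) = 1 + X := by simp [add_comm]
    rw [this]; exact hp.posSemidef
  have q2 : hX.eigenvalues i ≤ 1 := by
    refine eig_le hX ?_ i
    have : (((1 : ℝ)) : ℂ) • (1 : CMat n) - X = 1 - X := by simp
    rw [this]; exact hm.posSemidef
  have q3 : 0 < 1 * hX.eigenvalues i + 1 := lt_of_le_of_ne (by linarith) (Ne.symm (p1 i hi))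
  have q4 : 0 < (-1) * hX.eigenvalues i + 1 := lt_of_le_of_ne (by linarith) (Ne.symm (p2 i hi))
  rw [← Real.log_mul q3.ne' q4.ne']
  have := Real.log_le_sub_one_of_pos (mul_pos q3 q4)
  nlinarith

lemma mm_le (hk : ∀ i, 0 ≤ k i) (hf : f.IsHermitian) (h1 : (Kd k - f).PosSemidef)
    (h2 : (Kd k + f).PosSemidef) {E : ℝ} (hE : 0 < E) :
    mm k f E ≤ n * Real.log E + (∑ i, k i ^ 2) / E - rtr (f * f) / (E + ∑ i, k i ^ 2) := by
  have hP := P_posDef hk hE h2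
  have hQ := Q_posDef hk hE h1
  obtain ⟨s, hs⟩ : ∃ s : Fin n → ℝ, s = fun i => (√(√(k i ^ 2 + E)))⁻¹ := ⟨_, rfl⟩
  have hspos : ∀ i, 0 < s i := fun i => by
    rw [hs]; exact inv_pos.2 (Real.sqrt_pos.2 (sqrt_pos' k hE i))
  have hs2 : ∀ i, s i * s i = (√(k i ^ 2 + E))⁻¹ := fun i => by
    rw [hs]
    simp only
    rw [← mul_inv, Real.mul_self_sqrt (sqrt_pos' k hE i).le]
  obtain ⟨D, hD⟩ : ∃ D : CMat n, D = diagonal (fun i => ((s i : ℝ) : ℂ)) := ⟨_, rfl⟩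
  have hDH : Dᴴ = D := by
    rw [hD, diagonal_conjTranspose]
    congr 1
    funext i
    simp
  have hDKD : D * Ke k E * D = 1 := by
    rw [hD, Ke, diagonal_mul_diagonal, diagonal_mul_diagonal, ← diagonal_one]
    congr 1
    funext i
    have : s i * √(k i ^ 2 + E) * s i = 1 := by
      rw [mul_right_comm, hs2, inv_mul_cancel₀ (sqrt_pos' k hE i).ne']
    rw [← Complex.ofReal_mul, ← Complex.ofReal_mul, this, Complex.ofReal_one]
  obtain ⟨X, hX⟩ : ∃ X : CMat n, X = D * f * D := ⟨_, rfl⟩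
  have hXH : X.IsHermitian := by
    rw [IsHermitian, hX, conjTranspose_mul, conjTranspose_mul, hDH, hf.eq, Matrix.mul_assoc]
  have eP : 1 + X = D * (Ke k E + f) * D := by
    rw [Matrix.mul_add, Matrix.add_mul, hDKD, hX]
  have eQ : 1 - X = D * (Ke k E - f) * D := by
    rw [Matrix.mul_sub, Matrix.sub_mul, hDKD, hX]
  have hDu : IsUnit D := by
    rw [Matrix.isUnit_iff_isUnit_det, hD, det_diagonal, ← Complex.ofReal_prod]
    refine isUnit_iff_ne_zero.2 ?_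
    exact_mod_cast (Finset.prod_pos fun i _ => hspos i).ne'
  have pP : (1 + X).PosDef := by
    rw [eP]
    have := hP.conjTranspose_mul_mul_same (B := D) (Matrix.mulVec_injective_of_isUnit hDu)
    rwa [hDH] at this
  have pQ : (1 - X).PosDef := by
    rw [eQ]
    have := hQ.conjTranspose_mul_mul_same (B := D) (Matrix.mulVec_injective_of_isUnit hDu)
    rwa [hDH] at this
  have key := log_one_sub_sq hXH pP pQ
  have dP : rdet (1 + X) = (∏ i, s i) ^ 2 * rdet (Ke k E + f) := by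
    rw [eP, hD, rdet_diag_mul]
  have dQ : rdet (1 - X) = (∏ i, s i) ^ 2 * rdet (Ke k E - f) := by
    rw [eQ, hD, rdet_diag_mul]
  have hprod : 0 < ∏ i, s i := Finset.prod_pos fun i _ => hspos i
  rw [dP, dQ, Real.log_mul (by positivity) (rdet_pos hP).ne',
    Real.log_mul (by positivity) (rdet_pos hQ).ne', Real.log_pow] at key
  have hlog : 4 * Real.log (∏ i, s i) = -∑ i, Real.log (k i ^ 2 + E) := by
    rw [Real.log_prod (fun i _ => (hspos i).ne'), Finset.mul_sum, ← Finset.sum_neg_distrib]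
    refine Finset.sum_congr rfl fun i _ => ?_
    rw [hs]
    simp only
    rw [Real.log_inv, Real.log_sqrt (Real.sqrt_nonneg _), Real.log_sqrt (by positivity)]
    ring
  have hsum : ∑ i, Real.log (k i ^ 2 + E) ≤ n * Real.log E + (∑ i, k i ^ 2) / E := by
    have : n * Real.log E + (∑ i, k i ^ 2) / E = ∑ i, (Real.log E + k i ^ 2 / E) := by
      rw [Finset.sum_add_distrib, Finset.sum_div]; simp
    rw [this]
    refine Finset.sum_le_sum fun i _ => ?_
    have h4 : k i ^ 2 + E = E * (1 + k i ^ 2 / E) := by field_simp; ring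
    rw [h4, Real.log_mul hE.ne' (by positivity)]
    have := Real.log_le_sub_one_of_pos (show 0 < 1 + k i ^ 2 / E by positivity)
    linarith
  have htr : rtr (f * f) / (E + ∑ i, k i ^ 2) ≤ rtr (X * X) := by
    rw [rtr_sq hf, rtr_sq hXH, Finset.sum_div]
    refine Finset.sum_le_sum fun i _ => ?_
    rw [Finset.sum_div]
    refine Finset.sum_le_sum fun j _ => ?_
    have e1 : X i j = ((s i * s j : ℝ) : ℂ) * f i j := by
      rw [hX, hD, mul_diagonal, diagonal_mul]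
      push_cast
      ring
    rw [e1, norm_mul, Complex.norm_real, Real.norm_of_nonneg (mul_pos (hspos i) (hspos j)).le,
      mul_pow, mul_pow, sq (s i), sq (s j), hs2, hs2, div_eq_mul_inv, mul_comm]
    refine mul_le_mul_of_nonneg_right ?_ (sq_nonneg _)
    rw [← mul_inv]
    have b1 : ∀ i, √(k i ^ 2 + E) ≤ √(E + ∑ i, k i ^ 2) := fun i => by
      refine Real.sqrt_le_sqrt ?_
      have := Finset.single_le_sum (f := fun i => k i ^ 2) (fun i _ => sq_nonneg (k i))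
        (Finset.mem_univ i)
      linarith
    refine inv_anti₀ (mul_pos (sqrt_pos' k hE i) (sqrt_pos' k hE j)) ?_
    calc √(k i ^ 2 + E) * √(k j ^ 2 + E) ≤ √(E + ∑ i, k i ^ 2) * √(E + ∑ i, k i ^ 2) :=
          mul_le_mul (b1 i) (b1 j) (Real.sqrt_nonneg _) (Real.sqrt_nonneg _)
      _ = E + ∑ i, k i ^ 2 := Real.mul_self_sqrt (by positivity)
  unfold mm
  push_cast at key
  linarith

lemma upper_bd (hk : ∀ i, 0 ≤ k i) (hf : f.IsHermitian) (h1 : (Kd k - f).PosSemidef)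
    (h2 : (Kd k + f).PosSemidef) {w : Fin n → ℝ} (hw : ∀ i, 0 ≤ w i) {r : ℝ} (hr : 0 ≤ r)
    (hr1 : r ≤ 1) {Λ : ℝ} (hΛ : ∑ i, w i ≤ Λ) {E : ℝ} (hE : 0 < E) :
    (r * ∑ i, w i - rtr (Kd k * Kd k - f * f)) + E * (mm k f E - ll w r E) ≤
      ((∑ i, k i ^ 2) ^ 2 + Λ ^ 2) / E := by
  have a1 := mm_le hk hf h1 h2 hE
  have a2 := ll_ge hw hr hE
  have a3 := rtr_f_sq_le h1 h2
  have a4 := rtr_sq_nonneg hf
  obtain ⟨κ, hκ⟩ : ∃ κ : ℝ, κ = ∑ i, k i ^ 2 := ⟨_, rfl⟩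
  obtain ⟨τ, hτ⟩ : ∃ τ : ℝ, τ = rtr (f * f) := ⟨_, rfl⟩
  have hκ0 : 0 ≤ κ := by rw [hκ]; positivity
  rw [← hκ, ← hτ] at a1 a3
  rw [← hτ] at a4
  rw [rtr_v, ← hκ, ← hτ]
  have a5 : ∑ i, (r * w i) ^ 2 / (2 * E ^ 2) ≤ Λ ^ 2 / (2 * E ^ 2) := by
    rw [← Finset.sum_div]
    refine div_le_div_of_nonneg_right ?_ (by positivity)
    have b1 : ∑ i, (r * w i) ^ 2 ≤ ∑ i, w i ^ 2 := by
      refine Finset.sum_le_sum fun i _ => ?_
      refine pow_le_pow_left₀ (mul_nonneg hr (hw i)) ?_ 2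
      have := mul_le_mul_of_nonneg_right hr1 (hw i)
      linarith
    have b2 : ∑ i, w i ^ 2 ≤ (∑ i, w i) ^ 2 := Finset.sum_sq_le_sq_sum_of_nonneg fun i _ => hw i
    have b3 : (∑ i, w i) ^ 2 ≤ Λ ^ 2 :=
      pow_le_pow_left₀ (Finset.sum_nonneg fun i _ => hw i) hΛ 2
    linarith
  have a6 : mm k f E - ll w r E ≤ κ / E - τ / (E + κ) - r * ∑ i, w i / E + Λ ^ 2 / (2 * E ^ 2) := by
    linarith
  have a7 := mul_le_mul_of_nonneg_left a6 hE.le
  have a8 : E * (κ / E - τ / (E + κ) - r * ∑ i, w i / E + Λ ^ 2 / (2 * E ^ 2)) =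
      κ - E * τ / (E + κ) - r * ∑ i, w i + Λ ^ 2 / (2 * E) := by
    rw [← Finset.sum_div]
    field_simp
  have a9 : τ - E * τ / (E + κ) ≤ κ ^ 2 / E := by
    have hEκ : 0 < E + κ := by positivity
    have : τ - E * τ / (E + κ) = κ * τ / (E + κ) := by field_simp; ring
    rw [this]
    have c1 : κ * τ ≤ κ ^ 2 := by nlinarith
    calc κ * τ / (E + κ) ≤ κ ^ 2 / (E + κ) := div_le_div_of_nonneg_right c1 hEκ.le
      _ ≤ κ ^ 2 / E := div_le_div_of_nonneg_left (by positivity) hE (by linarith)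
  have a10 : Λ ^ 2 / (2 * E) ≤ Λ ^ 2 / E :=
    div_le_div_of_nonneg_left (by positivity) hE (by linarith)
  have a11 : (κ ^ 2 + Λ ^ 2) / E = κ ^ 2 / E + Λ ^ 2 / E := add_div _ _ _
  rw [a11]
  linarith

end boundary

end P371G.CEx
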