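import Vale.Agent.P371G.Defs

/-!
# P371G, module CONST: value of the sharp constant
-/

namespace P371G

open Set MeasureTheory Filter Topology

lemma Iq_eq_beta (q : ℝ) :
    ((Iq q : ℝ) : ℂ) = ((2 * 4 ^ q : ℝ) : ℂ) * Complex.betaIntegral (q + 1) (q + 1) := by
  have h1 : Iq q = 2 * ∫ v in (0 : ℝ)..1, (1 - (2 * v - 1) ^ 2) ^ q := by
    have := intervalIntegral.integral_comp_mul_sub (a := 0) (b := 1)
      (fun t : ℝ => (1 - t ^ 2) ^ q) (c := 2) two_ne_zero 1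
    rw [this, Iq]
    norm_num
    ring
  have h2 : ∫ v in (0 : ℝ)..1, (1 - (2 * v - 1) ^ 2) ^ q =
      ∫ v in (0 : ℝ)..1, 4 ^ q * (v ^ q * (1 - v) ^ q) := by
    refine intervalIntegral.integral_congr fun v hv => ?_
    rw [uIcc_of_le zero_le_one] at hv
    have h0 : 0 ≤ 1 - v := by linarith [hv.2]
    have e : 1 - (2 * v - 1) ^ 2 = 4 * (v * (1 - v)) := by ring
    rw [e, Real.mul_rpow (by norm_num) (mul_nonneg hv.1 h0), Real.mul_rpow hv.1 h0]
  rw [h1, h2, intervalIntegral.integral_const_mul]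
  have h3 : ((∫ v in (0 : ℝ)..1, v ^ q * (1 - v) ^ q : ℝ) : ℂ) =
      Complex.betaIntegral (q + 1) (q + 1) := by
    rw [Complex.betaIntegral, ← intervalIntegral.integral_ofReal]
    refine intervalIntegral.integral_congr fun v hv => ?_
    rw [uIcc_of_le zero_le_one] at hv
    have h0 : 0 ≤ 1 - v := by linarith [hv.2]
    simp only [add_sub_cancel_right]
    rw [Complex.ofReal_mul, Complex.ofReal_cpow hv.1, Complex.ofReal_cpow h0]
    push_cast
    rfl
  rw [← h3]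
  push_cast
  ring

lemma Iq_eq {q : ℝ} (hq : 0 < q) :
    Iq q * Real.Gamma (q + 3 / 2) = √Real.pi * Real.Gamma (q + 1) := by
  have h1 := Iq_eq_beta q
  have hre : 0 < ((q : ℂ) + 1).re := by simp; linarith
  have h2 := Complex.Gamma_mul_Gamma_eq_betaIntegral hre hre
  have e1 : (q : ℂ) + 1 = ((q + 1 : ℝ) : ℂ) := by push_cast; rfl
  have e2 : (q : ℂ) + 1 + (q + 1) = ((2 * (q + 1) : ℝ) : ℂ) := by push_cast; ring
  rw [e2, Complex.Gamma_ofReal, e1, Complex.Gamma_ofReal] at h2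
  have h3 : Real.Gamma (q + 1) * Real.Gamma (q + 1) * (2 * 4 ^ q) =
      Real.Gamma (2 * (q + 1)) * Iq q := by
    have : ((Real.Gamma (q + 1) * Real.Gamma (q + 1) * (2 * 4 ^ q) : ℝ) : ℂ) =
        ((Real.Gamma (2 * (q + 1)) * Iq q : ℝ) : ℂ) := by
      rw [Complex.ofReal_mul (Real.Gamma (q + 1) * Real.Gamma (q + 1)), Complex.ofReal_mul, h2,
        Complex.ofReal_mul (Real.Gamma (2 * (q + 1))), h1, e1]
      ring
    exact_mod_cast this
  have h4 := Real.Gamma_mul_Gamma_add_half (q + 1)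
  have hG1 : 0 < Real.Gamma (q + 1) := Real.Gamma_pos_of_pos (by linarith)
  have hG2 : 0 < Real.Gamma (2 * (q + 1)) := Real.Gamma_pos_of_pos (by linarith)
  have e3 : q + 1 + 1 / 2 = q + 3 / 2 := by ring
  rw [e3] at h4
  have e4 : (2 : ℝ) ^ (1 - 2 * (q + 1)) * (2 * 4 ^ q) = 1 := by
    have : (4 : ℝ) = 2 ^ (2 : ℝ) := by norm_num
    rw [this, ← Real.rpow_mul (by norm_num)]
    have e5 : (2 : ℝ) * 2 ^ (2 * q) = 2 ^ (1 + 2 * q) := by
      rw [Real.rpow_add (by norm_num), Real.rpow_one]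
    rw [e5, ← Real.rpow_add (by norm_num)]
    have : 1 - 2 * (q + 1) + (1 + 2 * q) = 0 := by ring
    rw [this, Real.rpow_zero]
  have h5 : Real.Gamma (q + 1) * (Real.Gamma (2 * (q + 1)) *
      (Iq q * Real.Gamma (q + 3 / 2))) = Real.Gamma (q + 1) * (Real.Gamma (2 * (q + 1)) *
      (√Real.pi * Real.Gamma (q + 1))) := by
    calc Real.Gamma (q + 1) * (Real.Gamma (2 * (q + 1)) * (Iq q * Real.Gamma (q + 3 / 2)))
        = (Real.Gamma (2 * (q + 1)) * Iq q) * (Real.Gamma (q + 1) * Real.Gamma (q + 3 / 2)) := by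
          ring
      _ = (Real.Gamma (q + 1) * Real.Gamma (q + 1) * (2 * 4 ^ q)) *
          (Real.Gamma (2 * (q + 1)) * 2 ^ (1 - 2 * (q + 1)) * √Real.pi) := by rw [← h3, h4]
      _ = Real.Gamma (q + 1) * (Real.Gamma (2 * (q + 1)) * (√Real.pi * Real.Gamma (q + 1))) *
          (2 ^ (1 - 2 * (q + 1)) * (2 * 4 ^ q)) := by ring
      _ = _ := by rw [e4, mul_one]
  exact mul_left_cancel₀ hG2.ne' (mul_left_cancel₀ hG1.ne' h5)

theorem const : ConstStatement := by
  intro γ hγ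
  set q := γ - 1 / 2 with hq
  have hq0 : 0 < q := by rw [hq]; linarith
  have hI := Iq_eq hq0
  have hG1 : 0 < Real.Gamma (q + 1) := Real.Gamma_pos_of_pos (by linarith)
  have hG2 : 0 < Real.Gamma (q + 3 / 2) := Real.Gamma_pos_of_pos (by linarith)
  have hpi : 0 < √Real.pi := Real.sqrt_pos.2 Real.pi_pos
  have hI0 : Iq q = √Real.pi * Real.Gamma (q + 1) / Real.Gamma (q + 3 / 2) := by
    rw [eq_div_iff hG2.ne', hI]
  refine ⟨by rw [hI0]; positivity, ?_⟩
  have e1 : γ + 1 / 2 = q + 1 := by rw [hq]; ring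
  have e2 : γ + 1 = q + 3 / 2 := by rw [hq]; ring
  have e3 : γ + 3 / 2 = (q + 1) + 1 := by rw [hq]; ring
  rw [Cgam, Lone, ← hq, e1, e2, e3, hI0, Real.Gamma_add_one (by linarith : q + 1 ≠ 0),
    Real.div_rpow hq0.le (by linarith), Real.rpow_add_one (by linarith : q + 1 ≠ 0)]
  have h1 : 0 < (q + 1) ^ q := Real.rpow_pos_of_pos (by linarith) _
  have h2 : 0 < q + 1 := by linarith
  field_simp

end P371G
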