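import Vale.Agent.P371.MatFinalDefs

/-!
# P371, general exponent: definitions and module interfaces

Every `...Statement` below is a `Prop` to be proved in its own module.
-/

namespace P371G

open Matrix MeasureTheory Set Filter Topology
open scoped ComplexOrder

/-- complex square matrices -/
abbrev CMat (n : ℕ) := Matrix (Fin n) (Fin n) ℂ

/-- real part of the trace -/
noncomputable def rtr {n : ℕ} (A : CMat n) : ℝ := (trace A).re

/-- real part of the determinant -/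
noncomputable def rdet {n : ℕ} (A : CMat n) : ℝ := (det A).re

/-- resolvent `(P + s)⁻¹` -/
noncomputable def res {n : ℕ} (P : CMat n) (s : ℝ) : CMat n := (P + (s : ℂ) • (1 : CMat n))⁻¹

/-- `F(P,Q) = D ln_P [(P+Q)⁻¹] + D ln_Q [(P+Q)⁻¹]` -/
noncomputable def Fmat {n : ℕ} (P Q : CMat n) : CMat n :=
  Matrix.of fun i j => ∫ s in Ioi (0 : ℝ),
    (res P s * (P + Q)⁻¹ * res P s + res Q s * (P + Q)⁻¹ * res Q s) i j

/-! ## Facts on `Fmat` -/

/-- module FA -/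
def FactAStatement : Prop :=
  ∀ (n : ℕ) (P Q : CMat n), P.PosDef → Q.PosDef →
    rtr (Fmat P Q * ((1 / 2 : ℂ) • (P * Q + Q * P))) ≤ n

/-- module FA -/
def FactCStatement : Prop :=
  ∀ (n : ℕ) (P Q : CMat n), P.PosDef → Q.PosDef →
    rtr (Fmat P Q) = rtr (P⁻¹ * (P + Q)⁻¹) + rtr (Q⁻¹ * (P + Q)⁻¹)

/-- module FA: joint continuity -/
def FactDStatement : Prop :=
  ∀ (n : ℕ), ContinuousOn (fun x : CMat n × CMat n => Fmat x.1 x.2)
    {x | x.1.PosDef ∧ x.2.PosDef}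

/-- module FB1: scalar mixture formula (Beta integral).  `L(p,p') = ∫ ds/((p+s)(p'+s))`. -/
def FactB1Statement : Prop :=
  ∀ p p' : ℝ, 0 < p → 0 < p' →
    (((∫ s in Ioi (0 : ℝ), ((p + s) * (p' + s))⁻¹) : ℝ) : ℂ) =
      ∫ u in (0 : ℝ)..1, ((√p * √p')⁻¹ : ℂ) *
        Complex.exp (Complex.I * ((Real.log p - Real.log p') / 2 *
          (Real.log ((1 - u) / u) / Real.pi) : ℝ))

/-- module FB2: the determinant inequality for one pair of `square roots` -/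
def FactB2Statement : Prop :=
  ∀ (n : ℕ) (P Q p q : CMat n), P.PosDef → Q.PosDef →
    p * pᴴ = P → pᴴ * p = P → q * qᴴ = Q → qᴴ * q = Q →
    1 ≤ rdet (p⁻¹ * (P + Q)⁻¹ * (p⁻¹)ᴴ + q⁻¹ * (P + Q)⁻¹ * (q⁻¹)ᴴ) * rdet P * rdet Q

/-- module FB3 (from FB1, FB2) -/
def FactBStatement : Prop :=
  ∀ (n : ℕ) (P Q Y : CMat n), P.PosDef → Q.PosDef → Y.PosDef →
    n + Real.log (rdet Y) - Real.log (rdet P) - Real.log (rdet Q) ≤ rtr (Fmat P Q * Y)

/-! ## The certificate -/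

/-- `K = diag k` -/
noncomputable def Kd {n : ℕ} (k : Fin n → ℝ) : CMat n := diagonal fun i => ((k i : ℝ) : ℂ)

/-- `K_e = √(K² + e)` -/
noncomputable def Ke {n : ℕ} (k : Fin n → ℝ) (e : ℝ) : CMat n :=
  diagonal fun i => ((√(k i ^ 2 + e) : ℝ) : ℂ)

/-- `F_e(f)` -/
noncomputable def Fe {n : ℕ} (k : Fin n → ℝ) (f : CMat n) (e : ℝ) : CMat n :=
  Fmat (Ke k e + f) (Ke k e - f)

/-- the constant `∫_0^∞ t^q (1/t - 1/(t+1)) dt` -/
noncomputable def Cq (q : ℝ) : ℝ := ∫ t in Ioi (0 : ℝ), t ^ q * (t⁻¹ - (t + 1)⁻¹)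

/-- `I_q = ∫_{-1}^1 (1-s²)^q ds` -/
noncomputable def Iq (q : ℝ) : ℝ := ∫ s in (-1 : ℝ)..1, (1 - s ^ 2) ^ q

/-- module CE: the truncated pointwise inequality -/
def CertEStatement : Prop :=
  ∀ (n : ℕ) (q : ℝ), 0 < q → q < 1 → ∀ (k : Fin n → ℝ), (∀ i, 0 ≤ k i) → ∀ Λ : ℝ, ∃ C : ℝ,
    ∀ (f W : CMat n), f.IsHermitian → (Kd k - f).PosSemidef → (Kd k + f).PosSemidef →
      W.PosSemidef → rtr W ≤ Λ → ∀ δ E : ℝ, 0 < δ → δ ≤ 1 → 1 ≤ E →
      q * ∫ e in δ..E, e ^ q * rtr (((e⁻¹ : ℂ) • (1 : CMat n) - Fe k f e) *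
          (W - (Kd k * Kd k - f * f))) ≤
        Cq q * (q / (1 + q)) ^ (1 + q) * P371M.trPow (1 + q) W + C * (E ^ (q - 1) + δ ^ q)

/-- the potential of `Fmat (K0 + f) (K0 - f)` -/
noncomputable def Phi {n : ℕ} (K0 f : CMat n) : ℝ :=
  ∫ s in Ioi (0 : ℝ), rtr ((K0 + K0)⁻¹ * (res (K0 - f) s - res (K0 + f) s))

/-- module CP1: derivative of the potential along a path, in integral form -/
def PathPhiStatement : Prop :=
  ∀ (n : ℕ) (K0 : CMat n) (f f' : ℝ → CMat n) (a b : ℝ), a ≤ b →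
    (∀ x ∈ Icc a b, (K0 + f x).PosDef ∧ (K0 - f x).PosDef) →
    (∀ x ∈ Icc a b, ∀ i j, HasDerivWithinAt (fun y => f y i j) (f' x i j) (Icc a b) x) →
    (∀ i j, ContinuousOn (fun y => f' y i j) (Icc a b)) →
    ∫ x in a..b, rtr (Fmat (K0 + f x) (K0 - f x) * f' x) = Phi K0 (f b) - Phi K0 (f a)

/-- A Riccati path `f' = K² - f² - W_j` on the grid `a, a+h, ..., a+J h`, from `K` to `-K`. -/
def IsRicc {n : ℕ} (a h : ℝ) (J : ℕ) (K : CMat n) (W : ℕ → CMat n) (f : ℝ → CMat n) : Prop :=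
  (∀ x ∈ Icc a (a + J * h), (f x).IsHermitian ∧ (K - f x).PosSemidef ∧ (K + f x).PosSemidef) ∧
  f a = K ∧ f (a + J * h) = -K ∧
  ∀ j < J, ∀ x ∈ Icc (a + j * h) (a + (j + 1) * h), ∀ α β,
    HasDerivWithinAt (fun y => f y α β) ((K * K - f x * f x - W j) α β)
      (Icc (a + j * h) (a + (j + 1) * h)) x

/-- module CP2 (from CE, CP1, FactD): the certificate -/
def CertStatement : Prop :=
  ∀ (n : ℕ) (q : ℝ), 0 < q → q < 1 → ∀ (a h : ℝ) (J : ℕ), 0 < h →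
    ∀ (K : CMat n) (W : ℕ → CMat n) (f : ℝ → CMat n), K.PosSemidef →
      (∀ j < J, (W j).PosSemidef) → IsRicc a h J K W f →
      Iq q * P371M.trPow (1 + 2 * q) K ≤
        q ^ q / (1 + q) ^ (1 + q) * ∑ j ∈ Finset.range J, h * P371M.trPow (1 + q) (W j)

/-! ## Brouwer / variational inequality -/

/-- Brouwer's fixed point theorem on the closed unit ball -/
def BrouwerStatement : Prop :=
  ∀ (n : ℕ) (g : EuclideanSpace ℝ (Fin n) → EuclideanSpace ℝ (Fin n)),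
    ContinuousOn g (Metric.closedBall 0 1) →
    MapsTo g (Metric.closedBall 0 1) (Metric.closedBall 0 1) →
    ∃ x ∈ Metric.closedBall (0 : EuclideanSpace ℝ (Fin n)) 1, g x = x

/-- module VI (from Brouwer): Hartman-Stampacchia for Hermitian matrices, with the pairing
`re tr (A B)`. -/
def VIStatement : Prop :=
  ∀ (n : ℕ) (S : Set (CMat n)) (F : CMat n → CMat n), (∀ A ∈ S, A.IsHermitian) →
    IsCompact S → Convex ℝ S → S.Nonempty → ContinuousOn F S → (∀ A ∈ S, (F A).IsHermitian) →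
    ∃ A ∈ S, ∀ B ∈ S, 0 ≤ rtr (F A * (B - A))

/-! ## Riccati flow -/

/-- the generator of `Y'' = B Y` as a first order system -/
noncomputable def Mb {n : ℕ} (B : CMat n) : Matrix (Fin n ⊕ Fin n) (Fin n ⊕ Fin n) ℂ :=
  fromBlocks 0 1 B 0

/-- solution of `Y'' = B Y`, `Y(0) = 1`, `Y'(0) = f0` -/
noncomputable def Yx {n : ℕ} (B f0 : CMat n) (s : ℝ) : CMat n :=
  (NormedSpace.exp ((s : ℂ) • Mb B)).toBlocks₁₁ +
    (NormedSpace.exp ((s : ℂ) • Mb B)).toBlocks₁₂ * f0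

/-- derivative of `Yx` -/
noncomputable def Yx' {n : ℕ} (B f0 : CMat n) (s : ℝ) : CMat n :=
  (NormedSpace.exp ((s : ℂ) • Mb B)).toBlocks₂₁ +
    (NormedSpace.exp ((s : ℂ) • Mb B)).toBlocks₂₂ * f0

/-- module R1: the linear flow -/
def FlowStatement : Prop :=
  ∀ n : ℕ,
    (Continuous fun x : CMat n × CMat n × ℝ => Yx x.1 x.2.1 x.2.2) ∧
    (Continuous fun x : CMat n × CMat n × ℝ => Yx' x.1 x.2.1 x.2.2) ∧
    (∀ B f0 : CMat n, Yx B f0 0 = 1 ∧ Yx' B f0 0 = f0) ∧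
    (∀ (B f0 : CMat n) (s : ℝ) (i j : Fin n),
      HasDerivAt (fun t => Yx B f0 t i j) (Yx' B f0 s i j) s ∧
      HasDerivAt (fun t => Yx' B f0 t i j) ((B * Yx B f0 s) i j) s)

/-- the Riccati flow with constant coefficient -/
noncomputable def ric {n : ℕ} (B f0 : CMat n) (s : ℝ) : CMat n := Yx' B f0 s * (Yx B f0 s)⁻¹

/-- values of the Riccati solution at the grid points -/
noncomputable def fseq {n : ℕ} (h : ℝ) (K : CMat n) (W : ℕ → CMat n) : ℕ → CMat n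
  | 0 => K
  | j + 1 => ric (K * K - W j) (fseq h K W j) h

/-- the Riccati solution exists on the whole grid -/
def Good {n : ℕ} (h : ℝ) (J : ℕ) (K : CMat n) (W : ℕ → CMat n) : Prop :=
  ∀ j < J, ∀ s ∈ Icc 0 h, IsUnit (Yx (K * K - W j) (fseq h K W j) s)

/-- `K ∈ 𝒦(W)` : `-d² + K² - W ≥ 0` -/
def InK {n : ℕ} (h : ℝ) (J : ℕ) (K : CMat n) (W : ℕ → CMat n) : Prop :=
  K.PosSemidef ∧ Good h J K W ∧ (fseq h K W J + K).PosSemidef

/-- module R2a : local Riccati theory -/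
def RiccLocalStatement : Prop :=
  ∀ (n : ℕ) (h : ℝ) (B f0 : CMat n), 0 < h → B.IsHermitian → f0.IsHermitian →
    (∀ s ∈ Icc 0 h, IsUnit (Yx B f0 s)) →
    ric B f0 0 = f0 ∧ (∀ s ∈ Icc 0 h, (ric B f0 s).IsHermitian) ∧
    ∀ s ∈ Icc 0 h, ∀ i j, HasDerivWithinAt (fun t => ric B f0 t i j)
      ((B - ric B f0 s * ric B f0 s) i j) (Icc 0 h) s

/-- module R2b : comparison on one interval -/
def RiccCompStatement : Prop :=
  ∀ (n : ℕ) (h : ℝ) (B₁ B₂ f₁ f₂ : CMat n), 0 < h → B₁.IsHermitian → B₂.IsHermitian →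
    f₁.IsHermitian → f₂.IsHermitian → (B₂ - B₁).PosSemidef → (f₂ - f₁).PosSemidef →
    (∀ s ∈ Icc 0 h, IsUnit (Yx B₁ f₁ s)) →
    (∀ s ∈ Icc 0 h, IsUnit (Yx B₂ f₂ s)) ∧
      ∀ s ∈ Icc 0 h, (ric B₂ f₂ s - ric B₁ f₁ s).PosSemidef

/-- module R2c : bounds `-K ≤ f ≤ K` for `K ∈ 𝒦(W)` -/
def RiccBoundStatement : Prop :=
  ∀ (n : ℕ) (h : ℝ) (J : ℕ) (K : CMat n) (W : ℕ → CMat n), 0 < h →
    (∀ j < J, (W j).PosSemidef) → InK h J K W →
    ∀ j < J, ∀ s ∈ Icc 0 h,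
      (ric (K * K - W j) (fseq h K W j) s).IsHermitian ∧
      (K - ric (K * K - W j) (fseq h K W j) s).PosSemidef ∧
      (K + ric (K * K - W j) (fseq h K W j) s).PosSemidef

/-- module R2d : comparison on the grid -/
def GridCompStatement : Prop :=
  ∀ (n : ℕ) (h : ℝ) (J : ℕ) (K₁ K₂ : CMat n) (W₁ W₂ : ℕ → CMat n), 0 < h →
    K₁.IsHermitian → K₂.IsHermitian → (∀ j < J, (W₁ j).IsHermitian) →
    (∀ j < J, (W₂ j).IsHermitian) → (K₂ - K₁).PosSemidef →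
    (∀ j < J, (K₂ * K₂ - W₂ j - (K₁ * K₁ - W₁ j)).PosSemidef) → Good h J K₁ W₁ →
    Good h J K₂ W₂ ∧ ∀ j ≤ J, (fseq h K₂ W₂ j - fseq h K₁ W₁ j).PosSemidef

/-- module R2e : closedness of `InK` -/
def ClosedStatement : Prop :=
  ∀ (n : ℕ) (h : ℝ) (J : ℕ) (K : ℕ → CMat n) (W : ℕ → ℕ → CMat n) (K₀ : CMat n)
    (W₀ : ℕ → CMat n), 0 < h →
    (∀ l, ∀ j < J, (W l j).PosSemidef) → (∀ l, InK h J (K l) (W l)) →
    Tendsto K atTop (𝓝 K₀) → (∀ j < J, Tendsto (fun l => W l j) atTop (𝓝 (W₀ j))) →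
    InK h J K₀ W₀

/-- module R2f : openness of `Good`, and continuity of the end value -/
def OpenStatement : Prop :=
  ∀ (n : ℕ) (h : ℝ) (J : ℕ) (K : ℕ → CMat n) (W : ℕ → ℕ → CMat n) (K₀ : CMat n)
    (W₀ : ℕ → CMat n), 0 < h → Good h J K₀ W₀ →
    Tendsto K atTop (𝓝 K₀) → (∀ j < J, Tendsto (fun l => W l j) atTop (𝓝 (W₀ j))) →
    (∀ᶠ l in atTop, Good h J (K l) (W l)) ∧
      Tendsto (fun l => fseq h (K l) (W l) J) atTop (𝓝 (fseq h K₀ W₀ J))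

/-- module R2g : trace estimate -/
def TraceBoundStatement : Prop :=
  ∀ (n : ℕ) (h : ℝ) (J : ℕ) (K : CMat n) (W : ℕ → CMat n), 0 < h →
    (∀ j < J, (W j).PosSemidef) → InK h J K W →
    2 * rtr (K * K) - h * ∑ j ∈ Finset.range J, rtr (K * W j) ≤ rtr ((fseq h K W J + K) * K)

/-- module LIFT : existence of the full-kernel parameter -/
def LiftStatement : Prop :=
  ∀ (n : ℕ) (a h : ℝ) (J : ℕ), 0 < h → 1 ≤ J → ∀ (W : CMat n → ℕ → CMat n) (w Λ : ℝ), 0 < w →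
    (∀ K : CMat n, K.PosSemidef → ∀ j < J, (W K j - (w : ℂ) • (1 : CMat n)).PosSemidef ∧
      ((Λ : ℂ) • (1 : CMat n) - W K j).PosSemidef) →
    (∀ j < J, ContinuousOn (fun K => W K j) {K | K.PosSemidef}) →
    ∃ (K : CMat n) (f : ℝ → CMat n), K.PosSemidef ∧ IsRicc a h J K (W K) f

/-! ## Test inequality -/

/-- entrywise `H¹` for rectangular matrix functions -/
def IsH1Mat {n m : ℕ} (χ χ' : ℝ → Matrix (Fin n) (Fin m) ℂ) : Prop :=
  ∀ i j, MemLp (fun x => χ x i j) 2 volume ∧ MemLp (fun x => χ' x i j) 2 volume ∧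
    ∀ x y : ℝ, χ y i j - χ x i j = ∫ t in x..y, χ' t i j

/-- module TEST -/
def TestStatement : Prop :=
  ∀ (n m : ℕ) (a h : ℝ) (J : ℕ), 0 < h →
    ∀ (K : CMat n) (W : ℕ → CMat n) (f : ℝ → CMat n), K.PosSemidef →
      (∀ j < J, (W j).PosSemidef) → IsRicc a h J K W f →
      ∀ χ χ' : ℝ → Matrix (Fin n) (Fin m) ℂ, IsH1Mat χ χ' →
      ∑ j ∈ Finset.range J, ∫ x in (a + j * h)..(a + (j + 1) * h), rtr (W j * (χ x * (χ x)ᴴ)) ≤
        (∫ x, rtr (χ' x * (χ' x)ᴴ)) + ∫ x, rtr (K * K * (χ x * (χ x)ᴴ))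

/-! ## Trace inequalities -/

/-- `A ^ r` for a Hermitian matrix (functional calculus) -/
noncomputable def mPow {n : ℕ} (r : ℝ) (A : CMat n) : CMat n :=
  open Classical in
  if h : A.IsHermitian then
    (h.eigenvectorUnitary : CMat n) *
      diagonal (fun i => ((h.eigenvalues i ^ r : ℝ) : ℂ)) * (h.eigenvectorUnitary : CMat n)ᴴ
  else 0

/-- module KL1: Klein's inequality for powers `p ≥ 1`. -/
def KleinStatement : Prop :=
  ∀ (n : ℕ) (p : ℝ), 1 ≤ p → ∀ A X : CMat n, A.PosSemidef → X.PosSemidef →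
    P371M.trPow p A + p * rtr (mPow (p - 1) A * (X - A)) ≤ P371M.trPow p X

/-- module KL2: Klein's inequality for powers `0 < γ ≤ 1`. -/
def KleinConcStatement : Prop :=
  ∀ (n : ℕ) (γ : ℝ), 0 < γ → γ ≤ 1 → ∀ A X : CMat n, A.PosDef → X.PosSemidef →
    P371M.trPow γ X ≤ P371M.trPow γ A + γ * rtr (mPow (γ - 1) A * (X - A))

/-- module KL3: compression by a contraction -/
def ContrStatement : Prop :=
  ∀ (n m : ℕ) (p : ℝ), 1 ≤ p → ∀ (T : Matrix (Fin n) (Fin m) ℂ) (W : CMat m), W.PosSemidef →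
    (1 - Tᴴ * T).PosSemidef → P371M.trPow p (T * W * Tᴴ) ≤ P371M.trPow p W

/-- module KL4: shift by a scalar -/
def ShiftStatement : Prop :=
  ∀ (n : ℕ) (p : ℝ), 0 < p → ∀ (A : CMat n) (w : ℝ), A.PosSemidef → 0 ≤ w →
    ∀ hA : A.IsHermitian,
    P371M.trPow p (A + (w : ℂ) • (1 : CMat n)) = ∑ i, (hA.eigenvalues i + w) ^ p

/-- module FC1: algebra of `mPow` on positive definite matrices -/
def MPowAlgStatement : Prop :=
  ∀ (n : ℕ) (A : CMat n), A.PosDef →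
    (∀ r : ℝ, (mPow r A).PosDef) ∧ (∀ r s : ℝ, mPow r A * mPow s A = mPow (r + s) A) ∧
    mPow 0 A = 1 ∧ mPow 1 A = A ∧ ∀ r : ℝ, A * mPow r A = mPow r A * A

/-- module FC1: bound for negative powers -/
def MPowBoundStatement : Prop :=
  ∀ (n : ℕ) (A : CMat n) (κ r : ℝ), 0 < κ → r ≤ 0 →
    (A - (κ : ℂ) • (1 : CMat n)).PosSemidef →
    (((κ ^ r : ℝ) : ℂ) • (1 : CMat n) - mPow r A).PosSemidef

/-- module FC2: continuity of `mPow` on positive definite matrices -/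
def MPowContStatement : Prop :=
  ∀ (n : ℕ) (r : ℝ), ContinuousOn (fun A : CMat n => mPow r A) {A | A.PosDef}

/-- module FC1: `tr (K²)^γ = tr K^{2γ}` -/
def TrPowSqStatement : Prop :=
  ∀ (n : ℕ) (γ : ℝ) (K : CMat n), 0 < γ → K.PosSemidef →
    P371M.trPow γ (K * K) = P371M.trPow (2 * γ) K

/-- regularised polar part of a rectangular matrix -/
noncomputable def Tpol {n m : ℕ} (ε : ℝ) (U : Matrix (Fin n) (Fin m) ℂ) :
    Matrix (Fin n) (Fin m) ℂ :=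
  U * mPow (-1 / 2) (Uᴴ * U + (ε : ℂ) • (1 : CMat m))

/-- module POL (from FC1, FC2) -/
def PolarStatement : Prop :=
  ∀ (n m : ℕ) (ε : ℝ), 0 < ε →
    (Continuous fun U : Matrix (Fin n) (Fin m) ℂ => Tpol ε U) ∧
    ∀ U : Matrix (Fin n) (Fin m) ℂ, (1 - (Tpol ε U)ᴴ * Tpol ε U).PosSemidef ∧
      ∀ W : CMat m, W.PosSemidef →
        rtr (W * (Uᴴ * U)) - ε * rtr W ≤ rtr (Tpol ε U * W * (Tpol ε U)ᴴ * (U * Uᴴ))

/-! ## Constants, main theorem, example -/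

/-- the sharp constant, `q = γ - 1/2` -/
noncomputable def Cgam (γ : ℝ) : ℝ :=
  (γ - 1 / 2) ^ (γ - 1 / 2) / ((γ + 1 / 2) ^ (γ + 1 / 2) * Iq (γ - 1 / 2))

/-- the closed form of the one-bound-state constant -/
noncomputable def Lone (γ : ℝ) : ℝ :=
  2 * ((γ - 1 / 2) / (γ + 1 / 2)) ^ (γ - 1 / 2) *
    (Real.Gamma (γ + 1) / (2 * √Real.pi * Real.Gamma (γ + 3 / 2)))

/-- module CONST -/
def ConstStatement : Prop :=
  ∀ γ : ℝ, 1 / 2 < γ → 0 < Iq (γ - 1 / 2) ∧ Cgam γ = Lone γ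

/-- module EX: the sharp example `W = (γ²-1/4) sech²` -/
def ExampleStatement : Prop :=
  ∀ γ : ℝ, 1 / 2 < γ → ENNReal.ofReal (Cgam γ) ≤ P371M.ltOne γ ∧
    ∀ m : ℕ, 1 ≤ m → ENNReal.ofReal (Cgam γ) ≤ P371M.ltConst γ m

/-- module AP (from LIFT, CERT, TEST, KL, FC, POL): the sharp inequality -/
def MainStatement : Prop :=
  ∀ γ : ℝ, 1 / 2 < γ → γ < 3 / 2 → ∀ (n m : ℕ) (W : ℝ → CMat m), P371M.IsPotential γ W →
    ∀ (lam : Fin n → ℝ) (u : Fin n → ℝ → Fin m → ℂ), P371M.IsEigenFamily W lam u →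
      ∑ j, |lam j| ^ γ ≤ Cgam γ * ∫ x, P371M.trPow (γ + 1 / 2) (W x)

end P371G
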