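import Vale.Agent.P371G.Defs

/-! # P371G : determinant and trace tools for the certificate -/

namespace P371G.CEx

open Matrix MeasureTheory Set Filter Topology
open scoped ComplexOrder

/-- spectral form of a Hermitian matrix -/
lemma specForm {n : ℕ} {A : CMat n} (hA : A.IsHermitian) :
    ∃ U : CMat n, U * Uᴴ = 1 ∧ Uᴴ * U = 1 ∧
      A = U * diagonal (fun i => ((hA.eigenvalues i : ℝ) : ℂ)) * Uᴴ := by
  refine ⟨(hA.eigenvectorUnitary : CMat n), ?_, ?_, ?_⟩
  · have := (mem_unitaryGroup_iff (A := (hA.eigenvectorUnitary : CMat n))).1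
      hA.eigenvectorUnitary.2
    simpa [star_eq_conjTranspose] using this
  · have := (mem_unitaryGroup_iff' (A := (hA.eigenvectorUnitary : CMat n))).1
      hA.eigenvectorUnitary.2
    simpa [star_eq_conjTranspose] using this
  · have := hA.spectral_theorem
    conv_lhs => rw [this]
    simp only [Unitary.conjStarAlgAut_apply, star_eq_conjTranspose]
    rfl

lemma rtr_add {n : ℕ} (A B : CMat n) : rtr (A + B) = rtr A + rtr B := by
  simp [rtr, trace_add]

lemma rtr_sub {n : ℕ} (A B : CMat n) : rtr (A - B) = rtr A - rtr B := by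
  simp [rtr, trace_sub]

lemma rtr_smul {n : ℕ} (r : ℝ) (A : CMat n) : rtr ((r : ℂ) • A) = r * rtr A := by
  simp [rtr, trace_smul]

lemma rtr_mul_comm {n : ℕ} (A B : CMat n) : rtr (A * B) = rtr (B * A) := by
  simp [rtr, trace_mul_comm A B]

lemma rtr_one {n : ℕ} : rtr (1 : CMat n) = n := by simp [rtr]

lemma rtr_diagonal {n : ℕ} (d : Fin n → ℝ) :
    rtr (diagonal fun i => ((d i : ℝ) : ℂ)) = ∑ i, d i := by
  simp [rtr, trace_diagonal]

/-- the trace of a unitary conjugate -/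
lemma rtr_conj {n : ℕ} {U : CMat n} (hU : Uᴴ * U = 1) (D : CMat n) :
    rtr (U * D * Uᴴ) = rtr D := by
  rw [rtr_mul_comm, ← Matrix.mul_assoc, hU, Matrix.one_mul]

lemma rdet_conj {n : ℕ} {U : CMat n} (hU : Uᴴ * U = 1) (D : CMat n) :
    rdet (U * D * Uᴴ) = rdet D := by
  have h : det (Uᴴ) * det U = 1 := by rw [← det_mul, hU, det_one]
  rw [rdet, det_mul, det_mul, rdet]
  congr 1
  calc det U * det D * det (Uᴴ) = (det (Uᴴ) * det U) * det D := by ring
    _ = det D := by rw [h, one_mul]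

lemma rdet_diagonal {n : ℕ} (d : Fin n → ℝ) :
    rdet (diagonal fun i => ((d i : ℝ) : ℂ)) = ∏ i, d i := by
  rw [rdet, det_diagonal, ← Complex.ofReal_prod, Complex.ofReal_re]

lemma rtr_eig {n : ℕ} {A : CMat n} (hA : A.IsHermitian) : rtr A = ∑ i, hA.eigenvalues i := by
  obtain ⟨U, -, h2, h3⟩ := specForm hA
  conv_lhs => rw [h3]
  rw [rtr_conj h2, rtr_diagonal]

lemma rdet_eig {n : ℕ} {A : CMat n} (hA : A.IsHermitian) : rdet A = ∏ i, hA.eigenvalues i := by
  obtain ⟨U, -, h2, h3⟩ := specForm hA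
  conv_lhs => rw [h3]
  rw [rdet_conj h2, rdet_diagonal]

lemma rdet_pos {n : ℕ} {A : CMat n} (hA : A.PosDef) : 0 < rdet A := by
  rw [rdet_eig hA.1]
  exact Finset.prod_pos fun i _ => hA.eigenvalues_pos i

lemma det_eq_rdet {n : ℕ} {A : CMat n} (hA : A.IsHermitian) : det A = ((rdet A : ℝ) : ℂ) := by
  rw [hA.det_eq_prod_eigenvalues, rdet_eig hA, Complex.ofReal_prod]
  rfl

lemma logdet_eig {n : ℕ} {A : CMat n} (hA : A.PosDef) :
    Real.log (rdet A) = ∑ i, Real.log (hA.1.eigenvalues i) := by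
  rw [rdet_eig hA.1, Real.log_prod]
  exact fun i _ => (hA.eigenvalues_pos i).ne'

/-- `ln det A ≤ tr A - n` -/
lemma logdet_le {n : ℕ} {A : CMat n} (hA : A.PosDef) : Real.log (rdet A) ≤ rtr A - n := by
  rw [logdet_eig hA, rtr_eig hA.1]
  have : ∑ i, Real.log (hA.1.eigenvalues i) ≤ ∑ i, (hA.1.eigenvalues i - 1) :=
    Finset.sum_le_sum fun i _ => Real.log_le_sub_one_of_pos (hA.eigenvalues_pos i)
  simpa [Finset.sum_sub_distrib] using this

/-- eigenvalues of a matrix above `c` -/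
lemma eig_ge {n : ℕ} {A : CMat n} (hA : A.IsHermitian) {c : ℝ}
    (h : (A - (c : ℂ) • (1 : CMat n)).PosSemidef) (i : Fin n) : c ≤ hA.eigenvalues i := by
  obtain ⟨U, h1, h2, h3⟩ := specForm hA
  have h4 : Uᴴ * (A - (c : ℂ) • (1 : CMat n)) * U =
      diagonal (fun i => ((hA.eigenvalues i : ℝ) : ℂ)) - (c : ℂ) • (1 : CMat n) := by
    rw [Matrix.mul_sub, Matrix.sub_mul]
    conv_lhs => rw [h3]
    rw [Matrix.mul_smul, Matrix.smul_mul, Matrix.mul_one, h2]
    congr 1
    calc Uᴴ * (U * diagonal (fun i => ((hA.eigenvalues i : ℝ) : ℂ)) * Uᴴ) * U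
        = (Uᴴ * U) * diagonal (fun i => ((hA.eigenvalues i : ℝ) : ℂ)) * (Uᴴ * U) := by
          simp only [Matrix.mul_assoc]
      _ = _ := by rw [h2, Matrix.one_mul, Matrix.mul_one]
  have h5 := (h.conjTranspose_mul_mul_same U).diag_nonneg (i := i)
  rw [h4] at h5
  simp only [Matrix.sub_apply, diagonal_apply_eq, Matrix.smul_apply, one_apply_eq, smul_eq_mul, mul_one] at h5
  have h6 := (Complex.le_def.1 h5).1
  simpa using h6

/-- `ln det A ≥ n ln c` if `A ≥ c` -/
lemma logdet_ge {n : ℕ} {A : CMat n} (hA : A.PosDef) {c : ℝ} (hc : 0 < c)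
    (h : (A - (c : ℂ) • (1 : CMat n)).PosSemidef) : n * Real.log c ≤ Real.log (rdet A) := by
  rw [logdet_eig hA]
  have : ∑ _i : Fin n, Real.log c ≤ ∑ i, Real.log (hA.1.eigenvalues i) :=
    Finset.sum_le_sum fun i _ => Real.log_le_log hc (eig_ge hA.1 h i)
  simpa using this

/-- the shifted matrix `r W + e` -/
lemma shift_form {n : ℕ} {W : CMat n} (hW : W.IsHermitian) (r e : ℝ) :
    ∃ U : CMat n, Uᴴ * U = 1 ∧
    (r : ℂ) • W + (e : ℂ) • (1 : CMat n) =
      U * diagonal (fun i => ((r * hW.eigenvalues i + e : ℝ) : ℂ)) * Uᴴ := by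
  obtain ⟨U, h1, h2, h3⟩ := specForm hW
  refine ⟨U, h2, ?_⟩
  conv_lhs => rw [h3]
  rw [← h1]
  have : diagonal (fun i => ((r * hW.eigenvalues i + e : ℝ) : ℂ)) =
      (r : ℂ) • diagonal (fun i => ((hW.eigenvalues i : ℝ) : ℂ)) + (e : ℂ) • (1 : CMat n) := by
    ext i j
    by_cases hij : i = j
    · subst hij; simp
    · simp [hij]
  rw [this, Matrix.mul_add, Matrix.add_mul, Matrix.mul_smul, Matrix.smul_mul, Matrix.mul_smul,
    Matrix.smul_mul, Matrix.mul_one]

lemma rdet_shift {n : ℕ} {W : CMat n} (hW : W.IsHermitian) (r e : ℝ) :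
    rdet ((r : ℂ) • W + (e : ℂ) • (1 : CMat n)) = ∏ i, (r * hW.eigenvalues i + e) := by
  obtain ⟨U, h2, h3⟩ := shift_form hW r e
  rw [h3, rdet_conj h2, rdet_diagonal]

/-- Jacobi's formula -/
lemma hasDerivAt_det {n : ℕ} {A : ℝ → CMat n} {A' : CMat n} {s : ℝ}
    (h : ∀ i j, HasDerivAt (fun t => A t i j) (A' i j) s) :
    HasDerivAt (fun t => det (A t)) (trace (adjugate (A s) * A')) s := by
  have h1 : HasDerivAt (fun t => det (A t))
      (∑ σ : Equiv.Perm (Fin n), ((Equiv.Perm.sign σ : ℤ) : ℂ) *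
        ∑ i, (∏ j ∈ Finset.univ.erase i, A s (σ j) j) * A' (σ i) i) s := by
    have : (fun t => det (A t)) = fun t => ∑ σ : Equiv.Perm (Fin n),
        ((Equiv.Perm.sign σ : ℤ) : ℂ) * ∏ i, A t (σ i) i := by
      funext t; exact det_apply' _
    rw [this]
    refine HasDerivAt.fun_sum fun σ _ => HasDerivAt.const_mul _ ?_
    have := HasDerivAt.fun_finsetProd (u := (Finset.univ : Finset (Fin n)))
      (f := fun i t => A t (σ i) i) (f' := fun i => A' (σ i) i) (x := s) (fun i _ => h (σ i) i)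
    simpa [smul_eq_mul] using this
  convert h1 using 1
  have h2 : ∀ i, (adjugate (A s) * A') i i = det ((A s).updateCol i (fun k => A' k i)) := by
    intro i
    rw [← cramer_apply, cramer_eq_adjugate_mulVec]
    rfl
  rw [trace]
  simp only [diag_apply, h2]
  simp only [det_apply', Finset.mul_sum]
  rw [Finset.sum_comm]
  refine Finset.sum_congr rfl fun σ _ => Finset.sum_congr rfl fun i _ => ?_
  congr 1
  rw [← Finset.mul_prod_erase Finset.univ _ (Finset.mem_univ i), updateCol_self, mul_comm]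
  congr 1
  refine Finset.prod_congr rfl fun j hj => ?_
  rw [updateCol_ne (Finset.ne_of_mem_erase hj)]

/-- derivative of `ln det` along a path -/
lemma hasDerivAt_logdet {n : ℕ} {A : ℝ → CMat n} {A' : CMat n} {s : ℝ}
    (h : ∀ i j, HasDerivAt (fun t => A t i j) (A' i j) s) (hp : (A s).PosDef) :
    HasDerivAt (fun t => Real.log (rdet (A t))) (rtr ((A s)⁻¹ * A')) s := by
  have h1 := hasDerivAt_det h
  have h2 : HasDerivAt (fun t => rdet (A t)) (trace (adjugate (A s) * A')).re s :=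
    Complex.reCLM.hasFDerivAt.comp_hasDerivAt s h1
  have h3 := h2.log (rdet_pos hp).ne'
  convert h3 using 1
  rw [Matrix.inv_def, Ring.inverse_eq_inv', det_eq_rdet hp.1, Matrix.smul_mul, rtr, trace_smul,
    smul_eq_mul, ← Complex.ofReal_inv, Complex.re_ofReal_mul]
  rw [div_eq_inv_mul]

lemma PosSemidef_rtr_mul {n : ℕ} {A B : CMat n} (hA : A.PosSemidef) (hB : B.PosSemidef) :
    0 ≤ rtr (A * B) := by
  obtain ⟨U, h1, h2, h3⟩ := specForm hB.1
  have e : rtr (A * B) = ∑ i, hB.1.eigenvalues i * ((Uᴴ * A * U) i i).re := by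
    have : rtr (A * B) = rtr ((Uᴴ * A * U) * diagonal (fun i => ((hB.1.eigenvalues i : ℝ) : ℂ))) := by
      conv_lhs => rw [h3]
      rw [← Matrix.mul_assoc, ← Matrix.mul_assoc, rtr_mul_comm]
      simp only [Matrix.mul_assoc]
    rw [this, rtr, trace, Complex.re_sum]
    refine Finset.sum_congr rfl fun i _ => ?_
    rw [diag_apply, mul_diagonal, mul_comm, Complex.re_ofReal_mul]
  rw [e]
  refine Finset.sum_nonneg fun i _ => mul_nonneg (hB.eigenvalues_nonneg i) ?_
  have := (hA.conjTranspose_mul_mul_same U).diag_nonneg (i := i)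
  exact (Complex.le_def.1 this).1

end P371G.CEx
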