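import Vale.Agent.P371G.Const
import Vale.Agent.P371.MatFinal

/-!
# P371G, module EX: the one-soliton potential
`W = q (q+1) sech²`, `u = N^{-1/2} sech^q`, eigenvalue `-q²`, `q = γ - 1/2`
-/

namespace P371G

open Set MeasureTheory Filter Topology Matrix
open scoped ComplexConjugate ENNReal ComplexOrder
open P371 (IsPrim IsH1R)

/-- the potential -/
noncomputable def Wq (q x : ℝ) : ℝ := q * (q + 1) / Real.cosh x ^ 2

/-- the profile `(cosh x)^{-q}` -/
noncomputable def sq (q x : ℝ) : ℝ := (Real.cosh x) ^ (-q)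

/-- its derivative -/
noncomputable def gq (q x : ℝ) : ℝ := -q * sq q x * (Real.sinh x / Real.cosh x)

lemma sq_pos (q x : ℝ) : 0 < sq q x := Real.rpow_pos_of_pos (Real.cosh_pos x) _

lemma hasDerivAt_sq (q x : ℝ) : HasDerivAt (sq q) (gq q x) x := by
  have hc : 0 < Real.cosh x := Real.cosh_pos x
  have h := (Real.hasDerivAt_cosh x).rpow_const (p := -q) (Or.inl hc.ne')
  refine HasDerivAt.congr_deriv h ?_
  unfold gq sq
  rw [Real.rpow_sub_one hc.ne']
  ring

lemma hasDerivAt_gq (q x : ℝ) :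
    HasDerivAt (gq q) (q ^ 2 * sq q x - Wq q x * sq q x) x := by
  have hc : 0 < Real.cosh x := Real.cosh_pos x
  have h1 := (Real.hasDerivAt_sinh x).fun_div (Real.hasDerivAt_cosh x) hc.ne'
  have h2 := ((hasDerivAt_sq q x).const_mul (-q)).fun_mul h1
  refine HasDerivAt.congr_deriv h2 ?_
  unfold gq Wq
  have e : Real.sinh x ^ 2 = Real.cosh x ^ 2 - 1 := by rw [Real.cosh_sq]; ring
  field_simp
  ring_nf
  rw [e]
  ring

lemma continuous_sq (q : ℝ) : Continuous (sq q) :=
  continuous_iff_continuousAt.2 fun x => (hasDerivAt_sq q x).continuousAt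

lemma continuous_gq (q : ℝ) : Continuous (gq q) :=
  continuous_iff_continuousAt.2 fun x => (hasDerivAt_gq q x).continuousAt

lemma continuous_Wq (q : ℝ) : Continuous (Wq q) := by
  unfold Wq
  exact Continuous.div continuous_const (Real.continuous_cosh.pow 2)
    fun x => (pow_pos (Real.cosh_pos x) 2).ne'

/-- `∫ sech^{2q+2} = I_q` -/
lemma integral_sech_pow {q : ℝ} (hq : 0 < q) :
    Integrable (fun x => Real.cosh x ^ (-(2 * q + 2))) volume ∧
    ∫ x, Real.cosh x ^ (-(2 * q + 2)) = Iq q := by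
  have hcont : Continuous (fun t : ℝ => (1 - t ^ 2) ^ q) := by
    refine Continuous.rpow_const (by fun_prop) fun x => Or.inr hq.le
  set F : ℝ → ℝ := fun t => ∫ s in (-1 : ℝ)..t, (1 - s ^ 2) ^ q with hF
  have hFd : ∀ t, HasDerivAt F ((1 - t ^ 2) ^ q) t := fun t =>
    intervalIntegral.integral_hasDerivAt_right (hcont.intervalIntegrable _ _)
      hcont.stronglyMeasurable.stronglyMeasurableAtFilter hcont.continuousAt
  have hFc : Continuous F := continuous_iff_continuousAt.2 fun t => (hFd t).continuousAt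
  have htanh : ∀ x, HasDerivAt (fun x => Real.sinh x / Real.cosh x)
      (1 / Real.cosh x ^ 2) x := fun x => by
    have hc : 0 < Real.cosh x := Real.cosh_pos x
    have h1 := (Real.hasDerivAt_sinh x).fun_div (Real.hasDerivAt_cosh x) hc.ne'
    refine HasDerivAt.congr_deriv h1 ?_
    have e : Real.sinh x ^ 2 = Real.cosh x ^ 2 - 1 := by rw [Real.cosh_sq]; ring
    field_simp
    rw [e]; ring
  have hone : Tendsto (fun x => Real.sinh x / Real.cosh x) atTop (𝓝 1) := by
    have h1 : ∀ x, Real.sinh x / Real.cosh x = 1 - Real.exp (-x) / Real.cosh x := fun x => by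
      have hc : 0 < Real.cosh x := Real.cosh_pos x
      have := Real.cosh_sub_sinh x
      field_simp
      linarith
    simp_rw [h1]
    have h2 : Tendsto (fun x : ℝ => Real.exp (-x) / Real.cosh x) atTop (𝓝 0) := by
      have h3 : Tendsto (fun x : ℝ => Real.exp (-x)) atTop (𝓝 0) :=
        Real.tendsto_exp_neg_atTop_nhds_zero
      exact h3.div_atTop P371.tendsto_cosh_atTop
    simpa using (tendsto_const_nhds (x := (1 : ℝ))).sub h2
  have hmone : Tendsto (fun x => Real.sinh x / Real.cosh x) atBot (𝓝 (-1)) := by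
    have h1 : (fun x => Real.sinh x / Real.cosh x) =
        fun x => -(Real.sinh (-x) / Real.cosh (-x)) := by
      funext x; rw [Real.sinh_neg, Real.cosh_neg]; ring
    rw [h1]
    exact (hone.comp tendsto_neg_atBot_atTop).neg
  have h := P371.integral_of_nonneg_deriv
    (F := fun x => F (Real.sinh x / Real.cosh x))
    (f := fun x => Real.cosh x ^ (-(2 * q + 2))) (m := F (-1)) (n := F 1) ?_ ?_ ?_ ?_ ?_
  · refine ⟨h.1, ?_⟩
    rw [h.2, hF]
    simp [Iq]
  · intro x
    have hc : 0 < Real.cosh x := Real.cosh_pos x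
    have h1 := (hFd (Real.sinh x / Real.cosh x)).comp x (htanh x)
    refine HasDerivAt.congr_deriv h1 ?_
    have e : 1 - (Real.sinh x / Real.cosh x) ^ 2 = (Real.cosh x ^ 2)⁻¹ := by
      have e : Real.sinh x ^ 2 = Real.cosh x ^ 2 - 1 := by rw [Real.cosh_sq]; ring
      rw [div_pow, e]
      field_simp
      ring
    rw [e, Real.inv_rpow (by positivity), ← Real.rpow_natCast, ← Real.rpow_mul hc.le,
      ← Real.rpow_neg hc.le, one_div, ← Real.rpow_neg hc.le, ← Real.rpow_add hc]
    congr 1
    push_cast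
    ring
  · exact Continuous.rpow_const Real.continuous_cosh fun x => Or.inl (Real.cosh_pos x).ne'
  · intro x; exact (Real.rpow_pos_of_pos (Real.cosh_pos x) _).le
  · exact (hFc.tendsto _).comp hmone
  · exact (hFc.tendsto _).comp hone

lemma sq_sq (q x : ℝ) : sq q x ^ 2 = Real.cosh x ^ (-(2 * q)) := by
  unfold sq
  rw [← Real.rpow_natCast, ← Real.rpow_mul (Real.cosh_pos x).le]
  congr 1
  push_cast
  ring

lemma exp_abs_le_cosh (x : ℝ) : Real.exp |x| / 2 ≤ Real.cosh x := by
  rw [← Real.cosh_abs, Real.cosh_eq]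
  have := Real.exp_pos (-|x|)
  linarith

lemma integrable_exp_neg_abs {c : ℝ} (hc : 0 < c) :
    Integrable (fun x : ℝ => Real.exp (-(c * |x|))) volume := by
  have h1 : IntegrableOn (fun x : ℝ => Real.exp (-(c * |x|))) (Iic 0) volume := by
    refine (integrableOn_exp_mul_Iic hc 0).congr_fun (fun x hx => ?_) measurableSet_Iic
    simp only
    rw [abs_of_nonpos hx]
    ring_nf
  have h2 : IntegrableOn (fun x : ℝ => Real.exp (-(c * |x|))) (Ioi 0) volume := by
    refine (integrableOn_exp_mul_Ioi (a := -c) (by linarith) 0).congr_fun (fun x hx => ?_)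
      measurableSet_Ioi
    simp only
    rw [abs_of_pos hx]
    ring_nf
  have h3 := h1.union h2
  rwa [Iic_union_Ioi, integrableOn_univ] at h3

lemma integrable_sq_sq {q : ℝ} (hq : 0 < q) : Integrable (fun x => sq q x ^ 2) volume := by
  have h1 := (integrable_exp_neg_abs (c := 2 * q) (by linarith)).const_mul ((2 : ℝ) ^ (2 * q))
  refine h1.mono ((continuous_sq q).pow 2).aestronglyMeasurable (ae_of_all _ fun x => ?_)
  have h2 : 0 ≤ sq q x ^ 2 := by positivity
  rw [Real.norm_of_nonneg h2, Real.norm_of_nonneg (by positivity), sq_sq,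
    Real.rpow_neg (Real.cosh_pos x).le]
  have h3 : (Real.exp |x| / 2) ^ (2 * q) ≤ Real.cosh x ^ (2 * q) :=
    Real.rpow_le_rpow (by positivity) (exp_abs_le_cosh x) (by linarith)
  have h4 : (Real.exp |x| / 2) ^ (2 * q) = Real.exp (2 * q * |x|) / 2 ^ (2 * q) := by
    rw [Real.div_rpow (Real.exp_pos _).le (by norm_num), ← Real.exp_mul]
    congr 2
    ring
  have h5 : (0 : ℝ) < 2 ^ (2 * q) := Real.rpow_pos_of_pos (by norm_num) _
  rw [h4] at h3
  calc (Real.cosh x ^ (2 * q))⁻¹ ≤ (Real.exp (2 * q * |x|) / 2 ^ (2 * q))⁻¹ :=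
        inv_anti₀ (by positivity) h3
    _ = 2 ^ (2 * q) * Real.exp (-(2 * q * |x|)) := by
        rw [inv_div, Real.exp_neg, div_eq_mul_inv]

lemma memLp_sq {q : ℝ} (hq : 0 < q) : MemLp (sq q) 2 volume := by
  rw [memLp_two_iff_integrable_sq (continuous_sq q).aestronglyMeasurable]
  exact integrable_sq_sq hq

lemma memLp_gq {q : ℝ} (hq : 0 < q) : MemLp (gq q) 2 volume := by
  refine ((memLp_sq hq).const_mul q).mono (continuous_gq q).aestronglyMeasurable
    (ae_of_all _ fun x => ?_)
  have hc : 0 < Real.cosh x := Real.cosh_pos x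
  have h1 : |Real.sinh x| ≤ Real.cosh x := by
    apply abs_le_of_sq_le_sq _ hc.le
    rw [Real.cosh_sq]; linarith
  have h2 : |Real.sinh x / Real.cosh x| ≤ 1 := by
    rw [abs_div, abs_of_pos hc, div_le_one hc]; exact h1
  have h3 := (sq_pos q x).le
  rw [Real.norm_eq_abs, Real.norm_eq_abs, gq, abs_mul, abs_mul, abs_mul, abs_of_nonneg h3,
    abs_neg, abs_of_pos hq]
  have : 0 ≤ q * sq q x := by positivity
  nlinarith [abs_nonneg (Real.sinh x / Real.cosh x)]

lemma isH1R_sq {q : ℝ} (hq : 0 < q) : IsH1R (sq q) (gq q) :=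
  ⟨memLp_sq hq, memLp_gq hq, P371.IsPrim.of_hasDerivAt (hasDerivAt_sq q) (continuous_gq q)⟩

lemma Wq_nonneg {q : ℝ} (hq : 0 < q) (x : ℝ) : 0 ≤ Wq q x := by
  unfold Wq
  have := Real.cosh_pos x
  positivity

lemma Wq_bound {q : ℝ} (hq : 0 < q) (x : ℝ) : |Wq q x| ≤ q * (q + 1) := by
  have hc : 1 ≤ Real.cosh x := Real.one_le_cosh x
  rw [abs_of_nonneg (Wq_nonneg hq x)]
  unfold Wq
  rw [div_le_iff₀ (by positivity)]
  have h1 : 0 ≤ q * (q + 1) := by positivity
  have h2 : 1 ≤ Real.cosh x ^ 2 := by nlinarith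
  nlinarith

lemma Wq_rpow {q : ℝ} (hq : 0 < q) (x : ℝ) :
    Wq q x ^ (q + 1) = (q * (q + 1)) ^ (q + 1) * Real.cosh x ^ (-(2 * q + 2)) := by
  have hc : 0 < Real.cosh x := Real.cosh_pos x
  unfold Wq
  rw [Real.div_rpow (by positivity) (by positivity), ← Real.rpow_natCast,
    ← Real.rpow_mul hc.le, Real.rpow_neg hc.le, div_eq_mul_inv]
  congr 3
  push_cast
  ring

lemma Wq_integrable {q : ℝ} (hq : 0 < q) : Integrable (fun x => Wq q x ^ (q + 1)) volume := by
  simp_rw [Wq_rpow hq]
  exact (integral_sech_pow hq).1.const_mul _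

lemma Wq_integral {q : ℝ} (hq : 0 < q) :
    ∫ x, Wq q x ^ (q + 1) = (q * (q + 1)) ^ (q + 1) * Iq q := by
  simp_rw [Wq_rpow hq]
  rw [integral_const_mul, (integral_sech_pow hq).2]

lemma weak_real_q {q : ℝ} (hq : 0 < q) {v h : ℝ → ℝ} (hv : IsH1R v h) :
    Integrable (fun x => gq q x * h x) volume ∧ Integrable (fun x => sq q x * v x) volume ∧
    Integrable (fun x => Wq q x * (sq q x * v x)) volume ∧
    (∫ x, gq q x * h x) - ∫ x, Wq q x * (sq q x * v x) = -(q ^ 2) * ∫ x, sq q x * v x := by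
  have i1 : Integrable (fun x => gq q x * h x) volume := (memLp_gq hq).integrable_mul hv.2.1
  have i2 : Integrable (fun x => sq q x * v x) volume := (memLp_sq hq).integrable_mul hv.1
  have i3 : Integrable (fun x => Wq q x * (sq q x * v x)) volume :=
    i2.bdd_mul (continuous_Wq q).aestronglyMeasurable (ae_of_all _ fun x => Wq_bound hq x)
  have i4 : Integrable (fun x => gq q x * v x) volume := (memLp_gq hq).integrable_mul hv.1
  refine ⟨i1, i2, i3, ?_⟩
  have hg : IsPrim (gq q) (fun x => q ^ 2 * sq q x - Wq q x * sq q x) :=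
    P371.IsPrim.of_hasDerivAt (hasDerivAt_gq q)
      ((continuous_const.mul (continuous_sq q)).sub ((continuous_Wq q).mul (continuous_sq q)))
  have hp := hg.mul hv.2.2
  have e : (fun x => (q ^ 2 * sq q x - Wq q x * sq q x) * v x + gq q x * h x) =
      fun x => (q ^ 2 * (sq q x * v x) - Wq q x * (sq q x * v x)) + gq q x * h x := by
    funext x; ring
  have h0 := hp.integral_eq_zero i4 (by
    rw [e]; exact ((i2.const_mul _).sub i3).add i1)
  have i5 : Integrable (fun x => q ^ 2 * (sq q x * v x) - Wq q x * (sq q x * v x)) volume :=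
    (i2.const_mul _).sub i3
  rw [e, integral_add i5 i1, integral_sub (i2.const_mul _) i3, integral_const_mul] at h0
  linarith

lemma norm_pos {q : ℝ} (hq : 0 < q) : 0 < ∫ x, sq q x ^ 2 := by
  have h1 : 0 ≤ᵐ[volume] fun x => sq q x ^ 2 := ae_of_all _ fun x => by
    simp only [Pi.zero_apply]; positivity
  rw [integral_pos_iff_support_of_nonneg_ae h1 (integrable_sq_sq hq)]
  have : Function.support (fun x => sq q x ^ 2) = Set.univ := by
    ext x
    simp only [Function.mem_support, Set.mem_univ, iff_true]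
    have := sq_pos q x
    positivity
  rw [this]
  simp

theorem example_eigen_q {q : ℝ} (hq : 0 < q) :
    ∃ u : Fin 1 → ℝ → ℂ, P371.IsEigenFamily (Wq q) (fun _ => -(q ^ 2)) u := by
  set N : ℝ := ∫ x, sq q x ^ 2 with hN
  have hN0 : 0 < N := norm_pos hq
  set k : ℝ := (√N)⁻¹ with hk
  have hk2 : k ^ 2 = N⁻¹ := by rw [hk, inv_pow, Real.sq_sqrt hN0.le]
  refine ⟨fun _ x => ((k * sq q x : ℝ) : ℂ), fun j => ⟨by
    have := sq_nonneg q
    have : 0 < q ^ 2 := by positivity
    linarith, ?_⟩, fun i j => ?_⟩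
  · refine ⟨fun x => ((k * gq q x : ℝ) : ℂ), ⟨?_, ?_, ?_⟩, ?_⟩
    · exact ((memLp_sq hq).const_mul k).ofReal
    · exact ((memLp_gq hq).const_mul k).ofReal
    · intro a b
      have h := ((isH1R_sq hq).2.2.const_mul k).2 a b
      rw [← Complex.ofReal_sub, h, intervalIntegral.integral_ofReal]
    · intro v h hvh
      obtain ⟨a1, a2, a3, a4⟩ := weak_real_q hq hvh.re
      obtain ⟨b1, b2, b3, b4⟩ := weak_real_q hq hvh.im
      have e1 : ∫ x, ((k * gq q x : ℝ) : ℂ) * conj (h x) =
          (k : ℂ) * (((∫ x, gq q x * (h x).re : ℝ) : ℂ) -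
            Complex.I * ((∫ x, gq q x * (h x).im : ℝ) : ℂ)) := by
        rw [← P371.integral_real_mul_conj a1 b1, ← integral_const_mul]
        refine integral_congr_ae (ae_of_all _ fun x => ?_)
        simp only; push_cast; ring
      have e2 : ∫ x, ((k * sq q x : ℝ) : ℂ) * conj (v x) =
          (k : ℂ) * (((∫ x, sq q x * (v x).re : ℝ) : ℂ) -
            Complex.I * ((∫ x, sq q x * (v x).im : ℝ) : ℂ)) := by
        rw [← P371.integral_real_mul_conj a2 b2, ← integral_const_mul]
        refine integral_congr_ae (ae_of_all _ fun x => ?_)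
        simp only; push_cast; ring
      have e3 : ∫ x, (Wq q x : ℂ) * (((k * sq q x : ℝ) : ℂ) * conj (v x)) =
          (k : ℂ) * (((∫ x, Wq q x * (sq q x * (v x).re) : ℝ) : ℂ) -
            Complex.I * ((∫ x, Wq q x * (sq q x * (v x).im) : ℝ) : ℂ)) := by
        have a3' : Integrable (fun x => (Wq q x * sq q x) * (v x).re) volume := by
          simpa [mul_assoc] using a3
        have b3' : Integrable (fun x => (Wq q x * sq q x) * (v x).im) volume := by
          simpa [mul_assoc] using b3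
        have := P371.integral_real_mul_conj (a := fun x => Wq q x * sq q x) (z := v) a3' b3'
        simp only [mul_assoc] at this ⊢
        rw [← this, ← integral_const_mul]
        refine integral_congr_ae (ae_of_all _ fun x => ?_)
        simp only; push_cast; ring
      rw [e1, e2, e3]
      have a4' := congrArg (fun t : ℝ => (t : ℂ)) a4
      have b4' := congrArg (fun t : ℝ => (t : ℂ)) b4
      push_cast at a4' b4' ⊢
      linear_combination (k : ℂ) * a4' - (k : ℂ) * Complex.I * b4'
  · have hij : i = j := Subsingleton.elim _ _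
    rw [if_pos hij]
    have e : ∀ x, ((k * sq q x : ℝ) : ℂ) * conj ((k * sq q x : ℝ) : ℂ) =
        ((k ^ 2 * (sq q x ^ 2) : ℝ) : ℂ) := by
      intro x
      rw [Complex.conj_ofReal, ← Complex.ofReal_mul]
      congr 1; ring
    simp_rw [e]
    rw [integral_complex_ofReal, integral_const_mul, ← hN, hk2, inv_mul_cancel₀ hN0.ne']
    simp

/-- the potential `Wq • 1` -/
noncomputable def WqM (q : ℝ) (m : ℕ) (x : ℝ) : Matrix (Fin m) (Fin m) ℂ :=
  ((Wq q x : ℝ) : ℂ) • (1 : Matrix (Fin m) (Fin m) ℂ)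

variable {m : ℕ}

lemma WqM_pot {γ q : ℝ} (hq : 0 < q) (hγ : γ + 1 / 2 = q + 1) :
    P371M.IsPotential γ (WqM q m) := by
  refine ⟨fun a b => ?_, fun x => ?_, ?_⟩
  · simp only [WqM, Matrix.smul_apply, smul_eq_mul]
    exact (Complex.measurable_ofReal.comp (continuous_Wq q).measurable).mul_const _
  · exact PosSemidef.one.smul (by exact_mod_cast Wq_nonneg hq x)
  · simp only [WqM, P371M.trPow_smul_one, hγ]
    exact (Wq_integrable hq).const_mul _

lemma WqM_int {γ q : ℝ} (hq : 0 < q) (hγ : γ + 1 / 2 = q + 1) :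
    ∫ x, P371M.trPow (γ + 1 / 2) (WqM q m x) = m * ((q * (q + 1)) ^ (q + 1) * Iq q) := by
  simp only [WqM, P371M.trPow_smul_one, hγ]
  rw [integral_const_mul, Wq_integral hq]

lemma WqM_family {q : ℝ} (hq : 0 < q) : ∃ u : Fin m → ℝ → Fin m → ℂ,
    P371M.IsEigenFamily (WqM q m) (fun _ => -(q ^ 2)) u := by
  obtain ⟨u0, hu0⟩ := example_eigen_q hq
  obtain ⟨hneg, g0, hg0, hw⟩ := hu0.1 0
  have horth := hu0.2 0 0
  rw [if_pos rfl] at horth
  refine ⟨fun j x a => if a = j then u0 0 x else 0, fun j => ⟨hneg, ?_⟩, fun i j => ?_⟩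
  · refine ⟨fun x a => if a = j then g0 x else 0, fun a => ?_, fun v h hv => ?_⟩
    · by_cases haj : a = j
      · simp only [haj, if_true]
        exact hg0
      · simp only [haj, if_false]
        exact ⟨MemLp.zero', MemLp.zero', fun x y => by simp⟩
    · have h1 : ∀ x, ∑ a, (if a = j then g0 x else 0) * conj (h x a) = g0 x * conj (h x j) := by
        intro x; simp [ite_mul, Finset.sum_ite_eq']
      have h2 : ∀ x, ∑ a, (if a = j then u0 0 x else 0) * conj (v x a) =
          u0 0 x * conj (v x j) := by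
        intro x; simp [ite_mul, Finset.sum_ite_eq']
      have h3 : ∀ x, ∑ a, (WqM q m x *ᵥ fun a => if a = j then u0 0 x else 0) a * conj (v x a) =
          (Wq q x : ℂ) * (u0 0 x * conj (v x j)) := by
        intro x
        rw [WqM, smul_mulVec, one_mulVec]
        simp only [Pi.smul_apply, smul_eq_mul]
        rw [← h2, Finset.mul_sum]
        refine Finset.sum_congr rfl fun a _ => ?_
        ring
      simp_rw [h1, h2, h3]
      exact hw _ _ (hv j)
  · by_cases hij : i = j
    · subst hij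
      rw [if_pos rfl, ← horth]
      congr 1
      funext x
      rw [Finset.sum_eq_single i]
      · simp
      · intro b _ hb; simp [hb]
      · simp
    · rw [if_neg hij]
      have : ∀ x, ∑ a, (if a = i then u0 0 x else 0) * conj (if a = j then u0 0 x else 0) = 0 := by
        intro x
        refine Finset.sum_eq_zero fun a _ => ?_
        by_cases ha : a = i
        · have : a ≠ j := fun h => hij (ha.symm.trans h)
          simp [this]
        · simp [ha]
      simp_rw [this]
      simp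

theorem exampleG (hC : ConstStatement) : ExampleStatement := by
  intro γ hγ
  have hI := (hC γ hγ).1
  set q := γ - 1 / 2 with hqdef
  have hq : 0 < q := by rw [hqdef]; linarith
  have hγ1 : γ + 1 / 2 = q + 1 := by rw [hqdef]; ring
  have hγ2 : γ = q + 1 / 2 := by rw [hqdef]; ring
  have hWp : 0 < (q * (q + 1)) ^ (q + 1) := Real.rpow_pos_of_pos (by positivity) _
  have hlam : |-(q ^ 2)| ^ γ = q ^ (2 * q + 1) := by
    rw [abs_neg, abs_of_pos (by positivity), ← Real.rpow_natCast, ← Real.rpow_mul hq.le, hγ2]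
    congr 1
    push_cast
    ring
  have hval : q ^ (2 * q + 1) / ((q * (q + 1)) ^ (q + 1) * Iq q) = Cgam γ := by
    rw [Cgam, ← hqdef, hγ1, Real.mul_rpow hq.le (by linarith)]
    have e : q ^ (2 * q + 1) = q ^ q * q ^ (q + 1) := by
      rw [← Real.rpow_add hq]; congr 1; ring
    rw [e]
    have h1 : 0 < q ^ (q + 1) := Real.rpow_pos_of_pos hq _
    have h2 : 0 < (q + 1) ^ (q + 1) := Real.rpow_pos_of_pos (by linarith) _
    field_simp
  have hqp : 0 < q ^ (2 * q + 1) := Real.rpow_pos_of_pos hq _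
  constructor
  · obtain ⟨u, hu⟩ := WqM_family (m := 1) hq
    have hIm := WqM_int (m := 1) hq hγ1
    have hpos : 0 < ∫ x, P371M.trPow (γ + 1 / 2) (WqM q 1 x) := by rw [hIm]; positivity
    refine le_trans ?_ (le_iSup_of_le (WqM q 1) (le_iSup_of_le (WqM_pot hq hγ1)
      (le_iSup_of_le hpos le_rfl)))
    have h1 : ENNReal.ofReal (q ^ (2 * q + 1)) ≤ P371M.negLow γ (WqM q 1) := by
      refine le_trans (le_of_eq ?_) (le_iSup_of_le _ (le_iSup_of_le u
        (le_iSup_of_le hu le_rfl)))
      rw [hlam]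
    refine le_trans ?_ (ENNReal.div_le_div_right h1 _)
    rw [hIm, ← ENNReal.ofReal_div_of_pos (by positivity)]
    refine ENNReal.ofReal_le_ofReal (le_of_eq ?_)
    rw [← hval]
    simp
  · intro m hm
    obtain ⟨u, hu⟩ := WqM_family (m := m) hq
    have hm0 : (0 : ℝ) < m := by exact_mod_cast hm
    have hIm := WqM_int (m := m) hq hγ1
    have hpos : 0 < ∫ x, P371M.trPow (γ + 1 / 2) (WqM q m x) := by rw [hIm]; positivity
    refine le_trans ?_ (le_iSup_of_le (WqM q m) (le_iSup_of_le (WqM_pot hq hγ1)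
      (le_iSup_of_le hpos le_rfl)))
    have h1 : ENNReal.ofReal (m * q ^ (2 * q + 1)) ≤ P371M.negTrace γ (WqM q m) := by
      refine le_trans (le_of_eq ?_) (le_iSup_of_le m (le_iSup_of_le _ (le_iSup_of_le u
        (le_iSup_of_le hu le_rfl))))
      rw [Finset.sum_const, Finset.card_univ, Fintype.card_fin, hlam, nsmul_eq_mul,
        ENNReal.ofReal_mul (by positivity), ENNReal.ofReal_natCast]
    refine le_trans ?_ (ENNReal.div_le_div_right h1 _)
    rw [hIm, ← ENNReal.ofReal_div_of_pos (by positivity)]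
    refine ENNReal.ofReal_le_ofReal (le_of_eq ?_)
    rw [← hval, mul_div_mul_left _ _ hm0.ne']

end P371G
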