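import Vale.Agent.P371G.Defs

/-! Module R1: the linear flow. -/

namespace P371G

open Matrix MeasureTheory Set Filter Topology
open scoped ComplexOrder

section FlowAux

attribute [local instance] Matrix.linftyOpNormedRing Matrix.linftyOpNormedAlgebra

lemma flow_continuous_exp (m : Type) [Fintype m] [DecidableEq m] :
    Continuous (NormedSpace.exp : Matrix m m ℂ → Matrix m m ℂ) :=
  NormedSpace.exp_continuous

lemma flow_hasDerivAt_entry {m : Type} [Fintype m] [DecidableEq m] (M : Matrix m m ℂ) (s : ℝ)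
    (i j : m) :
    HasDerivAt (fun t : ℝ => NormedSpace.exp ((t : ℂ) • M) i j)
      ((M * NormedSpace.exp ((s : ℂ) • M)) i j) s := by
  have h := hasDerivAt_exp_smul_const' (𝕂 := ℝ) M s
  let L : Matrix m m ℂ →L[ℝ] ℂ := LinearMap.toContinuousLinearMap
    ({ toFun := fun A => A i j, map_add' := fun _ _ => rfl, map_smul' := fun _ _ => rfl } :
      Matrix m m ℂ →ₗ[ℝ] ℂ)
  have h2 := L.hasFDerivAt.comp_hasDerivAt s h
  have e1 : (fun t : ℝ => NormedSpace.exp ((t : ℂ) • M) i j)
      = (L ∘ fun u : ℝ => NormedSpace.exp (u • M)) := by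
    funext t
    simp only [Function.comp]
    rw [Complex.coe_smul]
    rfl
  rw [e1, Complex.coe_smul]
  exact h2

end FlowAux

lemma flow_continuous_Mb (n : ℕ) : Continuous fun B : CMat n => Mb B := by
  unfold Mb
  exact Continuous.matrix_fromBlocks continuous_const continuous_const continuous_id
    continuous_const

lemma flow_continuous_E (n : ℕ) :
    Continuous fun x : CMat n × CMat n × ℝ => NormedSpace.exp ((x.2.2 : ℂ) • Mb x.1) := by
  refine (flow_continuous_exp _).comp ?_
  exact (Complex.continuous_ofReal.comp continuous_snd.snd).smul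
    ((flow_continuous_Mb n).comp continuous_fst)

lemma flow_continuous_block₁₁ {n : ℕ} :
    Continuous fun M : Matrix (Fin n ⊕ Fin n) (Fin n ⊕ Fin n) ℂ => M.toBlocks₁₁ :=
  continuous_matrix fun i j => continuous_apply_apply (Sum.inl i) (Sum.inl j)

lemma flow_continuous_block₁₂ {n : ℕ} :
    Continuous fun M : Matrix (Fin n ⊕ Fin n) (Fin n ⊕ Fin n) ℂ => M.toBlocks₁₂ :=
  continuous_matrix fun i j => continuous_apply_apply (Sum.inl i) (Sum.inr j)

lemma flow_continuous_block₂₁ {n : ℕ} :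
    Continuous fun M : Matrix (Fin n ⊕ Fin n) (Fin n ⊕ Fin n) ℂ => M.toBlocks₂₁ :=
  continuous_matrix fun i j => continuous_apply_apply (Sum.inr i) (Sum.inl j)

lemma flow_continuous_block₂₂ {n : ℕ} :
    Continuous fun M : Matrix (Fin n ⊕ Fin n) (Fin n ⊕ Fin n) ℂ => M.toBlocks₂₂ :=
  continuous_matrix fun i j => continuous_apply_apply (Sum.inr i) (Sum.inr j)

lemma flow_mul_blocks {n : ℕ} (B : CMat n) (E : Matrix (Fin n ⊕ Fin n) (Fin n ⊕ Fin n) ℂ) :
    Mb B * E = fromBlocks E.toBlocks₂₁ E.toBlocks₂₂ (B * E.toBlocks₁₁) (B * E.toBlocks₁₂) := by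
  conv_lhs => rw [← fromBlocks_toBlocks E, Mb, fromBlocks_multiply]
  simp

theorem flow : FlowStatement := by
  intro n
  refine ⟨?_, ?_, ?_, ?_⟩
  · exact (flow_continuous_block₁₁.comp (flow_continuous_E n)).add
      ((flow_continuous_block₁₂.comp (flow_continuous_E n)).matrix_mul continuous_snd.fst)
  · exact (flow_continuous_block₂₁.comp (flow_continuous_E n)).add
      ((flow_continuous_block₂₂.comp (flow_continuous_E n)).matrix_mul continuous_snd.fst)
  · intro B f0
    have h : NormedSpace.exp (((0 : ℝ) : ℂ) • Mb B) = 1 := by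
      rw [Complex.ofReal_zero, zero_smul]
      exact NormedSpace.exp_zero
    constructor
    · rw [Yx, h, ← fromBlocks_one, toBlocks_fromBlocks₁₁, toBlocks_fromBlocks₁₂]
      simp
    · rw [Yx', h, ← fromBlocks_one, toBlocks_fromBlocks₂₁, toBlocks_fromBlocks₂₂]
      simp
  · intro B f0 s i j
    have h := fun a b => flow_hasDerivAt_entry (Mb B) s a b
    rw [flow_mul_blocks] at h
    have h11 : ∀ a b, HasDerivAt (fun t : ℝ => (NormedSpace.exp ((t : ℂ) • Mb B)).toBlocks₁₁ a b)
        ((NormedSpace.exp ((s : ℂ) • Mb B)).toBlocks₂₁ a b) s := fun a b => h (Sum.inl a) (Sum.inl b)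
    have h12 : ∀ a b, HasDerivAt (fun t : ℝ => (NormedSpace.exp ((t : ℂ) • Mb B)).toBlocks₁₂ a b)
        ((NormedSpace.exp ((s : ℂ) • Mb B)).toBlocks₂₂ a b) s := fun a b => h (Sum.inl a) (Sum.inr b)
    have h21 : ∀ a b, HasDerivAt (fun t : ℝ => (NormedSpace.exp ((t : ℂ) • Mb B)).toBlocks₂₁ a b)
        ((B * (NormedSpace.exp ((s : ℂ) • Mb B)).toBlocks₁₁) a b) s :=
      fun a b => h (Sum.inr a) (Sum.inl b)
    have h22 : ∀ a b, HasDerivAt (fun t : ℝ => (NormedSpace.exp ((t : ℂ) • Mb B)).toBlocks₂₂ a b)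
        ((B * (NormedSpace.exp ((s : ℂ) • Mb B)).toBlocks₁₂) a b) s :=
      fun a b => h (Sum.inr a) (Sum.inr b)
    constructor
    · simp only [Yx, Yx', Matrix.add_apply, Matrix.mul_apply (N := f0)]
      refine (h11 i j).add ?_
      exact HasDerivAt.fun_sum fun k _ => (h12 i k).mul_const _
    · have e : (B * Yx B f0 s) i j = (B * (NormedSpace.exp ((s : ℂ) • Mb B)).toBlocks₁₁) i j
          + ∑ k, (B * (NormedSpace.exp ((s : ℂ) • Mb B)).toBlocks₁₂) i k * f0 k j := by
        rw [Yx, Matrix.mul_add, ← Matrix.mul_assoc, Matrix.add_apply, Matrix.mul_apply (N := f0)]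
      rw [e]
      simp only [Yx', Matrix.add_apply, Matrix.mul_apply (N := f0)]
      refine (h21 i j).add ?_
      exact HasDerivAt.fun_sum fun k _ => (h22 i k).mul_const _

end P371G
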