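import Vale.Agent.P371G.Psd

/-!
# P371G, module LIFT, part A: the threshold `θ(K)` and its continuity
-/

namespace P371G.LFx

open Matrix Set Filter Topology MeasureTheory
open scoped ComplexOrder MatrixOrder Matrix.Norms.L2Operator

variable {n : ℕ}

/-! ### the trivial solution -/

lemma Yx'_zero (hFlow : FlowStatement) (s : ℝ) : Yx' (0 : CMat n) 0 s = 0 := by
  obtain ⟨-, -, h0, hd⟩ := hFlow n
  ext i j
  have h1 : ∀ t, HasDerivAt (fun t => Yx' (0 : CMat n) 0 t i j) 0 t := fun t => by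
    have := (hd 0 0 t i j).2
    simpa using this
  have h2 := is_const_of_deriv_eq_zero (fun t => (h1 t).differentiableAt)
    (fun t => (h1 t).deriv) s 0
  have h3 : Yx' (0 : CMat n) 0 s i j = Yx' (0 : CMat n) 0 0 i j := h2
  rw [h3, (h0 0 0).2]

lemma Yx_zero (hFlow : FlowStatement) (s : ℝ) : Yx (0 : CMat n) 0 s = 1 := by
  obtain ⟨-, -, h0, hd⟩ := id hFlow n
  ext i j
  have h1 : ∀ t, HasDerivAt (fun t => Yx (0 : CMat n) 0 t i j) 0 t := fun t => by
    have := (hd 0 0 t i j).1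
    rw [Yx'_zero hFlow] at this
    simpa using this
  have h2 := is_const_of_deriv_eq_zero (fun t => (h1 t).differentiableAt)
    (fun t => (h1 t).deriv) s 0
  have h3 : Yx (0 : CMat n) 0 s i j = Yx (0 : CMat n) 0 0 i j := h2
  rw [h3, (h0 0 0).1]

lemma fseq_zero (hFlow : FlowStatement) (h : ℝ) (j : ℕ) :
    fseq h (0 : CMat n) (fun _ => 0) j = 0 := by
  induction j with
  | zero => rfl
  | succ j ih =>
    rw [fseq, ih, ric]
    simp only [mul_zero, sub_zero]
    rw [Yx'_zero hFlow, Matrix.zero_mul]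

lemma good_zero (hFlow : FlowStatement) (h : ℝ) (J : ℕ) :
    Good h J (0 : CMat n) (fun _ => 0) := by
  intro j _ s _
  rw [fseq_zero hFlow]
  simp only [mul_zero, sub_zero]
  rw [Yx_zero hFlow]
  exact isUnit_one

lemma smul_one_herm (c : ℝ) : (((c : ℝ) : ℂ) • (1 : CMat n)).IsHermitian := by
  rw [Matrix.IsHermitian, conjTranspose_smul, conjTranspose_one]
  simp

lemma inK_top (hFlow : FlowStatement) (hGrid : GridCompStatement) {h : ℝ} (hh : 0 < h) {J : ℕ}
    {K : CMat n} {W : ℕ → CMat n} {Λ : ℝ} (hΛ : 0 ≤ Λ) (hK : K.PosSemidef)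
    (hW : ∀ j < J, (W j).PosSemidef) (hW2 : ∀ j < J, ((Λ : ℂ) • (1 : CMat n) - W j).PosSemidef) :
    InK h J (K + ((√Λ : ℝ) : ℂ) • (1 : CMat n)) W := by
  have hK2 : (K + ((√Λ : ℝ) : ℂ) • (1 : CMat n)).PosSemidef :=
    hK.add (psd_smul_one (Real.sqrt_nonneg _))
  have h1 := hGrid n h J 0 (K + ((√Λ : ℝ) : ℂ) • (1 : CMat n)) (fun _ => 0) W hh
    isHermitian_zero hK2.1 (fun _ _ => isHermitian_zero) (fun j hj => (hW j hj).1)
    (by simpa using hK2)
    (by
      intro j hj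
      have e : (K + ((√Λ : ℝ) : ℂ) • (1 : CMat n)) * (K + ((√Λ : ℝ) : ℂ) • (1 : CMat n)) - W j -
          (0 * 0 - 0) = K * K + (((2 * √Λ : ℝ)) : ℂ) • K + ((Λ : ℂ) • (1 : CMat n) - W j) := by
        have hs : ((√Λ : ℝ) : ℂ) * ((√Λ : ℝ) : ℂ) = (Λ : ℂ) := by
          rw [← Complex.ofReal_mul, Real.mul_self_sqrt hΛ]
        have hs2 : ((√Λ : ℝ) : ℂ) • ((√Λ : ℝ) : ℂ) • (1 : CMat n) = (Λ : ℂ) • (1 : CMat n) := by
          rw [← mul_smul, hs]
        simp only [Matrix.mul_add, Matrix.add_mul, Matrix.mul_smul, Matrix.smul_mul,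
          Matrix.mul_one, Matrix.one_mul, mul_zero, sub_zero, smul_add, hs2]
        push_cast
        rw [mul_smul, two_smul]
        abel
      rw [e]
      refine ((?_ : (K * K).PosSemidef).add (psd_smul hK (by positivity))).add (hW2 j hj)
      have := Matrix.posSemidef_self_mul_conjTranspose K
      rwa [hK.1.eq] at this)
    (good_zero hFlow h J)
  refine ⟨hK2, h1.1, ?_⟩
  have h2 := h1.2 J le_rfl
  rw [fseq_zero hFlow, sub_zero] at h2
  exact h2.add hK2

/-! ### perturbation -/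

lemma inK_pert (hGrid : GridCompStatement) {h : ℝ} (hh : 0 < h) {J : ℕ}
    {K K' : CMat n} {W W' : ℕ → CMat n} {t ε M : ℝ} (hK : K.PosSemidef) (hK' : K'.PosSemidef)
    (hW : ∀ j < J, (W j).PosSemidef) (hW' : ∀ j < J, (W' j).PosSemidef) (ht : 0 ≤ t)
    (hε : 0 ≤ ε) (hKK : ‖K' - K‖ ≤ ε) (hWW : ∀ j < J, ‖W j - W' j‖ ≤ ε)
    (hM : ‖K‖ + t ≤ M) (hin : InK h J (K + (t : ℂ) • (1 : CMat n)) W) :
    InK h J (K' + ((t + ε + √(ε * (1 + 2 * M)) : ℝ) : ℂ) • (1 : CMat n)) W' := by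
  rcases Nat.eq_zero_or_pos n with hn | hn
  · subst hn
    have hA : ∀ A : CMat 0, A.PosSemidef := fun A => by
      rw [Subsingleton.elim A 0]; exact Matrix.PosSemidef.zero
    exact ⟨hA _, fun j _ s _ => by rw [Subsingleton.elim (Yx _ _ _) 1]; exact isUnit_one, hA _⟩
  have hne : Nonempty (Fin n) := ⟨⟨0, hn⟩⟩
  set e := √(ε * (1 + 2 * M)) with he
  have hM0 : 0 ≤ M := le_trans (add_nonneg (norm_nonneg _) ht) hM
  have he0 : 0 ≤ e := Real.sqrt_nonneg _
  have he2 : e * e = ε * (1 + 2 * M) := Real.mul_self_sqrt (by positivity)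
  set K₁ := K + (t : ℂ) • (1 : CMat n) with hK₁
  set G := K' - K + (ε : ℂ) • (1 : CMat n) with hG
  have hK₁p : K₁.PosSemidef := hin.1
  have hGp : G.PosSemidef := by
    have := psd_of_norm_le (hK'.1.sub hK.1) hKK
    rwa [add_comm] at this
  have hK₁n : ‖K₁‖ ≤ M := by
    refine (norm_add_le _ _).trans ?_
    rw [norm_smul, CStarRing.norm_one, mul_one]
    simpa [abs_of_nonneg ht] using hM
  have hK₂ : K' + ((t + ε + e : ℝ) : ℂ) • (1 : CMat n) = K₁ + (G + (e : ℂ) • (1 : CMat n)) := by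
    rw [hK₁, hG]
    push_cast
    simp only [add_smul]
    abel
  rw [hK₂]
  have hdiff : (G + (e : ℂ) • (1 : CMat n)).PosSemidef := hGp.add (psd_smul_one he0)
  have h1 := hGrid n h J K₁ (K₁ + (G + (e : ℂ) • (1 : CMat n))) W W' hh
    hK₁p.1 (hK₁p.add hdiff).1 (fun j hj => (hW j hj).1) (fun j hj => (hW' j hj).1)
    (by simpa using hdiff)
    (by
      intro j hj
      set E := K' - K with hE
      set X := K₁ * E + E * K₁ + (W j - W' j) with hX
      have hXh : X.IsHermitian := by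
        have hEh : E.IsHermitian := hK'.1.sub hK.1
        have h1 : (K₁ * E + E * K₁).IsHermitian := by
          rw [Matrix.IsHermitian, conjTranspose_add, conjTranspose_mul, conjTranspose_mul,
            hEh.eq, hK₁p.1.eq, add_comm]
        exact h1.add ((hW j hj).1.sub (hW' j hj).1)
      have hXn : ‖X‖ ≤ e * e := by
        rw [he2]
        have h1 : ‖K₁ * E‖ ≤ M * ε :=
          (norm_mul_le _ _).trans (mul_le_mul hK₁n hKK (norm_nonneg _) hM0)
        have h2 : ‖E * K₁‖ ≤ ε * M :=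
          (norm_mul_le _ _).trans (mul_le_mul hKK hK₁n (norm_nonneg _) hε)
        have h3 := hWW j hj
        calc ‖X‖ ≤ ‖K₁ * E‖ + ‖E * K₁‖ + ‖W j - W' j‖ :=
              (norm_add_le _ _).trans (add_le_add_left (norm_add_le _ _) _)
          _ ≤ _ := by nlinarith
      have hXp := psd_of_norm_le hXh hXn
      have e1 : (K₁ + (G + (e : ℂ) • (1 : CMat n))) * (K₁ + (G + (e : ℂ) • (1 : CMat n))) -
          W' j - (K₁ * K₁ - W j) =
          (((2 * (ε + e) : ℝ) : ℂ) • K₁ + (((e * e : ℝ) : ℂ) • (1 : CMat n) + X)) +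
            (((2 * e : ℝ) : ℂ) • G + G * G) := by
        have hG2 : G = E + (ε : ℂ) • (1 : CMat n) := hG
        rw [hX]
        have e3 : K₁ * G = K₁ * E + (ε : ℂ) • K₁ := by
          rw [hG2, Matrix.mul_add, Matrix.mul_smul, Matrix.mul_one]
        have e4 : G * K₁ = E * K₁ + (ε : ℂ) • K₁ := by
          rw [hG2, Matrix.add_mul, Matrix.smul_mul, Matrix.one_mul]
        simp only [Matrix.mul_add, Matrix.add_mul, Matrix.mul_smul, Matrix.smul_mul,
          Matrix.mul_one, Matrix.one_mul, e3, e4]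
        push_cast
        simp only [mul_smul, two_smul, add_smul]
        module
      rw [e1]
      refine ((psd_smul hK₁p (by positivity)).add hXp).add
        ((psd_smul hGp (by positivity)).add ?_)
      have := Matrix.posSemidef_self_mul_conjTranspose G
      rwa [hGp.1.eq] at this)
    hin.2.1
  refine ⟨hK₁p.add hdiff, h1.1, ?_⟩
  have h2 := (h1.2 J le_rfl).add (hin.2.2.add hdiff)
  convert h2 using 1
  abel

/-! ### the threshold -/

/-- admissible shifts -/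
def thSet (h : ℝ) (J : ℕ) (W : CMat n → ℕ → CMat n) (K : CMat n) : Set ℝ :=
  {t | 0 ≤ t ∧ InK h J (K + (t : ℂ) • (1 : CMat n)) (W K)}

/-- the threshold -/
noncomputable def th (h : ℝ) (J : ℕ) (W : CMat n → ℕ → CMat n) (K : CMat n) : ℝ :=
  sInf (thSet h J W K)

lemma thSet_bdd (h : ℝ) (J : ℕ) (W : CMat n → ℕ → CMat n) (K : CMat n) :
    BddBelow (thSet h J W K) := ⟨0, fun _ ht => ht.1⟩

lemma th_le {h : ℝ} {J : ℕ} {W : CMat n → ℕ → CMat n} {K : CMat n} {t : ℝ}
    (ht : t ∈ thSet h J W K) : th h J W K ≤ t := csInf_le (thSet_bdd h J W K) ht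

lemma thSet_closed (hClosed : ClosedStatement) {h : ℝ} (hh : 0 < h) {J : ℕ}
    {W : CMat n → ℕ → CMat n} {K : CMat n} (hW : ∀ j < J, (W K j).PosSemidef) :
    IsClosed (thSet h J W K) := by
  apply IsSeqClosed.isClosed
  intro t t0 ht htt
  refine ⟨ge_of_tendsto' htt fun l => (ht l).1, ?_⟩
  refine hClosed n h J (fun l => K + (t l : ℂ) • (1 : CMat n)) (fun _ => W K) _ (W K) hh
    (fun _ => hW) (fun l => (ht l).2) ?_ (fun j _ => tendsto_const_nhds)
  refine tendsto_const_nhds.add ?_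
  refine Tendsto.smul_const ?_ _
  exact (Complex.continuous_ofReal.tendsto t0).comp htt

/-- standing assumptions on the potential family -/
structure Fam (h : ℝ) (J : ℕ) (W : CMat n → ℕ → CMat n) (w Λ : ℝ) : Prop where
  hh : 0 < h
  hw : 0 < w
  hΛ : 0 ≤ Λ
  low : ∀ K : CMat n, K.PosSemidef → ∀ j < J, (W K j - (w : ℂ) • (1 : CMat n)).PosSemidef
  up : ∀ K : CMat n, K.PosSemidef → ∀ j < J, ((Λ : ℂ) • (1 : CMat n) - W K j).PosSemidef
  cont : ∀ j < J, ContinuousOn (fun K => W K j) {K | K.PosSemidef}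

lemma Fam.psd {h : ℝ} {J : ℕ} {W : CMat n → ℕ → CMat n} {w Λ : ℝ} (H : Fam h J W w Λ)
    {K : CMat n} (hK : K.PosSemidef) {j : ℕ} (hj : j < J) : (W K j).PosSemidef := by
  have := (H.low K hK j hj).add (psd_smul_one (n := n) H.hw.le)
  simpa using this

lemma top_mem (hFlow : FlowStatement) (hGrid : GridCompStatement)
    {h : ℝ} {J : ℕ} {W : CMat n → ℕ → CMat n} {w Λ : ℝ} (H : Fam h J W w Λ)
    {K : CMat n} (hK : K.PosSemidef) : √Λ ∈ thSet h J W K :=
  ⟨Real.sqrt_nonneg _, inK_top hFlow hGrid H.hh H.hΛ hK (fun _ hj => H.psd hK hj) (H.up K hK)⟩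

lemma th_mem (hFlow : FlowStatement) (hGrid : GridCompStatement) (hClosed : ClosedStatement)
    {h : ℝ} {J : ℕ} {W : CMat n → ℕ → CMat n} {w Λ : ℝ} (H : Fam h J W w Λ)
    {K : CMat n} (hK : K.PosSemidef) : th h J W K ∈ thSet h J W K :=
  (thSet_closed hClosed H.hh (fun _ hj => H.psd hK hj)).csInf_mem
    ⟨_, top_mem hFlow hGrid H hK⟩ (thSet_bdd h J W K)

lemma th_pert (hFlow : FlowStatement) (hGrid : GridCompStatement) (hClosed : ClosedStatement)
    {h : ℝ} {J : ℕ} {W : CMat n → ℕ → CMat n} {w Λ : ℝ} (H : Fam h J W w Λ)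
    {K K' : CMat n} (hK : K.PosSemidef) (hK' : K'.PosSemidef) {ε M : ℝ} (hε : 0 ≤ ε)
    (hKK : ‖K' - K‖ ≤ ε) (hWW : ∀ j < J, ‖W K j - W K' j‖ ≤ ε) (hM : ‖K‖ + √Λ ≤ M) :
    th h J W K' ≤ th h J W K + (ε + √(ε * (1 + 2 * M))) := by
  have h1 := th_mem hFlow hGrid hClosed H hK
  have h2 : ‖K‖ + th h J W K ≤ M :=
    le_trans (add_le_add_right (th_le (top_mem hFlow hGrid H hK)) _) hM
  have h3 := inK_pert hGrid H.hh hK hK' (fun _ hj => H.psd hK hj) (fun _ hj => H.psd hK' hj)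
    h1.1 hε hKK hWW h2 h1.2
  have h4 := h1.1
  have := th_le (t := th h J W K + ε + √(ε * (1 + 2 * M))) ⟨by positivity, h3⟩
  linarith

lemma th_continuousOn (hFlow : FlowStatement) (hGrid : GridCompStatement)
    (hClosed : ClosedStatement) {h : ℝ} {J : ℕ} {W : CMat n → ℕ → CMat n} {w Λ : ℝ}
    (H : Fam h J W w Λ) : ContinuousOn (th h J W) {K | K.PosSemidef} := by
  intro K₀ hK₀
  set ε : CMat n → ℝ := fun K => ‖K - K₀‖ + ∑ j ∈ Finset.range J, ‖W K j - W K₀ j‖ with hε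
  set M : ℝ := ‖K₀‖ + 1 + √Λ with hM
  have hε0 : Tendsto ε (𝓝[{K | K.PosSemidef}] K₀) (𝓝 0) := by
    have h1 : Tendsto (fun K : CMat n => ‖K - K₀‖) (𝓝[{K | K.PosSemidef}] K₀) (𝓝 0) := by
      have : Continuous (fun K : CMat n => ‖K - K₀‖) := by fun_prop
      have h2 := (this.tendsto K₀).mono_left (nhdsWithin_le_nhds (s := {K | K.PosSemidef}))
      simpa using h2
    have h2 : Tendsto (fun K : CMat n => ∑ j ∈ Finset.range J, ‖W K j - W K₀ j‖)
        (𝓝[{K | K.PosSemidef}] K₀) (𝓝 0) := by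
      have : Tendsto (fun K : CMat n => ∑ j ∈ Finset.range J, ‖W K j - W K₀ j‖)
        (𝓝[{K | K.PosSemidef}] K₀) (𝓝 (∑ j ∈ Finset.range J, (0 : ℝ))) := by
        refine tendsto_finsetSum _ fun j hj => ?_
        have h3 := (H.cont j (Finset.mem_range.1 hj)) K₀ hK₀
        have h4 := (h3.tendsto.sub_const (W K₀ j)).norm
        simpa using h4
      simpa using this
    simpa using h1.add h2
  have hg : Tendsto (fun K => ε K + √(ε K * (1 + 2 * M))) (𝓝[{K | K.PosSemidef}] K₀) (𝓝 0) := by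
    have h1 : Tendsto (fun K => √(ε K * (1 + 2 * M))) (𝓝[{K | K.PosSemidef}] K₀)
        (𝓝 (√(0 * (1 + 2 * M)))) :=
      (Real.continuous_sqrt.tendsto _).comp (hε0.mul_const _)
    simpa using hε0.add h1
  rw [ContinuousWithinAt, Metric.tendsto_nhds]
  intro δ hδ
  have hev1 := (Metric.tendsto_nhds.1 hg) δ hδ
  have hev2 := (Metric.tendsto_nhds.1 hε0) 1 one_pos
  filter_upwards [hev1, hev2, self_mem_nhdsWithin] with K h1 h2 hK
  have hε00 : 0 ≤ ε K := add_nonneg (norm_nonneg _) (Finset.sum_nonneg fun _ _ => norm_nonneg _)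
  rw [Real.dist_eq, sub_zero, abs_of_nonneg (by positivity)] at h1
  rw [Real.dist_eq, sub_zero, abs_of_nonneg hε00] at h2
  have hKK : ‖K - K₀‖ ≤ ε K :=
    le_add_of_nonneg_right (Finset.sum_nonneg fun _ _ => norm_nonneg _)
  have hWW : ∀ j < J, ‖W K j - W K₀ j‖ ≤ ε K := fun j hj => by
    have h5 := Finset.single_le_sum (f := fun j => ‖W K j - W K₀ j‖)
      (fun _ _ => norm_nonneg _) (Finset.mem_range.2 hj)
    have h6 : 0 ≤ ‖K - K₀‖ := norm_nonneg _
    simp only [hε]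
    linarith
  have hKn : ‖K‖ + √Λ ≤ M := by
    have : ‖K‖ ≤ ‖K - K₀‖ + ‖K₀‖ := by
      have := norm_add_le (K - K₀) K₀
      simpa using this
    rw [hM]
    linarith
  have hK₀n : ‖K₀‖ + √Λ ≤ M := by rw [hM]; linarith
  have h7 := th_pert hFlow hGrid hClosed H hK₀ hK hε00 hKK
    (fun j hj => by rw [norm_sub_rev]; exact hWW j hj) hK₀n
  have h8 := th_pert hFlow hGrid hClosed H hK hK₀ hε00 (by rw [norm_sub_rev]; exact hKK)
    hWW hKn
  rw [Real.dist_eq, abs_lt]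
  constructor <;> linarith

end P371G.LFx
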