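import Vale.Agent.P371G.LiftA

/-!
# P371G, module LIFT, part B: the variational inequality and the end of the proof
-/

namespace P371G.LFx

open Matrix Set Filter Topology MeasureTheory
open scoped ComplexOrder MatrixOrder Matrix.Norms.L2Operator

variable {n : ℕ}

/-- shifted matrix -/
noncomputable def Kt (h : ℝ) (J : ℕ) (W : CMat n → ℕ → CMat n) (K : CMat n) : CMat n :=
  K + ((th h J W K : ℝ) : ℂ) • (1 : CMat n)

/-- the vector field -/
noncomputable def Fv (h : ℝ) (J : ℕ) (W : CMat n → ℕ → CMat n) (K : CMat n) : CMat n :=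
  fseq h (Kt h J W K) (W K) J + K

lemma Fv_add (h : ℝ) (J : ℕ) (W : CMat n → ℕ → CMat n) (K : CMat n) :
    Fv h J W K + ((th h J W K : ℝ) : ℂ) • (1 : CMat n) =
      fseq h (Kt h J W K) (W K) J + Kt h J W K := by
  rw [Fv, Kt]; abel

section
variable (hFlow : FlowStatement) (hLoc : RiccLocalStatement) (hBound : RiccBoundStatement)
  (hGrid : GridCompStatement) (hClosed : ClosedStatement) (hOpen : OpenStatement)
  (hTr : TraceBoundStatement) (hVI : VIStatement)

include hFlow hGrid hClosed in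
lemma Kt_inK {h : ℝ} {J : ℕ} {W : CMat n → ℕ → CMat n} {w Λ : ℝ} (H : Fam h J W w Λ)
    {K : CMat n} (hK : K.PosSemidef) : InK h J (Kt h J W K) (W K) :=
  (th_mem hFlow hGrid hClosed H hK).2

include hFlow hGrid hClosed hOpen in
lemma Fv_continuousOn {h : ℝ} {J : ℕ} {W : CMat n → ℕ → CMat n} {w Λ : ℝ}
    (H : Fam h J W w Λ) {S : Set (CMat n)} (hS : S ⊆ {K | K.PosSemidef}) :
    ContinuousOn (Fv h J W) S := by
  intro K₀ hK₀
  refine tendsto_of_seq_tendsto fun x hx => ?_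
  have hx1 : Tendsto x atTop (𝓝 K₀) := tendsto_nhds_of_tendsto_nhdsWithin hx
  have hx2 : ∀ᶠ l in atTop, x l ∈ S :=
    (hx.eventually self_mem_nhdsWithin)
  have hx3 : Tendsto x atTop (𝓝[{K | K.PosSemidef}] K₀) :=
    hx.mono_right (nhdsWithin_mono _ hS)
  have hth : Tendsto (fun l => th h J W (x l)) atTop (𝓝 (th h J W K₀)) :=
    ((th_continuousOn hFlow hGrid hClosed H) K₀ (hS hK₀)).tendsto.comp hx3
  have hKt : Tendsto (fun l => Kt h J W (x l)) atTop (𝓝 (Kt h J W K₀)) := by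
    refine hx1.add (Tendsto.smul_const ?_ _)
    exact (Complex.continuous_ofReal.tendsto _).comp hth
  have hWt : ∀ j < J, Tendsto (fun l => W (x l) j) atTop (𝓝 (W K₀ j)) := fun j hj =>
    ((H.cont j hj) K₀ (hS hK₀)).tendsto.comp hx3
  have h1 := (hOpen n h J (fun l => Kt h J W (x l)) (fun l => W (x l)) (Kt h J W K₀) (W K₀)
    H.hh (Kt_inK hFlow hGrid hClosed H (hS hK₀)).2.1 hKt hWt).2
  exact h1.add hx1

/-- the compact convex set -/
def SR (n : ℕ) (R : ℝ) : Set (CMat n) := {K | K.PosSemidef ∧ rtr K ≤ R}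

lemma continuous_rtr : Continuous (rtr : CMat n → ℝ) := by
  unfold rtr
  exact Complex.continuous_re.comp (Continuous.matrix_trace continuous_id)

lemma SR_compact {R : ℝ} : IsCompact (SR n R) := by
  have : ProperSpace (CMat n) := FiniteDimensional.proper ℂ (CMat n)
  refine Metric.isCompact_of_isClosed_isBounded ?_ ?_
  · exact isClosed_psd.inter (isClosed_le continuous_rtr continuous_const)
  · refine (Metric.isBounded_closedBall (x := (0 : CMat n)) (r := R)).subset ?_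
    intro K hK
    rw [mem_closedBall_zero_iff]
    refine (norm_le_of_psd_of_le hK.1 (psd_le_trace hK.1) (rtr_nonneg hK.1)).trans hK.2

lemma SR_convex {R : ℝ} : Convex ℝ (SR n R) := by
  intro A hA B hB a b ha hb hab
  have e : a • A + b • B = (a : ℂ) • A + (b : ℂ) • B := by simp
  rw [e]
  refine ⟨(psd_smul hA.1 ha).add (psd_smul hB.1 hb), ?_⟩
  rw [rtr_add, rtr_smul, rtr_smul]
  have h1 : a * rtr A ≤ a * R := mul_le_mul_of_nonneg_left hA.2 ha
  have h2 : b * rtr B ≤ b * R := mul_le_mul_of_nonneg_left hB.2 hb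
  have h3 : a * R + b * R = R := by rw [← add_mul, hab, one_mul]
  linarith

lemma SR_nonempty {R : ℝ} (hR : 0 ≤ R) : (SR n R).Nonempty :=
  ⟨0, Matrix.PosSemidef.zero, by rw [rtr_zero]; exact hR⟩

/-- Cauchy-Schwarz `(tr K)² ≤ n tr K²` -/
lemma rtr_sq_le {K : CMat n} (hK : K.IsHermitian) : rtr K ^ 2 ≤ n * rtr (K * K) := by
  rcases Nat.eq_zero_or_pos n with hn | hn
  · subst hn
    rw [Subsingleton.elim K 0]
    simp [rtr]
  have hn' : (0 : ℝ) < n := by exact_mod_cast hn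
  set c : ℝ := rtr K / n with hc
  have h1 : (K - (c : ℂ) • (1 : CMat n)).IsHermitian := hK.sub (smul_one_herm c)
  have h2 : 0 ≤ rtr ((K - (c : ℂ) • (1 : CMat n)) * (K - (c : ℂ) • (1 : CMat n))) := by
    have := rtr_nonneg (Matrix.posSemidef_self_mul_conjTranspose (K - (c : ℂ) • (1 : CMat n)))
    rwa [h1.eq] at this
  have e : rtr ((K - (c : ℂ) • (1 : CMat n)) * (K - (c : ℂ) • (1 : CMat n))) =
      rtr (K * K) - 2 * c * rtr K + c * (c * n) := by
    simp only [Matrix.mul_sub, Matrix.sub_mul, Matrix.mul_smul, Matrix.smul_mul, Matrix.mul_one,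
      Matrix.one_mul, rtr_sub, rtr_smul, rtr_one]
    ring
  rw [e] at h2
  have h3 : c * n = rtr K := by rw [hc]; field_simp
  rw [h3] at h2
  have h4 : 0 ≤ (n : ℝ) * (rtr (K * K) - 2 * c * rtr K + c * rtr K) := by positivity
  have h5 : (n : ℝ) * c = rtr K := by rw [mul_comm]; exact h3
  have h6 : (n : ℝ) * (rtr (K * K) - 2 * c * rtr K + c * rtr K) =
      n * rtr (K * K) - (n * c) * rtr K := by ring
  rw [h6, h5] at h4
  nlinarith

include hFlow hBound hGrid hClosed in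
/-- the two-sided bound at the end point -/
lemma end_le {h : ℝ} {J : ℕ} (hJ : 1 ≤ J) {W : CMat n → ℕ → CMat n} {w Λ : ℝ}
    (H : Fam h J W w Λ) {K : CMat n} (hK : K.PosSemidef) :
    (Kt h J W K - fseq h (Kt h J W K) (W K) J).PosSemidef := by
  obtain ⟨j, rfl⟩ : ∃ j, J = j + 1 := ⟨J - 1, by omega⟩
  have h1 := (hBound n h (j + 1) (Kt h (j + 1) W K) (W K) H.hh (fun _ hj => H.psd hK hj)
    (Kt_inK hFlow hGrid hClosed H hK) j (by omega) h ⟨H.hh.le, le_rfl⟩).2.1
  exact h1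

include hFlow hBound hGrid hClosed hTr in
lemma trace_bound {h : ℝ} {J : ℕ} (hJ : 1 ≤ J) {W : CMat n → ℕ → CMat n} {w Λ : ℝ}
    (H : Fam h J W w Λ) {K : CMat n} (hK : K.PosSemidef) (hn : 0 < n)
    (hF : rtr (Fv h J W K * K) ≤ 0) :
    rtr K ≤ n * (h * (J * Λ) + 3 * √Λ) / 2 := by
  set T := Kt h J W K with hT
  set t := th h J W K with ht
  set D := fseq h T (W K) J + T with hD
  have hin := Kt_inK hFlow hGrid hClosed H hK
  have ht0 : 0 ≤ t := (th_mem hFlow hGrid hClosed H hK).1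
  have ht1 : t ≤ √Λ := th_le (top_mem hFlow hGrid H hK)
  have h1 := hTr n h J T (W K) H.hh (fun _ hj => H.psd hK hj) hin
  have hDp : D.PosSemidef := hin.2.2
  have hTp : T.PosSemidef := hin.1
  have h2 : ∑ j ∈ Finset.range J, rtr (T * W K j) ≤ J * (Λ * rtr T) := by
    calc ∑ j ∈ Finset.range J, rtr (T * W K j) ≤ ∑ j ∈ Finset.range J, Λ * rtr T :=
          Finset.sum_le_sum fun j hj => rtr_mul_le hTp (H.up K hK j (Finset.mem_range.1 hj))
      _ = _ := by simp
  have hFD : Fv h J W K = D - (t : ℂ) • (1 : CMat n) := by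
    rw [eq_sub_iff_add_eq, ht, Fv_add]
  have hKT : K = T - (t : ℂ) • (1 : CMat n) := by
    rw [hT, Kt]; abel
  have h3 : rtr (Fv h J W K * K) = rtr (D * T) - t * rtr D - t * rtr K := by
    rw [hFD, Matrix.sub_mul, rtr_sub, Matrix.smul_mul, rtr_smul, Matrix.one_mul]
    congr 1
    conv_lhs => rw [hKT]
    rw [Matrix.mul_sub, rtr_sub, Matrix.mul_smul, rtr_smul, Matrix.mul_one]
  have h4 : rtr D ≤ 2 * rtr T := by
    have h5 := rtr_nonneg (end_le hFlow hBound hGrid hClosed hJ H hK)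
    rw [← hT, rtr_sub] at h5
    rw [hD, rtr_add]
    linarith
  have hKle : rtr K ≤ rtr T := by
    rw [hT, Kt, rtr_add, rtr_smul, rtr_one]
    have : 0 ≤ t * (n : ℝ) := by positivity
    linarith
  have hT0 : 0 ≤ rtr T := rtr_nonneg hTp
  have hK0 : 0 ≤ rtr K := rtr_nonneg hK
  have h6 := rtr_sq_le hTp.1
  have hn' : (0 : ℝ) < n := by exact_mod_cast hn
  have h7 : t * rtr D ≤ √Λ * (2 * rtr T) :=
    mul_le_mul ht1 h4 (rtr_nonneg hDp) (Real.sqrt_nonneg _)
  have h8 : t * rtr K ≤ √Λ * rtr T := mul_le_mul ht1 hKle hK0 (Real.sqrt_nonneg _)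
  have hh := H.hh
  have h9 : h * ∑ j ∈ Finset.range J, rtr (T * W K j) ≤ h * (J * (Λ * rtr T)) :=
    mul_le_mul_of_nonneg_left h2 hh.le
  have h10 : 2 * rtr (T * T) ≤ (h * (J * Λ) + 3 * √Λ) * rtr T := by
    have : rtr ((fseq h T (W K) J + T) * T) = rtr (D * T) := rfl
    rw [this] at h1
    nlinarith
  have h11 : 2 * rtr T ^ 2 ≤ n * ((h * (J * Λ) + 3 * √Λ) * rtr T) := by
    nlinarith [mul_le_mul_of_nonneg_left h10 hn'.le]
  rcases hT0.eq_or_lt with h12 | h12
  · rw [← h12] at hKle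
    have h13 : 0 ≤ Λ := H.hΛ
    have : 0 ≤ (n : ℝ) * (h * (J * Λ) + 3 * √Λ) / 2 := by positivity
    linarith
  · have h13 : rtr T ≤ n * (h * (J * Λ) + 3 * √Λ) / 2 := by
      rw [le_div_iff₀ two_pos]
      have : rtr T * (2 * rtr T) ≤ rtr T * (n * (h * (J * Λ) + 3 * √Λ)) := by nlinarith
      have := le_of_mul_le_mul_left this h12
      linarith
    linarith

end

/-- a Hermitian matrix which pairs nonnegatively with all small PSD matrices is PSD -/
lemma psd_of_pairing {F : CMat n} (hF : F.IsHermitian)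
    (h : ∀ B : CMat n, B.PosSemidef → rtr B ≤ 1 → 0 ≤ rtr (F * B)) : F.PosSemidef := by
  refine Matrix.PosSemidef.of_dotProduct_mulVec_nonneg hF fun v => ?_
  set B : CMat n := vecMulVec v (star v) with hB
  have hBp : B.PosSemidef := Matrix.posSemidef_vecMulVec_self_star v
  have h0 : 0 ≤ rtr B := rtr_nonneg hBp
  set c : ℝ := (rtr B + 1)⁻¹ with hc
  have hc0 : 0 < c := by positivity
  have h1 := h ((c : ℂ) • B) (psd_smul hBp hc0.le) (by
    rw [rtr_smul, hc, inv_mul_le_iff₀ (by positivity)]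
    linarith)
  rw [Matrix.mul_smul, rtr_smul] at h1
  have h2 : 0 ≤ rtr (F * B) := (mul_nonneg_iff_of_pos_left hc0).1 h1
  have h3 : trace (F * B) = star v ⬝ᵥ (F *ᵥ v) := by
    rw [hB, Matrix.mul_vecMulVec, trace_vecMulVec, dotProduct_comm]
  have h4 : (star v ⬝ᵥ (F *ᵥ v)).im = 0 := by
    have := hF.im_star_dotProduct_mulVec_self v
    simpa using this
  rw [rtr, h3] at h2
  exact Complex.le_def.2 ⟨by simpa using h2, by simpa using h4.symm⟩

/-- `D ≥ 0`, `K > 0`, `tr D K = 0` imply `D = 0` -/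
lemma eq_zero_of_pairing {D K : CMat n} (hD : D.PosSemidef) (hK : K.PosDef)
    (h : rtr (D * K) = 0) : D = 0 := by
  obtain ⟨C, hC⟩ := CStarAlgebra.nonneg_iff_eq_star_mul_self.1 (Matrix.nonneg_iff_posSemidef.2 hD)
  rw [star_eq_conjTranspose] at hC
  have h1 : rtr (D * K) = rtr (C * K * Cᴴ) := by
    rw [hC, Matrix.mul_assoc, rtr_comm]
  rw [h1] at h
  have h2 := hK.posSemidef.mul_mul_conjTranspose_same C
  have h3 : trace (C * K * Cᴴ) = 0 := by
    have h4 := Complex.le_def.1 h2.trace_nonneg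
    exact Complex.ext (by simpa [rtr] using h) (by simpa using h4.2.symm)
  have h5 : C * K * Cᴴ = 0 := (h2.trace_eq_zero_iff).1 h3
  have h6 : C = 0 := by
    obtain ⟨L, hL⟩ := CStarAlgebra.nonneg_iff_eq_star_mul_self.1
      (Matrix.nonneg_iff_posSemidef.2 hK.posSemidef)
    rw [star_eq_conjTranspose] at hL
    have h7 : (C * Lᴴ) * (C * Lᴴ)ᴴ = 0 := by
      rw [conjTranspose_mul, conjTranspose_conjTranspose, ← h5, hL]
      simp only [Matrix.mul_assoc]
    have h8 : C * Lᴴ = 0 := Matrix.self_mul_conjTranspose_eq_zero.1 h7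
    have h9 : C * K = 0 := by rw [hL, ← Matrix.mul_assoc, h8, Matrix.zero_mul]
    have hu : IsUnit K := hK.isUnit
    have hu2 : IsUnit K.det := (Matrix.isUnit_iff_isUnit_det K).1 hu
    calc C = C * K * K⁻¹ := by rw [Matrix.mul_assoc, Matrix.mul_nonsing_inv K hu2, Matrix.mul_one]
      _ = 0 := by rw [h9, Matrix.zero_mul]
  rw [hC, h6]
  simp

end P371G.LFx
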