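import Vale.Agent.P371G.Defs

/-!
# P371G : small toolkit on positive semidefinite matrices
-/

namespace P371G.LFx

open Matrix Set Filter Topology
open scoped ComplexOrder MatrixOrder Matrix.Norms.L2Operator

variable {n : ℕ}

lemma rtr_add (A B : CMat n) : rtr (A + B) = rtr A + rtr B := by simp [rtr]
lemma rtr_sub (A B : CMat n) : rtr (A - B) = rtr A - rtr B := by simp [rtr]
lemma rtr_neg (A : CMat n) : rtr (-A) = -rtr A := by simp [rtr]
lemma rtr_zero : rtr (0 : CMat n) = 0 := by simp [rtr]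
lemma rtr_one : rtr (1 : CMat n) = n := by simp [rtr]
lemma rtr_smul (c : ℝ) (A : CMat n) : rtr ((c : ℂ) • A) = c * rtr A := by
  simp [rtr, trace_smul]
lemma rtr_comm (A B : CMat n) : rtr (A * B) = rtr (B * A) := by
  simp [rtr, trace_mul_comm A B]

lemma herm_le_norm {A : CMat n} (hA : A.IsHermitian) :
    (((‖A‖ : ℝ) : ℂ) • (1 : CMat n) - A).PosSemidef := by
  have h : A ≤ algebraMap ℝ (CMat n) ‖A‖ := IsSelfAdjoint.le_algebraMap_norm_self hA
  have h2 := Matrix.le_iff.1 h
  rwa [Algebra.algebraMap_eq_smul_one, ← Complex.coe_smul] at h2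

lemma neg_norm_le_herm {A : CMat n} (hA : A.IsHermitian) :
    (((‖A‖ : ℝ) : ℂ) • (1 : CMat n) + A).PosSemidef := by
  have := herm_le_norm hA.neg
  rwa [norm_neg, sub_neg_eq_add] at this

lemma psd_smul_one {c : ℝ} (hc : 0 ≤ c) : ((c : ℂ) • (1 : CMat n)).PosSemidef := by
  apply Matrix.PosSemidef.one.smul
  exact_mod_cast hc

lemma pd_smul_one {c : ℝ} (hc : 0 < c) : ((c : ℂ) • (1 : CMat n)).PosDef := by
  apply Matrix.PosDef.one.smul
  exact_mod_cast hc

lemma psd_smul {A : CMat n} (hA : A.PosSemidef) {c : ℝ} (hc : 0 ≤ c) :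
    ((c : ℂ) • A).PosSemidef := by
  apply hA.smul
  exact_mod_cast hc

/-- if `A` Hermitian has norm `≤ c` then `A + c ≥ 0` -/
lemma psd_of_norm_le {A : CMat n} (hA : A.IsHermitian) {c : ℝ} (h : ‖A‖ ≤ c) :
    ((c : ℂ) • (1 : CMat n) + A).PosSemidef := by
  have h1 := neg_norm_le_herm hA
  have h2 : ((((c - ‖A‖ : ℝ)) : ℂ) • (1 : CMat n)).PosSemidef := psd_smul_one (by linarith)
  have := h1.add h2
  convert this using 1
  push_cast
  rw [sub_smul]
  abel

lemma psd_of_norm_le' {A : CMat n} (hA : A.IsHermitian) {c : ℝ} (h : ‖A‖ ≤ c) :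
    ((c : ℂ) • (1 : CMat n) - A).PosSemidef := by
  have := psd_of_norm_le hA.neg (c := c) (by rwa [norm_neg])
  rwa [← sub_eq_add_neg] at this

lemma rtr_nonneg {A : CMat n} (hA : A.PosSemidef) : 0 ≤ rtr A := by
  have := hA.trace_nonneg
  exact (Complex.le_def.1 this).1

lemma rtr_mul_nonneg {A B : CMat n} (hA : A.PosSemidef) (hB : B.PosSemidef) :
    0 ≤ rtr (A * B) := by
  obtain ⟨C, rfl⟩ := CStarAlgebra.nonneg_iff_eq_star_mul_self.1 (Matrix.nonneg_iff_posSemidef.2 hA)
  have h := (hB.mul_mul_conjTranspose_same C)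
  have h2 := rtr_nonneg h
  rw [star_eq_conjTranspose, Matrix.mul_assoc, rtr_comm]
  exact h2

/-- `A ≤ (tr A) 1` for `A ≥ 0` -/
lemma psd_le_trace {A : CMat n} (hA : A.PosSemidef) :
    ((rtr A : ℂ) • (1 : CMat n) - A).PosSemidef := by
  have hH := hA.1
  set U : CMat n := (hH.eigenvectorUnitary : CMat n) with hU
  have hU1 : U * Uᴴ = 1 := by
    have := (mem_unitaryGroup_iff (A := U)).1 hH.eigenvectorUnitary.2
    simpa [star_eq_conjTranspose] using this
  have hU2 : Uᴴ * U = 1 := by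
    have := (mem_unitaryGroup_iff' (A := U)).1 hH.eigenvectorUnitary.2
    simpa [star_eq_conjTranspose] using this
  have hspec : A = U * diagonal (fun i => (hH.eigenvalues i : ℂ)) * Uᴴ := by
    have := hH.spectral_theorem
    conv_lhs => rw [this]
    simp [Unitary.conjStarAlgAut_apply, star_eq_conjTranspose]
    rfl
  have htr : rtr A = ∑ i, hH.eigenvalues i := by
    have e : trace A = trace (U * diagonal (fun i => (hH.eigenvalues i : ℂ)) * Uᴴ) :=
      congrArg trace hspec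
    rw [rtr, e, Matrix.mul_assoc, trace_mul_comm, Matrix.mul_assoc, hU2, Matrix.mul_one,
      trace_diagonal]
    simp
  have h1 : ((rtr A : ℂ) • (1 : CMat n) - A) =
      U * diagonal (fun i => ((rtr A - hH.eigenvalues i : ℝ) : ℂ)) * Uᴴ := by
    have e1 : (diagonal (fun i => ((rtr A - hH.eigenvalues i : ℝ) : ℂ)) : CMat n) =
        (rtr A : ℂ) • (1 : CMat n) - diagonal (fun i => (hH.eigenvalues i : ℂ)) := by
      ext i j
      by_cases h : i = j
      · subst h; simp
      · simp [h]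
    rw [e1, Matrix.mul_sub, Matrix.sub_mul, ← hspec]
    simp [hU1]
  rw [h1]
  apply Matrix.PosSemidef.mul_mul_conjTranspose_same
  apply Matrix.PosSemidef.diagonal
  intro i
  have h2 : hH.eigenvalues i ≤ rtr A := by
    rw [htr]
    exact Finset.single_le_sum (fun j _ => hA.eigenvalues_nonneg j) (Finset.mem_univ i)
  change (0 : ℂ) ≤ ((rtr A - hH.eigenvalues i : ℝ) : ℂ)
  exact_mod_cast sub_nonneg.2 h2

lemma rtr_mul_le {A B : CMat n} {c : ℝ} (hA : A.PosSemidef)
    (hB : ((c : ℂ) • (1 : CMat n) - B).PosSemidef) : rtr (A * B) ≤ c * rtr A := by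
  have := rtr_mul_nonneg hA hB
  rw [Matrix.mul_sub, rtr_sub, Matrix.mul_smul, rtr_smul, Matrix.mul_one] at this
  linarith

lemma isClosed_psd : IsClosed {A : CMat n | A.PosSemidef} := by
  have : {A : CMat n | A.PosSemidef} = Set.Ici 0 := by
    ext A; simp [Matrix.nonneg_iff_posSemidef]
  rw [this]
  exact isClosed_Ici

lemma norm_le_of_psd_of_le {A : CMat n} {c : ℝ} (hA : A.PosSemidef)
    (h : ((c : ℂ) • (1 : CMat n) - A).PosSemidef) (hc : 0 ≤ c) : ‖A‖ ≤ c := by
  rcases Nat.eq_zero_or_pos n with hn | hn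
  · subst hn
    have : A = 0 := Subsingleton.elim _ _
    rw [this, norm_zero]; exact hc
  have h1 : ‖A‖ ≤ ‖((c : ℂ) • (1 : CMat n))‖ :=
    CStarAlgebra.norm_le_norm_of_nonneg_of_le (Matrix.nonneg_iff_posSemidef.2 hA)
      (Matrix.le_iff.2 h)
  have : Nonempty (Fin n) := ⟨⟨0, hn⟩⟩
  rw [norm_smul, CStarRing.norm_one, mul_one] at h1
  simpa [abs_of_nonneg hc] using h1

lemma isHermitian_add_smul_one {A : CMat n} (hA : A.IsHermitian) (c : ℝ) :
    (A + (c : ℂ) • (1 : CMat n)).IsHermitian := by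
  refine hA.add ?_
  rw [Matrix.IsHermitian, conjTranspose_smul, conjTranspose_one]
  simp

end P371G.LFx
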