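import Vale.Agent.P371G.RiccLocal
import Vale.Agent.P371G.Flow

/-! Module R2b: comparison for the Riccati equation on one interval.

For `u = Y₂ v` the function `q = u* (u' - f₁ u)` satisfies
`q' = |u' - f₁ u|² + u* (B₂ - B₁) u ≥ 0` and `q(0) = v* (f₂ - f₁) v ≥ 0`. -/

namespace P371G

open Matrix MeasureTheory Set Filter Topology
open scoped ComplexOrder

variable {n : ℕ}

lemma rc_dot_deriv {a b : ℝ → Fin n → ℂ} {a' b' : Fin n → ℂ} {S : Set ℝ} {s : ℝ}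
    (ha : ∀ i, HasDerivWithinAt (fun t => a t i) (a' i) S s)
    (hb : ∀ i, HasDerivWithinAt (fun t => b t i) (b' i) S s) :
    HasDerivWithinAt (fun t => star (a t) ⬝ᵥ b t) (star a' ⬝ᵥ b s + star (a s) ⬝ᵥ b') S s := by
  have h1 : HasDerivWithinAt (fun t => ∑ i, star (a t i) * b t i)
      (∑ i, (star (a' i) * b s i + star (a s i) * b' i)) S s := by
    refine HasDerivWithinAt.fun_sum fun i _ => ?_
    exact (ha i).star.mul (hb i)
  rw [Finset.sum_add_distrib] at h1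
  exact h1

lemma rc_mulVec_deriv {F : ℝ → CMat n} {F' : CMat n} {b : ℝ → Fin n → ℂ} {b' : Fin n → ℂ}
    {S : Set ℝ} {s : ℝ} (hF : ∀ i j, HasDerivWithinAt (fun t => F t i j) (F' i j) S s)
    (hb : ∀ i, HasDerivWithinAt (fun t => b t i) (b' i) S s) (i : Fin n) :
    HasDerivWithinAt (fun t => (F t *ᵥ b t) i) ((F' *ᵥ b s + F s *ᵥ b') i) S s := by
  have h1 : HasDerivWithinAt (fun t => ∑ j, F t i j * b t j)
      (∑ j, (F' i j * b s j + F s i j * b' j)) S s := by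
    refine HasDerivWithinAt.fun_sum fun j _ => ?_
    exact (hF i j).mul (hb j)
  rw [Finset.sum_add_distrib] at h1
  exact h1

lemma rc_self_re (w : Fin n → ℂ) : (star w ⬝ᵥ w).re = ∑ i, ‖w i‖ ^ 2 := by
  unfold dotProduct
  rw [Complex.re_sum]
  refine Finset.sum_congr rfl fun i _ => ?_
  rw [Pi.star_apply, Complex.star_def, ← Complex.normSq_eq_conj_mul_self,
    Complex.ofReal_re, Complex.normSq_eq_norm_sq]

lemma rc_re_comm (a b : Fin n → ℂ) : (star a ⬝ᵥ b).re = (star b ⬝ᵥ a).re := by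
  unfold dotProduct
  rw [Complex.re_sum, Complex.re_sum]
  refine Finset.sum_congr rfl fun i _ => ?_
  simp only [Pi.star_apply, Complex.star_def, Complex.mul_re, Complex.conj_re, Complex.conj_im]
  ring

lemma rc_self_nonneg (w : Fin n → ℂ) : 0 ≤ (star w ⬝ᵥ w).re := by
  rw [rc_self_re]
  exact Finset.sum_nonneg fun i _ => by positivity

lemma rc_self_pos {w : Fin n → ℂ} (hw : w ≠ 0) : 0 < (star w ⬝ᵥ w).re := by
  rw [rc_self_re]
  obtain ⟨i, hi⟩ := Function.ne_iff.mp hw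
  refine Finset.sum_pos' (fun i _ => by positivity) ⟨i, Finset.mem_univ _, ?_⟩
  have : 0 < ‖w i‖ := norm_pos_iff.mpr hi
  positivity

lemma rc_quad_bound (F : CMat n) (M : ℝ) (hF : ∀ i j, ‖F i j‖ ≤ M) (w : Fin n → ℂ) :
    |(star w ⬝ᵥ (F *ᵥ w)).re| ≤ M * n * (star w ⬝ᵥ w).re := by
  rw [rc_self_re]
  have h0 : ‖star w ⬝ᵥ (F *ᵥ w)‖ ≤ ∑ i, ∑ j, M * ((‖w i‖ ^ 2 + ‖w j‖ ^ 2) / 2) := by
    unfold dotProduct mulVec dotProduct
    refine (norm_sum_le _ _).trans (Finset.sum_le_sum fun i _ => ?_)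
    rw [norm_mul, Pi.star_apply, norm_star]
    refine (mul_le_mul_of_nonneg_left (norm_sum_le _ _) (norm_nonneg _)).trans ?_
    rw [Finset.mul_sum]
    refine Finset.sum_le_sum fun j _ => ?_
    rw [norm_mul]
    have hM := hF i j
    have hM0 : 0 ≤ M := (norm_nonneg _).trans hM
    have h1 : ‖w i‖ * (‖F i j‖ * ‖w j‖) ≤ M * (‖w i‖ * ‖w j‖) := by
      have := mul_le_mul_of_nonneg_right hM (mul_nonneg (norm_nonneg (w i)) (norm_nonneg (w j)))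
      nlinarith
    have h2 : ‖w i‖ * ‖w j‖ ≤ (‖w i‖ ^ 2 + ‖w j‖ ^ 2) / 2 := by
      nlinarith [sq_nonneg (‖w i‖ - ‖w j‖)]
    exact h1.trans (mul_le_mul_of_nonneg_left h2 hM0)
  have h1 : ∑ i : Fin n, ∑ j : Fin n, M * ((‖w i‖ ^ 2 + ‖w j‖ ^ 2) / 2) =
      M * n * ∑ i, ‖w i‖ ^ 2 := by
    have e : ∀ i : Fin n, ∑ j : Fin n, M * ((‖w i‖ ^ 2 + ‖w j‖ ^ 2) / 2) =
        M / 2 * (n * ‖w i‖ ^ 2) + M / 2 * ∑ j, ‖w j‖ ^ 2 := by
      intro i
      have e0 : ∀ j : Fin n, M * ((‖w i‖ ^ 2 + ‖w j‖ ^ 2) / 2) =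
          M / 2 * ‖w i‖ ^ 2 + M / 2 * ‖w j‖ ^ 2 := fun j => by ring
      simp only [e0]
      rw [Finset.sum_add_distrib, Finset.sum_const, Finset.card_fin, nsmul_eq_mul,
        ← Finset.mul_sum]
      ring
    simp only [e]
    rw [Finset.sum_add_distrib, Finset.sum_const, Finset.card_fin, nsmul_eq_mul, ← Finset.mul_sum,
      ← Finset.mul_sum]
    ring
  rw [h1] at h0
  exact (Complex.abs_re_le_norm _).trans h0

/-- monotonicity from one-sided derivatives on an interval -/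
lemma rc_mono {h : ℝ} {f f' : ℝ → ℝ}
    (hf : ∀ s ∈ Icc 0 h, HasDerivWithinAt f (f' s) (Icc 0 h) s)
    (hf' : ∀ s ∈ Icc 0 h, 0 ≤ f' s) {s : ℝ} (hs : s ∈ Icc 0 h) : f 0 ≤ f s := by
  have h1 : MonotoneOn f (Icc 0 h) := by
    refine monotoneOn_of_deriv_nonneg (convex_Icc 0 h)
      (fun s hs => (hf s hs).continuousWithinAt) ?_ ?_
    · intro s hs
      rw [interior_Icc] at hs ⊢
      exact ((hf s (Ioo_subset_Icc_self hs)).mono Ioo_subset_Icc_self).differentiableWithinAt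
    · intro s hs
      rw [interior_Icc] at hs
      have h2 := (hf s (Ioo_subset_Icc_self hs)).hasDerivAt (Icc_mem_nhds hs.1 hs.2)
      rw [h2.deriv]
      exact hf' s (Ioo_subset_Icc_self hs)
  exact h1 ⟨le_rfl, hs.1.trans hs.2⟩ hs hs.1

theorem riccComp (hFl : FlowStatement) : RiccCompStatement := by
  intro n h B₁ B₂ f₁ f₂ hh hB₁ hB₂ hf₁ hf₂ hB hf hu
  obtain ⟨-, -, h0, hd⟩ := hFl n
  obtain ⟨hr0, hrH, hrd⟩ := riccLocal hFl n h B₁ f₁ hh hB₁ hf₁ hu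
  -- the vector functions
  have key : ∀ v : Fin n → ℂ, ∀ s ∈ Icc 0 h,
      0 ≤ (star (Yx B₂ f₂ s *ᵥ v) ⬝ᵥ
        (Yx' B₂ f₂ s *ᵥ v - ric B₁ f₁ s *ᵥ (Yx B₂ f₂ s *ᵥ v))).re := by
    intro v s hs
    have hq : ∀ s ∈ Icc 0 h, HasDerivWithinAt
        (fun t => star (Yx B₂ f₂ t *ᵥ v) ⬝ᵥ
          (Yx' B₂ f₂ t *ᵥ v - ric B₁ f₁ t *ᵥ (Yx B₂ f₂ t *ᵥ v)))
        (star (Yx' B₂ f₂ s *ᵥ v - ric B₁ f₁ s *ᵥ (Yx B₂ f₂ s *ᵥ v)) ⬝ᵥ
          (Yx' B₂ f₂ s *ᵥ v - ric B₁ f₁ s *ᵥ (Yx B₂ f₂ s *ᵥ v)) +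
          star (Yx B₂ f₂ s *ᵥ v) ⬝ᵥ ((B₂ - B₁) *ᵥ (Yx B₂ f₂ s *ᵥ v))) (Icc 0 h) s := by
      intro s hs
      have hY : ∀ i, HasDerivWithinAt (fun t => (Yx B₂ f₂ t *ᵥ v) i)
          ((Yx' B₂ f₂ s *ᵥ v) i) (Icc 0 h) s := by
        intro i
        have h1 := rc_mulVec_deriv (b := fun _ => v) (b' := 0) (S := Icc 0 h) (s := s)
          (fun i j => (hd B₂ f₂ s i j).1.hasDerivWithinAt)
          (fun i => hasDerivWithinAt_const _ _ _) i
        simpa using h1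
      have hY' : ∀ i, HasDerivWithinAt (fun t => (Yx' B₂ f₂ t *ᵥ v) i)
          (((B₂ * Yx B₂ f₂ s) *ᵥ v) i) (Icc 0 h) s := by
        intro i
        have h1 := rc_mulVec_deriv (b := fun _ => v) (b' := 0) (S := Icc 0 h) (s := s)
          (fun i j => (hd B₂ f₂ s i j).2.hasDerivWithinAt)
          (fun i => hasDerivWithinAt_const _ _ _) i
        simpa using h1
      have hfY := rc_mulVec_deriv (hrd s hs) hY
      have h2 := rc_dot_deriv hY (fun i => (hY' i).fun_sub (hfY i))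
      refine h2.congr_deriv ?_
      have hH := hrH s hs
      generalize Yx B₂ f₂ s = Y at *
      generalize Yx' B₂ f₂ s = Y' at *
      generalize ric B₁ f₁ s = g at *
      have e1 : ∀ x y : Fin n → ℂ, star (g *ᵥ x) ⬝ᵥ y = star x ⬝ᵥ (g *ᵥ y) := by
        intro x y
        rw [star_mulVec, ← dotProduct_mulVec, hH.eq]
      have e2 : (fun i => ((B₂ * Y) *ᵥ v) i -
          ((B₁ - g * g) *ᵥ (Y *ᵥ v) + g *ᵥ (Y' *ᵥ v)) i) =
          (B₂ * Y) *ᵥ v - ((B₁ - g * g) *ᵥ (Y *ᵥ v) + g *ᵥ (Y' *ᵥ v)) := rfl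
      have e3 : (fun i => (Y' *ᵥ v) i - (g *ᵥ (Y *ᵥ v)) i) = Y' *ᵥ v - g *ᵥ (Y *ᵥ v) := rfl
      rw [e2, e3]
      rw [star_sub, sub_dotProduct, e1]
      simp only [dotProduct_sub, dotProduct_add, mulVec_sub, mulVec_mulVec, Matrix.sub_mul,
        Matrix.mul_assoc, sub_mulVec]
      ring
    have hre : ∀ s ∈ Icc 0 h, HasDerivWithinAt
        (fun t => (star (Yx B₂ f₂ t *ᵥ v) ⬝ᵥ
          (Yx' B₂ f₂ t *ᵥ v - ric B₁ f₁ t *ᵥ (Yx B₂ f₂ t *ᵥ v))).re)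
        (star (Yx' B₂ f₂ s *ᵥ v - ric B₁ f₁ s *ᵥ (Yx B₂ f₂ s *ᵥ v)) ⬝ᵥ
          (Yx' B₂ f₂ s *ᵥ v - ric B₁ f₁ s *ᵥ (Yx B₂ f₂ s *ᵥ v)) +
          star (Yx B₂ f₂ s *ᵥ v) ⬝ᵥ ((B₂ - B₁) *ᵥ (Yx B₂ f₂ s *ᵥ v))).re (Icc 0 h) s :=
      fun s hs => Complex.reCLM.hasFDerivAt.comp_hasDerivWithinAt s (hq s hs)
    have h3 := rc_mono hre (fun s _ => by
      rw [Complex.add_re]
      refine add_nonneg (rc_self_nonneg _) ?_
      exact hB.re_dotProduct_nonneg _) hs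
    refine le_trans ?_ h3
    rw [(h0 B₂ f₂).1, (h0 B₂ f₂).2, hr0, one_mulVec, ← sub_mulVec]
    exact hf.re_dotProduct_nonneg _
  -- bound for the first solution
  have hcont : ∀ i j, ContinuousOn (fun t => ric B₁ f₁ t i j) (Icc 0 h) :=
    fun i j s hs => (hrd s hs i j).continuousWithinAt
  have hM : ∃ M : ℝ, 0 ≤ M ∧ ∀ s ∈ Icc 0 h, ∀ i j, ‖ric B₁ f₁ s i j‖ ≤ M := by
    have hb : ∀ i j, ∃ C : ℝ, ∀ s ∈ Icc 0 h, ‖ric B₁ f₁ s i j‖ ≤ C := fun i j =>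
      isCompact_Icc.exists_bound_of_continuousOn (hcont i j)
    choose C hC using hb
    refine ⟨∑ i, ∑ j, |C i j|, Finset.sum_nonneg fun i _ => Finset.sum_nonneg fun j _ =>
      abs_nonneg _, fun s hs i j => ?_⟩
    refine (hC i j s hs).trans ((le_abs_self _).trans ?_)
    refine le_trans ?_ (Finset.single_le_sum (f := fun i => ∑ j, |C i j|)
      (fun i _ => Finset.sum_nonneg fun j _ => abs_nonneg _) (Finset.mem_univ i))
    exact Finset.single_le_sum (f := fun j => |C i j|) (fun j _ => abs_nonneg _)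
      (Finset.mem_univ j)
  obtain ⟨M, hM0, hM⟩ := hM
  -- invertibility
  have hinj : ∀ s ∈ Icc 0 h, ∀ v : Fin n → ℂ, v ≠ 0 → Yx B₂ f₂ s *ᵥ v ≠ 0 := by
    intro s hs v hv
    have hN : ∀ s ∈ Icc 0 h, HasDerivWithinAt
        (fun t => Real.exp (2 * (M * n) * t) *
          (star (Yx B₂ f₂ t *ᵥ v) ⬝ᵥ (Yx B₂ f₂ t *ᵥ v)).re)
        (Real.exp (2 * (M * n) * s) * (2 * (M * n)) *
          (star (Yx B₂ f₂ s *ᵥ v) ⬝ᵥ (Yx B₂ f₂ s *ᵥ v)).re +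
          Real.exp (2 * (M * n) * s) *
            (2 * (star (Yx B₂ f₂ s *ᵥ v) ⬝ᵥ (Yx' B₂ f₂ s *ᵥ v)).re)) (Icc 0 h) s := by
      intro s hs
      have hY : ∀ i, HasDerivWithinAt (fun t => (Yx B₂ f₂ t *ᵥ v) i)
          ((Yx' B₂ f₂ s *ᵥ v) i) (Icc 0 h) s := by
        intro i
        have h1 := rc_mulVec_deriv (b := fun _ => v) (b' := 0) (S := Icc 0 h) (s := s)
          (fun i j => (hd B₂ f₂ s i j).1.hasDerivWithinAt)
          (fun i => hasDerivWithinAt_const _ _ _) i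
        simpa using h1
      have h2 := Complex.reCLM.hasFDerivAt.comp_hasDerivWithinAt s (rc_dot_deriv hY hY)
      have h3 : HasDerivWithinAt (fun t : ℝ => Real.exp (2 * (M * n) * t))
          (Real.exp (2 * (M * n) * s) * (2 * (M * n))) (Icc 0 h) s := by
        have := ((hasDerivAt_id s).const_mul (2 * (M * n))).exp
        simpa using this.hasDerivWithinAt
      have h4 := h3.mul h2
      refine h4.congr_deriv ?_
      have e : (star (Yx' B₂ f₂ s *ᵥ v) ⬝ᵥ (Yx B₂ f₂ s *ᵥ v)).re =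
          (star (Yx B₂ f₂ s *ᵥ v) ⬝ᵥ (Yx' B₂ f₂ s *ᵥ v)).re := rc_re_comm _ _
      simp only [Complex.reCLM_apply, Complex.add_re, e, Function.comp]
      ring
    have h5 := rc_mono hN (fun s hs => by
      have h6 := key v s hs
      rw [dotProduct_sub, Complex.sub_re] at h6
      have h7 := rc_quad_bound (ric B₁ f₁ s) M (hM s hs) (Yx B₂ f₂ s *ᵥ v)
      have h8 := abs_le.mp h7
      have h9 := Real.exp_pos (2 * (M * n) * s)
      have h10 : 0 ≤ 2 * (M * n) * (star (Yx B₂ f₂ s *ᵥ v) ⬝ᵥ (Yx B₂ f₂ s *ᵥ v)).re +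
          2 * (star (Yx B₂ f₂ s *ᵥ v) ⬝ᵥ (Yx' B₂ f₂ s *ᵥ v)).re := by
        nlinarith [h8.1]
      have := mul_nonneg h9.le h10
      nlinarith) hs
    have h6 : 0 < (star (Yx B₂ f₂ 0 *ᵥ v) ⬝ᵥ (Yx B₂ f₂ 0 *ᵥ v)).re := by
      rw [(h0 B₂ f₂).1, one_mulVec]
      exact rc_self_pos hv
    intro hzero
    rw [hzero] at h5
    simp only [mul_zero, Real.exp_zero, one_mul, star_zero, zero_dotProduct, Complex.zero_re,
      mul_zero] at h5
    linarith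
  have hu2 : ∀ s ∈ Icc 0 h, IsUnit (Yx B₂ f₂ s) := by
    intro s hs
    rw [Matrix.isUnit_iff_isUnit_det, isUnit_iff_ne_zero]
    intro hdet
    obtain ⟨v, hv, hv0⟩ := Matrix.exists_mulVec_eq_zero_iff.mpr hdet
    exact hinj s hs v hv hv0
  refine ⟨hu2, fun s hs => ?_⟩
  obtain ⟨-, hrH2, -⟩ := riccLocal hFl n h B₂ f₂ hh hB₂ hf₂ hu2
  have hH : (ric B₂ f₂ s - ric B₁ f₁ s).IsHermitian := (hrH2 s hs).sub (hrH s hs)
  refine Matrix.PosSemidef.of_dotProduct_mulVec_nonneg hH fun w => ?_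
  have h1 := key ((Yx B₂ f₂ s)⁻¹ *ᵥ w) s hs
  have hdet : IsUnit (Yx B₂ f₂ s).det := (Matrix.isUnit_iff_isUnit_det _).mp (hu2 s hs)
  have e1 : Yx B₂ f₂ s *ᵥ ((Yx B₂ f₂ s)⁻¹ *ᵥ w) = w := by
    rw [mulVec_mulVec, Matrix.mul_nonsing_inv _ hdet, one_mulVec]
  have e2 : Yx' B₂ f₂ s *ᵥ ((Yx B₂ f₂ s)⁻¹ *ᵥ w) = ric B₂ f₂ s *ᵥ w := by
    rw [mulVec_mulVec]
    rfl
  rw [e1, e2, ← sub_mulVec] at h1
  rw [Complex.nonneg_iff]
  refine ⟨h1, ?_⟩
  exact (hH.im_star_dotProduct_mulVec_self w).symm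

/-- **Module R2b** without hypotheses. -/
theorem riccComp' : RiccCompStatement := riccComp flow

end P371G
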