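import Vale.Agent.P371G.Defs
import Vale.Agent.P371.MatMoments
import Vale.Agent.P371.LT

/-! Module TEST: the test inequality, by integration by parts. -/

namespace P371G

open Matrix MeasureTheory Set Filter Topology
open scoped ComplexOrder
open P371 (IsPrim IsPrimC IsPrimM)

variable {n m : ℕ}

lemma IsH1Mat.primM {χ χ' : ℝ → Matrix (Fin n) (Fin m) ℂ} (h : IsH1Mat χ χ') : IsPrimM χ χ' :=
  fun i j => ⟨(P371.IsH1.re (h i j)).2.2, (P371.IsH1.im (h i j)).2.2⟩

lemma test_prim_const (K : CMat n) : IsPrimM (fun _ => K) (fun _ => 0) := fun i j => by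
  constructor
  · simpa using IsPrim.const (K i j).re
  · simpa using IsPrim.const (K i j).im

lemma test_quad_prim {χ χ' : ℝ → Matrix (Fin n) (Fin m) ℂ} {g g' : ℝ → CMat n}
    (hχ : IsPrimM χ χ') (hg : IsPrimM g g') :
    IsPrim (fun x => (trace ((χ x)ᴴ * (g x * χ x))).re)
      (fun x => (trace ((χ' x)ᴴ * (g x * χ x) + (χ x)ᴴ * (g' x * χ x + g x * χ' x))).re) :=
  (hχ.conjT.mul (hg.mul hχ)).trace_re

lemma test_trace_form (A : CMat n) (X : Matrix (Fin n) (Fin m) ℂ) :
    (trace (Xᴴ * (A * X))).re = rtr (A * (X * Xᴴ)) := by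
  rw [rtr, trace_mul_comm, Matrix.mul_assoc]

/-- completing the square -/
lemma test_square (g : CMat n) (hg : g.IsHermitian) (X Y : Matrix (Fin n) (Fin m) ℂ) :
    (trace (Yᴴ * (g * X))).re + (trace (Xᴴ * (g * Y))).re ≤
      rtr (Y * Yᴴ) + rtr (g * g * (X * Xᴴ)) := by
  have h := (posSemidef_conjTranspose_mul_self (Y - g * X)).trace_nonneg
  have h1 := (Complex.le_def.mp h).1
  have e : (Y - g * X)ᴴ * (Y - g * X) = Yᴴ * Y - Yᴴ * (g * X) - Xᴴ * (g * Y)
      + Xᴴ * (g * g * X) := by
    rw [conjTranspose_sub, conjTranspose_mul, hg.eq, Matrix.sub_mul, Matrix.mul_sub,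
      Matrix.mul_sub]
    simp only [Matrix.mul_assoc]
    abel
  rw [e, trace_add, trace_sub, trace_sub, Complex.add_re, Complex.sub_re, Complex.sub_re,
    Complex.zero_re, test_trace_form] at h1
  have e2 : (trace (Yᴴ * Y)).re = rtr (Y * Yᴴ) := by rw [rtr, trace_mul_comm]
  rw [e2] at h1
  linarith

lemma test_integrable {χ : ℝ → Matrix (Fin n) (Fin m) ℂ}
    (h : ∀ i j, MemLp (fun x => χ x i j) 2 volume) (A : CMat n) :
    Integrable (fun x => rtr (A * (χ x * (χ x)ᴴ))) volume := by
  have h1 : Integrable (fun x => trace (A * (χ x * (χ x)ᴴ))) volume := by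
    simp only [trace, diag_apply, Matrix.mul_apply, Matrix.conjTranspose_apply]
    refine integrable_finsetSum _ fun a _ => integrable_finsetSum _ fun b _ => ?_
    refine Integrable.const_mul ?_ _
    refine integrable_finsetSum _ fun c _ => ?_
    exact (h b c).integrable_mul (h a c).star
  exact h1.re

lemma test_integrable' {χ : ℝ → Matrix (Fin n) (Fin m) ℂ}
    (h : ∀ i j, MemLp (fun x => χ x i j) 2 volume) :
    Integrable (fun x => rtr (χ x * (χ x)ᴴ)) volume := by
  have := test_integrable h (1 : CMat n)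
  simpa only [Matrix.one_mul] using this

/-- constant coefficient estimate -/
lemma test_const {χ χ' : ℝ → Matrix (Fin n) (Fin m) ℂ} (h : IsH1Mat χ χ') (K : CMat n)
    (hK : K.IsHermitian) {x y : ℝ} (hxy : x ≤ y) :
    rtr (K * (χ y * (χ y)ᴴ)) - rtr (K * (χ x * (χ x)ᴴ)) ≤
      ∫ t in x..y, (rtr (χ' t * (χ' t)ᴴ) + rtr (K * K * (χ t * (χ t)ᴴ))) := by
  have hp := test_quad_prim h.primM (test_prim_const K)
  have h1 := hp.2 x y
  simp only [test_trace_form] at h1
  rw [h1]
  apply intervalIntegral.integral_mono_on hxy (hp.1 x y)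
  · exact ((test_integrable' fun i j => (h i j).2.1).add
      (test_integrable (fun i j => (h i j).1) (K * K))).intervalIntegrable
  · intro t _
    simp only [Matrix.zero_mul, zero_add, trace_add, Complex.add_re]
    exact test_square K hK (χ t) (χ' t)

/-- one cell of the Riccati path -/
lemma test_cell {χ χ' : ℝ → Matrix (Fin n) (Fin m) ℂ} (h : IsH1Mat χ χ') (K W : CMat n)
    (f : ℝ → CMat n) {c d : ℝ} (hcd : c ≤ d) (hf : ∀ x ∈ Icc c d, (f x).IsHermitian)
    (hd : ∀ x ∈ Icc c d, ∀ α β, HasDerivWithinAt (fun y => f y α β)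
      ((K * K - f x * f x - W) α β) (Icc c d) x) :
    rtr (f d * (χ d * (χ d)ᴴ)) - rtr (f c * (χ c * (χ c)ᴴ)) +
        ∫ t in c..d, rtr (W * (χ t * (χ t)ᴴ)) ≤
      ∫ t in c..d, (rtr (χ' t * (χ' t)ᴴ) + rtr (K * K * (χ t * (χ t)ᴴ))) := by
  -- the extended derivative
  set p : ℝ → ℝ := fun t => (projIcc c d hcd t : ℝ) with hp
  have hpc : Continuous p := continuous_subtype_val.comp continuous_projIcc
  have hpm : ∀ t, p t ∈ Icc c d := fun t => (projIcc c d hcd t).2
  have hpe : ∀ t ∈ Icc c d, p t = t := fun t ht => by rw [hp]; simp [projIcc_of_mem hcd ht]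
  have hfc : ∀ α β, ContinuousOn (fun x => f x α β) (Icc c d) := fun α β x hx =>
    (hd x hx α β).continuousWithinAt
  have hfp : ∀ α β, Continuous fun t => f (p t) α β := fun α β =>
    (hfc α β).comp_continuous hpc hpm
  set φ : ℝ → CMat n := fun t => K * K - f (p t) * f (p t) - W with hφ
  have hφc : ∀ α β, Continuous fun t => φ t α β := by
    intro α β
    have hfm : Continuous fun t => f (p t) := continuous_matrix fun i j => hfp i j
    have h2 : Continuous φ := ((continuous_const.sub (hfm.matrix_mul hfm)).sub continuous_const)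
    exact (continuous_apply_apply α β).comp h2
  set g : ℝ → CMat n := fun x => Matrix.of fun α β => f c α β + ∫ t in c..x, φ t α β with hg
  have hgf : ∀ x ∈ Icc c d, g x = f x := by
    intro x hx
    ext α β
    simp only [hg, Matrix.of_apply]
    have h2 : ∫ t in c..x, φ t α β = f x α β - f c α β := by
      apply intervalIntegral.integral_eq_sub_of_hasDerivAt_of_le hx.1
      · exact (hfc α β).mono (Icc_subset_Icc le_rfl hx.2)
      · intro t ht
        have ht' : t ∈ Icc c d := ⟨ht.1.le, ht.2.le.trans hx.2⟩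
        have h3 := (hd t ht' α β).hasDerivAt (Icc_mem_nhds ht.1 (ht.2.trans_le hx.2))
        have e : (K * K - f t * f t - W) α β = φ t α β := by rw [hφ]; simp only [hpe t ht']
        rw [← e]; exact h3
      · exact (hφc α β).intervalIntegrable _ _
    rw [h2]; ring
  have hgp : IsPrimM g φ := by
    intro α β
    have hsub : ∀ a b : ℝ, g b α β - g a α β = ∫ t in a..b, φ t α β := by
      intro a b
      simp only [hg, Matrix.of_apply]
      rw [← intervalIntegral.integral_interval_sub_left ((hφc α β).intervalIntegrable c b)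
        ((hφc α β).intervalIntegrable c a)]
      ring
    constructor
    · refine ⟨fun a b => (Complex.continuous_re.comp (hφc α β)).intervalIntegrable _ _,
        fun a b => ?_⟩
      have h2 := congrArg Complex.re (hsub a b)
      rw [Complex.sub_re] at h2
      rw [h2]
      exact (Complex.reCLM.intervalIntegral_comp_comm ((hφc α β).intervalIntegrable a b)).symm
    · refine ⟨fun a b => (Complex.continuous_im.comp (hφc α β)).intervalIntegrable _ _,
        fun a b => ?_⟩
      have h2 := congrArg Complex.im (hsub a b)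
      rw [Complex.sub_im] at h2
      rw [h2]
      exact (Complex.imCLM.intervalIntegral_comp_comm ((hφc α β).intervalIntegrable a b)).symm
  have hpr := test_quad_prim h.primM hgp
  have h1 := hpr.2 c d
  simp only at h1
  rw [test_trace_form, test_trace_form, hgf c (left_mem_Icc.mpr hcd),
    hgf d (right_mem_Icc.mpr hcd)] at h1
  rw [h1, ← intervalIntegral.integral_add (hpr.1 c d)
    (test_integrable (fun i j => (h i j).1) W).intervalIntegrable]
  apply intervalIntegral.integral_mono_on hcd
  · exact (hpr.1 c d).add (test_integrable (fun i j => (h i j).1) W).intervalIntegrable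
  · exact ((test_integrable' fun i j => (h i j).2.1).add
      (test_integrable (fun i j => (h i j).1) (K * K))).intervalIntegrable
  · intro t ht
    have hs := test_square (f t) (hf t ht) (χ t) (χ' t)
    have e : φ t = K * K - f t * f t - W := by rw [hφ]; simp only [hpe t ht]
    rw [hgf t ht, e]
    have e2 : (χ t)ᴴ * ((K * K - f t * f t - W) * χ t + f t * χ' t)
        = (χ t)ᴴ * (K * K * χ t) - (χ t)ᴴ * (f t * f t * χ t) - (χ t)ᴴ * (W * χ t)
          + (χ t)ᴴ * (f t * χ' t) := by
      simp only [Matrix.sub_mul, Matrix.mul_add, Matrix.mul_sub]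
    rw [e2]
    simp only [trace_add, trace_sub, Complex.add_re, Complex.sub_re, test_trace_form]
    linarith

/-- an integrable nonnegative function is small somewhere far away -/
lemma test_small {F : ℝ → ℝ} (hF : Integrable F volume) (X ε : ℝ) (hε : 0 < ε) :
    (∃ y, X ≤ y ∧ F y < ε) ∧ ∃ x, x ≤ X ∧ F x < ε := by
  constructor
  · by_contra hcon
    push Not at hcon
    have h1 : IntegrableOn F (Ici X) volume := hF.integrableOn
    have h2 : IntegrableOn (fun _ : ℝ => ε) (Ici X) volume := by
      refine Integrable.mono' h1 (by fun_prop) ?_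
      filter_upwards [ae_restrict_mem measurableSet_Ici] with y hy
      rw [Real.norm_of_nonneg hε.le]
      exact hcon y hy
    rw [integrableOn_const_iff] at h2
    rcases h2 with h3 | h3
    · exact hε.ne' (enorm_eq_zero.mp h3)
    · simp at h3
  · by_contra hcon
    push Not at hcon
    have h1 : IntegrableOn F (Iic X) volume := hF.integrableOn
    have h2 : IntegrableOn (fun _ : ℝ => ε) (Iic X) volume := by
      refine Integrable.mono' h1 (by fun_prop) ?_
      filter_upwards [ae_restrict_mem measurableSet_Iic] with y hy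
      rw [Real.norm_of_nonneg hε.le]
      exact hcon y hy
    rw [integrableOn_const_iff] at h2
    rcases h2 with h3 | h3
    · exact hε.ne' (enorm_eq_zero.mp h3)
    · simp at h3

theorem test : TestStatement := by
  intro n m a h J hh K W f hK hW hR χ χ' hχ
  obtain ⟨hR1, hRa, hRb, hRd⟩ := hR
  set D : ℝ → ℝ := fun t => rtr (χ' t * (χ' t)ᴴ) + rtr (K * K * (χ t * (χ t)ᴴ)) with hD
  have hI1 := test_integrable' (χ := χ') fun i j => (hχ i j).2.1
  have hI2 := test_integrable (fun i j => (hχ i j).1) (K * K)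
  have hI3 := test_integrable (fun i j => (hχ i j).1) K
  have hDI : Integrable D volume := hI1.add hI2
  have hDint : ∀ a b : ℝ, IntervalIntegrable D volume a b := fun a b => hDI.intervalIntegrable
  -- sum over the cells
  have hcells : ∀ i ≤ J, rtr (f (a + i * h) * (χ (a + i * h) * (χ (a + i * h))ᴴ))
      - rtr (f a * (χ a * (χ a)ᴴ))
      + ∑ j ∈ Finset.range i, ∫ x in (a + j * h)..(a + (j + 1) * h), rtr (W j * (χ x * (χ x)ᴴ))
      ≤ ∫ t in a..(a + i * h), D t := by
    intro i
    induction i with
    | zero => intro _; simp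
    | succ i ih =>
      intro hi
      have h1 := ih (by omega)
      have hle : a + (i : ℝ) * h ≤ a + ((i : ℝ) + 1) * h := by nlinarith
      have h2 := test_cell hχ K (W i) f hle (fun x hx => by
        refine (hR1 x ⟨?_, ?_⟩).1
        · have : 0 ≤ (i : ℝ) * h := by positivity
          linarith [hx.1]
        · have h3 : (i : ℝ) + 1 ≤ (J : ℝ) := by exact_mod_cast hi
          have h4 : ((i : ℝ) + 1) * h ≤ (J : ℝ) * h := mul_le_mul_of_nonneg_right h3 hh.le
          linarith [hx.2]) (hRd i (by omega))
      rw [Finset.sum_range_succ]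
      have h3 := intervalIntegral.integral_add_adjacent_intervals
        (hDint a (a + (i : ℝ) * h)) (hDint (a + (i : ℝ) * h) (a + ((i : ℝ) + 1) * h))
      push_cast
      rw [← h3]
      linarith
  have h1 := hcells J le_rfl
  rw [hRb, hRa] at h1
  set b := a + (J : ℝ) * h with hb
  have hab : a ≤ b := by
    have : 0 ≤ (J : ℝ) * h := by positivity
    linarith
  have hneg : rtr (-K * (χ b * (χ b)ᴴ)) = - rtr (K * (χ b * (χ b)ᴴ)) := by
    rw [rtr, rtr, Matrix.neg_mul, trace_neg, Complex.neg_re]
  rw [hneg] at h1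
  have hD0 : ∀ t, 0 ≤ D t := by
    intro t
    have e1 : 0 ≤ rtr (χ' t * (χ' t)ᴴ) :=
      (Complex.le_def.mp (posSemidef_self_mul_conjTranspose (χ' t)).trace_nonneg).1
    have e2 : 0 ≤ rtr (K * K * (χ t * (χ t)ᴴ)) := by
      have e3 : rtr (K * K * (χ t * (χ t)ᴴ)) = rtr ((K * χ t) * (K * χ t)ᴴ) := by
        rw [rtr, rtr, conjTranspose_mul, hK.1.eq]
        have : K * K * (χ t * (χ t)ᴴ) = K * (K * χ t * (χ t)ᴴ) := by
          simp only [Matrix.mul_assoc]
        rw [this, trace_mul_comm]
        simp only [Matrix.mul_assoc]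
      rw [e3]
      exact (Complex.le_def.mp (posSemidef_self_mul_conjTranspose (K * χ t)).trace_nonneg).1
    exact add_nonneg e1 e2
  have key : ∀ ε > 0, ∑ j ∈ Finset.range J,
      ∫ x in (a + j * h)..(a + (j + 1) * h), rtr (W j * (χ x * (χ x)ᴴ)) ≤ (∫ t, D t) + 2 * ε := by
    intro ε hε
    obtain ⟨y, hy, hyε⟩ := (test_small hI3 b ε hε).1
    obtain ⟨x, hx, hxε⟩ := (test_small hI3 a ε hε).2
    have h2 := test_const hχ K hK.1 hx
    have h3 := test_const hχ (-K) hK.1.neg hy
    have e1 : ∀ z, rtr (-K * (χ z * (χ z)ᴴ)) = - rtr (K * (χ z * (χ z)ᴴ)) := by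
      intro z
      rw [rtr, rtr, Matrix.neg_mul, trace_neg, Complex.neg_re]
    rw [e1, e1, neg_mul_neg] at h3
    have h4 : (∫ t in x..a, D t) + (∫ t in a..b, D t) + (∫ t in b..y, D t) ≤ ∫ t, D t := by
      rw [intervalIntegral.integral_add_adjacent_intervals (hDint x a) (hDint a b),
        intervalIntegral.integral_add_adjacent_intervals (hDint x b) (hDint b y),
        intervalIntegral.integral_of_le (by linarith)]
      exact setIntegral_le_integral hDI (ae_of_all _ hD0)
    change _ ≤ ∫ t in x..a, D t at h2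
    change _ ≤ ∫ t in b..y, D t at h3
    linarith
  have hfin : ∑ j ∈ Finset.range J,
      ∫ x in (a + j * h)..(a + (j + 1) * h), rtr (W j * (χ x * (χ x)ᴴ)) ≤ ∫ t, D t := by
    refine le_of_forall_pos_le_add fun ε hε => ?_
    have := key (ε / 2) (by positivity)
    linarith
  refine hfin.trans (le_of_eq ?_)
  exact integral_add hI1 hI2

end P371G
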